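import Crest.Agent.Lib.Thorp.Defs

/-!
# Thorp shuffle (S0222): generalized Hölder and the level Finner inequality (#850, Section 3).

Everything is about uniform averages on a finite type; `avgOn A f x` re-samples the coordinates
in `A` of the point `x`.  The main result is `finner`.
-/

set_option autoImplicit false

namespace Crest.Agent.Thorp

open Finset BigOperators

section AvgBasics
variable {α : Type*} [Fintype α]

theorem avg_nonneg {f : α → ℝ} (hf : ∀ a, 0 ≤ f a) : 0 ≤ avg f :=
  div_nonneg (Finset.sum_nonneg fun a _ => hf a) (Nat.cast_nonneg _)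

theorem avg_mono {f g : α → ℝ} (h : ∀ a, f a ≤ g a) : avg f ≤ avg g :=
  div_le_div_of_nonneg_right (Finset.sum_le_sum fun a _ => h a) (Nat.cast_nonneg _)

theorem avg_const [Nonempty α] (c : ℝ) : avg (fun _ : α => c) = c := by
  unfold avg
  have : (Fintype.card α : ℝ) ≠ 0 := by exact_mod_cast Fintype.card_ne_zero
  simp [Finset.card_univ]

theorem avg_add (f g : α → ℝ) : avg (fun a => f a + g a) = avg f + avg g := by
  unfold avg; rw [Finset.sum_add_distrib, add_div]

theorem avg_const_mul (c : ℝ) (f : α → ℝ) : avg (fun a => c * f a) = c * avg f := by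
  unfold avg; rw [← Finset.mul_sum, mul_div_assoc]

theorem avg_mul_const (c : ℝ) (f : α → ℝ) : avg (fun a => f a * c) = avg f * c := by
  unfold avg; rw [← Finset.sum_mul]; ring

theorem avg_sum {κ : Type*} (s : Finset κ) (f : κ → α → ℝ) :
    avg (fun a => ∑ l ∈ s, f l a) = ∑ l ∈ s, avg (f l) := by
  unfold avg; rw [← Finset.sum_div]; congr 1; rw [Finset.sum_comm]

theorem avg_eq_zero_iff_of_nonneg [Nonempty α] {f : α → ℝ} (hf : ∀ a, 0 ≤ f a) :
    avg f = 0 ↔ ∀ a, f a = 0 := by
  unfold avg
  have hc : (Fintype.card α : ℝ) ≠ 0 := by exact_mod_cast Fintype.card_ne_zero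
  rw [div_eq_zero_iff, or_iff_left hc, Finset.sum_eq_zero_iff_of_nonneg (fun a _ => hf a)]
  simp

end AvgBasics

section Holder
variable {α κ : Type*} [Fintype α] [Nonempty α]

/-- Weighted AM-GM with a slack weight. -/
theorem amgm_slack (s : Finset κ) (w z : κ → ℝ) (hw : ∀ l ∈ s, 0 ≤ w l) (hz : ∀ l ∈ s, 0 ≤ z l)
    (hs : ∑ l ∈ s, w l ≤ 1) :
    ∏ l ∈ s, z l ^ w l ≤ ∑ l ∈ s, w l * z l + (1 - ∑ l ∈ s, w l) := by
  classical
  have := Real.geom_mean_le_arith_mean_weighted (s.insertNone)
    (fun o => o.elim (1 - ∑ l ∈ s, w l) w) (fun o => o.elim 1 z) (by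
      intro o ho
      cases o with
      | none => simpa using hs
      | some l => exact hw l (by simpa using ho)) (by
      rw [Finset.sum_insertNone]; simp) (by
      intro o ho
      cases o with
      | none => simp
      | some l => exact hz l (by simpa using ho))
  rw [Finset.prod_insertNone, Finset.sum_insertNone] at this
  simp only [Option.elim, Real.one_rpow, one_mul, mul_one] at this
  linarith

/-- Generalized Hölder for uniform averages, with exponents `∑ 1/P ≤ 1`. -/
theorem holder_avg (s : Finset κ) (f : κ → α → ℝ) (P : κ → ℝ)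
    (hf : ∀ l ∈ s, ∀ a, 0 ≤ f l a) (hP : ∀ l ∈ s, 0 < P l) (hs : ∑ l ∈ s, 1 / P l ≤ 1) :
    avg (fun a => ∏ l ∈ s, f l a) ≤ ∏ l ∈ s, (avg fun a => f l a ^ P l) ^ (1 / P l) := by
  classical
  have hAnn : ∀ l ∈ s, 0 ≤ avg fun a => f l a ^ P l := fun l hl =>
    avg_nonneg fun a => Real.rpow_nonneg (hf l hl a) _
  by_cases hzero : ∃ l ∈ s, (avg fun a => f l a ^ P l) = 0
  · obtain ⟨l, hl, h0⟩ := hzero
    have hfl : ∀ a, f l a = 0 := by
      intro a
      have := (avg_eq_zero_iff_of_nonneg (fun a => Real.rpow_nonneg (hf l hl a) _)).1 h0 a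
      exact (Real.rpow_eq_zero (hf l hl a) (hP l hl).ne').1 this
    have hL : (fun a => ∏ l ∈ s, f l a) = fun _ => 0 := by
      funext a; exact Finset.prod_eq_zero hl (hfl a)
    rw [hL, avg_const]
    exact Finset.prod_nonneg fun l hl => Real.rpow_nonneg (hAnn l hl) _
  · push Not at hzero
    have hApos : ∀ l ∈ s, 0 < avg fun a => f l a ^ P l := fun l hl =>
      lt_of_le_of_ne (hAnn l hl) (Ne.symm (hzero l hl))
    set A : κ → ℝ := fun l => avg fun a => f l a ^ P l with hA
    have hwpos : ∀ l ∈ s, 0 ≤ 1 / P l := fun l hl => (div_pos one_pos (hP l hl)).le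
    have hpt : ∀ a, ∏ l ∈ s, f l a ≤ (∏ l ∈ s, A l ^ (1 / P l)) *
        (∑ l ∈ s, (1 / P l) * (f l a ^ P l / A l) + (1 - ∑ l ∈ s, 1 / P l)) := by
      intro a
      have h1 := amgm_slack s (fun l => 1 / P l) (fun l => f l a ^ P l / A l) hwpos
        (fun l hl => div_nonneg (Real.rpow_nonneg (hf l hl a) _) (hApos l hl).le) hs
      have h2 : ∏ l ∈ s, f l a =
          (∏ l ∈ s, A l ^ (1 / P l)) * ∏ l ∈ s, (f l a ^ P l / A l) ^ (1 / P l) := by
        rw [← Finset.prod_mul_distrib]
        refine Finset.prod_congr rfl fun l hl => ?_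
        rw [← Real.mul_rpow (hApos l hl).le
          (div_nonneg (Real.rpow_nonneg (hf l hl a) _) (hApos l hl).le)]
        rw [mul_div_cancel₀ _ (hApos l hl).ne', ← Real.rpow_mul (hf l hl a),
          mul_one_div_cancel (hP l hl).ne', Real.rpow_one]
      rw [h2]
      exact mul_le_mul_of_nonneg_left h1
        (Finset.prod_nonneg fun l hl => Real.rpow_nonneg (hApos l hl).le _)
    refine (avg_mono hpt).trans ?_
    rw [avg_const_mul]
    have h3 : avg (fun a => ∑ l ∈ s, (1 / P l) * (f l a ^ P l / A l) + (1 - ∑ l ∈ s, 1 / P l))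
        = 1 := by
      rw [avg_add, avg_const, avg_sum]
      have : ∀ l ∈ s, avg (fun a => (1 / P l) * (f l a ^ P l / A l)) = 1 / P l := by
        intro l hl
        rw [avg_const_mul]
        have h4 : avg (fun a => f l a ^ P l / A l) = 1 := by
          have : (fun a => f l a ^ P l / A l) = fun a => f l a ^ P l * (A l)⁻¹ := by
            funext a; rw [div_eq_mul_inv]
          rw [this, avg_mul_const]
          exact mul_inv_cancel₀ (hApos l hl).ne'
        rw [h4, mul_one]
      rw [Finset.sum_congr rfl this]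
      ring
    rw [h3, mul_one]

end Holder

section AvgOn
variable {ι : Type*} [Fintype ι] [DecidableEq ι]

/-- Overwrite the coordinates of `x` in `A` with those of `y`. -/
def mix (A : Finset ι) (y x : ι → Bool) : ι → Bool := fun i => if i ∈ A then y i else x i

/-- Average over the coordinates in `A`, the others being fixed. -/
noncomputable def avgOn (A : Finset ι) (f : (ι → Bool) → ℝ) (x : ι → Bool) : ℝ :=
  avg fun y : ι → Bool => f (mix A y x)

theorem mix_mix_swap (A : Finset ι) (y x : ι → Bool) : mix A (mix A y x) (mix A x y) = y := by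
  funext i; unfold mix; by_cases h : i ∈ A <;> simp [h]

/-- The swap of the coordinates in `A`. -/
def swapEquiv (A : Finset ι) : (ι → Bool) × (ι → Bool) ≃ (ι → Bool) × (ι → Bool) where
  toFun p := (mix A p.1 p.2, mix A p.2 p.1)
  invFun p := (mix A p.1 p.2, mix A p.2 p.1)
  left_inv p := by
    ext1
    · exact mix_mix_swap A p.1 p.2
    · exact mix_mix_swap A p.2 p.1
  right_inv p := by
    ext1
    · exact mix_mix_swap A p.1 p.2
    · exact mix_mix_swap A p.2 p.1

/-- Averaging a partial average gives the average. -/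
theorem avg_avgOn (A : Finset ι) (f : (ι → Bool) → ℝ) : avg (avgOn A f) = avg f := by
  unfold avg avgOn avg
  have hc : ((Fintype.card (ι → Bool) : ℕ) : ℝ) ≠ 0 := by exact_mod_cast Fintype.card_ne_zero
  rw [← Finset.sum_div]
  congr 1
  have h1 : ∑ x : ι → Bool, ∑ y : ι → Bool, f (mix A y x) =
      ∑ p : (ι → Bool) × (ι → Bool), f (mix A p.1 p.2) := by
    rw [Fintype.sum_prod_type_right]
  have h2 : ∑ p : (ι → Bool) × (ι → Bool), f (mix A p.1 p.2) =
      ∑ p : (ι → Bool) × (ι → Bool), f p.1 :=
    Fintype.sum_equiv (swapEquiv A) _ _ fun p => rfl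
  have h3 : ∑ p : (ι → Bool) × (ι → Bool), f p.1 =
      (Fintype.card (ι → Bool) : ℝ) * ∑ x : ι → Bool, f x := by
    rw [Fintype.sum_prod_type]
    simp [Finset.card_univ, Finset.mul_sum]
  rw [h1, h2, h3]
  field_simp

theorem avgOn_nonneg (A : Finset ι) {f : (ι → Bool) → ℝ} (hf : ∀ x, 0 ≤ f x) (x : ι → Bool) :
    0 ≤ avgOn A f x := avg_nonneg fun _ => hf _

theorem avgOn_const (A : Finset ι) (c : ℝ) (x : ι → Bool) : avgOn A (fun _ => c) x = c :=
  avg_const c

/-- If `f` does not look at the coordinates in `A`, averaging over them does nothing. -/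
theorem avgOn_of_indep (A : Finset ι) (f : (ι → Bool) → ℝ)
    (hf : ∀ x y : ι → Bool, (∀ i, i ∉ A → x i = y i) → f x = f y) (x : ι → Bool) :
    avgOn A f x = f x := by
  unfold avgOn
  have : (fun y : ι → Bool => f (mix A y x)) = fun _ => f x := by
    funext y
    exact hf _ _ fun i hi => by simp [mix, hi]
  rw [this, avg_const]

/-- Tower property for `B ⊆ A`. -/
theorem avgOn_avgOn_of_subset {A B : Finset ι} (h : B ⊆ A) (g : (ι → Bool) → ℝ) (x : ι → Bool) :
    avgOn A (avgOn B g) x = avgOn A g x := by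
  have h1 : avgOn A (avgOn B g) x = avg (avgOn B fun y => g (mix A y x)) := by
    unfold avgOn
    congr 1
    funext y
    congr 1
    funext z
    congr 1
    funext i
    unfold mix
    by_cases hB : i ∈ B
    · simp [hB, h hB]
    · simp [hB]
  rw [h1, avg_avgOn]
  rfl

/-- `avgOn` does not look at the coordinates it averages, nor at those `f` ignores. -/
theorem avgOn_congr (A : Finset ι) (f : (ι → Bool) → ℝ) (x x' : ι → Bool) (C : ι → Prop)
    (hf : ∀ z z' : ι → Bool, (∀ i, C i → z i = z' i) → f z = f z')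
    (hxx : ∀ i, C i → i ∉ A → x i = x' i) : avgOn A f x = avgOn A f x' := by
  unfold avgOn
  congr 1
  funext y
  refine hf _ _ fun i hi => ?_
  unfold mix
  by_cases hA : i ∈ A
  · simp [hA]
  · simp [hA, hxx i hi hA]

/-- Level Finner inequality.  `Φ l` depends only on coordinates of level `< u l`; its near levels
are `N l ≤ h < u l`; the budget says `∑_{l : h near l} 1 / P l ≤ 1`; the hypothesis is the bound
of the `L^{P l}` norm in the near coordinates.  Induction from the top level down. -/
theorem finner {κ : Type*} (lev : ι → ℕ) (s : Finset κ) (P C : κ → ℝ) (t : ℕ) :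
    ∀ (Φ : κ → (ι → Bool) → ℝ) (N u : κ → ℕ),
    (∀ l ∈ s, ∀ x, 0 ≤ Φ l x) → (∀ l ∈ s, 0 < P l) → (∀ l ∈ s, 0 ≤ C l) →
    (∀ l ∈ s, ∀ x y : ι → Bool, (∀ i, lev i < min (u l) t → x i = y i) → Φ l x = Φ l y) →
    (∀ h, ∑ l ∈ s with (N l ≤ h ∧ h < u l), 1 / P l ≤ 1) →
    (∀ l ∈ s, ∀ x, avgOn (Finset.univ.filter fun i => N l ≤ lev i) (fun z => Φ l z ^ P l) x
        ≤ C l ^ P l) →
    avg (fun x => ∏ l ∈ s, Φ l x) ≤ ∏ l ∈ s, C l := by
  classical
  induction t with
  | zero =>
    intro Φ N u hΦ hP hC hdep _ hbd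
    have hle : ∀ x, ∏ l ∈ s, Φ l x ≤ ∏ l ∈ s, C l := by
      intro x
      refine Finset.prod_le_prod (fun l hl => hΦ l hl x) fun l hl => ?_
      have h1 := hbd l hl x
      rw [avgOn_of_indep _ _ (fun z z' _ => by
        rw [hdep l hl z z' (fun i hi => absurd hi (by simp))])] at h1
      exact (Real.rpow_le_rpow_iff (hΦ l hl x) (hC l hl) (hP l hl)).1 h1
    calc avg (fun x => ∏ l ∈ s, Φ l x) ≤ avg (fun _ : ι → Bool => ∏ l ∈ s, C l) := avg_mono hle
      _ = _ := avg_const _
  | succ t ih =>
    intro Φ N u hΦ hP hC hdep hbud hbd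
    set A : Finset ι := Finset.univ.filter fun i => lev i = t with hAdef
    -- the new family
    let Φ' : κ → (ι → Bool) → ℝ := fun l x =>
      if t < u l then
        (if N l ≤ t then (avgOn A (fun z => Φ l z ^ P l) x) ^ (1 / P l) else C l)
      else Φ l x
    have hΦ' : ∀ l ∈ s, ∀ x, 0 ≤ Φ' l x := by
      intro l hl x
      simp only [Φ']
      split_ifs
      · exact Real.rpow_nonneg (avgOn_nonneg _ (fun z => Real.rpow_nonneg (hΦ l hl z) _) _) _
      · exact hC l hl
      · exact hΦ l hl x
    have hdep' : ∀ l ∈ s, ∀ x y : ι → Bool,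
        (∀ i, lev i < min (min (u l) t) t → x i = y i) → Φ' l x = Φ' l y := by
      intro l hl x y hxy
      simp only [Φ']
      by_cases h1 : t < u l
      · rw [if_pos h1, if_pos h1]
        by_cases h2 : N l ≤ t
        · rw [if_pos h2, if_pos h2]
          congr 1
          refine avgOn_congr A _ x y (fun i => lev i ≤ t) (fun z z' hzz => ?_) (fun i hi hA => ?_)
          · congr 1
            refine hdep l hl z z' fun i hi => hzz i ?_
            omega
          · refine hxy i ?_
            have : lev i ≠ t := fun h => hA (by simp [hAdef, h])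
            omega
        · rw [if_neg h2, if_neg h2]
      · rw [if_neg h1, if_neg h1]
        refine hdep l hl x y fun i hi => hxy i ?_
        omega
    have hbud' : ∀ h, ∑ l ∈ s with (N l ≤ h ∧ h < min (u l) t), 1 / P l ≤ 1 := by
      intro h
      refine le_trans ?_ (hbud h)
      refine Finset.sum_le_sum_of_subset_of_nonneg ?_ ?_
      · intro l hl
        simp only [Finset.mem_filter] at hl ⊢
        exact ⟨hl.1, hl.2.1, lt_of_lt_of_le hl.2.2 (min_le_left _ _)⟩
      · intro l hl _
        exact (div_pos one_pos (hP l (Finset.mem_filter.1 hl).1)).le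
    have hbd' : ∀ l ∈ s, ∀ x, avgOn (Finset.univ.filter fun i => N l ≤ lev i)
        (fun z => Φ' l z ^ P l) x ≤ C l ^ P l := by
      intro l hl x
      by_cases h1 : t < u l
      · by_cases h2 : N l ≤ t
        · have he : (fun z => Φ' l z ^ P l) = avgOn A (fun z => Φ l z ^ P l) := by
            funext z
            simp only [Φ', if_pos h1, if_pos h2]
            rw [← Real.rpow_mul (avgOn_nonneg _ (fun z => Real.rpow_nonneg (hΦ l hl z) _) _),
              one_div_mul_cancel (hP l hl).ne', Real.rpow_one]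
          rw [he, avgOn_avgOn_of_subset]
          · exact hbd l hl x
          · intro i hi
            simp only [Finset.mem_filter, Finset.mem_univ, true_and, hAdef] at hi ⊢
            omega
        · have he : (fun z => Φ' l z ^ P l) = fun _ => C l ^ P l := by
            funext z
            simp only [Φ', if_pos h1, if_neg h2]
          rw [he, avgOn_const]
      · have he : (fun z => Φ' l z ^ P l) = fun z => Φ l z ^ P l := by
          funext z
          simp only [Φ', if_neg h1]
        rw [he]
        exact hbd l hl x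
    -- pointwise
    have hpt : ∀ x, avgOn A (fun z => ∏ l ∈ s, Φ l z) x ≤ ∏ l ∈ s, Φ' l x := by
      intro x
      set s1 := s.filter fun l => t < u l ∧ N l ≤ t with hs1
      set s2 := s.filter fun l => ¬ (t < u l ∧ N l ≤ t) with hs2
      have hsplit : ∀ f : κ → ℝ, ∏ l ∈ s, f l = (∏ l ∈ s1, f l) * ∏ l ∈ s2, f l := fun f => by
        rw [hs1, hs2, Finset.prod_filter_mul_prod_filter_not]
      have hothers : ∀ y : ι → Bool, ∏ l ∈ s2, Φ l (mix A y x) ≤ ∏ l ∈ s2, Φ' l x := by
        intro y
        refine Finset.prod_le_prod (fun l hl => hΦ l (Finset.mem_filter.1 hl).1 _) fun l hl => ?_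
        obtain ⟨hls, hnot⟩ := Finset.mem_filter.1 hl
        by_cases h1 : t < u l
        · have h2 : ¬ N l ≤ t := fun h => hnot ⟨h1, h⟩
          simp only [Φ', if_pos h1, if_neg h2]
          -- `Φ l` does not see the coordinates of level `≥ N l`
          have h3 := hbd l hls (mix A y x)
          rw [avgOn_of_indep _ _ (fun z z' hz => by
            rw [hdep l hls z z' (fun i hi => hz i (by
              simp only [Finset.mem_filter, Finset.mem_univ, true_and]; omega))])] at h3
          exact (Real.rpow_le_rpow_iff (hΦ l hls _) (hC l hls) (hP l hls)).1 h3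
        · simp only [Φ', if_neg h1]
          refine le_of_eq (hdep l hls _ _ fun i hi => ?_)
          have : i ∉ A := by
            simp only [hAdef, Finset.mem_filter, Finset.mem_univ, true_and]; omega
          simp [mix, this]
      have hO0 : 0 ≤ ∏ l ∈ s2, Φ' l x :=
        Finset.prod_nonneg fun l hl => hΦ' l (Finset.mem_filter.1 hl).1 x
      have h1 : avgOn A (fun z => ∏ l ∈ s, Φ l z) x ≤
          (avg fun y : ι → Bool => ∏ l ∈ s1, Φ l (mix A y x)) * ∏ l ∈ s2, Φ' l x := by
        rw [← avg_mul_const]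
        refine avg_mono fun y => ?_
        show ∏ l ∈ s, Φ l (mix A y x) ≤ _
        rw [hsplit]
        exact mul_le_mul_of_nonneg_left (hothers y)
          (Finset.prod_nonneg fun l hl => hΦ l (Finset.mem_filter.1 hl).1 _)
      refine h1.trans ?_
      rw [hsplit fun l => Φ' l x]
      refine mul_le_mul_of_nonneg_right ?_ hO0
      have hbudt : ∑ l ∈ s1, 1 / P l ≤ 1 := by
        have := hbud t
        have he : s1 = s.filter fun l => N l ≤ t ∧ t < u l := by
          rw [hs1]; apply Finset.filter_congr; intro l _; exact and_comm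
        rwa [he]
      have hH := holder_avg s1 (fun l y => Φ l (mix A y x)) P
        (fun l hl a => hΦ l (Finset.mem_filter.1 hl).1 _)
        (fun l hl => hP l (Finset.mem_filter.1 hl).1) hbudt
      refine hH.trans (le_of_eq ?_)
      refine Finset.prod_congr rfl fun l hl => ?_
      obtain ⟨_, h1, h2⟩ := Finset.mem_filter.1 hl
      simp only [Φ', if_pos h1, if_pos h2]
      rfl
    calc avg (fun x => ∏ l ∈ s, Φ l x)
        = avg (avgOn A (fun x => ∏ l ∈ s, Φ l x)) := (avg_avgOn A _).symm
      _ ≤ avg (fun x => ∏ l ∈ s, Φ' l x) := avg_mono hpt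
      _ ≤ ∏ l ∈ s, C l := ih Φ' N (fun l => min (u l) t) hΦ' hP hC hdep' hbud' hbd'

end AvgOn

end Crest.Agent.Thorp
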