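import Crest.Agent.Lib.Thorp.Interface
import Crest.Agent.Lib.Thorp.Finner

/-!
# Thorp shuffle (S0222): tuples versus colourings, and the bound on `Tr (K_j ^ 64)`.
-/

set_option autoImplicit false

namespace Crest.Agent.Thorp

open Finset BigOperators

/-- The colouring of an injective tuple: position `y i` gets the colour `i`. -/
noncomputable def colorOf {j k : ℕ} (y : Fin j ↪ Pos k) : Color (Fin j) k :=
  Function.partialInv y

theorem colorOf_eq_some {j k : ℕ} (y : Fin j ↪ Pos k) (x : Pos k) (i : Fin j) :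
    colorOf y x = some i ↔ y i = x :=
  y.injective.isPartialInv i x

theorem colorOf_apply {j k : ℕ} (y : Fin j ↪ Pos k) (i : Fin j) : colorOf y (y i) = some i :=
  (colorOf_eq_some y (y i) i).2 rfl

theorem colorOf_distinct {j k : ℕ} (y : Fin j ↪ Pos k) : Distinct (colorOf y) := by
  intro x x' u hx hx'
  rw [colorOf_eq_some] at hx hx'
  rw [← hx, ← hx']

theorem csupp_colorOf {j k : ℕ} (y : Fin j ↪ Pos k) :
    csupp (colorOf y) = Finset.univ.map y := by
  ext x
  simp only [csupp, Finset.mem_filter, Finset.mem_univ, true_and, Finset.mem_map]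
  rw [Option.isSome_iff_exists]
  constructor
  · rintro ⟨i, hi⟩
    exact ⟨i, (colorOf_eq_some y x i).1 hi⟩
  · rintro ⟨i, rfl⟩
    exact ⟨i, colorOf_apply y i⟩

theorem card_csupp_colorOf {j k : ℕ} (y : Fin j ↪ Pos k) : (csupp (colorOf y)).card = j := by
  rw [csupp_colorOf, Finset.card_map, Finset.card_univ, Fintype.card_fin]

theorem colorOf_injective {j k : ℕ} : Function.Injective (colorOf (j := j) (k := k)) := by
  intro y y' h
  ext i
  have : colorOf y' (y i) = some i := by rw [← h]; exact colorOf_apply y i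
  rw [colorOf_eq_some] at this
  rw [this]

theorem colorOf_comp_iff {j k : ℕ} (y y' : Fin j ↪ Pos k) (g : Equiv.Perm (Pos k)) :
    (fun x => colorOf y (g⁻¹ x)) = colorOf y' ↔ y.trans g.toEmbedding = y' := by
  constructor
  · intro h
    ext i
    have h1 : colorOf y (g⁻¹ (g (y i))) = some i := by
      simpa using colorOf_apply y i
    have h2 := congrFun h (g (y i))
    rw [h1] at h2
    have h3 := (colorOf_eq_some y' (g (y i)) i).1 h2.symm
    simp [h3]
  · rintro rfl
    funext x
    apply Option.ext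
    intro i
    rw [colorOf_eq_some, colorOf_eq_some]
    simp only [Function.Embedding.trans_apply, Equiv.coe_toEmbedding]
    constructor
    · intro h; rw [h]; simp
    · intro h; rw [← h]; simp

/-- Sum over the law `xLaw` is the double average over coins. -/
theorem sum_xLaw (k : ℕ) (φ : Equiv.Perm (Pos k) → ℝ) :
    ∑ g, xLaw k g * φ g = avg fun T : Coins k => avg fun T' : Coins k => φ (gOf T T') := by
  classical
  have h1 : ∀ g, xLaw k g * φ g =
      avg fun T : Coins k => avg fun T' : Coins k => if gOf T T' = g then φ g else 0 := by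
    intro g
    unfold xLaw
    rw [← avg_mul_const]
    congr 1
    funext T
    rw [← avg_mul_const]
    congr 1
    funext T'
    split <;> simp
  rw [Finset.sum_congr rfl fun g _ => h1 g]
  rw [← avg_sum]
  congr 1
  funext T
  rw [← avg_sum]
  congr 1
  funext T'
  simp

/-- `tupleMat` of the law `xLaw` is the collision kernel of colourings. -/
theorem tupleMat_eq_coll {j k : ℕ} (y y' : Fin j ↪ Pos k) :
    tupleMat (xLaw k) j y y' = coll k (colorOf y) (colorOf y') := by
  classical
  have : tupleMat (xLaw k) j y y' =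
      ∑ g, xLaw k g * (if y.trans g.toEmbedding = y' then (1 : ℝ) else 0) := by
    unfold tupleMat
    refine Finset.sum_congr rfl fun g _ => ?_
    split <;> simp
  rw [this, sum_xLaw]
  unfold coll
  congr 1
  funext T
  congr 1
  funext T'
  by_cases h : y.trans (gOf T T').toEmbedding = y'
  · rw [if_pos h, if_pos ((colorOf_comp_iff y y' _).2 h)]
  · rw [if_neg h, if_neg (fun h' => h ((colorOf_comp_iff y y' _).1 h'))]

theorem coll_nonneg' {U : Type} [DecidableEq U] (k : ℕ) (c c' : Color U k) : 0 ≤ coll k c c' := by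
  unfold coll
  refine avg_nonneg fun T => avg_nonneg fun T' => ?_
  split <;> norm_num

/-- Symmetry of the law. -/
theorem xLaw_inv (k : ℕ) (g : Equiv.Perm (Pos k)) : xLaw k g⁻¹ = xLaw k g := by
  classical
  unfold xLaw
  have h : ∀ T T' : Coins k, (gOf T T' = g⁻¹) ↔ (gOf T' T = g) := by
    intro T T'
    unfold gOf
    constructor
    · intro h
      have : ((sweep k T')⁻¹ * sweep k T)⁻¹ = g := by rw [h, inv_inv]
      simpa using this
    · intro h
      rw [← h]
      simp
  simp_rw [h]
  -- exchange the two averages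
  unfold avg
  simp only [Finset.sum_div]
  rw [Finset.sum_comm]

theorem tupleMat_isSymm {j k : ℕ} : (tupleMat (xLaw k) j).IsSymm := by
  classical
  ext y y'
  change tupleMat (xLaw k) j y' y = tupleMat (xLaw k) j y y'
  unfold tupleMat
  refine Finset.sum_equiv (Equiv.inv _) (by simp) ?_
  intro g _
  have h : (y'.trans g.toEmbedding = y) ↔ (y.trans (g⁻¹ : Equiv.Perm (Pos k)).toEmbedding = y') := by
    constructor
    · rintro rfl
      ext i
      simp
    · rintro rfl
      ext i
      simp
  simp only [Equiv.inv_apply, h, xLaw_inv]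

theorem xLaw_nonneg (k : ℕ) (g : Equiv.Perm (Pos k)) : 0 ≤ xLaw k g := by
  unfold xLaw
  refine avg_nonneg fun T => avg_nonneg fun T' => ?_
  split <;> norm_num

theorem tupleMat_nonneg {j k : ℕ} (y y' : Fin j ↪ Pos k) : 0 ≤ tupleMat (xLaw k) j y y' := by
  unfold tupleMat
  refine Finset.sum_nonneg fun g _ => ?_
  split
  · exact xLaw_nonneg k g
  · exact le_rfl

/-- The bound on `Tr (K_j^64)` from a bound on the tree weights. -/
theorem tuple_trace_le_of_weight (hT : Interface.TreeRenyi) (hY : Interface.Young)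
    {j k : ℕ} (B : ℝ)
    (hB : ∀ y : Fin j ↪ Pos k,
      (avg fun T : Coins k => avg fun T' : Coins k =>
        ((weight k (colorOf y) T T' : ℕ) : ℝ) ^ (1 / 63 : ℝ)) ≤ Real.exp ((1 / 63 : ℝ) * B)) :
    ((tupleMat (xLaw k) j) ^ 64).trace ≤
      (Fintype.card (Fin j ↪ Pos k) : ℝ) * ((2 : ℝ) ^ (k * j))⁻¹ * Real.exp B := by
  classical
  set A : ℝ := (2 : ℝ) ^ (-((1 / 63 : ℝ) * ((k * j : ℕ) : ℝ))) * Real.exp ((1 / 63 : ℝ) * B) with hA
  have key : ∀ y, ∑ y', (tupleMat (xLaw k) j y y') ^ (64 / 63 : ℝ) ≤ A := by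
    intro y
    have h1 := hT (Fin j) k (colorOf y) (colorOf_distinct y) (1 / 63 : ℝ) (by norm_num)
    rw [card_csupp_colorOf] at h1
    have h2 : ∑ y', (tupleMat (xLaw k) j y y') ^ (64 / 63 : ℝ) ≤
        ∑ c' : Color (Fin j) k, (coll k (colorOf y) c') ^ (1 + 1 / 63 : ℝ) := by
      have h64 : (64 / 63 : ℝ) = 1 + 1 / 63 := by norm_num
      rw [h64]
      have : ∑ y', (tupleMat (xLaw k) j y y') ^ (1 + 1 / 63 : ℝ) =
          ∑ c' ∈ Finset.univ.map ⟨colorOf, colorOf_injective⟩,
            (coll k (colorOf y) c') ^ (1 + 1 / 63 : ℝ) := by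
        rw [Finset.sum_map]
        refine Finset.sum_congr rfl fun y' _ => ?_
        simp only [Function.Embedding.coeFn_mk]
        rw [tupleMat_eq_coll]
      rw [this]
      exact Finset.sum_le_sum_of_subset_of_nonneg (Finset.subset_univ _)
        (fun c' _ _ => Real.rpow_nonneg (coll_nonneg' _ _ _) _)
    refine h2.trans (h1.trans ?_)
    rw [hA]
    refine mul_le_mul_of_nonneg_left (hB y) (Real.rpow_nonneg (by norm_num) _)
  have := hY (Fin j ↪ Pos k) (tupleMat (xLaw k) j) A tupleMat_isSymm tupleMat_nonneg key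
  refine this.trans ?_
  rw [mul_assoc]
  refine mul_le_mul_of_nonneg_left (le_of_eq ?_) (Nat.cast_nonneg _)
  rw [hA, mul_pow]
  congr 1
  · rw [← Real.rpow_natCast, ← Real.rpow_mul (by norm_num)]
    have : -((1 / 63 : ℝ) * ((k * j : ℕ) : ℝ)) * ((63 : ℕ) : ℝ) = -((k * j : ℕ) : ℝ) := by
      push_cast; ring
    rw [this, Real.rpow_neg (by norm_num), Real.rpow_natCast]
  · rw [← Real.exp_nat_mul]
    congr 1
    push_cast; ring

/-- The bound on `Φ_j`, `j` arbitrary. -/
theorem tuple_trace_le (hT : Interface.TreeRenyi) (hY : Interface.Young)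
    (hF : Interface.FixedT) (hM : Interface.TMoment) (k j : ℕ) :
    ((tupleMat (xLaw k) j) ^ 64).trace ≤
      (Fintype.card (Fin j ↪ Pos k) : ℝ) * ((2 : ℝ) ^ (k * j))⁻¹ *
        Real.exp ((j : ℝ) * ((1 / 2 : ℝ) * ∑ l ∈ Finset.Ioc (k - Nat.clog 2 j) k, wtt l)) := by
  refine tuple_trace_le_of_weight hT hY _ ?_
  intro y
  have h1 := hM (Fin j) k (colorOf y)
  rw [card_csupp_colorOf] at h1
  refine (avg_mono fun T => hF (Fin j) k (colorOf y) T).trans (h1.trans (le_of_eq ?_))
  congr 1
  ring

/-- The bound on `Φ_n`, full deck, without the `T`-moment loss. -/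
theorem tuple_trace_full_le (hT : Interface.TreeRenyi) (hY : Interface.Young)
    (hF : Interface.FixedT) (hD : Interface.FullDeck) (k : ℕ) :
    ((tupleMat (xLaw k) (2 ^ k)) ^ 64).trace ≤
      (Fintype.card (Fin (2 ^ k) ↪ Pos k) : ℝ) * ((2 : ℝ) ^ (k * 2 ^ k))⁻¹ *
        Real.exp ((2 : ℝ) ^ (k - 1) * ∑ l ∈ Finset.Icc 1 k, wt l) := by
  refine tuple_trace_le_of_weight hT hY _ ?_
  intro y
  have hfull : csupp (colorOf y) = Finset.univ := by
    apply Finset.eq_univ_of_card
    rw [card_csupp_colorOf, card_Pos]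
  have h1 : ∀ T : Coins k, (avg fun T' : Coins k =>
      ((weight k (colorOf y) T T' : ℕ) : ℝ) ^ (1 / 63 : ℝ)) ≤
        Real.exp ((1 / 63 : ℝ) * ((2 : ℝ) ^ (k - 1) * ∑ l ∈ Finset.Icc 1 k, wt l)) := by
    intro T
    refine (hF (Fin (2 ^ k)) k (colorOf y) T).trans (le_of_eq ?_)
    congr 2
    rw [Finset.mul_sum]
    refine Finset.sum_congr rfl fun l hl => ?_
    rw [hD (Fin (2 ^ k)) k (colorOf y) hfull T l hl]
    push_cast
    ring
  refine (avg_mono h1).trans ?_
  haveI : Nonempty (Coins k) := ⟨fun _ => false⟩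
  rw [avg_const]

/-! ### Sign kills low degree -/

/-- Flip the top coin at the pair `p`. -/
def flipTop {k : ℕ} (p : Pos k) (T : Coins (k + 1)) : Coins (k + 1) :=
  Function.update T (Sum.inl p : Pos k ⊕ (Bool × Idx k)) (! T (Sum.inl p : Pos k ⊕ (Bool × Idx k)))

theorem flipTop_flipTop {k : ℕ} (p : Pos k) (T : Coins (k + 1)) : flipTop p (flipTop p T) = T := by
  funext i
  unfold flipTop
  by_cases h : i = (Sum.inl p : Pos k ⊕ (Bool × Idx k))
  · subst h; simp
  · simp [Function.update_of_ne h]

/-- The flip as an equivalence. -/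
def flipTopEquiv {k : ℕ} (p : Pos k) : Coins (k + 1) ≃ Coins (k + 1) where
  toFun := flipTop p
  invFun := flipTop p
  left_inv := flipTop_flipTop p
  right_inv := flipTop_flipTop p

theorem top_flipTop {k : ℕ} (p : Pos k) (T : Coins (k + 1)) (x : Pos k) :
    Coins.top (flipTop p T) x = if x = p then ! Coins.top T x else Coins.top T x := by
  unfold Coins.top flipTop
  by_cases h : x = p
  · subst h; simp
  · rw [if_neg h, Function.update_of_ne]
    intro h'
    exact h (Sum.inl.inj h')

theorem sub_flipTop {k : ℕ} (p : Pos k) (T : Coins (k + 1)) (b : Bool) :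
    Coins.sub (flipTop p T) b = Coins.sub T b := by
  funext i
  unfold Coins.sub flipTop
  rw [Function.update_of_ne]
  intro h
  exact absurd h (by simp)

/-- The transposition of the two positions of the pair `p`. -/
def pairSwap {k : ℕ} (p : Pos k) : Equiv.Perm (Pos (k + 1)) :=
  Equiv.swap ((false, p) : Bool × Pos k) ((true, p) : Bool × Pos k)

theorem pairSwap_of_ne {k : ℕ} (p : Pos k) (b : Bool) (x : Pos k) (h : x ≠ p) :
    pairSwap p ((b, x) : Bool × Pos k) = ((b, x) : Bool × Pos k) := by
  unfold pairSwap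
  apply Equiv.swap_apply_of_ne_of_ne
  · intro h'; exact h (congrArg (fun z : Bool × Pos k => z.2) h')
  · intro h'; exact h (congrArg (fun z : Bool × Pos k => z.2) h')

theorem pairSwap_self {k : ℕ} (p : Pos k) (b : Bool) :
    pairSwap p ((b, p) : Bool × Pos k) = ((!b, p) : Bool × Pos k) := by
  unfold pairSwap
  cases b
  · exact Equiv.swap_apply_left _ _
  · exact Equiv.swap_apply_right _ _

theorem sweep_flipTop {k : ℕ} (p : Pos k) (T : Coins (k + 1)) :
    sweep (k + 1) (flipTop p T) = sweep (k + 1) T * pairSwap p := by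
  ext1 z
  obtain ⟨b, x⟩ : Bool × Pos k := z
  rw [Equiv.Perm.mul_apply]
  by_cases h : x = p
  · subst h
    rw [pairSwap_self]
    change ((xor b (Coins.top (flipTop x T) x), sweep k (Coins.sub (flipTop x T)
        (xor b (Coins.top (flipTop x T) x))) x) : Bool × Pos k) =
      ((xor (!b) (Coins.top T x), sweep k (Coins.sub T (xor (!b) (Coins.top T x))) x) : Bool × Pos k)
    rw [top_flipTop, sub_flipTop, if_pos rfl]
    have : xor b (!Coins.top T x) = xor (!b) (Coins.top T x) := by
      cases b <;> cases Coins.top T x <;> rfl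
    rw [this]
  · rw [pairSwap_of_ne p b x h]
    change ((xor b (Coins.top (flipTop p T) x), sweep k (Coins.sub (flipTop p T)
        (xor b (Coins.top (flipTop p T) x))) x) : Bool × Pos k) =
      ((xor b (Coins.top T x), sweep k (Coins.sub T (xor b (Coins.top T x))) x) : Bool × Pos k)
    rw [top_flipTop, sub_flipTop, if_neg h]

theorem sign_pairSwap {k : ℕ} (p : Pos k) : Equiv.Perm.sign (pairSwap p) = -1 := by
  unfold pairSwap
  apply Equiv.Perm.sign_swap
  intro h
  exact absurd (congrArg (fun z : Bool × Pos k => z.1) h) (by simp)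

/-- avg is invariant under an equivalence. -/
theorem avg_comp_equiv {α β : Type*} [Fintype α] [Fintype β] (e : α ≃ β) (f : β → ℝ) :
    avg (fun a => f (e a)) = avg f := by
  unfold avg
  rw [Fintype.card_congr e]
  congr 1
  exact Equiv.sum_comp e f

/-- `X (sgn v) = 0` when `v` depends only on `|I| < n/2` coordinates. -/
theorem xLaw_sign_kill {k : ℕ} (I : Finset (Pos (k + 1))) (hI : I.card < 2 ^ k)
    (F : Equiv.Perm (Pos (k + 1)) → ℝ)
    (hF : ∀ σ σ' : Equiv.Perm (Pos (k + 1)), (∀ i ∈ I, σ i = σ' i) → F σ = F σ')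
    (s : Equiv.Perm (Pos (k + 1))) :
    ∑ g, xLaw (k + 1) g * (((Equiv.Perm.sign (g * s) : ℤˣ) : ℤ) : ℝ) * F (g * s) = 0 := by
  classical
  -- a free pair
  obtain ⟨p, hp⟩ : ∃ p : Pos k, p ∉ I.image (fun i => ((s i : Bool × Pos k)).2) := by
    by_contra hcon
    push Not at hcon
    have h1 : (Finset.univ : Finset (Pos k)) ⊆ I.image (fun i => ((s i : Bool × Pos k)).2) :=
      fun p _ => hcon p
    have h2 := Finset.card_le_card h1
    have h3 : (I.image (fun i => ((s i : Bool × Pos k)).2)).card ≤ I.card := Finset.card_image_le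
    rw [Finset.card_univ, card_Pos] at h2
    omega
  have hfree : ∀ i ∈ I, pairSwap p (s i) = s i := by
    intro i hi
    have hne : ((s i : Bool × Pos k)).2 ≠ p := by
      intro h
      exact hp (Finset.mem_image.2 ⟨i, hi, h⟩)
    have := pairSwap_of_ne p ((s i : Bool × Pos k)).1 ((s i : Bool × Pos k)).2 hne
    exact this
  set φ : Equiv.Perm (Pos (k + 1)) → ℝ :=
    fun g => (((Equiv.Perm.sign (g * s) : ℤˣ) : ℤ) : ℝ) * F (g * s) with hφ
  have h0 : ∑ g, xLaw (k + 1) g * (((Equiv.Perm.sign (g * s) : ℤˣ) : ℤ) : ℝ) * F (g * s) =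
      ∑ g, xLaw (k + 1) g * φ g := by
    refine Finset.sum_congr rfl fun g _ => ?_
    rw [hφ]; ring
  rw [h0, sum_xLaw]
  have hneg : ∀ T T' : Coins (k + 1), φ (gOf (flipTop p T) T') = - φ (gOf T T') := by
    intro T T'
    have hg : gOf (flipTop p T) T' * s = gOf T T' * (pairSwap p * s) := by
      unfold gOf
      rw [sweep_flipTop]
      group
    have hsign : Equiv.Perm.sign (gOf (flipTop p T) T' * s) =
        - Equiv.Perm.sign (gOf T T' * s) := by
      rw [hg, Equiv.Perm.sign_mul, Equiv.Perm.sign_mul, Equiv.Perm.sign_mul]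
      rw [sign_pairSwap]
      simp
    have hFeq : F (gOf (flipTop p T) T' * s) = F (gOf T T' * s) := by
      apply hF
      intro i hi
      rw [hg]
      simp only [Equiv.Perm.mul_apply]
      rw [hfree i hi]
    simp only [hφ]
    rw [hsign, hFeq]
    simp
  have h2 := avg_comp_equiv (flipTopEquiv p)
    (fun T : Coins (k + 1) => avg fun T' : Coins (k + 1) => φ (gOf T T'))
  have h3 : (avg fun a : Coins (k + 1) =>
      (fun T : Coins (k + 1) => avg fun T' : Coins (k + 1) => φ (gOf T T')) (flipTopEquiv p a)) =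
      - avg fun T : Coins (k + 1) => avg fun T' : Coins (k + 1) => φ (gOf T T') := by
    have : ∀ a : Coins (k + 1), (avg fun T' : Coins (k + 1) => φ (gOf (flipTopEquiv p a) T')) =
        (-1) * avg fun T' : Coins (k + 1) => φ (gOf a T') := by
      intro a
      rw [← avg_const_mul]
      congr 1
      funext T'
      change φ (gOf (flipTop p a) T') = _
      rw [hneg]
      ring
    simp only [this]
    rw [avg_const_mul]
    ring
  linarith

end Crest.Agent.Thorp
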