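import Mathlib

/-!
# Thorp shuffle (S0222): core definitions.  See findings #828, #850 (paper proof).

* `Pos k`: positions, `Pos (k+1) = Bool × Pos k` (top bit first).
* `Idx k`: indices of the coins of a sweep on `Pos k`; `Coins k = Idx k → Bool`.
  The coin `Sum.inl p : Idx (k+1)` is the top-layer coin of the pair `(false,p),(true,p)`,
  `Sum.inr (b,i)` is coin `i` of the sub-sweep on sheet `b`.
* `sweep k T`: `(b,p) ↦ (b xor top p, sweep (sub T (b xor top p)) p)`.
* `gOf T T' = (sweep T')⁻¹ * sweep T`, the random element of `X_k = T*T`.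
* `Color U k = Pos k → Option U`: colourings, `none` = colour 0, `|U|+1` colours.
-/

set_option autoImplicit false

namespace Crest.Agent.Thorp

open Finset BigOperators

/-- Positions: bit strings, top bit first. -/
def Pos : ℕ → Type
  | 0 => Unit
  | k + 1 => Bool × Pos k

instance instDecEqPos : ∀ k, DecidableEq (Pos k)
  | 0 => inferInstanceAs (DecidableEq Unit)
  | k + 1 => by
      haveI := instDecEqPos k
      exact inferInstanceAs (DecidableEq (Bool × Pos k))

instance instFintypePos : ∀ k, Fintype (Pos k)
  | 0 => inferInstanceAs (Fintype Unit)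
  | k + 1 => by
      haveI := instFintypePos k
      exact inferInstanceAs (Fintype (Bool × Pos k))

instance instNonemptyPos : ∀ k, Nonempty (Pos k)
  | 0 => inferInstanceAs (Nonempty Unit)
  | k + 1 => by
      haveI := instNonemptyPos k
      exact inferInstanceAs (Nonempty (Bool × Pos k))

theorem card_Pos : ∀ k, Fintype.card (Pos k) = 2 ^ k
  | 0 => rfl
  | k + 1 => by
      have h := card_Pos k
      change Fintype.card (Bool × Pos k) = 2 ^ (k + 1)
      rw [Fintype.card_prod, h, Fintype.card_bool, pow_succ, mul_comm]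

/-- Indices of coins. -/
def Idx : ℕ → Type
  | 0 => Empty
  | k + 1 => Pos k ⊕ (Bool × Idx k)

instance instDecEqIdx : ∀ k, DecidableEq (Idx k)
  | 0 => inferInstanceAs (DecidableEq Empty)
  | k + 1 => by
      haveI := instDecEqIdx k
      exact inferInstanceAs (DecidableEq (Pos k ⊕ (Bool × Idx k)))

instance instFintypeIdx : ∀ k, Fintype (Idx k)
  | 0 => inferInstanceAs (Fintype Empty)
  | k + 1 => by
      haveI := instFintypeIdx k
      exact inferInstanceAs (Fintype (Pos k ⊕ (Bool × Idx k)))

/-- A coin assignment of a sweep on `Pos k`. -/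
abbrev Coins (k : ℕ) : Type := Idx k → Bool

/-- The top-layer coins. -/
def Coins.top {k : ℕ} (T : Coins (k + 1)) : Pos k → Bool := fun p => T (Sum.inl p)

/-- The coins of the sub-sweep on sheet `b`. -/
def Coins.sub {k : ℕ} (T : Coins (k + 1)) (b : Bool) : Coins k := fun i => T (Sum.inr (b, i))

/-- Assemble coins from top coins and two sub-sweeps. -/
def Coins.mk {k : ℕ} (s : Pos k → Bool) (T0 T1 : Coins k) : Coins (k + 1) :=
  fun i => match (i : Pos k ⊕ (Bool × Idx k)) with
    | Sum.inl p => s p
    | Sum.inr (false, j) => T0 j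
    | Sum.inr (true, j) => T1 j

/-- The level of a coin: the level of its node (block size `2 ^ level`). -/
def lev : ∀ k, Idx k → ℕ
  | 0, i => nomatch (i : Empty)
  | k + 1, i => match (i : Pos k ⊕ (Bool × Idx k)) with
    | Sum.inl _ => k + 1
    | Sum.inr (_, j) => lev k j

/-- The sweep as a function. -/
def sweepFun : ∀ k, Coins k → Pos k → Pos k
  | 0, _, x => x
  | k + 1, T, x =>
      let x' : Bool × Pos k := x
      let b' := xor x'.1 (Coins.top T x'.2)
      ((b', sweepFun k (Coins.sub T b') x'.2) : Bool × Pos k)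

/-- Its inverse. -/
def sweepInv : ∀ k, Coins k → Pos k → Pos k
  | 0, _, x => x
  | k + 1, T, x =>
      let x' : Bool × Pos k := x
      let p := sweepInv k (Coins.sub T x'.1) x'.2
      ((xor x'.1 (Coins.top T p), p) : Bool × Pos k)

theorem sweepInv_sweepFun : ∀ k (T : Coins k) (x : Pos k), sweepInv k T (sweepFun k T x) = x
  | 0, _, _ => rfl
  | k + 1, T, x => by
      obtain ⟨b, p⟩ : Bool × Pos k := x
      show ((xor (xor b (Coins.top T p)) (Coins.top T
              (sweepInv k (Coins.sub T (xor b (Coins.top T p)))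
                (sweepFun k (Coins.sub T (xor b (Coins.top T p))) p))),
            sweepInv k (Coins.sub T (xor b (Coins.top T p)))
                (sweepFun k (Coins.sub T (xor b (Coins.top T p))) p)) : Bool × Pos k) = (b, p)
      rw [sweepInv_sweepFun k]
      simp

theorem sweepFun_sweepInv : ∀ k (T : Coins k) (x : Pos k), sweepFun k T (sweepInv k T x) = x
  | 0, _, _ => rfl
  | k + 1, T, x => by
      obtain ⟨b, q⟩ : Bool × Pos k := x
      show ((xor (xor b (Coins.top T (sweepInv k (Coins.sub T b) q)))
                (Coins.top T (sweepInv k (Coins.sub T b) q)),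
            sweepFun k (Coins.sub T
              (xor (xor b (Coins.top T (sweepInv k (Coins.sub T b) q)))
                (Coins.top T (sweepInv k (Coins.sub T b) q))))
              (sweepInv k (Coins.sub T b) q)) : Bool × Pos k) = (b, q)
      have h : xor (xor b (Coins.top T (sweepInv k (Coins.sub T b) q)))
                (Coins.top T (sweepInv k (Coins.sub T b) q)) = b := by simp
      rw [h, sweepFun_sweepInv k]

/-- The sweep as a permutation of the positions. -/
def sweep (k : ℕ) (T : Coins k) : Equiv.Perm (Pos k) where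
  toFun := sweepFun k T
  invFun := sweepInv k T
  left_inv := sweepInv_sweepFun k T
  right_inv := sweepFun_sweepInv k T

/-- The random element `g = τ'⁻¹ τ` of `X_k = T* T`. -/
def gOf {k : ℕ} (T T' : Coins k) : Equiv.Perm (Pos k) := (sweep k T')⁻¹ * sweep k T

/-- Uniform average on a finite type. -/
noncomputable def avg {α : Type*} [Fintype α] (f : α → ℝ) : ℝ :=
  (∑ a, f a) / (Fintype.card α : ℝ)

/-- The law of `g = τ'⁻¹ τ`. -/
noncomputable def xLaw (k : ℕ) (g : Equiv.Perm (Pos k)) : ℝ :=
  avg fun T : Coins k => avg fun T' : Coins k => if gOf T T' = g then (1 : ℝ) else 0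

/-- Left-multiplication operator of a function on a group, as a matrix: the convolution operator
`f ↦ (σ ↦ ∑ g, μ g * f (g * σ))`. -/
def perMat {P : Type*} [Fintype P] [DecidableEq P] (μ : Equiv.Perm P → ℝ) :
    Matrix (Equiv.Perm P) (Equiv.Perm P) ℝ :=
  fun σ σ' => μ (σ' * σ⁻¹)

/-- `Tr(X^m)` for the operator of `X_D`. -/
noncomputable def traceX (D m : ℕ) : ℝ := ((perMat (xLaw D)) ^ m).trace

/-- Action on tuples: `y ↦ g ∘ y`. -/
def tupleMat {P : Type*} [Fintype P] [DecidableEq P] (μ : Equiv.Perm P → ℝ) (j : ℕ) :
    Matrix (Fin j ↪ P) (Fin j ↪ P) ℝ :=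
  fun y y' => ∑ g : Equiv.Perm P, if y.trans g.toEmbedding = y' then μ g else 0

/-- Colourings of `Pos k` with `|U|+1` colours; `none` is the colour `0`. -/
abbrev Color (U : Type) (k : ℕ) : Type := Pos k → Option U

/-- Support of a colouring. -/
def csupp {U : Type} {k : ℕ} (c : Color U k) : Finset (Pos k) :=
  Finset.univ.filter fun x => (c x).isSome

/-- `x_k(c,c') = P(c ∘ g⁻¹ = c')`, `g ∼ X_k`. -/
noncomputable def coll {U : Type} [DecidableEq U] (k : ℕ) (c c' : Color U k) : ℝ :=
  avg fun T : Coins k => avg fun T' : Coins k =>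
    if (fun x => c ((gOf T T')⁻¹ x)) = c' then (1 : ℝ) else 0

/-- `y_k(S,ρ) = ∑_{supp c ⊆ S} ρ^{|c|} x_k(c,c)`. -/
noncomputable def yk (U : Type) [Fintype U] [DecidableEq U] (k : ℕ) (S : Finset (Pos k)) (ρ : ℝ) : ℝ :=
  ∑ c : Color U k, if csupp c ⊆ S then ρ ^ (csupp c).card * coll k c c else 0

/-- The colouring of sheet `b` after the top flips `s`: `a_b(p) = c (b xor s p, p)`. -/
def sheet {U : Type} {k : ℕ} (s : Pos k → Bool) (c : Color U (k + 1)) (b : Bool) : Color U k :=
  fun p => c ((xor b (s p), p) : Bool × Pos k)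

/-- Generate these auxiliary lemmas here, once, so that later modules share one copy. -/
theorem defs_aux_here : True := by
  have := @perMat.congr_simp.{0}
  have := @tupleMat.congr_simp.{0}
  have := @coll.congr_simp
  have := @csupp.eq_1
  have := @sheet.eq_1
  trivial

/-- The set `S_v`: sites `p` occupied at both `(false,p)` and `(true,p)`. -/
def mates {U : Type} {k : ℕ} (c : Color U (k + 1)) : Finset (Pos k) :=
  Finset.univ.filter fun p =>
    (c ((false, p) : Bool × Pos k)).isSome ∧ (c ((true, p) : Bool × Pos k)).isSome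

/-- `N(h,S) = #{Z ⊆ S : h Z = Z} = 2^{#cycles of h inside S}`. -/
def invCount {k : ℕ} (h : Equiv.Perm (Pos k)) (S : Finset (Pos k)) : ℕ :=
  (S.powerset.filter fun Z => Z.image h = Z).card

/-- The weight `N_v` of the root node: `h = g₀⁻¹ g₁`, `g_b` on sheet `b`. -/
def nodeW {U : Type} {k : ℕ} (c : Color U (k + 1)) (T T' : Coins (k + 1)) : ℕ :=
  invCount ((gOf (Coins.sub T false) (Coins.sub T' false))⁻¹ *
    gOf (Coins.sub T true) (Coins.sub T' true)) (mates c)

/-- The product over all nodes of the tree of `N_v`. -/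
def weight {U : Type} : ∀ k, Color U k → Coins k → Coins k → ℕ
  | 0, _, _, _ => 1
  | k + 1, c, T, T' =>
      nodeW c T T' *
        (weight k (sheet (Coins.top T) c false) (Coins.sub T false) (Coins.sub T' false) *
         weight k (sheet (Coins.top T) c true) (Coins.sub T true) (Coins.sub T' true))

/-- The product of `N_v` over the nodes `v` of level `l` (block size `2 ^ l`). -/
def levW {U : Type} (l : ℕ) : ∀ k, Color U k → Coins k → Coins k → ℕ
  | 0, _, _, _ => 1
  | k + 1, c, T, T' =>
      if l = k + 1 then nodeW c T T'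
      else levW l k (sheet (Coins.top T) c false) (Coins.sub T false) (Coins.sub T' false) *
           levW l k (sheet (Coins.top T) c true) (Coins.sub T true) (Coins.sub T' true)

/-- `m_l(T) = ∑_{v at level l} |S_v|`. It depends only on `T`. -/
def mateCount {U : Type} (l : ℕ) : ∀ k, Color U k → Coins k → ℕ
  | 0, _, _ => 0
  | k + 1, c, T =>
      if l = k + 1 then (mates c).card
      else mateCount l k (sheet (Coins.top T) c false) (Coins.sub T false) +
           mateCount l k (sheet (Coins.top T) c true) (Coins.sub T true)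

/-- Colouring with all labels distinct (each label at most once). -/
def Distinct {U : Type} {k : ℕ} (c : Color U k) : Prop :=
  ∀ x y u, c x = some u → c y = some u → x = y

end Crest.Agent.Thorp
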