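import Mathlib

/-!
# Thorp shuffle (S0222), numerics: elementary bounds on binomial coefficients.
-/

set_option autoImplicit false

namespace Crest.Agent.Thorp.Numerics

open Finset

/-- `m ^ i ≤ C(m i, i)`. -/
theorem pow_le_choose_mul (m i : ℕ) : m ^ i ≤ (m * i).choose i := by
  induction i with
  | zero => simp
  | succ i ih =>
    have h1 : (m * (i + 1)).choose (i + 1) ≥ (m * i).choose i * m.choose 1 := by
      have e : m * (i + 1) = m * i + m := by ring
      rw [e, Nat.add_choose_eq]
      have hmem : (i, 1) ∈ Finset.HasAntidiagonal.antidiagonal (i + 1) := by simp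
      exact Finset.single_le_sum
        (f := fun ij : ℕ × ℕ => (m * i).choose ij.1 * m.choose ij.2)
        (fun _ _ => Nat.zero_le _) hmem
    rw [Nat.choose_one_right] at h1
    calc m ^ (i + 1) = m ^ i * m := pow_succ _ _
      _ ≤ (m * i).choose i * m := Nat.mul_le_mul_right _ ih
      _ ≤ _ := h1

/-- The terms of the binomial expansion at a rational point increase up to the mode. -/
theorem term_step (N a b t : ℕ) (ht : t < N) :
    N.choose (t + 1) * a ^ (t + 1) * b ^ (N - (t + 1)) * ((t + 1) * b)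
      = N.choose t * a ^ t * b ^ (N - t) * ((N - t) * a) := by
  have h1 : N.choose (t + 1) * (t + 1) = N.choose t * (N - t) := Nat.choose_succ_right_eq N t
  have h2 : b ^ (N - t) = b ^ (N - (t + 1)) * b := by
    rw [← pow_succ]; congr 1; omega
  rw [h2]
  calc N.choose (t + 1) * a ^ (t + 1) * b ^ (N - (t + 1)) * ((t + 1) * b)
      = (N.choose (t + 1) * (t + 1)) * a ^ (t + 1) * b ^ (N - (t + 1)) * b := by ring
    _ = (N.choose t * (N - t)) * a ^ (t + 1) * b ^ (N - (t + 1)) * b := by rw [h1]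
    _ = _ := by ring

/-- The mode of the binomial expansion of `(a+b)^N` when `N a = k (a + b)`. -/
theorem choose_largest_term (N k a b : ℕ) (hb : 0 < b) (h : N * a = k * (a + b)) (hk : k ≤ N) :
    ∀ t, t ≤ N → N.choose t * a ^ t * b ^ (N - t) ≤ N.choose k * a ^ k * b ^ (N - k) := by
  set f : ℕ → ℕ := fun t => N.choose t * a ^ t * b ^ (N - t) with hf
  have up : ∀ t, t < k → f t ≤ f (t + 1) := by
    intro t ht
    have h1 := term_step N a b t (by omega)
    have h2 : (t + 1) * b ≤ (N - t) * a := by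
      obtain ⟨c, hc⟩ : ∃ c, k = t + 1 + c := ⟨k - (t + 1), by omega⟩
      obtain ⟨e, he⟩ : ∃ e, N = t + e := ⟨N - t, by omega⟩
      have he' : N - t = e := by omega
      rw [he']
      subst hc he
      have : (t + e) * a = (t + 1 + c) * (a + b) := h
      nlinarith
    have hpos : 0 < (t + 1) * b := by positivity
    by_contra hc
    rw [not_le] at hc
    have h3 : f (t + 1) * ((t + 1) * b) = f t * ((N - t) * a) := h1
    have h4 : f (t + 1) * ((N - t) * a) < f t * ((N - t) * a) ∨ (N - t) * a = 0 := by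
      rcases Nat.eq_zero_or_pos ((N - t) * a) with h0 | h0
      · right; exact h0
      · left; exact Nat.mul_lt_mul_of_pos_right hc h0
    rcases h4 with h4 | h4
    · have h5 : f (t + 1) * ((t + 1) * b) ≤ f (t + 1) * ((N - t) * a) := Nat.mul_le_mul_left _ h2
      omega
    · omega
  have down : ∀ t, k ≤ t → t < N → f (t + 1) ≤ f t := by
    intro t ht htN
    have h1 := term_step N a b t htN
    have h2 : (N - t) * a ≤ (t + 1) * b := by
      obtain ⟨c, hc⟩ : ∃ c, t = k + c := ⟨t - k, by omega⟩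
      obtain ⟨e, he⟩ : ∃ e, N = t + e := ⟨N - t, by omega⟩
      have he' : N - t = e := by omega
      rw [he']
      subst hc he
      have : (k + c + e) * a = k * (a + b) := h
      nlinarith
    have hpos : 0 < (t + 1) * b := by positivity
    have h3 : f (t + 1) * ((t + 1) * b) = f t * ((N - t) * a) := h1
    have h4 : f (t + 1) * ((t + 1) * b) ≤ f t * ((t + 1) * b) := by
      rw [h3]; exact Nat.mul_le_mul_left _ h2
    exact Nat.le_of_mul_le_mul_right h4 hpos
  have mono_up : ∀ d, d ≤ k → f (k - d) ≤ f k := by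
    intro d
    induction d with
    | zero => intro _; exact le_rfl
    | succ d ih =>
      intro hd
      have h1 := up (k - (d + 1)) (by omega)
      have h2 : k - (d + 1) + 1 = k - d := by omega
      rw [h2] at h1
      exact le_trans h1 (ih (by omega))
  have mono_down : ∀ d, k + d ≤ N → f (k + d) ≤ f k := by
    intro d
    induction d with
    | zero => intro _; exact le_rfl
    | succ d ih =>
      intro hd
      have h1 := down (k + d) (by omega) (by omega)
      exact le_trans h1 (ih (by omega))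
  intro t ht
  by_cases htk : t ≤ k
  · have := mono_up (k - t) (by omega)
    have e : k - (k - t) = t := by omega
    rw [e] at this
    exact this
  · have := mono_down (t - k) (by omega)
    have e : k + (t - k) = t := by omega
    rw [e] at this
    exact this

/-- `(a+b)^N ≤ (N+1) C(N,k) a^k b^(N-k)` at the mode. -/
theorem pow_le_succ_mul_choose (N k a b : ℕ) (hb : 0 < b) (h : N * a = k * (a + b)) (hk : k ≤ N) :
    (a + b) ^ N ≤ (N + 1) * (N.choose k * a ^ k * b ^ (N - k)) := by
  rw [add_pow]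
  calc ∑ m ∈ Finset.range (N + 1), a ^ m * b ^ (N - m) * (N.choose m)
      ≤ ∑ _m ∈ Finset.range (N + 1), N.choose k * a ^ k * b ^ (N - k) := by
        refine Finset.sum_le_sum fun m hm => ?_
        have := choose_largest_term N k a b hb h hk m (by have := Finset.mem_range.1 hm; omega)
        calc a ^ m * b ^ (N - m) * N.choose m = N.choose m * a ^ m * b ^ (N - m) := by ring
          _ ≤ _ := this
    _ = _ := by simp

/-- `27 ^ m ≤ (3 m + 1) C(3m, m) 4 ^ m`. -/
theorem choose_three (m : ℕ) : 27 ^ m ≤ (3 * m + 1) * ((3 * m).choose m * 4 ^ m) := by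
  have h := pow_le_succ_mul_choose (3 * m) m 1 2 (by norm_num) (by ring) (by omega)
  have e1 : (1 + 2) ^ (3 * m) = 27 ^ m := by rw [pow_mul]; norm_num
  have e2 : 2 ^ (3 * m - m) = 4 ^ m := by
    have : 3 * m - m = 2 * m := by omega
    rw [this, pow_mul]; norm_num
  rw [e1, e2] at h
  simpa using h

/-- `(11^11)^m ≤ (11 m + 1) C(11m, m) (10^10)^m`. -/
theorem choose_eleven (m : ℕ) :
    (11 ^ 11) ^ m ≤ (11 * m + 1) * ((11 * m).choose m * (10 ^ 10) ^ m) := by
  have h := pow_le_succ_mul_choose (11 * m) m 1 10 (by norm_num) (by ring) (by omega)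
  have e1 : (1 + 10) ^ (11 * m) = (11 ^ 11) ^ m := by rw [pow_mul]
  have e2 : 10 ^ (11 * m - m) = (10 ^ 10) ^ m := by
    have : 11 * m - m = 10 * m := by omega
    rw [this, pow_mul]
  rw [e1, e2] at h
  simpa using h

/-- `(4^4)^m ≤ (4 m + 1) C(4m, m) (3^3)^m`. -/
theorem choose_four (m : ℕ) :
    (4 ^ 4) ^ m ≤ (4 * m + 1) * ((4 * m).choose m * (3 ^ 3) ^ m) := by
  have h := pow_le_succ_mul_choose (4 * m) m 1 3 (by norm_num) (by ring) (by omega)
  have e1 : (1 + 3) ^ (4 * m) = (4 ^ 4) ^ m := by rw [pow_mul]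
  have e2 : 3 ^ (4 * m - m) = (3 ^ 3) ^ m := by
    have : 4 * m - m = 3 * m := by omega
    rw [this, pow_mul]
  rw [e1, e2] at h
  simpa using h

/-- Unimodality: `C(j, m) ≤ C(j, i)` when `m ≤ i ≤ j - m`. -/
theorem choose_le_of_between {j m i : ℕ} (h1 : m ≤ i) (h2 : i + m ≤ j) :
    j.choose m ≤ j.choose i := by
  have key : ∀ r, m ≤ r → r ≤ j / 2 → j.choose m ≤ j.choose r := by
    intro r hr
    induction r, hr using Nat.le_induction with
    | base => intro _; exact le_rfl
    | succ r hr ih =>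
      intro h3
      exact le_trans (ih (by omega)) (Nat.choose_le_succ_of_lt_half_left (by omega))
  by_cases h3 : i ≤ j / 2
  · exact key i h1 h3
  · have e : j.choose i = j.choose (j - i) := (Nat.choose_symm (by omega)).symm
    rw [e]
    exact key (j - i) (by omega) (by omega)

/-- The step `C(N-1, t+1) (t+1) N = C(N,t) (N-t) (N-t-1)`, `N = M + 1`. -/
theorem choose_step (M t : ℕ) (ht : t ≤ M) :
    M.choose (t + 1) * (t + 1) * (M + 1) = (M + 1).choose t * (M + 1 - t) * (M - t) := by
  have h1 : M.choose (t + 1) * (t + 1) = M.choose t * (M - t) := Nat.choose_succ_right_eq M t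
  have h2 : M.choose t * (M + 1) = (M + 1).choose t * (M + 1 - t) := Nat.choose_mul_succ_eq M t
  rw [h1]
  calc M.choose t * (M - t) * (M + 1) = (M.choose t * (M + 1)) * (M - t) := by ring
    _ = _ := by rw [h2]

/-- `C(n, i) ≤ exp(i (1 + log(n/i)))`. -/
theorem choose_le_exp (n i : ℕ) (hi : 1 ≤ i) (hn : 1 ≤ n) :
    (n.choose i : ℝ) ≤ Real.exp (i * (1 + Real.log ((n : ℝ) / i))) := by
  have h1 : (n.choose i : ℝ) ≤ (n : ℝ) ^ i / (i.factorial : ℝ) := Nat.choose_le_pow_div i n
  have hi0 : (0 : ℝ) < i := by exact_mod_cast hi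
  have hn0 : (0 : ℝ) < n := by exact_mod_cast hn
  have h2 : (i : ℝ) ^ i / (i.factorial : ℝ) ≤ Real.exp i := Real.pow_div_factorial_le_exp _ hi0.le i
  have hf : (0 : ℝ) < i.factorial := by exact_mod_cast Nat.factorial_pos i
  have h3 : (n : ℝ) ^ i / (i.factorial : ℝ) ≤ ((n : ℝ) / i) ^ i * Real.exp i := by
    rw [div_pow]
    have h4 : (n : ℝ) ^ i / (i.factorial : ℝ) = (n : ℝ) ^ i / (i : ℝ) ^ i * ((i : ℝ) ^ i / (i.factorial : ℝ)) := by
      field_simp
    rw [h4]
    exact mul_le_mul_of_nonneg_left h2 (by positivity)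
  refine le_trans h1 (le_trans h3 (le_of_eq ?_))
  rw [mul_add, mul_one, Real.exp_add, mul_comm (i : ℝ) (Real.log _), Real.exp_mul, Real.exp_log (by positivity)]
  rw [Real.rpow_natCast]
  ring

/-- `C(n, i) x^i (1-x)^(n-i) ≤ 1`. -/
theorem choose_mul_pow_le_one (n i : ℕ) (hi : i ≤ n) {x : ℝ} (h0 : 0 ≤ x) (h1 : x ≤ 1) :
    (n.choose i : ℝ) * x ^ i * (1 - x) ^ (n - i) ≤ 1 := by
  have h := add_pow x (1 - x) n
  have e : x + (1 - x) = 1 := by ring
  rw [e, one_pow] at h
  have hmem : i ∈ Finset.range (n + 1) := Finset.mem_range.2 (by omega)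
  have hle := Finset.single_le_sum
    (f := fun m => x ^ m * (1 - x) ^ (n - m) * (n.choose m : ℝ))
    (fun m _ => mul_nonneg (mul_nonneg (pow_nonneg h0 _) (pow_nonneg (by linarith) _)) (by positivity)) hmem
  calc (n.choose i : ℝ) * x ^ i * (1 - x) ^ (n - i) = x ^ i * (1 - x) ^ (n - i) * (n.choose i : ℝ) := by ring
    _ ≤ _ := hle
    _ = 1 := h.symm

/-- Entropy-type upper bound: for `x ≤ 1/2` and `i ≤ x n`,
`log C(n,i) ≤ n (x / (1-x) + x log((1-x)/x))`. -/
theorem log_choose_le (n i : ℕ) (hn : 1 ≤ n) (hin : i ≤ n) {x : ℝ} (h0 : 0 < x) (h1 : x ≤ 1 / 2)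
    (hix : (i : ℝ) ≤ x * n) :
    Real.log (n.choose i) ≤ n * (x / (1 - x) + x * Real.log ((1 - x) / x)) := by
  have hc : (0 : ℝ) < n.choose i := by exact_mod_cast Nat.choose_pos hin
  have hx1 : 0 < 1 - x := by linarith
  have h2 := choose_mul_pow_le_one n i hin h0.le (by linarith)
  have h3 : Real.log ((n.choose i : ℝ) * x ^ i * (1 - x) ^ (n - i)) ≤ 0 :=
    Real.log_nonpos (by positivity) h2
  rw [Real.log_mul (by positivity) (by positivity), Real.log_mul (by positivity) (by positivity),
    Real.log_pow, Real.log_pow] at h3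
  have hn0 : (0 : ℝ) ≤ n := by positivity
  have hsub : ((n - i : ℕ) : ℝ) = (n : ℝ) - i := by
    rw [Nat.cast_sub hin]
  rw [hsub] at h3
  have hlog : Real.log ((1 - x) / x) = Real.log (1 - x) - Real.log x :=
    Real.log_div hx1.ne' h0.ne'
  have hlogpos : 0 ≤ Real.log ((1 - x) / x) := by
    apply Real.log_nonneg
    rw [le_div_iff₀ h0]
    linarith
  have h4 : -Real.log (1 - x) ≤ x / (1 - x) := by
    have h5 := Real.one_sub_inv_le_log_of_pos hx1
    have h6 : 1 - (1 - x)⁻¹ = -(x / (1 - x)) := by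
      field_simp
      ring
    rw [h6] at h5
    linarith
  have h7 : (i : ℝ) * Real.log ((1 - x) / x) ≤ x * n * Real.log ((1 - x) / x) :=
    mul_le_mul_of_nonneg_right hix hlogpos
  have h8 : (n : ℝ) * (-Real.log (1 - x)) ≤ n * (x / (1 - x)) := mul_le_mul_of_nonneg_left h4 hn0
  rw [hlog] at h7 ⊢
  nlinarith

end Crest.Agent.Thorp.Numerics
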