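import Crest.Agent.Lib.Thorp.NumW
import Crest.Agent.Lib.Thorp.NumChoose

/-!
# Thorp shuffle (S0222), numerics: the final asymptotics of Section 6(e) of #850.

Low part: `∑_{i ≤ n/12} C(n,i) β_i^15 Φ_i → 0`, High part: `β^15 Φ_n → 0`, for `n = 2^D`.
-/

set_option autoImplicit false
set_option exponentiation.threshold 1000

namespace Crest.Agent.Thorp.Numerics

open Finset Real

/-! ### Small `i`: the bracket -/

/-- The dilation exponent. -/
def sOf (L : ℕ) : ℕ := L / 8 + 1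

theorem small_bracket_low {L : ℕ} (h1 : 8 ≤ L) (h2 : L < 48) :
    1 + ((L : ℝ) + 1) * Real.log 2 + 15 * (2 ^ (sOf L) * rhoB (L - sOf L))
      - 15 * (sOf L : ℝ) * Real.log 2 + rhoB L ≤ -(L : ℝ) / 4 := by
  have h3 := Real.log_two_gt_d9
  have h4 := Real.log_two_lt_d9
  interval_cases L <;> norm_num [sOf, rhoB, RT] <;> linarith

theorem two_pow_mul_rho {L : ℕ} (h1 : 48 ≤ L) : 2 ^ (sOf L) * rhoB (L - sOf L) ≤ 3 / 10 := by
  have hs : 8 * (sOf L - 1) ≤ L := by unfold sOf; omega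
  have hs1 : 7 ≤ sOf L := by unfold sOf; omega
  have hL : 41 ≤ L - sOf L := by unfold sOf; omega
  rw [rhoB_high hL]
  have h2 : 7 * sOf L - 8 ≤ L - sOf L := by omega
  have h3 : (7 / 8 : ℝ) ^ (L - sOf L) ≤ (7 / 8 : ℝ) ^ (7 * sOf L - 8) :=
    pow_le_pow_of_le_one (by norm_num) (by norm_num) h2
  obtain ⟨u, hu⟩ : ∃ u, sOf L = u + 2 := ⟨sOf L - 2, by omega⟩
  have e : (2 : ℝ) ^ (sOf L) * (7 / 8 : ℝ) ^ (7 * sOf L - 8) =
      (2 * (7 / 8 : ℝ) ^ 7) ^ u * (4 * (7 / 8 : ℝ) ^ 6) := by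
    rw [hu]
    have : 7 * (u + 2) - 8 = 7 * u + 6 := by omega
    rw [this, pow_add, pow_add, pow_mul, mul_pow]
    ring
  have h5 : (2 * (7 / 8 : ℝ) ^ 7) ^ u ≤ 1 := pow_le_one₀ (by positivity) (by norm_num)
  have h6 : (2 : ℝ) ^ (sOf L) * (7 / 8 : ℝ) ^ (7 * sOf L - 8) ≤ 4 * (7 / 8 : ℝ) ^ 6 := by
    rw [e]
    have h7 : (0 : ℝ) ≤ 4 * (7 / 8 : ℝ) ^ 6 := by positivity
    nlinarith
  have h8 : (0 : ℝ) < 2 ^ (sOf L) := by positivity
  have h9 : (2 : ℝ) ^ (sOf L) * (7 / 8 : ℝ) ^ (L - sOf L) ≤ 4 * (7 / 8 : ℝ) ^ 6 :=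
    le_trans (mul_le_mul_of_nonneg_left h3 h8.le) h6
  have h10 : (4 * (7 / 8 : ℝ) ^ 6) ≤ 3 := by norm_num
  nlinarith

theorem small_bracket_high {L : ℕ} (h1 : 48 ≤ L) :
    1 + ((L : ℝ) + 1) * Real.log 2 + 15 * (2 ^ (sOf L) * rhoB (L - sOf L))
      - 15 * (sOf L : ℝ) * Real.log 2 + rhoB L ≤ -(L : ℝ) / 4 := by
  have h2 := two_pow_mul_rho h1
  have h3 : rhoB L ≤ 1 / 1000 := by
    have h4 := rhoB_anti h1
    refine le_trans h4 ?_
    rw [rhoB_high (by norm_num)]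
    norm_num
  have hs : ((L : ℝ) + 1) / 8 ≤ (sOf L : ℝ) := by
    have : L + 1 ≤ 8 * sOf L := by unfold sOf; omega
    have h' : ((L + 1 : ℕ) : ℝ) ≤ ((8 * sOf L : ℕ) : ℝ) := by exact_mod_cast this
    push_cast at h'
    linarith
  have hlog := Real.log_two_gt_d9
  have hlog' := Real.log_two_lt_d9
  have hL : (48 : ℝ) ≤ L := by exact_mod_cast h1
  have h5 : 15 * (((L : ℝ) + 1) / 8) * Real.log 2 ≤ 15 * (sOf L : ℝ) * Real.log 2 := by
    have : (0 : ℝ) ≤ Real.log 2 := by linarith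
    nlinarith
  nlinarith

theorem small_bracket {L : ℕ} (h1 : 8 ≤ L) :
    1 + ((L : ℝ) + 1) * Real.log 2 + 15 * (2 ^ (sOf L) * rhoB (L - sOf L))
      - 15 * (sOf L : ℝ) * Real.log 2 + rhoB L ≤ -(L : ℝ) / 4 := by
  by_cases h : L < 48
  · exact small_bracket_low h1 h
  · exact small_bracket_high (by omega)

/-! ### Small `i`: one term -/

section Small

variable {D i : ℕ} {Φ bq : ℕ → ℝ}

theorem small_term
    (hΦ : ∀ j, 1 ≤ j → j < 2 ^ D → Φ j ≤ Real.exp ((j : ℝ) * rhoB (D - Nat.clog 2 j)))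
    (hb : ∀ j, i ≤ j → i + j ≤ 2 ^ D → bq i * (j.choose i : ℝ) ≤ Φ j) (hb0 : 0 ≤ bq i)
    (hi : 1 ≤ i) (hL : 8 ≤ D - Nat.clog 2 i) :
    ((2 ^ D).choose i : ℝ) * (bq i) ^ 15 * Φ i ≤
      Real.exp (-((i : ℝ) * ((D - Nat.clog 2 i : ℕ) : ℝ)) / 4) := by
  set c := Nat.clog 2 i with hc
  set L := D - c with hLdef
  have hcL : c + L = D := by omega
  set s := sOf L with hs
  have hsL : s + 1 ≤ L := by rw [hs]; unfold sOf; omega
  have hi2 : i ≤ 2 ^ c := Nat.le_pow_clog (by norm_num) i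
  set j := 2 ^ s * i with hj
  have hij : i ≤ j := by
    rw [hj]
    exact Nat.le_mul_of_pos_left _ (by positivity)
  have hsum : i + j ≤ 2 ^ D := by
    have h1 : 1 + 2 ^ s ≤ 2 ^ (s + 1) := by
      have : 1 ≤ 2 ^ s := Nat.one_le_two_pow
      rw [pow_succ]; omega
    have h2 : i + j = (1 + 2 ^ s) * i := by rw [hj]; ring
    rw [h2]
    calc (1 + 2 ^ s) * i ≤ 2 ^ (s + 1) * 2 ^ c := Nat.mul_le_mul h1 hi2
      _ = 2 ^ (s + 1 + c) := (pow_add 2 (s + 1) c).symm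
      _ ≤ 2 ^ D := Nat.pow_le_pow_right (by norm_num) (by omega)
  have hj1 : 1 ≤ j := by omega
  have hjlt : j < 2 ^ D := by omega
  have hilt : i < 2 ^ D := by omega
  have hclogj : Nat.clog 2 j ≤ c + s := by
    apply Nat.clog_le_of_le_pow
    rw [hj, pow_add, mul_comm (2 ^ s) i]
    exact Nat.mul_le_mul_right _ hi2
  have hρ : rhoB (D - Nat.clog 2 j) ≤ rhoB (L - s) := rhoB_anti (by omega)
  have hj0 : (0 : ℝ) ≤ (j : ℝ) := by positivity
  have hi0 : (0 : ℝ) < (i : ℝ) := by exact_mod_cast hi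
  set ρ1 := rhoB (L - s) with hρ1
  have hΦj : Φ j ≤ Real.exp ((j : ℝ) * ρ1) :=
    le_trans (hΦ j hj1 hjlt) (Real.exp_le_exp.2 (mul_le_mul_of_nonneg_left hρ hj0))
  -- lower bound for the binomial
  have hcj : ((2 : ℝ) ^ s) ^ i ≤ (j.choose i : ℝ) := by
    have h := pow_le_choose_mul (2 ^ s) i
    have h' : (((2 ^ s) ^ i : ℕ) : ℝ) ≤ (((2 ^ s * i).choose i : ℕ) : ℝ) := by exact_mod_cast h
    push_cast at h'
    rw [hj]
    exact h'
  have hlog2 : 0 < Real.log 2 := Real.log_pos (by norm_num)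
  have e2 : ((2 : ℝ) ^ s) ^ i = Real.exp ((i : ℝ) * ((s : ℝ) * Real.log 2)) := by
    rw [← pow_mul, mul_comm s i, pow_mul]
    have : (2 : ℝ) ^ i = Real.exp ((i : ℝ) * Real.log 2) := by
      rw [mul_comm, Real.exp_mul, Real.exp_log (by norm_num), Real.rpow_natCast]
    rw [this, ← Real.exp_nat_mul]
    congr 1
    ring
  have hbq : bq i ≤ Real.exp ((i : ℝ) * (2 ^ s * ρ1 - (s : ℝ) * Real.log 2)) := by
    have h1 := hb j hij hsum
    have h2 : bq i * ((2 : ℝ) ^ s) ^ i ≤ Φ j := le_trans (mul_le_mul_of_nonneg_left hcj hb0) h1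
    have h3 : bq i * Real.exp ((i : ℝ) * ((s : ℝ) * Real.log 2)) ≤ Real.exp ((j : ℝ) * ρ1) := by
      rw [← e2]; exact le_trans h2 hΦj
    have e3 : Real.exp ((i : ℝ) * (2 ^ s * ρ1 - (s : ℝ) * Real.log 2)) =
        Real.exp ((j : ℝ) * ρ1) / Real.exp ((i : ℝ) * ((s : ℝ) * Real.log 2)) := by
      rw [← Real.exp_sub]
      congr 1
      rw [hj]; push_cast; ring
    rw [e3, le_div_iff₀ (Real.exp_pos _)]
    exact h3
  have hbq15 : (bq i) ^ 15 ≤ Real.exp (15 * ((i : ℝ) * (2 ^ s * ρ1 - (s : ℝ) * Real.log 2))) := by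
    have := pow_le_pow_left₀ hb0 hbq 15
    rwa [← Real.exp_nat_mul] at this
  have hΦi : Φ i ≤ Real.exp ((i : ℝ) * rhoB L) := hΦ i hi hilt
  -- upper bound for C(n,i)
  have hn : (1 : ℕ) ≤ 2 ^ D := Nat.one_le_two_pow
  have hC := choose_le_exp (2 ^ D) i hi hn
  have hnL : ((2 ^ D : ℕ) : ℝ) / i ≤ 2 ^ (L + 1) := by
    rw [div_le_iff₀ hi0]
    have key : 2 ^ D ≤ 2 ^ (L + 1) * i := by
      by_cases hi1 : i = 1
      · have hc0 : c = 0 := by rw [hc, hi1]; simp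
        rw [hi1, mul_one]
        exact Nat.pow_le_pow_right (by norm_num) (by omega)
      · have h1 := Nat.pow_pred_clog_lt_self (b := 2) (by norm_num) (show 1 < i by omega)
        have hc1 : 0 < c := Nat.clog_pos (by norm_num) (show 1 < i by omega)
        have e : D = (L + 1) + (c - 1) := by omega
        rw [e, pow_add]
        exact Nat.mul_le_mul_left _ (le_of_lt h1)
    exact_mod_cast key
  have hlogn : Real.log (((2 ^ D : ℕ) : ℝ) / i) ≤ ((L : ℝ) + 1) * Real.log 2 := by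
    have h1 : (0 : ℝ) < ((2 ^ D : ℕ) : ℝ) / i := by positivity
    have h2 := Real.log_le_log h1 hnL
    rw [Real.log_pow] at h2
    push_cast at h2 ⊢
    exact h2
  have hC' : ((2 ^ D).choose i : ℝ) ≤ Real.exp ((i : ℝ) * (1 + ((L : ℝ) + 1) * Real.log 2)) := by
    refine le_trans hC (Real.exp_le_exp.2 ?_)
    exact mul_le_mul_of_nonneg_left (by linarith) hi0.le
  have hC0 : (0 : ℝ) ≤ ((2 ^ D).choose i : ℝ) := by positivity
  have hb15 : 0 ≤ (bq i) ^ 15 := by positivity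
  -- multiply
  have hprod : ((2 ^ D).choose i : ℝ) * (bq i) ^ 15 * Φ i ≤
      Real.exp ((i : ℝ) * (1 + ((L : ℝ) + 1) * Real.log 2)) *
        Real.exp (15 * ((i : ℝ) * (2 ^ s * ρ1 - (s : ℝ) * Real.log 2))) *
        Real.exp ((i : ℝ) * rhoB L) := by
    have h1 : ((2 ^ D).choose i : ℝ) * (bq i) ^ 15 ≤
        Real.exp ((i : ℝ) * (1 + ((L : ℝ) + 1) * Real.log 2)) *
        Real.exp (15 * ((i : ℝ) * (2 ^ s * ρ1 - (s : ℝ) * Real.log 2))) :=
      mul_le_mul hC' hbq15 hb15 (Real.exp_pos _).le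
    calc ((2 ^ D).choose i : ℝ) * (bq i) ^ 15 * Φ i
        ≤ ((2 ^ D).choose i : ℝ) * (bq i) ^ 15 * Real.exp ((i : ℝ) * rhoB L) :=
          mul_le_mul_of_nonneg_left hΦi (mul_nonneg hC0 hb15)
      _ ≤ _ := mul_le_mul_of_nonneg_right h1 (Real.exp_pos _).le
  refine le_trans hprod ?_
  rw [← Real.exp_add, ← Real.exp_add]
  apply Real.exp_le_exp.2
  have hbr := small_bracket hL
  have hmul := mul_le_mul_of_nonneg_left hbr hi0.le
  have e5 : (i : ℝ) * (1 + ((L : ℝ) + 1) * Real.log 2) +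
      15 * ((i : ℝ) * (2 ^ s * ρ1 - (s : ℝ) * Real.log 2)) + (i : ℝ) * rhoB L =
      (i : ℝ) * (1 + ((L : ℝ) + 1) * Real.log 2 + 15 * (2 ^ s * ρ1) - 15 * (s : ℝ) * Real.log 2 + rhoB L) := by
    ring
  rw [e5]
  calc _ ≤ (i : ℝ) * (-(L : ℝ) / 4) := hmul
    _ = _ := by ring

end Small

/-- The combinatorial inequality `2 i L ≥ 8 i + D`. -/
theorem iL_lower {D i : ℕ} (hD : 16 ≤ D) (hi : 1 ≤ i) (hL : 8 ≤ D - Nat.clog 2 i) :
    8 * i + D ≤ 2 * (i * (D - Nat.clog 2 i)) := by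
  have hc : Nat.clog 2 i ≤ i := by
    apply Nat.clog_le_of_le_pow
    exact le_of_lt Nat.lt_two_pow_self
  set L := D - Nat.clog 2 i with hLdef
  have hDL : D ≤ L + i := by omega
  obtain ⟨k, rfl⟩ : ∃ k, i = k + 1 := ⟨i - 1, by omega⟩
  have h1 : 8 * k ≤ k * L := by nlinarith
  nlinarith

theorem sum_exp_neg_le (m : ℕ) : ∑ i ∈ Finset.Icc 1 m, Real.exp (-(i : ℝ)) ≤ 1 := by
  have h1 : ∀ i : ℕ, Real.exp (-(i : ℝ)) ≤ (1 / 2 : ℝ) ^ i := by
    intro i
    have h2 : Real.exp (-1) ≤ 1 / 2 := by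
      rw [Real.exp_neg, inv_eq_one_div]
      apply one_div_le_one_div_of_le (by norm_num)
      have := Real.add_one_le_exp (1 : ℝ)
      linarith
    have h3 : Real.exp (-(i : ℝ)) = Real.exp (-1) ^ i := by
      rw [← Real.exp_nat_mul]; congr 1; ring
    rw [h3]
    exact pow_le_pow_left₀ (Real.exp_pos _).le h2 i
  have h4 : ∀ m : ℕ, ∑ i ∈ Finset.Icc 1 m, (1 / 2 : ℝ) ^ i = 1 - (1 / 2) ^ m := by
    intro m
    induction m with
    | zero => simp
    | succ m ih =>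
      rw [Finset.sum_Icc_succ_top (by omega), ih]
      ring
  calc ∑ i ∈ Finset.Icc 1 m, Real.exp (-(i : ℝ)) ≤ ∑ i ∈ Finset.Icc 1 m, (1 / 2 : ℝ) ^ i :=
        Finset.sum_le_sum fun i _ => h1 i
    _ = 1 - (1 / 2) ^ m := h4 m
    _ ≤ 1 := by
        have : (0 : ℝ) ≤ (1 / 2) ^ m := by positivity
        linarith

/-- The total of the small terms. -/
theorem small_sum {D : ℕ} (hD : 16 ≤ D) (S : Finset ℕ) (hS : ∀ i ∈ S, 1 ≤ i ∧ 8 ≤ D - Nat.clog 2 i)
    (m : ℕ) (hSm : S ⊆ Finset.Icc 1 m) :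
    ∑ i ∈ S, Real.exp (-((i : ℝ) * ((D - Nat.clog 2 i : ℕ) : ℝ)) / 4) ≤ Real.exp (-(D : ℝ) / 8) := by
  have h1 : ∀ i ∈ S, Real.exp (-((i : ℝ) * ((D - Nat.clog 2 i : ℕ) : ℝ)) / 4) ≤
      Real.exp (-(D : ℝ) / 8) * Real.exp (-(i : ℝ)) := by
    intro i hi
    obtain ⟨h2, h3⟩ := hS i hi
    rw [← Real.exp_add]
    apply Real.exp_le_exp.2
    have h4 := iL_lower hD h2 h3
    have h5 : ((8 * i + D : ℕ) : ℝ) ≤ ((2 * (i * (D - Nat.clog 2 i)) : ℕ) : ℝ) := by exact_mod_cast h4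
    push_cast at h5
    have hc : ((D - Nat.clog 2 i : ℕ) : ℝ) = ((D - Nat.clog 2 i : ℕ) : ℝ) := rfl
    linarith
  calc _ ≤ ∑ i ∈ S, Real.exp (-(D : ℝ) / 8) * Real.exp (-(i : ℝ)) := Finset.sum_le_sum h1
    _ = Real.exp (-(D : ℝ) / 8) * ∑ i ∈ S, Real.exp (-(i : ℝ)) := (Finset.mul_sum _ _ _).symm
    _ ≤ Real.exp (-(D : ℝ) / 8) * 1 := by
        apply mul_le_mul_of_nonneg_left _ (Real.exp_pos _).le
        exact le_trans (Finset.sum_le_sum_of_subset_of_nonneg hSm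
          (fun i _ _ => (Real.exp_pos _).le)) (sum_exp_neg_le m)
    _ = _ := mul_one _

/-! ### Middle range of `i` -/

theorem log_le_of_pow_le {x : ℝ} (hx : 0 < x) (p q : ℕ) (hq : 0 < q)
    (h : x ^ q ≤ (2.7182818283 : ℝ) ^ p) : Real.log x ≤ (p : ℝ) / q := by
  have hq' : (0 : ℝ) < q := by exact_mod_cast hq
  have h1 : (2.7182818283 : ℝ) ^ p ≤ Real.exp 1 ^ p :=
    pow_le_pow_left₀ (by norm_num) Real.exp_one_gt_d9.le p
  have h2 : Real.log (x ^ q) ≤ Real.log (Real.exp 1 ^ p) :=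
    Real.log_le_log (by positivity) (le_trans h h1)
  rw [Real.log_pow, Real.log_pow, Real.log_exp] at h2
  rw [le_div_iff₀ hq']
  linarith

theorem le_log_of_le_pow {x : ℝ} (hx : 0 < x) (p q : ℕ) (hq : 0 < q)
    (h : (2.7182818286 : ℝ) ^ p ≤ x ^ q) : (p : ℝ) / q ≤ Real.log x := by
  have hq' : (0 : ℝ) < q := by exact_mod_cast hq
  have h1 : Real.exp 1 ^ p ≤ (2.7182818286 : ℝ) ^ p :=
    pow_le_pow_left₀ (Real.exp_pos _).le Real.exp_one_lt_d9.le p
  have h2 : Real.log (Real.exp 1 ^ p) ≤ Real.log (x ^ q) :=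
    Real.log_le_log (by positivity) (le_trans h1 h)
  rw [Real.log_pow, Real.log_pow, Real.log_exp] at h2
  rw [div_le_iff₀ hq']
  linarith

theorem log_27_4 : (1.905 : ℝ) ≤ Real.log (27 / 4) := by
  have := le_log_of_le_pow (x := 27 / 4) (by norm_num) 381 200 (by norm_num) (by norm_num)
  norm_num at this ⊢
  linarith

theorem log_11 : Real.log 11 ≤ 2.4 := by
  have := log_le_of_pow_le (x := 11) (by norm_num) 12 5 (by norm_num) (by norm_num)
  norm_num at this ⊢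
  linarith

theorem log_23 : Real.log 23 ≤ 3.14 := by
  have := log_le_of_pow_le (x := 23) (by norm_num) 157 50 (by norm_num) (by norm_num)
  norm_num at this ⊢
  linarith

theorem log_47 : Real.log 47 ≤ 3.86 := by
  have := log_le_of_pow_le (x := 47) (by norm_num) 193 50 (by norm_num) (by norm_num)
  norm_num at this ⊢
  linarith

theorem log_95 : Real.log 95 ≤ 4.56 := by
  have := log_le_of_pow_le (x := 95) (by norm_num) 114 25 (by norm_num) (by norm_num)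
  norm_num at this ⊢
  linarith

theorem log_191 : Real.log 191 ≤ 5.26 := by
  have := log_le_of_pow_le (x := 191) (by norm_num) 263 50 (by norm_num) (by norm_num)
  norm_num at this ⊢
  linarith

/-- Entropy constants of the five cells. -/
noncomputable def aS : ℕ → ℝ
  | 3 => 1 / 11 + 2.4 / 12
  | 4 => 1 / 23 + 3.14 / 24
  | 5 => 1 / 47 + 3.86 / 48
  | 6 => 1 / 95 + 4.56 / 96
  | 7 => 1 / 191 + 5.26 / 192
  | _ => 0

theorem entropy_bound {s : ℕ} (h3 : 3 ≤ s) (h7 : s ≤ 7) :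
    (2 / 3 / 2 ^ s : ℝ) / (1 - 2 / 3 / 2 ^ s) +
      (2 / 3 / 2 ^ s : ℝ) * Real.log ((1 - 2 / 3 / 2 ^ s) / (2 / 3 / 2 ^ s)) ≤ aS s := by
  interval_cases s
  · have e1 : ((1 : ℝ) - 2 / 3 / 2 ^ 3) / (2 / 3 / 2 ^ 3) = 11 := by norm_num
    rw [e1]; simp only [aS]
    have := log_11
    norm_num at this ⊢
    linarith
  · have e1 : ((1 : ℝ) - 2 / 3 / 2 ^ 4) / (2 / 3 / 2 ^ 4) = 23 := by norm_num
    rw [e1]; simp only [aS]
    have := log_23
    norm_num at this ⊢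
    linarith
  · have e1 : ((1 : ℝ) - 2 / 3 / 2 ^ 5) / (2 / 3 / 2 ^ 5) = 47 := by norm_num
    rw [e1]; simp only [aS]
    have := log_47
    norm_num at this ⊢
    linarith
  · have e1 : ((1 : ℝ) - 2 / 3 / 2 ^ 6) / (2 / 3 / 2 ^ 6) = 95 := by norm_num
    rw [e1]; simp only [aS]
    have := log_95
    norm_num at this ⊢
    linarith
  · have e1 : ((1 : ℝ) - 2 / 3 / 2 ^ 7) / (2 / 3 / 2 ^ 7) = 191 := by norm_num
    rw [e1]; simp only [aS]
    have := log_191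
    norm_num at this ⊢
    linarith

theorem mid_numeric {s : ℕ} (h3 : 3 ≤ s) (h7 : s ≤ 7) {n j : ℝ} (hj : j * 2 ^ s = n) (hn : 0 ≤ n) :
    n * aS s + 15 * (j * (rhoB s - 0.635)) + 2 / 3 * j * rhoB s ≤ -(0.02 * n) := by
  interval_cases s <;> simp only [aS] <;> rw [rhoB_low (by norm_num)] <;> simp only [RT] <;>
    push_cast <;> norm_num at hj ⊢ <;> subst hj <;> nlinarith

section Mid

variable {D i : ℕ} {Φ bq : ℕ → ℝ}

theorem mid_term
    (hΦ : ∀ j, 1 ≤ j → j < 2 ^ D → Φ j ≤ Real.exp ((j : ℝ) * rhoB (D - Nat.clog 2 j)))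
    (hb : ∀ j, i ≤ j → i + j ≤ 2 ^ D → bq i * (j.choose i : ℝ) ≤ Φ j) (hb0 : 0 ≤ bq i)
    (hD : 16 ≤ D) (hi : 1 ≤ i) (h12 : 12 * i ≤ 2 ^ D) (hL : D - Nat.clog 2 i ≤ 7) :
    ((2 ^ D).choose i : ℝ) * (bq i) ^ 15 * Φ i ≤
      Real.exp (-(0.02 * (2 : ℝ) ^ D) + 15 * Real.log ((2 : ℝ) ^ D + 1) + 20) := by
  have h3i1 : 1 < 3 * i := by omega
  set c3 := Nat.clog 2 (3 * i) with hc3
  have hc3pos : 0 < c3 := Nat.clog_pos (by norm_num) h3i1
  have h_a : 2 ^ (c3 - 1) < 3 * i := Nat.pow_pred_clog_lt_self (b := 2) (by norm_num) h3i1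
  have h_b : 3 * i ≤ 2 ^ c3 := Nat.le_pow_clog (by norm_num) _
  -- range of c3
  have hD2 : 2 ^ D = 4 * 2 ^ (D - 2) := by
    have : D = 2 + (D - 2) := by omega
    conv_lhs => rw [this, pow_add]
    norm_num
  have hc3_up : c3 ≤ D - 2 := by
    apply Nat.clog_le_of_le_pow
    omega
  have hci : D - 7 ≤ Nat.clog 2 i := by omega
  have hi_big : 1 < i := by
    by_contra hc
    have : i = 1 := by omega
    rw [this] at hci
    simp at hci
    omega
  have hc3_lo : D - 6 ≤ c3 := by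
    by_contra hc
    have h1 : c3 ≤ D - 7 := by omega
    have h2 : 2 ^ c3 ≤ 2 ^ (D - 7) := Nat.pow_le_pow_right (by norm_num) h1
    have h4 := Nat.pow_pred_clog_lt_self (b := 2) (by norm_num) hi_big
    have h5 : 2 ^ (D - 8) ≤ 2 ^ (Nat.clog 2 i).pred := by
      apply Nat.pow_le_pow_right (by norm_num)
      simp only [Nat.pred_eq_sub_one]
      omega
    have h6 : 2 ^ (D - 7) = 2 * 2 ^ (D - 8) := by
      have : D - 7 = 1 + (D - 8) := by omega
      rw [this, pow_add]; norm_num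
    omega
  set s := D + 1 - c3 with hs
  have hs3 : 3 ≤ s := by omega
  have hs7 : s ≤ 7 := by omega
  have hc1 : c3 - 1 = D - s := by omega
  set j := 2 ^ (D - s) with hj
  rw [hc1] at h_a
  have h_b' : 3 * i ≤ 2 * j := by
    have : 2 ^ c3 = 2 * j := by
      have e : c3 = 1 + (D - s) := by omega
      rw [hj, e, pow_add]; norm_num
    omega
  have hij : i ≤ j := by omega
  have hnj : 2 ^ D = 2 ^ s * j := by
    rw [hj, ← pow_add]; congr 1; omega
  have h8j : 8 * j ≤ 2 ^ D := by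
    rw [hnj]
    exact Nat.mul_le_mul_right _ (by
      calc 8 = 2 ^ 3 := by norm_num
        _ ≤ 2 ^ s := Nat.pow_le_pow_right (by norm_num) hs3)
  have hj1 : 1 ≤ j := by omega
  have hsum : i + j ≤ 2 ^ D := by omega
  have hjlt : j < 2 ^ D := by omega
  have hilt : i < 2 ^ D := by omega
  -- the binomial lower bound
  set m := j / 3 with hm
  have hm1 : 3 * m ≤ j := by omega
  have hm2 : j ≤ 3 * m + 2 := by omega
  have hc1' : (3 * m).choose m ≤ j.choose i := by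
    have h1 : (3 * m).choose m ≤ j.choose m := Nat.choose_le_choose m hm1
    have h2 : j.choose m ≤ j.choose i := choose_le_of_between (by omega) (by omega)
    exact le_trans h1 h2
  have h27 := choose_three m
  set Cj : ℝ := (j.choose i : ℝ) with hCj
  have hnR : ((2 ^ D : ℕ) : ℝ) = (2 : ℝ) ^ D := by push_cast; ring
  set n : ℝ := (2 : ℝ) ^ D with hn
  have hjR : ((j : ℕ) : ℝ) * 2 ^ s = n := by
    have h : ((2 ^ s * j : ℕ) : ℝ) = ((2 ^ D : ℕ) : ℝ) := by rw [hnj]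
    rw [hnR] at h
    rw [← h]
    push_cast
    ring
  have hn0 : 0 ≤ n := by positivity
  have hjn : (j : ℝ) + 1 ≤ n + 1 := by
    have : (j : ℝ) ≤ n := by
      rw [← hnR]; exact_mod_cast hjlt.le
    linarith
  have hexp : Real.exp (0.635 * (j : ℝ) - 1.27) ≤ (n + 1) * Cj := by
    have h1 : ((27 : ℝ)) ^ m ≤ ((3 * m + 1 : ℕ) : ℝ) * (((3 * m).choose m : ℝ) * 4 ^ m) := by
      exact_mod_cast h27
    have h4pow : (0 : ℝ) < 4 ^ m := by positivity
    have h2 : (27 / 4 : ℝ) ^ m ≤ ((3 * m + 1 : ℕ) : ℝ) * ((3 * m).choose m : ℝ) := by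
      rw [div_pow, div_le_iff₀ h4pow]
      calc (27 : ℝ) ^ m ≤ _ := h1
        _ = _ := by ring
    have h3 : Real.exp (1.905 * (m : ℝ)) ≤ (27 / 4 : ℝ) ^ m := by
      have h4 : Real.exp 1.905 ≤ 27 / 4 := by
        rw [← Real.le_log_iff_exp_le (by norm_num)]
        exact log_27_4
      calc Real.exp (1.905 * (m : ℝ)) = Real.exp 1.905 ^ m := by
            rw [← Real.exp_nat_mul]; congr 1; ring
        _ ≤ _ := pow_le_pow_left₀ (Real.exp_pos _).le h4 m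
    have h5 : Real.exp (0.635 * (j : ℝ) - 1.27) ≤ Real.exp (1.905 * (m : ℝ)) := by
      apply Real.exp_le_exp.2
      have : (j : ℝ) ≤ 3 * (m : ℝ) + 2 := by exact_mod_cast hm2
      linarith
    have h6 : ((3 * m + 1 : ℕ) : ℝ) ≤ n + 1 := by
      have : ((3 * m + 1 : ℕ) : ℝ) ≤ (j : ℝ) + 1 := by
        have : 3 * m + 1 ≤ j + 1 := by omega
        exact_mod_cast this
      linarith
    have h7 : ((3 * m).choose m : ℝ) ≤ Cj := by
      rw [hCj]; exact_mod_cast hc1'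
    have h8 : (0 : ℝ) ≤ ((3 * m).choose m : ℝ) := by positivity
    calc Real.exp (0.635 * (j : ℝ) - 1.27) ≤ _ := le_trans h5 h3
      _ ≤ _ := h2
      _ ≤ (n + 1) * Cj := mul_le_mul h6 h7 h8 (by linarith)
  -- bound for bq
  have hρs : 0 ≤ rhoB s := rhoB_nonneg s
  have hclogj : D - Nat.clog 2 j = s := by
    rw [hj, Nat.clog_pow 2 (D - s) (by norm_num)]
    omega
  have hΦj : Φ j ≤ Real.exp ((j : ℝ) * rhoB s) := by
    have := hΦ j hj1 hjlt
    rwa [hclogj] at this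
  have hbC : bq i * Cj ≤ Real.exp ((j : ℝ) * rhoB s) := le_trans (hb j hij hsum) hΦj
  have hlogn1 : Real.exp (Real.log (n + 1)) = n + 1 := Real.exp_log (by linarith)
  have hbq : bq i ≤ Real.exp (Real.log (n + 1) + (j : ℝ) * (rhoB s - 0.635) + 1.27) := by
    have e0 : Real.exp (Real.log (n + 1) + (j : ℝ) * (rhoB s - 0.635) + 1.27) *
        Real.exp (0.635 * (j : ℝ) - 1.27) = (n + 1) * Real.exp ((j : ℝ) * rhoB s) := by
      rw [← Real.exp_add]
      have e1 : Real.log (n + 1) + (j : ℝ) * (rhoB s - 0.635) + 1.27 + (0.635 * (j : ℝ) - 1.27)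
          = Real.log (n + 1) + (j : ℝ) * rhoB s := by ring
      rw [e1, Real.exp_add, hlogn1]
    have e : Real.exp (Real.log (n + 1) + (j : ℝ) * (rhoB s - 0.635) + 1.27) =
        (n + 1) * Real.exp ((j : ℝ) * rhoB s) / Real.exp (0.635 * (j : ℝ) - 1.27) :=
      eq_div_of_mul_eq (Real.exp_pos _).ne' e0
    rw [e, le_div_iff₀ (Real.exp_pos _)]
    calc bq i * Real.exp (0.635 * (j : ℝ) - 1.27) ≤ bq i * ((n + 1) * Cj) :=
          mul_le_mul_of_nonneg_left hexp hb0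
      _ = (n + 1) * (bq i * Cj) := by ring
      _ ≤ _ := mul_le_mul_of_nonneg_left hbC (by linarith)
  have hbq15 : (bq i) ^ 15 ≤ Real.exp (15 * (Real.log (n + 1) + (j : ℝ) * (rhoB s - 0.635) + 1.27)) := by
    have := pow_le_pow_left₀ hb0 hbq 15
    rwa [← Real.exp_nat_mul] at this
  -- Φ i
  have hclogi : s ≤ D - Nat.clog 2 i := by
    have : Nat.clog 2 i ≤ D - s := Nat.clog_le_of_le_pow hij
    omega
  have hi3 : (i : ℝ) ≤ 2 / 3 * (j : ℝ) := by
    have : ((3 * i : ℕ) : ℝ) ≤ ((2 * j : ℕ) : ℝ) := by exact_mod_cast h_b'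
    push_cast at this
    linarith
  have hΦi : Φ i ≤ Real.exp (2 / 3 * (j : ℝ) * rhoB s) := by
    refine le_trans (hΦ i hi hilt) (Real.exp_le_exp.2 ?_)
    have h1 : rhoB (D - Nat.clog 2 i) ≤ rhoB s := rhoB_anti hclogi
    have h2 : (0 : ℝ) ≤ (i : ℝ) := by positivity
    calc (i : ℝ) * rhoB (D - Nat.clog 2 i) ≤ (i : ℝ) * rhoB s := mul_le_mul_of_nonneg_left h1 h2
      _ ≤ _ := mul_le_mul_of_nonneg_right hi3 hρs
  -- C(n,i)
  have hpow : (0 : ℝ) < 2 ^ s := by positivity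
  have hx0 : (0 : ℝ) < 2 / 3 / 2 ^ s := by positivity
  have hx1 : (2 / 3 / 2 ^ s : ℝ) ≤ 1 / 2 := by
    rw [div_le_iff₀ hpow]
    have : (8 : ℝ) ≤ 2 ^ s := by
      calc (8 : ℝ) = 2 ^ 3 := by norm_num
        _ ≤ 2 ^ s := pow_le_pow_right₀ (by norm_num) hs3
    linarith
  have hix : (i : ℝ) ≤ (2 / 3 / 2 ^ s) * ((2 ^ D : ℕ) : ℝ) := by
    rw [hnR, ← hjR]
    have e : (2 / 3 / 2 ^ s : ℝ) * ((j : ℝ) * 2 ^ s) = 2 / 3 * (j : ℝ) := by
      field_simp
    rw [e]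
    exact hi3
  have hlogC := log_choose_le (2 ^ D) i Nat.one_le_two_pow hilt.le hx0 hx1 hix
  have hent := entropy_bound hs3 hs7
  rw [hnR] at hlogC
  have hlogC' : Real.log ((2 ^ D).choose i : ℝ) ≤ n * aS s :=
    le_trans hlogC (mul_le_mul_of_nonneg_left hent hn0)
  have hCpos : (0 : ℝ) < ((2 ^ D).choose i : ℝ) := by
    exact_mod_cast Nat.choose_pos hilt.le
  have hC' : ((2 ^ D).choose i : ℝ) ≤ Real.exp (n * aS s) := by
    rw [← Real.log_le_iff_le_exp hCpos]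
    exact hlogC'
  have hb15 : 0 ≤ (bq i) ^ 15 := by positivity
  have hprod : ((2 ^ D).choose i : ℝ) * (bq i) ^ 15 * Φ i ≤
      Real.exp (n * aS s) *
        Real.exp (15 * (Real.log (n + 1) + (j : ℝ) * (rhoB s - 0.635) + 1.27)) *
        Real.exp (2 / 3 * (j : ℝ) * rhoB s) := by
    have h1 : ((2 ^ D).choose i : ℝ) * (bq i) ^ 15 ≤
        Real.exp (n * aS s) *
        Real.exp (15 * (Real.log (n + 1) + (j : ℝ) * (rhoB s - 0.635) + 1.27)) :=
      mul_le_mul hC' hbq15 hb15 (Real.exp_pos _).le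
    calc ((2 ^ D).choose i : ℝ) * (bq i) ^ 15 * Φ i
        ≤ ((2 ^ D).choose i : ℝ) * (bq i) ^ 15 * Real.exp (2 / 3 * (j : ℝ) * rhoB s) :=
          mul_le_mul_of_nonneg_left hΦi (mul_nonneg hCpos.le hb15)
      _ ≤ _ := mul_le_mul_of_nonneg_right h1 (Real.exp_pos _).le
  refine le_trans hprod ?_
  rw [← Real.exp_add, ← Real.exp_add]
  apply Real.exp_le_exp.2
  have hnum := mid_numeric hs3 hs7 hjR hn0
  have e5 : n * aS s + 15 * (Real.log (n + 1) + (j : ℝ) * (rhoB s - 0.635) + 1.27) +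
      2 / 3 * (j : ℝ) * rhoB s =
      (n * aS s + 15 * ((j : ℝ) * (rhoB s - 0.635)) + 2 / 3 * (j : ℝ) * rhoB s) +
        15 * Real.log (n + 1) + 19.05 := by ring
  rw [e5]
  linarith

end Mid

/-! ### The high part: the binomial coefficients `M` -/

theorem g_step (n t : ℕ) (h : 4 * (t + 1) ≤ n) :
    (n - t).choose t ≤ (n - (t + 1)).choose (t + 1) := by
  obtain ⟨v, rfl⟩ : ∃ v, n = 4 * (t + 1) + v := ⟨n - 4 * (t + 1), by omega⟩
  set M := 4 * (t + 1) + v - (t + 1) with hM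
  have hM1 : 4 * (t + 1) + v - t = M + 1 := by omega
  rw [hM1]
  have hstep := choose_step M t (by omega)
  have e1 : M + 1 - t = 2 * t + 4 + v := by omega
  have e2 : M - t = 2 * t + 3 + v := by omega
  have e3 : M + 1 = 3 * t + 4 + v := by omega
  rw [e1, e2] at hstep
  have h1 : (t + 1) * (M + 1) ≤ (2 * t + 4 + v) * (2 * t + 3 + v) := by
    rw [e3]; nlinarith
  have hpos : 0 < (t + 1) * (M + 1) := by positivity
  have h2 : (M + 1).choose t * ((t + 1) * (M + 1)) ≤ M.choose (t + 1) * ((t + 1) * (M + 1)) := by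
    calc (M + 1).choose t * ((t + 1) * (M + 1))
        ≤ (M + 1).choose t * ((2 * t + 4 + v) * (2 * t + 3 + v)) := Nat.mul_le_mul_left _ h1
      _ = (M + 1).choose t * (2 * t + 4 + v) * (2 * t + 3 + v) := by ring
      _ = M.choose (t + 1) * (t + 1) * (M + 1) := hstep.symm
      _ = _ := by ring
  exact Nat.le_of_mul_le_mul_right h2 hpos

theorem g_ge (n m t : ℕ) (h1 : m < t) (h2 : 4 * t ≤ n) :
    (n - (m + 1)).choose (m + 1) ≤ (n - t).choose t := by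
  induction t, (show m + 1 ≤ t from h1) using Nat.le_induction with
  | base => exact le_rfl
  | succ t ht ih =>
    exact le_trans (ih (by omega) (by omega)) (g_step n t h2)

theorem choose_eleven_le (n m : ℕ) (hm : 1 ≤ m) (hn : 12 * m ≤ n) :
    (11 * m).choose m ≤ (n - (m + 1)).choose (m + 1) := by
  obtain ⟨M, hM⟩ : ∃ M, 11 * m = M + 1 := ⟨11 * m - 1, by omega⟩
  have hstep := choose_step M m (by omega)
  rw [← hM] at hstep
  have e1 : 11 * m - m = 10 * m := by omega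
  have e2 : M - m = 10 * m - 1 := by omega
  rw [e1, e2] at hstep
  have h1 : (m + 1) * (11 * m) ≤ 10 * m * (10 * m - 1) := by
    obtain ⟨k, rfl⟩ : ∃ k, m = k + 1 := ⟨m - 1, by omega⟩
    have : 10 * (k + 1) - 1 = 10 * k + 9 := by omega
    rw [this]
    nlinarith
  have hpos : 0 < (m + 1) * (11 * m) := by positivity
  have h2 : (11 * m).choose m * ((m + 1) * (11 * m)) ≤ M.choose (m + 1) * ((m + 1) * (11 * m)) := by
    calc (11 * m).choose m * ((m + 1) * (11 * m))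
        ≤ (11 * m).choose m * (10 * m * (10 * m - 1)) := Nat.mul_le_mul_left _ h1
      _ = (11 * m).choose m * (10 * m) * (10 * m - 1) := by ring
      _ = M.choose (m + 1) * (m + 1) * (11 * m) := hstep.symm
      _ = _ := by ring
  have h3 := Nat.le_of_mul_le_mul_right h2 hpos
  refine le_trans h3 (Nat.choose_le_choose _ ?_)
  omega

theorem log_eleven : (3.35 : ℝ) ≤ Real.log (11 ^ 11 / 10 ^ 10) := by
  have := le_log_of_le_pow (x := 11 ^ 11 / 10 ^ 10) (by norm_num) 67 20 (by norm_num) (by norm_num)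
  norm_num at this ⊢
  linarith

theorem log_four : (2.24 : ℝ) ≤ Real.log (4 ^ 4 / 3 ^ 3) := by
  have := le_log_of_le_pow (x := 4 ^ 4 / 3 ^ 3) (by norm_num) 56 25 (by norm_num) (by norm_num)
  norm_num at this ⊢
  linarith

/-- Lower bound for `C(n-t, t)` with `n/12 < t ≤ n/4`. -/
theorem exp_le_choose_t {n t : ℕ} (hn : 24 ≤ n) (h1 : n / 12 < t) (h2 : 4 * t ≤ n) :
    Real.exp (0.2791 * (n : ℝ)) ≤ 29 * ((n : ℝ) + 1) * ((n - t).choose t : ℝ) := by
  set m := n / 12 with hm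
  have hm1 : 1 ≤ m := by omega
  have hn1 : 12 * m ≤ n := by omega
  have hn2 : n < 12 * (m + 1) := by omega
  have hc : (11 * m).choose m ≤ (n - t).choose t :=
    le_trans (choose_eleven_le n m hm1 hn1) (g_ge n m t h1 h2)
  have h11 := choose_eleven m
  have hp : (0 : ℝ) < (10 ^ 10 : ℝ) ^ m := by positivity
  have h3 : (((11 : ℝ) ^ 11) / 10 ^ 10) ^ m ≤ ((11 * m + 1 : ℕ) : ℝ) * ((11 * m).choose m : ℝ) := by
    rw [div_pow, div_le_iff₀ hp]
    have h' : ((11 : ℝ) ^ 11) ^ m ≤ ((11 * m + 1 : ℕ) : ℝ) * (((11 * m).choose m : ℝ) * ((10 : ℝ) ^ 10) ^ m) := by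
      exact_mod_cast h11
    calc ((11 : ℝ) ^ 11) ^ m ≤ _ := h'
      _ = ((11 * m + 1 : ℕ) : ℝ) * ((11 * m).choose m : ℝ) * ((10 : ℝ) ^ 10) ^ m := by ring
  have h4 : Real.exp (3.35 * (m : ℝ)) ≤ (((11 : ℝ) ^ 11) / 10 ^ 10) ^ m := by
    have h5 : Real.exp 3.35 ≤ ((11 : ℝ) ^ 11) / 10 ^ 10 := by
      rw [← Real.le_log_iff_exp_le (by norm_num)]
      exact log_eleven
    calc Real.exp (3.35 * (m : ℝ)) = Real.exp 3.35 ^ m := by
          rw [← Real.exp_nat_mul]; congr 1; ring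
      _ ≤ _ := pow_le_pow_left₀ (Real.exp_pos _).le h5 m
  have h6 : Real.exp (0.2791 * (n : ℝ)) ≤ Real.exp 3.35 * Real.exp (3.35 * (m : ℝ)) := by
    rw [← Real.exp_add]
    apply Real.exp_le_exp.2
    have : (n : ℝ) ≤ 12 * ((m : ℝ) + 1) := by
      have h' : ((n : ℕ) : ℝ) ≤ ((12 * (m + 1) : ℕ) : ℝ) := by exact_mod_cast hn2.le
      push_cast at h'
      linarith
    have hm0 : (0 : ℝ) ≤ m := by positivity
    nlinarith
  have h7 : Real.exp 3.35 ≤ 29 := by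
    have h5 : Real.exp 3.35 ≤ ((11 : ℝ) ^ 11) / 10 ^ 10 := by
      rw [← Real.le_log_iff_exp_le (by norm_num)]
      exact log_eleven
    refine le_trans h5 ?_
    norm_num
  have h8 : ((11 * m + 1 : ℕ) : ℝ) ≤ (n : ℝ) + 1 := by
    have : 11 * m + 1 ≤ n + 1 := by omega
    exact_mod_cast this
  have h9 : ((11 * m).choose m : ℝ) ≤ ((n - t).choose t : ℝ) := by exact_mod_cast hc
  have h10 : (0 : ℝ) ≤ ((11 * m).choose m : ℝ) := by positivity
  calc Real.exp (0.2791 * (n : ℝ)) ≤ Real.exp 3.35 * Real.exp (3.35 * (m : ℝ)) := h6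
    _ ≤ 29 * (((11 : ℝ) ^ 11 / 10 ^ 10) ^ m) :=
        mul_le_mul h7 h4 (Real.exp_pos _).le (by norm_num)
    _ ≤ 29 * (((11 * m + 1 : ℕ) : ℝ) * ((11 * m).choose m : ℝ)) :=
        mul_le_mul_of_nonneg_left h3 (by norm_num)
    _ ≤ 29 * (((n : ℝ) + 1) * ((n - t).choose t : ℝ)) :=
        mul_le_mul_of_nonneg_left (mul_le_mul h8 h9 h10 (by positivity)) (by norm_num)
    _ = _ := by ring

/-- Lower bound for `C(n/2, a)`, `a = m' - 1`, `n = 8 m'`. -/
theorem exp_le_choose_half {n m' : ℕ} (hm' : 1 ≤ m') (hn : n = 8 * m') :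
    Real.exp (0.2791 * (n : ℝ)) ≤ 29 * ((n : ℝ) + 1) * ((n / 2).choose (m' - 1) : ℝ) := by
  have hn2 : n / 2 = 4 * m' := by omega
  rw [hn2]
  obtain ⟨k, rfl⟩ : ∃ k, m' = k + 1 := ⟨m' - 1, by omega⟩
  simp only [Nat.add_sub_cancel]
  have hstep := Nat.choose_succ_right_eq (4 * (k + 1)) k
  have e1 : 4 * (k + 1) - k = 3 * k + 4 := by omega
  rw [e1] at hstep
  -- C(N,k+1) ≤ 4 C(N,k)
  have h4 : (4 * (k + 1)).choose (k + 1) ≤ 4 * (4 * (k + 1)).choose k := by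
    have hpos : 0 < k + 1 := by omega
    have h5 : (4 * (k + 1)).choose (k + 1) * (k + 1) ≤ (4 * (4 * (k + 1)).choose k) * (k + 1) := by
      rw [hstep]
      calc (4 * (k + 1)).choose k * (3 * k + 4) ≤ (4 * (k + 1)).choose k * (4 * (k + 1)) :=
            Nat.mul_le_mul_left _ (by omega)
        _ = _ := by ring
    exact Nat.le_of_mul_le_mul_right h5 hpos
  have h44 := choose_four (k + 1)
  have hp : (0 : ℝ) < (3 ^ 3 : ℝ) ^ (k + 1) := by positivity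
  have h3 : (((4 : ℝ) ^ 4) / 3 ^ 3) ^ (k + 1) ≤
      ((4 * (k + 1) + 1 : ℕ) : ℝ) * ((4 * (k + 1)).choose (k + 1) : ℝ) := by
    rw [div_pow, div_le_iff₀ hp]
    have h' : ((4 : ℝ) ^ 4) ^ (k + 1) ≤
        ((4 * (k + 1) + 1 : ℕ) : ℝ) * (((4 * (k + 1)).choose (k + 1) : ℝ) * ((3 : ℝ) ^ 3) ^ (k + 1)) := by
      exact_mod_cast h44
    calc ((4 : ℝ) ^ 4) ^ (k + 1) ≤ _ := h'
      _ = ((4 * (k + 1) + 1 : ℕ) : ℝ) * ((4 * (k + 1)).choose (k + 1) : ℝ) * ((3 : ℝ) ^ 3) ^ (k + 1) := by ring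
  have h6 : Real.exp (2.24 * ((k + 1 : ℕ) : ℝ)) ≤ (((4 : ℝ) ^ 4) / 3 ^ 3) ^ (k + 1) := by
    have h5 : Real.exp 2.24 ≤ ((4 : ℝ) ^ 4) / 3 ^ 3 := by
      rw [← Real.le_log_iff_exp_le (by norm_num)]
      exact log_four
    calc Real.exp (2.24 * ((k + 1 : ℕ) : ℝ)) = Real.exp 2.24 ^ (k + 1) := by
          rw [← Real.exp_nat_mul]; congr 1; ring
      _ ≤ _ := pow_le_pow_left₀ (Real.exp_pos _).le h5 (k + 1)
  have hnR : (n : ℝ) = 8 * ((k + 1 : ℕ) : ℝ) := by rw [hn]; push_cast; ring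
  have h7 : Real.exp (0.2791 * (n : ℝ)) ≤ Real.exp (2.24 * ((k + 1 : ℕ) : ℝ)) := by
    apply Real.exp_le_exp.2
    rw [hnR]
    have : (0 : ℝ) ≤ ((k + 1 : ℕ) : ℝ) := by positivity
    nlinarith
  have h8 : ((4 * (k + 1) + 1 : ℕ) : ℝ) ≤ (n : ℝ) + 1 := by
    have : 4 * (k + 1) + 1 ≤ n + 1 := by omega
    exact_mod_cast this
  have h9 : ((4 * (k + 1)).choose (k + 1) : ℝ) ≤ 4 * ((4 * (k + 1)).choose k : ℝ) := by
    exact_mod_cast h4
  have h10 : (0 : ℝ) ≤ ((4 * (k + 1)).choose (k + 1) : ℝ) := by positivity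
  have h11 : (0 : ℝ) ≤ ((4 * (k + 1)).choose k : ℝ) := by positivity
  have h12 : (0 : ℝ) ≤ (n : ℝ) + 1 := by positivity
  calc Real.exp (0.2791 * (n : ℝ)) ≤ _ := le_trans h7 (le_trans h6 h3)
    _ ≤ ((n : ℝ) + 1) * (4 * ((4 * (k + 1)).choose k : ℝ)) := mul_le_mul h8 h9 h10 h12
    _ ≤ _ := by nlinarith [mul_nonneg h12 h11]

/-! ### Assembly of the limit -/

theorem high_term {Φn Bq A n : ℝ} (hA : 0 ≤ A) (hn : 0 ≤ n) (hΦ0 : 0 ≤ Φn)
    (hΦn : Φn ≤ A * n * Real.exp (0.2547 * n)) (hB0 : 0 ≤ Bq)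
    (hB : Bq * Real.exp (0.2791 * n) ≤ 29 * (n + 1) * Φn) :
    Bq ^ 15 * Φn ≤ (29 * A) ^ 15 * A * ((n + 1) ^ 31 * Real.exp (-(0.02 * n))) := by
  have hAn : 0 ≤ A * n := mul_nonneg hA hn
  have h1 : Bq ≤ 29 * A * (n + 1) ^ 2 * Real.exp (-(0.0244 * n)) := by
    have h2 : Bq * Real.exp (0.2791 * n) ≤ 29 * (n + 1) * (A * n * Real.exp (0.2547 * n)) :=
      le_trans hB (mul_le_mul_of_nonneg_left hΦn (by positivity))
    have e : 29 * A * (n + 1) ^ 2 * Real.exp (-(0.0244 * n)) * Real.exp (0.2791 * n) =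
        29 * A * (n + 1) ^ 2 * Real.exp (0.2547 * n) := by
      rw [mul_assoc (29 * A * (n + 1) ^ 2), ← Real.exp_add]
      congr 2
      ring
    have h3 : Bq * Real.exp (0.2791 * n) ≤
        29 * A * (n + 1) ^ 2 * Real.exp (-(0.0244 * n)) * Real.exp (0.2791 * n) := by
      rw [e]
      refine le_trans h2 ?_
      have h4 : 0 ≤ A * Real.exp (0.2547 * n) := mul_nonneg hA (Real.exp_pos _).le
      have h5 : (n + 1) * n ≤ (n + 1) ^ 2 := by nlinarith
      calc 29 * (n + 1) * (A * n * Real.exp (0.2547 * n))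
          = 29 * (A * Real.exp (0.2547 * n)) * ((n + 1) * n) := by ring
        _ ≤ 29 * (A * Real.exp (0.2547 * n)) * (n + 1) ^ 2 :=
            mul_le_mul_of_nonneg_left h5 (by positivity)
        _ = _ := by ring
    exact le_of_mul_le_mul_right h3 (Real.exp_pos _)
  have h6 : Bq ^ 15 ≤ (29 * A * (n + 1) ^ 2) ^ 15 * Real.exp (-(0.366 * n)) := by
    have h7 := pow_le_pow_left₀ hB0 h1 15
    rw [mul_pow, ← Real.exp_nat_mul] at h7
    refine le_trans h7 (le_of_eq ?_)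
    congr 2
    push_cast
    ring
  have h8 : Φn ≤ A * (n + 1) * Real.exp (0.2547 * n) := by
    refine le_trans hΦn ?_
    apply mul_le_mul_of_nonneg_right _ (Real.exp_pos _).le
    apply mul_le_mul_of_nonneg_left (by linarith) hA
  have h9 : (0 : ℝ) ≤ (29 * A * (n + 1) ^ 2) ^ 15 := by positivity
  calc Bq ^ 15 * Φn ≤ ((29 * A * (n + 1) ^ 2) ^ 15 * Real.exp (-(0.366 * n))) *
        (A * (n + 1) * Real.exp (0.2547 * n)) :=
        mul_le_mul h6 h8 hΦ0 (by positivity)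
    _ = (29 * A) ^ 15 * A * ((n + 1) ^ 31 * (Real.exp (-(0.366 * n)) * Real.exp (0.2547 * n))) := by
        ring
    _ ≤ _ := by
        rw [← Real.exp_add]
        apply mul_le_mul_of_nonneg_left _ (by positivity)
        apply mul_le_mul_of_nonneg_left _ (by positivity)
        apply Real.exp_le_exp.2
        nlinarith

theorem poly_exp_tendsto :
    Filter.Tendsto (fun D : ℕ => (((2 : ℝ) ^ D + 1) ^ 31 * Real.exp (-(0.02 * (2 : ℝ) ^ D))))
      Filter.atTop (nhds 0) := by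
  have h1 : Filter.Tendsto (fun D : ℕ => (2 : ℝ) ^ D) Filter.atTop Filter.atTop :=
    tendsto_pow_atTop_atTop_of_one_lt (by norm_num)
  have h2 : Filter.Tendsto (fun D : ℕ => 0.02 * ((2 : ℝ) ^ D + 1)) Filter.atTop Filter.atTop := by
    apply Filter.Tendsto.const_mul_atTop (by norm_num)
    exact Filter.tendsto_atTop_add_const_right _ _ h1
  have h3 := (Real.tendsto_pow_mul_exp_neg_atTop_nhds_zero 31).comp h2
  have h4 := h3.const_mul ((50 : ℝ) ^ 31 * Real.exp 0.02)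
  rw [mul_zero] at h4
  refine h4.congr fun D => ?_
  simp only [Function.comp]
  have e : Real.exp (-(0.02 * ((2 : ℝ) ^ D + 1))) * Real.exp 0.02 = Real.exp (-(0.02 * (2 : ℝ) ^ D)) := by
    rw [← Real.exp_add]; congr 1; ring
  rw [← e, mul_pow]
  have : (50 : ℝ) ^ 31 * (0.02 : ℝ) ^ 31 = 1 := by norm_num
  calc (50 : ℝ) ^ 31 * Real.exp 0.02 * ((0.02 : ℝ) ^ 31 * ((2 : ℝ) ^ D + 1) ^ 31 * Real.exp (-(0.02 * ((2 : ℝ) ^ D + 1))))
      = ((50 : ℝ) ^ 31 * (0.02 : ℝ) ^ 31) * (((2 : ℝ) ^ D + 1) ^ 31 * (Real.exp (-(0.02 * ((2 : ℝ) ^ D + 1))) * Real.exp 0.02)) := by ring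
    _ = _ := by rw [this, one_mul]

/-- **Final asymptotics of Section 6(e).** -/
theorem lowHigh_tendsto (Φ bq : ℕ → ℕ → ℝ) (Bq : ℕ → ℝ) (A : ℝ) (hA : 0 ≤ A) (D0 : ℕ)
    (hΦ0 : ∀ D j, 0 ≤ Φ D j)
    (hΦ : ∀ D, D0 ≤ D → ∀ j, 1 ≤ j → j < 2 ^ D →
      Φ D j ≤ Real.exp ((j : ℝ) * rhoB (D - Nat.clog 2 j)))
    (hΦn : ∀ D, D0 ≤ D → Φ D (2 ^ D) ≤ A * (2 : ℝ) ^ D * Real.exp (0.2547 * (2 : ℝ) ^ D))
    (hb0 : ∀ D i, 0 ≤ bq D i)
    (hb : ∀ D, D0 ≤ D → ∀ i j, 1 ≤ i → i ≤ j → i + j ≤ 2 ^ D →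
      bq D i * (j.choose i : ℝ) ≤ Φ D j)
    (hB0 : ∀ D, 0 ≤ Bq D)
    (hB : ∀ D, D0 ≤ D →
      Bq D * Real.exp (0.2791 * (2 : ℝ) ^ D) ≤ 29 * ((2 : ℝ) ^ D + 1) * Φ D (2 ^ D)) :
    Filter.Tendsto (fun D : ℕ =>
      ∑ i ∈ Finset.Icc 1 (2 ^ D / 12), ((2 ^ D).choose i : ℝ) * (bq D i) ^ 15 * Φ D i
        + (Bq D) ^ 15 * Φ D (2 ^ D)) Filter.atTop (nhds 0) := by
  -- the majorant
  set G : ℕ → ℝ := fun D => Real.exp (-(D : ℝ) / 8) +
    (Real.exp 20 + (29 * A) ^ 15 * A) * (((2 : ℝ) ^ D + 1) ^ 31 * Real.exp (-(0.02 * (2 : ℝ) ^ D)))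
    with hG
  have hGlim : Filter.Tendsto G Filter.atTop (nhds 0) := by
    have h1 : Filter.Tendsto (fun D : ℕ => Real.exp (-(D : ℝ) / 8)) Filter.atTop (nhds 0) := by
      have h2 : Filter.Tendsto (fun D : ℕ => (D : ℝ) / 8) Filter.atTop Filter.atTop :=
        Filter.Tendsto.atTop_div_const (by norm_num) tendsto_natCast_atTop_atTop
      have h3 := Real.tendsto_exp_neg_atTop_nhds_zero.comp h2
      refine h3.congr fun D => ?_
      simp only [Function.comp]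
      congr 1
      ring
    have h4 := poly_exp_tendsto.const_mul (Real.exp 20 + (29 * A) ^ 15 * A)
    have h5 := h1.add h4
    simpa using h5
  refine squeeze_zero' ?_ ?_ hGlim
  · refine Filter.Eventually.of_forall fun D => ?_
    apply add_nonneg
    · refine Finset.sum_nonneg fun i _ => ?_
      have := hb0 D i
      have := hΦ0 D i
      positivity
    · have := hB0 D
      have := hΦ0 D (2 ^ D)
      positivity
  · filter_upwards [Filter.eventually_ge_atTop (max D0 16)] with D hD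
    have hD0 : D0 ≤ D := le_trans (le_max_left _ _) hD
    have hD16 : 16 ≤ D := le_trans (le_max_right _ _) hD
    set n : ℝ := (2 : ℝ) ^ D with hn
    have hn0 : 0 ≤ n := by positivity
    have hnR : ((2 ^ D : ℕ) : ℝ) = n := by rw [hn]; push_cast; ring
    set S := Finset.Icc 1 (2 ^ D / 12) with hS
    -- split the sum
    have hsplit := Finset.sum_filter_add_sum_filter_not S (fun i => 8 ≤ D - Nat.clog 2 i)
      (fun i => ((2 ^ D).choose i : ℝ) * (bq D i) ^ 15 * Φ D i)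
    have hsmall : ∑ i ∈ S.filter (fun i => 8 ≤ D - Nat.clog 2 i),
        ((2 ^ D).choose i : ℝ) * (bq D i) ^ 15 * Φ D i ≤ Real.exp (-(D : ℝ) / 8) := by
      have hterm : ∀ i ∈ S.filter (fun i => 8 ≤ D - Nat.clog 2 i),
          ((2 ^ D).choose i : ℝ) * (bq D i) ^ 15 * Φ D i ≤
            Real.exp (-((i : ℝ) * ((D - Nat.clog 2 i : ℕ) : ℝ)) / 4) := by
        intro i hi
        obtain ⟨h1, h2⟩ := Finset.mem_filter.1 hi
        obtain ⟨h3, _⟩ := Finset.mem_Icc.1 h1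
        exact small_term (hΦ D hD0) (fun j hij hsum => hb D hD0 i j h3 hij hsum) (hb0 D i) h3 h2
      refine le_trans (Finset.sum_le_sum hterm) ?_
      refine small_sum hD16 _ ?_ (2 ^ D / 12) (Finset.filter_subset _ _)
      intro i hi
      obtain ⟨h1, h2⟩ := Finset.mem_filter.1 hi
      exact ⟨(Finset.mem_Icc.1 h1).1, h2⟩
    have hmid : ∑ i ∈ S.filter (fun i => ¬ 8 ≤ D - Nat.clog 2 i),
        ((2 ^ D).choose i : ℝ) * (bq D i) ^ 15 * Φ D i ≤
          Real.exp 20 * ((n + 1) ^ 31 * Real.exp (-(0.02 * n))) := by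
      have hterm : ∀ i ∈ S.filter (fun i => ¬ 8 ≤ D - Nat.clog 2 i),
          ((2 ^ D).choose i : ℝ) * (bq D i) ^ 15 * Φ D i ≤
            Real.exp (-(0.02 * n) + 15 * Real.log (n + 1) + 20) := by
        intro i hi
        obtain ⟨h1, h2⟩ := Finset.mem_filter.1 hi
        obtain ⟨h3, h4⟩ := Finset.mem_Icc.1 h1
        have h12 : 12 * i ≤ 2 ^ D := by
          have := Nat.div_mul_le_self (2 ^ D) 12
          omega
        exact mid_term (hΦ D hD0) (fun j hij hsum => hb D hD0 i j h3 hij hsum) (hb0 D i) hD16 h3 h12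
          (by omega)
      refine le_trans (Finset.sum_le_sum hterm) ?_
      rw [Finset.sum_const, nsmul_eq_mul]
      have hcard : (((S.filter (fun i => ¬ 8 ≤ D - Nat.clog 2 i)).card : ℕ) : ℝ) ≤ n + 1 := by
        have h1 : (S.filter (fun i => ¬ 8 ≤ D - Nat.clog 2 i)).card ≤ S.card := Finset.card_filter_le _ _
        have h2 : S.card = 2 ^ D / 12 := by rw [hS]; simp
        have h3 : 2 ^ D / 12 ≤ 2 ^ D := Nat.div_le_self _ _
        have h4 : (((S.filter (fun i => ¬ 8 ≤ D - Nat.clog 2 i)).card : ℕ) : ℝ) ≤ ((2 ^ D : ℕ) : ℝ) := by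
          exact_mod_cast le_trans h1 (by omega)
        rw [hnR] at h4
        linarith
      have hexp : Real.exp (-(0.02 * n) + 15 * Real.log (n + 1) + 20) =
          Real.exp 20 * ((n + 1) ^ 15 * Real.exp (-(0.02 * n))) := by
        rw [Real.exp_add, Real.exp_add, mul_comm (15 : ℝ), Real.exp_mul, Real.exp_log (by linarith)]
        have : (n + 1) ^ (15 : ℝ) = (n + 1) ^ (15 : ℕ) := by
          rw [← Real.rpow_natCast]; norm_num
        rw [this]
        ring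
      rw [hexp]
      have h1n : (1 : ℝ) ≤ n + 1 := by linarith
      have hpowm : (n + 1) * (n + 1) ^ 15 ≤ (n + 1) ^ 31 := by
        rw [← pow_succ']
        exact pow_le_pow_right₀ h1n (by norm_num)
      have he : (0 : ℝ) < Real.exp (-(0.02 * n)) := Real.exp_pos _
      have he20 : (0 : ℝ) < Real.exp 20 := Real.exp_pos _
      calc _ ≤ (n + 1) * (Real.exp 20 * ((n + 1) ^ 15 * Real.exp (-(0.02 * n)))) :=
            mul_le_mul_of_nonneg_right hcard (by positivity)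
        _ = Real.exp 20 * (((n + 1) * (n + 1) ^ 15) * Real.exp (-(0.02 * n))) := by ring
        _ ≤ Real.exp 20 * ((n + 1) ^ 31 * Real.exp (-(0.02 * n))) := by
            apply mul_le_mul_of_nonneg_left _ he20.le
            exact mul_le_mul_of_nonneg_right hpowm he.le
    have hhigh := high_term (n := n) hA hn0 (hΦ0 D (2 ^ D)) (hΦn D hD0) (hB0 D) (hB D hD0)
    rw [hG]
    simp only
    rw [← hsplit]
    have : (Real.exp 20 + (29 * A) ^ 15 * A) * ((n + 1) ^ 31 * Real.exp (-(0.02 * n))) =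
        Real.exp 20 * ((n + 1) ^ 31 * Real.exp (-(0.02 * n))) +
          (29 * A) ^ 15 * A * ((n + 1) ^ 31 * Real.exp (-(0.02 * n))) := by ring
    rw [this]
    linarith

end Crest.Agent.Thorp.Numerics
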