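import Crest.Agent.Lib.Thorp.FixedT

/-!
# Thorp shuffle (S0222): the budget of the schedule in `Interface`.
-/

set_option autoImplicit false

namespace Crest.Agent.Thorp.NF

open Finset BigOperators

theorem sum_inv_Ioc_le (a : ℕ) (ha : 1 ≤ a) : ∀ b, a ≤ b →
    ∑ l ∈ Finset.Ioc a b, (1 : ℝ) / (l : ℝ) ≤ Real.log b - Real.log a := by
  intro b hb
  induction b, hb using Nat.le_induction with
  | base => simp
  | succ b hb ih =>
    rw [Finset.sum_Ioc_succ_top hb]
    have hb0 : (0 : ℝ) < b := by
      have : 0 < b := by omega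
      exact_mod_cast this
    have h1 : (1 : ℝ) / ((b + 1 : ℕ) : ℝ) ≤ Real.log ((b + 1 : ℕ) : ℝ) - Real.log b := by
      have h2 : (0 : ℝ) < ((b + 1 : ℕ) : ℝ) / b := by positivity
      have h3 := Real.one_sub_inv_le_log_of_pos h2
      rw [Real.log_div (by positivity) hb0.ne'] at h3
      refine le_trans (le_of_eq ?_) h3
      push_cast
      field_simp
      ring
    linarith

theorem log_six_le : Real.log 6 ≤ 2 := by
  rw [Real.log_le_iff_le_exp (by norm_num)]
  have h : Real.exp 2 = Real.exp 1 * Real.exp 1 := by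
    rw [← Real.exp_add]; norm_num
  rw [h]
  have := Real.exp_one_gt_d9
  nlinarith

theorem budget_table :
    ∀ h ∈ Finset.range 60,
      (∑ l ∈ (Finset.Icc 1 300).filter (fun l => l - klvl l ≤ h ∧ h < l), 2520 / rlvl l)
        ≤ 158760 := by
  decide +kernel

theorem rlvl_dvd : ∀ l ∈ Finset.Icc 1 300, rlvl l ∣ 2520 := by
  decide +kernel

theorem le_of_near {l h : ℕ} (h1 : l - klvl l ≤ h) (hl : 40 < l) : l ≤ 5 * h + 4 := by
  unfold klvl at h1
  rw [if_neg (by omega)] at h1
  omega

theorem budget : Budget := by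
  intro k h
  by_cases hh : h < 60
  · -- finite check
    have hsub : (Finset.Icc 1 k).filter (fun l => l - klvl l ≤ h ∧ h < l) ⊆
        (Finset.Icc 1 300).filter (fun l => l - klvl l ≤ h ∧ h < l) := by
      intro l hl
      obtain ⟨h1, h2, h3⟩ := Finset.mem_filter.1 hl
      refine Finset.mem_filter.2 ⟨Finset.mem_Icc.2 ⟨(Finset.mem_Icc.1 h1).1, ?_⟩, h2, h3⟩
      by_cases h40 : 40 < l
      · have := le_of_near h2 h40
        omega
      · omega
    refine (Finset.sum_le_sum_of_subset_of_nonneg hsub fun l _ _ => by positivity).trans ?_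
    have hterm : ∀ l ∈ (Finset.Icc 1 300).filter (fun l => l - klvl l ≤ h ∧ h < l),
        1 / ((63 : ℝ) * (rlvl l : ℝ)) = ((2520 / rlvl l : ℕ) : ℝ) / 158760 := by
      intro l hl
      have hd := rlvl_dvd l (Finset.mem_filter.1 hl).1
      have hr : (0 : ℝ) < (rlvl l : ℝ) := by
        have := rlvl_pos l
        positivity
      rw [Nat.cast_div hd hr.ne']
      push_cast
      field_simp
      norm_num
    rw [Finset.sum_congr rfl hterm, ← Finset.sum_div, div_le_one (by norm_num)]
    have := budget_table h (Finset.mem_range.2 hh)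
    exact_mod_cast this
  · -- large `h`
    have hh' : 60 ≤ h := by omega
    have hsub : (Finset.Icc 1 k).filter (fun l => l - klvl l ≤ h ∧ h < l) ⊆
        Finset.Ioc h (5 * h + 4) := by
      intro l hl
      obtain ⟨_, h2, h3⟩ := Finset.mem_filter.1 hl
      exact Finset.mem_Ioc.2 ⟨h3, le_of_near h2 (by omega)⟩
    have hterm : ∀ l ∈ Finset.Ioc h (5 * h + 4),
        1 / ((63 : ℝ) * (rlvl l : ℝ)) ≤ (30 / 63 : ℝ) * (1 / (l : ℝ)) := by
      intro l hl
      have hl' := (Finset.mem_Ioc.1 hl).1
      have hl0 : (0 : ℝ) < l := by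
        have : 0 < l := by omega
        exact_mod_cast this
      have hr : (0 : ℝ) < (rlvl l : ℝ) := by
        have := rlvl_pos l
        positivity
      have h30 : (l : ℝ) ≤ 30 * (rlvl l : ℝ) := by
        have : l ≤ 30 * rlvl l := by
          unfold rlvl
          rw [if_neg (by omega)]
          omega
        exact_mod_cast this
      rw [div_mul_div_comm, div_le_div_iff₀ (by positivity) (by positivity)]
      nlinarith
    calc _ ≤ ∑ l ∈ Finset.Ioc h (5 * h + 4), 1 / ((63 : ℝ) * (rlvl l : ℝ)) :=
          Finset.sum_le_sum_of_subset_of_nonneg hsub fun l _ _ => by positivity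
      _ ≤ ∑ l ∈ Finset.Ioc h (5 * h + 4), (30 / 63 : ℝ) * (1 / (l : ℝ)) :=
          Finset.sum_le_sum hterm
      _ = (30 / 63 : ℝ) * ∑ l ∈ Finset.Ioc h (5 * h + 4), (1 / (l : ℝ)) := by
          rw [Finset.mul_sum]
      _ ≤ 1 := by
          have h1 := sum_inv_Ioc_le h (by omega) (5 * h + 4) (by omega)
          have h0 : (0 : ℝ) < h := by
            have : 0 < h := by omega
            exact_mod_cast this
          have h2 : Real.log ((5 * h + 4 : ℕ) : ℝ) - Real.log h ≤ Real.log 6 := by
            rw [← Real.log_div (by positivity) h0.ne']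
            refine Real.log_le_log (by positivity) ?_
            rw [div_le_iff₀ h0]
            push_cast
            have : (60 : ℝ) ≤ h := by exact_mod_cast hh'
            linarith
          have := log_six_le
          nlinarith

/-- `Interface.FixedT`, from the near bounds. -/
theorem fixedT_of_V (hV : Interface.VFull) (hC : Interface.VCrude) : Interface.FixedT :=
  fixedT_of (nearBoundAt_of hV hC) budget

end Crest.Agent.Thorp.NF
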