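import Crest.Agent.Lib.Thorp.NumU

/-!
# Thorp shuffle (S0222), numerics: the schedule, the level weights `W l`, budget and sums.
-/

set_option autoImplicit false

namespace Crest.Agent.Thorp.Numerics

open Finset

/-! ### Logarithm table for `U_k(1)` -/

theorem log_le_of_le_taylor {x y : ℝ} (hx : 0 < x) (hy : 0 ≤ y)
    (h : x ≤ ∑ i ∈ Finset.range 14, y ^ i / (i.factorial : ℝ)) : Real.log x ≤ y := by
  rw [Real.log_le_iff_le_exp hx]
  exact le_trans h (Real.sum_le_exp_of_nonneg hy 14)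

theorem lam0 : Real.log (U 0 (1 / 2)) ≤ (405467/1000000) := by
  have h0 := U_pos 0 (ρ := 1 / 2) (by norm_num) (by norm_num)
  refine le_trans (Real.log_le_log h0 T0_1) ?_
  refine log_le_of_le_taylor (by norm_num) (by norm_num) ?_
  norm_num [Finset.sum_range_succ, Nat.factorial]

theorem lam1 : Real.log (U 1 (1 / 2)) ≤ (70509/125000) := by
  have h0 := U_pos 1 (ρ := 1 / 2) (by norm_num) (by norm_num)
  refine le_trans (Real.log_le_log h0 T1_1) ?_
  refine log_le_of_le_taylor (by norm_num) (by norm_num) ?_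
  norm_num [Finset.sum_range_succ, Nat.factorial]

theorem lam2 : Real.log (U 2 (1 / 2)) ≤ (73819/100000) := by
  have h0 := U_pos 2 (ρ := 1 / 2) (by norm_num) (by norm_num)
  refine le_trans (Real.log_le_log h0 T2_1) ?_
  refine log_le_of_le_taylor (by norm_num) (by norm_num) ?_
  norm_num [Finset.sum_range_succ, Nat.factorial]

theorem lam3 : Real.log (U 3 (1 / 2)) ≤ (901673/1000000) := by
  have h0 := U_pos 3 (ρ := 1 / 2) (by norm_num) (by norm_num)
  refine le_trans (Real.log_le_log h0 T3_1) ?_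
  refine log_le_of_le_taylor (by norm_num) (by norm_num) ?_
  norm_num [Finset.sum_range_succ, Nat.factorial]

theorem lam4 : Real.log (U 4 (1 / 2)) ≤ (515731/500000) := by
  have h0 := U_pos 4 (ρ := 1 / 2) (by norm_num) (by norm_num)
  refine le_trans (Real.log_le_log h0 T4_1) ?_
  refine log_le_of_le_taylor (by norm_num) (by norm_num) ?_
  norm_num [Finset.sum_range_succ, Nat.factorial]

theorem lam5 : Real.log (U 5 (1 / 2)) ≤ (1129811/1000000) := by
  have h0 := U_pos 5 (ρ := 1 / 2) (by norm_num) (by norm_num)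
  refine le_trans (Real.log_le_log h0 T5_1) ?_
  refine log_le_of_le_taylor (by norm_num) (by norm_num) ?_
  norm_num [Finset.sum_range_succ, Nat.factorial]

theorem lam6 : Real.log (U 6 (1 / 2)) ≤ (1191683/1000000) := by
  have h0 := U_pos 6 (ρ := 1 / 2) (by norm_num) (by norm_num)
  refine le_trans (Real.log_le_log h0 T6_1) ?_
  refine log_le_of_le_taylor (by norm_num) (by norm_num) ?_
  norm_num [Finset.sum_range_succ, Nat.factorial]

theorem lam7 : Real.log (U 7 (1 / 2)) ≤ (24477/20000) := by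
  have h0 := U_pos 7 (ρ := 1 / 2) (by norm_num) (by norm_num)
  refine le_trans (Real.log_le_log h0 T7_1) ?_
  refine log_le_of_le_taylor (by norm_num) (by norm_num) ?_
  norm_num [Finset.sum_range_succ, Nat.factorial]

theorem lam8 : Real.log (U 8 (1 / 2)) ≤ (309397/250000) := by
  have h0 := U_pos 8 (ρ := 1 / 2) (by norm_num) (by norm_num)
  refine le_trans (Real.log_le_log h0 T8_1) ?_
  refine log_le_of_le_taylor (by norm_num) (by norm_num) ?_
  norm_num [Finset.sum_range_succ, Nat.factorial]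

theorem lam9 : Real.log (U 9 (1 / 2)) ≤ (1241759/1000000) := by
  have h0 := U_pos 9 (ρ := 1 / 2) (by norm_num) (by norm_num)
  refine le_trans (Real.log_le_log h0 T9_1) ?_
  refine log_le_of_le_taylor (by norm_num) (by norm_num) ?_
  norm_num [Finset.sum_range_succ, Nat.factorial]

theorem lam10 : Real.log (U 10 (1 / 2)) ≤ (1241641/1000000) := by
  have h0 := U_pos 10 (ρ := 1 / 2) (by norm_num) (by norm_num)
  refine le_trans (Real.log_le_log h0 T10_1) ?_
  refine log_le_of_le_taylor (by norm_num) (by norm_num) ?_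
  norm_num [Finset.sum_range_succ, Nat.factorial]

theorem lam11 : Real.log (U 11 (1 / 2)) ≤ (619973/500000) := by
  have h0 := U_pos 11 (ρ := 1 / 2) (by norm_num) (by norm_num)
  refine le_trans (Real.log_le_log h0 T11_1) ?_
  refine log_le_of_le_taylor (by norm_num) (by norm_num) ?_
  norm_num [Finset.sum_range_succ, Nat.factorial]

theorem lam12 : Real.log (U 12 (1 / 2)) ≤ (618961/500000) := by
  have h0 := U_pos 12 (ρ := 1 / 2) (by norm_num) (by norm_num)
  refine le_trans (Real.log_le_log h0 T12_1) ?_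
  refine log_le_of_le_taylor (by norm_num) (by norm_num) ?_
  norm_num [Finset.sum_range_succ, Nat.factorial]

theorem lam13 : Real.log (U 13 (1 / 2)) ≤ (154509/125000) := by
  have h0 := U_pos 13 (ρ := 1 / 2) (by norm_num) (by norm_num)
  refine le_trans (Real.log_le_log h0 T13_1) ?_
  refine log_le_of_le_taylor (by norm_num) (by norm_num) ?_
  norm_num [Finset.sum_range_succ, Nat.factorial]

theorem lam14 : Real.log (U 14 (1 / 2)) ≤ (1234553/1000000) := by
  have h0 := U_pos 14 (ρ := 1 / 2) (by norm_num) (by norm_num)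
  refine le_trans (Real.log_le_log h0 T14_1) ?_
  refine log_le_of_le_taylor (by norm_num) (by norm_num) ?_
  norm_num [Finset.sum_range_succ, Nat.factorial]

theorem lam15 : Real.log (U 15 (1 / 2)) ≤ (616687/500000) := by
  have h0 := U_pos 15 (ρ := 1 / 2) (by norm_num) (by norm_num)
  refine le_trans (Real.log_le_log h0 T15_1) ?_
  refine log_le_of_le_taylor (by norm_num) (by norm_num) ?_
  norm_num [Finset.sum_range_succ, Nat.factorial]

theorem lamInf (k : ℕ) : Real.log (U (16 + k) (1 / 2)) ≤ (1243637/1000000) := by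
  have h0 := U_pos (16 + k) (ρ := 1 / 2) (by norm_num) (by norm_num)
  refine le_trans (Real.log_le_log h0 (Inv1 k)) ?_
  refine log_le_of_le_taylor (by norm_num) (by norm_num) ?_
  norm_num [Finset.sum_range_succ, Nat.factorial]

/-- Upper bounds for `log U_k(1)`, `k ≤ 39`. -/
def LamT : ℕ → ℚ
  | 0 => 173287/250000
  | 1 => 219723/200000
  | 2 => 1662687/1000000
  | 3 => 2400877/1000000
  | 4 => 66051/20000
  | 5 => 1083503/250000
  | 6 => 5463823/1000000
  | 7 => 3327753/500000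
  | 8 => 1969839/250000
  | 9 => 569809/62500
  | 10 => 10358703/1000000
  | 11 => 1450043/125000
  | 12 => 1284029/100000
  | 13 => 3519553/250000
  | 14 => 3828571/250000
  | 15 => 16548837/1000000
  | 16 => 17782211/1000000
  | 17 => 2378231/125000
  | 18 => 4053897/200000
  | 19 => 10756561/500000
  | 20 => 22756759/1000000
  | 21 => 6000099/250000
  | 22 => 25244033/1000000
  | 23 => 2648767/100000
  | 24 => 27731307/1000000
  | 25 => 905467/31250
  | 26 => 30218581/1000000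
  | 27 => 15731109/500000
  | 28 => 6541171/200000
  | 29 => 8487373/250000
  | 30 => 35193129/1000000
  | 31 => 18218383/500000
  | 32 => 37680403/1000000
  | 33 => 973101/25000
  | 34 => 40167677/1000000
  | 35 => 20705657/500000
  | 36 => 42654951/1000000
  | 37 => 10974647/250000
  | 38 => 1805689/40000
  | 39 => 23192931/500000
  | _ => 0

theorem logU1_0 : Real.log (U 0 1) ≤ (LamT 0 : ℝ) := by
  have h : U 0 1 = 2 := by rw [U_zero]; norm_num
  rw [h]
  have := Real.log_two_lt_d9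
  simp only [LamT]
  push_cast
  norm_num at this ⊢
  linarith

theorem logU1_1 : Real.log (U 1 1) ≤ (LamT 1 : ℝ) := by
  have hu := U_pos 0 (ρ := 1) (by norm_num) (by norm_num)
  have hv := U_pos 0 (ρ := 1 / 2) (by norm_num) (by norm_num)
  rw [U_succ_one, Real.log_mul hu.ne' hv.ne']
  have hl := lam0
  have hp := logU1_0
  simp only [LamT] at hp ⊢
  push_cast at hp ⊢
  linarith

theorem logU1_2 : Real.log (U 2 1) ≤ (LamT 2 : ℝ) := by
  have hu := U_pos 1 (ρ := 1) (by norm_num) (by norm_num)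
  have hv := U_pos 1 (ρ := 1 / 2) (by norm_num) (by norm_num)
  rw [U_succ_one, Real.log_mul hu.ne' hv.ne']
  have hl := lam1
  have hp := logU1_1
  simp only [LamT] at hp ⊢
  push_cast at hp ⊢
  linarith

theorem logU1_3 : Real.log (U 3 1) ≤ (LamT 3 : ℝ) := by
  have hu := U_pos 2 (ρ := 1) (by norm_num) (by norm_num)
  have hv := U_pos 2 (ρ := 1 / 2) (by norm_num) (by norm_num)
  rw [U_succ_one, Real.log_mul hu.ne' hv.ne']
  have hl := lam2
  have hp := logU1_2
  simp only [LamT] at hp ⊢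
  push_cast at hp ⊢
  linarith

theorem logU1_4 : Real.log (U 4 1) ≤ (LamT 4 : ℝ) := by
  have hu := U_pos 3 (ρ := 1) (by norm_num) (by norm_num)
  have hv := U_pos 3 (ρ := 1 / 2) (by norm_num) (by norm_num)
  rw [U_succ_one, Real.log_mul hu.ne' hv.ne']
  have hl := lam3
  have hp := logU1_3
  simp only [LamT] at hp ⊢
  push_cast at hp ⊢
  linarith

theorem logU1_5 : Real.log (U 5 1) ≤ (LamT 5 : ℝ) := by
  have hu := U_pos 4 (ρ := 1) (by norm_num) (by norm_num)
  have hv := U_pos 4 (ρ := 1 / 2) (by norm_num) (by norm_num)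
  rw [U_succ_one, Real.log_mul hu.ne' hv.ne']
  have hl := lam4
  have hp := logU1_4
  simp only [LamT] at hp ⊢
  push_cast at hp ⊢
  linarith

theorem logU1_6 : Real.log (U 6 1) ≤ (LamT 6 : ℝ) := by
  have hu := U_pos 5 (ρ := 1) (by norm_num) (by norm_num)
  have hv := U_pos 5 (ρ := 1 / 2) (by norm_num) (by norm_num)
  rw [U_succ_one, Real.log_mul hu.ne' hv.ne']
  have hl := lam5
  have hp := logU1_5
  simp only [LamT] at hp ⊢
  push_cast at hp ⊢
  linarith

theorem logU1_7 : Real.log (U 7 1) ≤ (LamT 7 : ℝ) := by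
  have hu := U_pos 6 (ρ := 1) (by norm_num) (by norm_num)
  have hv := U_pos 6 (ρ := 1 / 2) (by norm_num) (by norm_num)
  rw [U_succ_one, Real.log_mul hu.ne' hv.ne']
  have hl := lam6
  have hp := logU1_6
  simp only [LamT] at hp ⊢
  push_cast at hp ⊢
  linarith

theorem logU1_8 : Real.log (U 8 1) ≤ (LamT 8 : ℝ) := by
  have hu := U_pos 7 (ρ := 1) (by norm_num) (by norm_num)
  have hv := U_pos 7 (ρ := 1 / 2) (by norm_num) (by norm_num)
  rw [U_succ_one, Real.log_mul hu.ne' hv.ne']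
  have hl := lam7
  have hp := logU1_7
  simp only [LamT] at hp ⊢
  push_cast at hp ⊢
  linarith

theorem logU1_9 : Real.log (U 9 1) ≤ (LamT 9 : ℝ) := by
  have hu := U_pos 8 (ρ := 1) (by norm_num) (by norm_num)
  have hv := U_pos 8 (ρ := 1 / 2) (by norm_num) (by norm_num)
  rw [U_succ_one, Real.log_mul hu.ne' hv.ne']
  have hl := lam8
  have hp := logU1_8
  simp only [LamT] at hp ⊢
  push_cast at hp ⊢
  linarith

theorem logU1_10 : Real.log (U 10 1) ≤ (LamT 10 : ℝ) := by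
  have hu := U_pos 9 (ρ := 1) (by norm_num) (by norm_num)
  have hv := U_pos 9 (ρ := 1 / 2) (by norm_num) (by norm_num)
  rw [U_succ_one, Real.log_mul hu.ne' hv.ne']
  have hl := lam9
  have hp := logU1_9
  simp only [LamT] at hp ⊢
  push_cast at hp ⊢
  linarith

theorem logU1_11 : Real.log (U 11 1) ≤ (LamT 11 : ℝ) := by
  have hu := U_pos 10 (ρ := 1) (by norm_num) (by norm_num)
  have hv := U_pos 10 (ρ := 1 / 2) (by norm_num) (by norm_num)
  rw [U_succ_one, Real.log_mul hu.ne' hv.ne']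
  have hl := lam10
  have hp := logU1_10
  simp only [LamT] at hp ⊢
  push_cast at hp ⊢
  linarith

theorem logU1_12 : Real.log (U 12 1) ≤ (LamT 12 : ℝ) := by
  have hu := U_pos 11 (ρ := 1) (by norm_num) (by norm_num)
  have hv := U_pos 11 (ρ := 1 / 2) (by norm_num) (by norm_num)
  rw [U_succ_one, Real.log_mul hu.ne' hv.ne']
  have hl := lam11
  have hp := logU1_11
  simp only [LamT] at hp ⊢
  push_cast at hp ⊢
  linarith

theorem logU1_13 : Real.log (U 13 1) ≤ (LamT 13 : ℝ) := by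
  have hu := U_pos 12 (ρ := 1) (by norm_num) (by norm_num)
  have hv := U_pos 12 (ρ := 1 / 2) (by norm_num) (by norm_num)
  rw [U_succ_one, Real.log_mul hu.ne' hv.ne']
  have hl := lam12
  have hp := logU1_12
  simp only [LamT] at hp ⊢
  push_cast at hp ⊢
  linarith

theorem logU1_14 : Real.log (U 14 1) ≤ (LamT 14 : ℝ) := by
  have hu := U_pos 13 (ρ := 1) (by norm_num) (by norm_num)
  have hv := U_pos 13 (ρ := 1 / 2) (by norm_num) (by norm_num)
  rw [U_succ_one, Real.log_mul hu.ne' hv.ne']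
  have hl := lam13
  have hp := logU1_13
  simp only [LamT] at hp ⊢
  push_cast at hp ⊢
  linarith

theorem logU1_15 : Real.log (U 15 1) ≤ (LamT 15 : ℝ) := by
  have hu := U_pos 14 (ρ := 1) (by norm_num) (by norm_num)
  have hv := U_pos 14 (ρ := 1 / 2) (by norm_num) (by norm_num)
  rw [U_succ_one, Real.log_mul hu.ne' hv.ne']
  have hl := lam14
  have hp := logU1_14
  simp only [LamT] at hp ⊢
  push_cast at hp ⊢
  linarith

theorem logU1_16 : Real.log (U 16 1) ≤ (LamT 16 : ℝ) := by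
  have hu := U_pos 15 (ρ := 1) (by norm_num) (by norm_num)
  have hv := U_pos 15 (ρ := 1 / 2) (by norm_num) (by norm_num)
  rw [U_succ_one, Real.log_mul hu.ne' hv.ne']
  have hl := lam15
  have hp := logU1_15
  simp only [LamT] at hp ⊢
  push_cast at hp ⊢
  linarith

theorem logU1_17 : Real.log (U 17 1) ≤ (LamT 17 : ℝ) := by
  have hu := U_pos 16 (ρ := 1) (by norm_num) (by norm_num)
  have hv := U_pos 16 (ρ := 1 / 2) (by norm_num) (by norm_num)
  rw [U_succ_one, Real.log_mul hu.ne' hv.ne']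
  have hl : Real.log (U 16 (1 / 2)) ≤ (1243637/1000000) := lamInf 0
  have hp := logU1_16
  simp only [LamT] at hp ⊢
  push_cast at hp ⊢
  linarith

theorem logU1_18 : Real.log (U 18 1) ≤ (LamT 18 : ℝ) := by
  have hu := U_pos 17 (ρ := 1) (by norm_num) (by norm_num)
  have hv := U_pos 17 (ρ := 1 / 2) (by norm_num) (by norm_num)
  rw [U_succ_one, Real.log_mul hu.ne' hv.ne']
  have hl : Real.log (U 17 (1 / 2)) ≤ (1243637/1000000) := lamInf 1
  have hp := logU1_17
  simp only [LamT] at hp ⊢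
  push_cast at hp ⊢
  linarith

theorem logU1_19 : Real.log (U 19 1) ≤ (LamT 19 : ℝ) := by
  have hu := U_pos 18 (ρ := 1) (by norm_num) (by norm_num)
  have hv := U_pos 18 (ρ := 1 / 2) (by norm_num) (by norm_num)
  rw [U_succ_one, Real.log_mul hu.ne' hv.ne']
  have hl : Real.log (U 18 (1 / 2)) ≤ (1243637/1000000) := lamInf 2
  have hp := logU1_18
  simp only [LamT] at hp ⊢
  push_cast at hp ⊢
  linarith

theorem logU1_20 : Real.log (U 20 1) ≤ (LamT 20 : ℝ) := by
  have hu := U_pos 19 (ρ := 1) (by norm_num) (by norm_num)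
  have hv := U_pos 19 (ρ := 1 / 2) (by norm_num) (by norm_num)
  rw [U_succ_one, Real.log_mul hu.ne' hv.ne']
  have hl : Real.log (U 19 (1 / 2)) ≤ (1243637/1000000) := lamInf 3
  have hp := logU1_19
  simp only [LamT] at hp ⊢
  push_cast at hp ⊢
  linarith

theorem logU1_21 : Real.log (U 21 1) ≤ (LamT 21 : ℝ) := by
  have hu := U_pos 20 (ρ := 1) (by norm_num) (by norm_num)
  have hv := U_pos 20 (ρ := 1 / 2) (by norm_num) (by norm_num)
  rw [U_succ_one, Real.log_mul hu.ne' hv.ne']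
  have hl : Real.log (U 20 (1 / 2)) ≤ (1243637/1000000) := lamInf 4
  have hp := logU1_20
  simp only [LamT] at hp ⊢
  push_cast at hp ⊢
  linarith

theorem logU1_22 : Real.log (U 22 1) ≤ (LamT 22 : ℝ) := by
  have hu := U_pos 21 (ρ := 1) (by norm_num) (by norm_num)
  have hv := U_pos 21 (ρ := 1 / 2) (by norm_num) (by norm_num)
  rw [U_succ_one, Real.log_mul hu.ne' hv.ne']
  have hl : Real.log (U 21 (1 / 2)) ≤ (1243637/1000000) := lamInf 5
  have hp := logU1_21
  simp only [LamT] at hp ⊢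
  push_cast at hp ⊢
  linarith

theorem logU1_23 : Real.log (U 23 1) ≤ (LamT 23 : ℝ) := by
  have hu := U_pos 22 (ρ := 1) (by norm_num) (by norm_num)
  have hv := U_pos 22 (ρ := 1 / 2) (by norm_num) (by norm_num)
  rw [U_succ_one, Real.log_mul hu.ne' hv.ne']
  have hl : Real.log (U 22 (1 / 2)) ≤ (1243637/1000000) := lamInf 6
  have hp := logU1_22
  simp only [LamT] at hp ⊢
  push_cast at hp ⊢
  linarith

theorem logU1_24 : Real.log (U 24 1) ≤ (LamT 24 : ℝ) := by
  have hu := U_pos 23 (ρ := 1) (by norm_num) (by norm_num)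
  have hv := U_pos 23 (ρ := 1 / 2) (by norm_num) (by norm_num)
  rw [U_succ_one, Real.log_mul hu.ne' hv.ne']
  have hl : Real.log (U 23 (1 / 2)) ≤ (1243637/1000000) := lamInf 7
  have hp := logU1_23
  simp only [LamT] at hp ⊢
  push_cast at hp ⊢
  linarith

theorem logU1_25 : Real.log (U 25 1) ≤ (LamT 25 : ℝ) := by
  have hu := U_pos 24 (ρ := 1) (by norm_num) (by norm_num)
  have hv := U_pos 24 (ρ := 1 / 2) (by norm_num) (by norm_num)
  rw [U_succ_one, Real.log_mul hu.ne' hv.ne']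
  have hl : Real.log (U 24 (1 / 2)) ≤ (1243637/1000000) := lamInf 8
  have hp := logU1_24
  simp only [LamT] at hp ⊢
  push_cast at hp ⊢
  linarith

theorem logU1_26 : Real.log (U 26 1) ≤ (LamT 26 : ℝ) := by
  have hu := U_pos 25 (ρ := 1) (by norm_num) (by norm_num)
  have hv := U_pos 25 (ρ := 1 / 2) (by norm_num) (by norm_num)
  rw [U_succ_one, Real.log_mul hu.ne' hv.ne']
  have hl : Real.log (U 25 (1 / 2)) ≤ (1243637/1000000) := lamInf 9
  have hp := logU1_25
  simp only [LamT] at hp ⊢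
  push_cast at hp ⊢
  linarith

theorem logU1_27 : Real.log (U 27 1) ≤ (LamT 27 : ℝ) := by
  have hu := U_pos 26 (ρ := 1) (by norm_num) (by norm_num)
  have hv := U_pos 26 (ρ := 1 / 2) (by norm_num) (by norm_num)
  rw [U_succ_one, Real.log_mul hu.ne' hv.ne']
  have hl : Real.log (U 26 (1 / 2)) ≤ (1243637/1000000) := lamInf 10
  have hp := logU1_26
  simp only [LamT] at hp ⊢
  push_cast at hp ⊢
  linarith

theorem logU1_28 : Real.log (U 28 1) ≤ (LamT 28 : ℝ) := by
  have hu := U_pos 27 (ρ := 1) (by norm_num) (by norm_num)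
  have hv := U_pos 27 (ρ := 1 / 2) (by norm_num) (by norm_num)
  rw [U_succ_one, Real.log_mul hu.ne' hv.ne']
  have hl : Real.log (U 27 (1 / 2)) ≤ (1243637/1000000) := lamInf 11
  have hp := logU1_27
  simp only [LamT] at hp ⊢
  push_cast at hp ⊢
  linarith

theorem logU1_29 : Real.log (U 29 1) ≤ (LamT 29 : ℝ) := by
  have hu := U_pos 28 (ρ := 1) (by norm_num) (by norm_num)
  have hv := U_pos 28 (ρ := 1 / 2) (by norm_num) (by norm_num)
  rw [U_succ_one, Real.log_mul hu.ne' hv.ne']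
  have hl : Real.log (U 28 (1 / 2)) ≤ (1243637/1000000) := lamInf 12
  have hp := logU1_28
  simp only [LamT] at hp ⊢
  push_cast at hp ⊢
  linarith

theorem logU1_30 : Real.log (U 30 1) ≤ (LamT 30 : ℝ) := by
  have hu := U_pos 29 (ρ := 1) (by norm_num) (by norm_num)
  have hv := U_pos 29 (ρ := 1 / 2) (by norm_num) (by norm_num)
  rw [U_succ_one, Real.log_mul hu.ne' hv.ne']
  have hl : Real.log (U 29 (1 / 2)) ≤ (1243637/1000000) := lamInf 13
  have hp := logU1_29
  simp only [LamT] at hp ⊢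
  push_cast at hp ⊢
  linarith

theorem logU1_31 : Real.log (U 31 1) ≤ (LamT 31 : ℝ) := by
  have hu := U_pos 30 (ρ := 1) (by norm_num) (by norm_num)
  have hv := U_pos 30 (ρ := 1 / 2) (by norm_num) (by norm_num)
  rw [U_succ_one, Real.log_mul hu.ne' hv.ne']
  have hl : Real.log (U 30 (1 / 2)) ≤ (1243637/1000000) := lamInf 14
  have hp := logU1_30
  simp only [LamT] at hp ⊢
  push_cast at hp ⊢
  linarith

theorem logU1_32 : Real.log (U 32 1) ≤ (LamT 32 : ℝ) := by
  have hu := U_pos 31 (ρ := 1) (by norm_num) (by norm_num)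
  have hv := U_pos 31 (ρ := 1 / 2) (by norm_num) (by norm_num)
  rw [U_succ_one, Real.log_mul hu.ne' hv.ne']
  have hl : Real.log (U 31 (1 / 2)) ≤ (1243637/1000000) := lamInf 15
  have hp := logU1_31
  simp only [LamT] at hp ⊢
  push_cast at hp ⊢
  linarith

theorem logU1_33 : Real.log (U 33 1) ≤ (LamT 33 : ℝ) := by
  have hu := U_pos 32 (ρ := 1) (by norm_num) (by norm_num)
  have hv := U_pos 32 (ρ := 1 / 2) (by norm_num) (by norm_num)
  rw [U_succ_one, Real.log_mul hu.ne' hv.ne']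
  have hl : Real.log (U 32 (1 / 2)) ≤ (1243637/1000000) := lamInf 16
  have hp := logU1_32
  simp only [LamT] at hp ⊢
  push_cast at hp ⊢
  linarith

theorem logU1_34 : Real.log (U 34 1) ≤ (LamT 34 : ℝ) := by
  have hu := U_pos 33 (ρ := 1) (by norm_num) (by norm_num)
  have hv := U_pos 33 (ρ := 1 / 2) (by norm_num) (by norm_num)
  rw [U_succ_one, Real.log_mul hu.ne' hv.ne']
  have hl : Real.log (U 33 (1 / 2)) ≤ (1243637/1000000) := lamInf 17
  have hp := logU1_33
  simp only [LamT] at hp ⊢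
  push_cast at hp ⊢
  linarith

theorem logU1_35 : Real.log (U 35 1) ≤ (LamT 35 : ℝ) := by
  have hu := U_pos 34 (ρ := 1) (by norm_num) (by norm_num)
  have hv := U_pos 34 (ρ := 1 / 2) (by norm_num) (by norm_num)
  rw [U_succ_one, Real.log_mul hu.ne' hv.ne']
  have hl : Real.log (U 34 (1 / 2)) ≤ (1243637/1000000) := lamInf 18
  have hp := logU1_34
  simp only [LamT] at hp ⊢
  push_cast at hp ⊢
  linarith

theorem logU1_36 : Real.log (U 36 1) ≤ (LamT 36 : ℝ) := by
  have hu := U_pos 35 (ρ := 1) (by norm_num) (by norm_num)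
  have hv := U_pos 35 (ρ := 1 / 2) (by norm_num) (by norm_num)
  rw [U_succ_one, Real.log_mul hu.ne' hv.ne']
  have hl : Real.log (U 35 (1 / 2)) ≤ (1243637/1000000) := lamInf 19
  have hp := logU1_35
  simp only [LamT] at hp ⊢
  push_cast at hp ⊢
  linarith

theorem logU1_37 : Real.log (U 37 1) ≤ (LamT 37 : ℝ) := by
  have hu := U_pos 36 (ρ := 1) (by norm_num) (by norm_num)
  have hv := U_pos 36 (ρ := 1 / 2) (by norm_num) (by norm_num)
  rw [U_succ_one, Real.log_mul hu.ne' hv.ne']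
  have hl : Real.log (U 36 (1 / 2)) ≤ (1243637/1000000) := lamInf 20
  have hp := logU1_36
  simp only [LamT] at hp ⊢
  push_cast at hp ⊢
  linarith

theorem logU1_38 : Real.log (U 38 1) ≤ (LamT 38 : ℝ) := by
  have hu := U_pos 37 (ρ := 1) (by norm_num) (by norm_num)
  have hv := U_pos 37 (ρ := 1 / 2) (by norm_num) (by norm_num)
  rw [U_succ_one, Real.log_mul hu.ne' hv.ne']
  have hl : Real.log (U 37 (1 / 2)) ≤ (1243637/1000000) := lamInf 21
  have hp := logU1_37
  simp only [LamT] at hp ⊢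
  push_cast at hp ⊢
  linarith

theorem logU1_39 : Real.log (U 39 1) ≤ (LamT 39 : ℝ) := by
  have hu := U_pos 38 (ρ := 1) (by norm_num) (by norm_num)
  have hv := U_pos 38 (ρ := 1 / 2) (by norm_num) (by norm_num)
  rw [U_succ_one, Real.log_mul hu.ne' hv.ne']
  have hl : Real.log (U 38 (1 / 2)) ≤ (1243637/1000000) := lamInf 22
  have hp := logU1_38
  simp only [LamT] at hp ⊢
  push_cast at hp ⊢
  linarith

theorem logU1_le {k : ℕ} (hk : k ≤ 39) : Real.log (U k 1) ≤ (LamT k : ℝ) := by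
  interval_cases k
  · exact logU1_0
  · exact logU1_1
  · exact logU1_2
  · exact logU1_3
  · exact logU1_4
  · exact logU1_5
  · exact logU1_6
  · exact logU1_7
  · exact logU1_8
  · exact logU1_9
  · exact logU1_10
  · exact logU1_11
  · exact logU1_12
  · exact logU1_13
  · exact logU1_14
  · exact logU1_15
  · exact logU1_16
  · exact logU1_17
  · exact logU1_18
  · exact logU1_19
  · exact logU1_20
  · exact logU1_21
  · exact logU1_22
  · exact logU1_23
  · exact logU1_24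
  · exact logU1_25
  · exact logU1_26
  · exact logU1_27
  · exact logU1_28
  · exact logU1_29
  · exact logU1_30
  · exact logU1_31
  · exact logU1_32
  · exact logU1_33
  · exact logU1_34
  · exact logU1_35
  · exact logU1_36
  · exact logU1_37
  · exact logU1_38
  · exact logU1_39

/-! ### The schedule -/

/-- `k_l`: number of near layers at level `l`. -/
def kS (l : ℕ) : ℕ := if l ≤ 40 then l - 1 else (4 * l + 4) / 5

/-- `r_l`: `R_l = 2 ^ r_l`, `P_l = 63 r_l`. -/
def rS (l : ℕ) : ℕ := if l ≤ 60 then 1 else (l + 29) / 30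

/-- The level weight (upper bound for `w_l` of #850). -/
noncomputable def W (l : ℕ) : ℝ :=
  if l ≤ 40 then (LamT (l - 1) : ℝ) / 2 ^ (l - 1)
  else ((2 : ℝ) ^ rS l - 1) / (rS l : ℝ) * (3 / 4 : ℝ) ^ kS l

theorem W_of_le {l : ℕ} (h : l ≤ 40) : W l = (LamT (l - 1) : ℝ) / 2 ^ (l - 1) := if_pos h

theorem W_of_gt {l : ℕ} (h : 40 < l) :
    W l = ((2 : ℝ) ^ rS l - 1) / (rS l : ℝ) * (3 / 4 : ℝ) ^ kS l := if_neg (by omega)

theorem rS_pos (l : ℕ) : 1 ≤ rS l := by
  unfold rS; split_ifs with h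
  · exact le_rfl
  · omega

theorem kS_eq {l : ℕ} (h : 40 < l) : kS l = (4 * l + 4) / 5 := if_neg (by omega)

theorem LamT_nonneg {k : ℕ} : 0 ≤ (LamT k : ℝ) := by
  by_cases hk : k ≤ 39
  · interval_cases k <;> simp only [LamT] <;> norm_num
  · have : LamT k = 0 := by
      unfold LamT
      split <;> first | omega | rfl
    rw [this]; norm_num

theorem W_nonneg (l : ℕ) : 0 ≤ W l := by
  unfold W
  split_ifs with h
  · exact div_nonneg LamT_nonneg (by positivity)
  · have h1 : (1 : ℝ) ≤ 2 ^ rS l := one_le_pow₀ (by norm_num)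
    exact mul_nonneg (div_nonneg (by linarith) (by positivity)) (by positivity)

/-- The `w_l` of #850 for `l ≤ 40` is bounded by `W l`. -/
theorem log_U_le_W {l : ℕ} (h1 : 1 ≤ l) (h : l ≤ 40) :
    Real.log (U (l - 1) 1) / 2 ^ (l - 1) ≤ W l := by
  rw [W_of_le h]
  exact div_le_div_of_nonneg_right (logU1_le (by omega)) (by positivity)

/-! ### Geometric decay for `l > 40` -/

theorem W_base {l : ℕ} (h1 : 41 ≤ l) (h2 : l ≤ 90) : W l ≤ 1 / 50 * (7 / 8 : ℝ) ^ l := by
  rw [W_of_gt (by omega)]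
  interval_cases l <;> norm_num [rS, kS]

theorem ratio_mono (r : ℕ) (hr : 1 ≤ r) :
    ((2 : ℝ) ^ (r + 1) - 1) / ((r + 1 : ℕ) : ℝ) ≤ 2 * (((2 : ℝ) ^ r - 1) / (r : ℝ)) := by
  have hr' : (0 : ℝ) < r := by exact_mod_cast hr
  have hr1 : (0 : ℝ) < ((r + 1 : ℕ) : ℝ) := by positivity
  rw [div_le_iff₀ hr1]
  have h2 : (r : ℝ) + 2 ≤ 2 ^ (r + 1) := by
    have : ((r + 2 : ℕ) : ℝ) ≤ ((2 ^ (r + 1) : ℕ) : ℝ) := by
      exact_mod_cast (show r + 2 ≤ 2 ^ (r + 1) by
        have := Nat.lt_two_pow_self (n := r + 1)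
        omega)
    push_cast at this
    linarith
  have h3 : 2 * (((2 : ℝ) ^ r - 1) / (r : ℝ)) * ((r + 1 : ℕ) : ℝ)
      = (2 ^ (r + 1) - 2) * ((r + 1 : ℝ) / r) := by
    push_cast
    field_simp
    ring
  rw [h3]
  have h4 : (r + 1 : ℝ) / r = 1 + 1 / r := by field_simp
  rw [h4]
  have h5 : (2 ^ (r + 1) - 2 : ℝ) * (1 / r) ≥ 1 := by
    have h6 : (2 ^ (r + 1) - 2 : ℝ) ≥ r := by linarith
    rw [ge_iff_le, mul_one_div, le_div_iff₀ hr']
    linarith
  nlinarith

theorem W_step {m : ℕ} (hm : 61 ≤ m) : W (m + 30) ≤ (7 / 8 : ℝ) ^ 30 * W m := by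
  rw [W_of_gt (by omega), W_of_gt (by omega)]
  have hr : rS (m + 30) = rS m + 1 := by
    unfold rS
    rw [if_neg (by omega), if_neg (by omega)]
    omega
  have hk : kS (m + 30) = kS m + 24 := by
    rw [kS_eq (by omega), kS_eq (by omega)]
    omega
  rw [hr, hk]
  have h1 := ratio_mono (rS m) (rS_pos m)
  have h2 : (3 / 4 : ℝ) ^ (kS m + 24) = (3 / 4) ^ 24 * (3 / 4) ^ kS m := by ring
  rw [h2]
  have h3 : (0 : ℝ) ≤ ((2 : ℝ) ^ rS m - 1) / (rS m : ℝ) := by
    have : (1 : ℝ) ≤ 2 ^ rS m := one_le_pow₀ (by norm_num)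
    exact div_nonneg (by linarith) (by positivity)
  have h4 : (0 : ℝ) ≤ (3 / 4 : ℝ) ^ kS m := by positivity
  have h5 : 2 * (3 / 4 : ℝ) ^ 24 ≤ (7 / 8) ^ 30 := by norm_num
  calc ((2 : ℝ) ^ (rS m + 1) - 1) / ((rS m + 1 : ℕ) : ℝ) * ((3 / 4) ^ 24 * (3 / 4) ^ kS m)
      ≤ (2 * (((2 : ℝ) ^ rS m - 1) / (rS m : ℝ))) * ((3 / 4) ^ 24 * (3 / 4) ^ kS m) :=
        mul_le_mul_of_nonneg_right h1 (by positivity)
    _ = (2 * (3 / 4 : ℝ) ^ 24) * (((2 : ℝ) ^ rS m - 1) / (rS m : ℝ) * (3 / 4) ^ kS m) := by ring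
    _ ≤ (7 / 8) ^ 30 * (((2 : ℝ) ^ rS m - 1) / (rS m : ℝ) * (3 / 4) ^ kS m) :=
        mul_le_mul_of_nonneg_right h5 (mul_nonneg h3 h4)

/-- `W l ≤ (1/50) (7/8)^l` for `l ≥ 41`. -/
theorem W_le_geom : ∀ l : ℕ, 41 ≤ l → W l ≤ 1 / 50 * (7 / 8 : ℝ) ^ l := by
  intro l
  induction l using Nat.strong_induction_on with
  | _ l ih =>
    intro h1
    by_cases h2 : l ≤ 90
    · exact W_base h1 h2
    · obtain ⟨m, rfl⟩ : ∃ m, l = m + 30 := ⟨l - 30, by omega⟩
      have h3 := ih m (by omega) (by omega)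
      refine le_trans (W_step (by omega)) ?_
      have h4 : (7 / 8 : ℝ) ^ (m + 30) = (7 / 8) ^ 30 * (7 / 8) ^ m := by ring
      rw [h4]
      have h5 : (0 : ℝ) ≤ (7 / 8 : ℝ) ^ 30 := by positivity
      nlinarith [mul_le_mul_of_nonneg_left h3 h5]

/-! ### Monotonicity of `W l * 2 ^ l` (needed for the bathtub step) -/

theorem ratio_mono' {r r' : ℕ} (hr : 1 ≤ r) (h : r ≤ r') :
    ((2 : ℝ) ^ r - 1) / (r : ℝ) ≤ ((2 : ℝ) ^ r' - 1) / (r' : ℝ) := by
  induction r', h using Nat.le_induction with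
  | base => exact le_rfl
  | succ r' hr' ih =>
    refine le_trans ih ?_
    have h0 : (0 : ℝ) < r' := by exact_mod_cast (show 0 < r' by omega)
    rw [div_le_div_iff₀ h0 (by positivity)]
    push_cast
    have h2 : (r' : ℝ) + 2 ≤ 2 ^ (r' + 1) := by
      have : ((r' + 2 : ℕ) : ℝ) ≤ ((2 ^ (r' + 1) : ℕ) : ℝ) := by
        exact_mod_cast (show r' + 2 ≤ 2 ^ (r' + 1) by
          have := Nat.lt_two_pow_self (n := r' + 1)
          omega)
      push_cast at this
      linarith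
    have h3 : (2 : ℝ) ^ (r' + 1) = 2 * 2 ^ r' := by ring
    have ha : (1 : ℝ) ≤ 2 ^ r' := one_le_pow₀ (by norm_num)
    have hr1 : (1 : ℝ) ≤ r' := by exact_mod_cast (show 1 ≤ r' by omega)
    rw [h3]
    nlinarith [mul_nonneg (show (0:ℝ) ≤ 2 ^ r' by positivity) (sub_nonneg.2 hr1)]

theorem rS_mono {l : ℕ} (h : 61 ≤ l) : rS l ≤ rS (l + 1) := by
  unfold rS
  rw [if_neg (by omega), if_neg (by omega)]
  omega

theorem W_mul_pow_le (l : ℕ) (h1 : 1 ≤ l) : W l * 2 ^ l ≤ W (l + 1) * 2 ^ (l + 1) := by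
  by_cases h40 : l + 1 ≤ 40
  · rw [W_of_le (by omega), W_of_le h40]
    have hl39 : l ≤ 39 := by omega
    interval_cases l <;> simp only [LamT] <;> norm_num
  by_cases h61 : l ≤ 60
  · have hl : 40 ≤ l := by omega
    by_cases h : l = 40
    · subst h
      rw [W_of_le (by omega), W_of_gt (by omega)]
      simp only [LamT]
      norm_num [rS, kS]
    · rw [W_of_gt (by omega), W_of_gt (by omega)]
      interval_cases l <;> norm_num [rS, kS]
  · rw [W_of_gt (by omega), W_of_gt (by omega)]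
    have hr := ratio_mono' (rS_pos l) (rS_mono (show 61 ≤ l by omega))
    have hk : kS (l + 1) ≤ kS l + 1 := by
      rw [kS_eq (by omega), kS_eq (by omega)]
      omega
    have hr0 : (0 : ℝ) ≤ ((2 : ℝ) ^ rS l - 1) / (rS l : ℝ) := by
      have : (1 : ℝ) ≤ 2 ^ rS l := one_le_pow₀ (by norm_num)
      exact div_nonneg (by linarith) (by positivity)
    have hk' : (3 / 4 : ℝ) ^ (kS l + 1) ≤ (3 / 4 : ℝ) ^ kS (l + 1) :=
      pow_le_pow_of_le_one (by norm_num) (by norm_num) hk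
    have hp : (0 : ℝ) < 2 ^ l := by positivity
    have e1 : (2 : ℝ) ^ (l + 1) = 2 * 2 ^ l := by ring
    have e2 : (3 / 4 : ℝ) ^ (kS l + 1) = 3 / 4 * (3 / 4) ^ kS l := by ring
    rw [e2] at hk'
    have hq : (0 : ℝ) ≤ (3 / 4 : ℝ) ^ kS l := by positivity
    calc ((2 : ℝ) ^ rS l - 1) / (rS l : ℝ) * (3 / 4) ^ kS l * 2 ^ l
        ≤ ((2 : ℝ) ^ rS l - 1) / (rS l : ℝ) * (2 * (3 / 4 * (3 / 4) ^ kS l)) * 2 ^ l := by
          apply mul_le_mul_of_nonneg_right _ hp.le
          apply mul_le_mul_of_nonneg_left _ hr0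
          nlinarith
      _ ≤ ((2 : ℝ) ^ rS (l + 1) - 1) / (rS (l + 1) : ℝ) * (2 * (3 / 4 : ℝ) ^ kS (l + 1)) * 2 ^ l := by
          apply mul_le_mul_of_nonneg_right _ hp.le
          apply mul_le_mul hr _ (by positivity) (le_trans hr0 hr)
          linarith
      _ = ((2 : ℝ) ^ rS (l + 1) - 1) / (rS (l + 1) : ℝ) * (3 / 4 : ℝ) ^ kS (l + 1) * 2 ^ (l + 1) := by
          rw [e1]; ring

/-- `W l * 2 ^ l` is monotone on `l ≥ 1`. -/
theorem W_mul_pow_mono {l l' : ℕ} (h1 : 1 ≤ l) (h : l ≤ l') : W l * 2 ^ l ≤ W l' * 2 ^ l' := by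
  induction l', h using Nat.le_induction with
  | base => exact le_rfl
  | succ m hm ih => exact le_trans ih (W_mul_pow_le m (by omega))

/-! ### The Hölder parameters `s_l = W_l l (l+1) / 63 ≤ 0.0983` -/

theorem pow_decay : ∀ l : ℕ, 41 ≤ l → (l : ℝ) * (l + 1) * (7 / 8 : ℝ) ^ l ≤ 8 := by
  intro l h
  induction l, h using Nat.le_induction with
  | base => norm_num
  | succ l hl ih =>
    have hl' : (41 : ℝ) ≤ l := by exact_mod_cast hl
    have e : (7 / 8 : ℝ) ^ (l + 1) = 7 / 8 * (7 / 8) ^ l := by ring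
    push_cast
    rw [e]
    have hp : (0 : ℝ) ≤ (7 / 8 : ℝ) ^ l := by positivity
    have h3 : ((l : ℝ) + 1) * (l + 1 + 1) * (7 / 8) ≤ (l : ℝ) * (l + 1) := by nlinarith
    calc ((l : ℝ) + 1) * (l + 1 + 1) * (7 / 8 * (7 / 8) ^ l)
        = (((l : ℝ) + 1) * (l + 1 + 1) * (7 / 8)) * (7 / 8) ^ l := by ring
      _ ≤ ((l : ℝ) * (l + 1)) * (7 / 8) ^ l := mul_le_mul_of_nonneg_right h3 hp
      _ ≤ 8 := ih

/-- The Hölder parameter bound. -/
theorem W_hoelder {l : ℕ} (h1 : 1 ≤ l) : W l * (l * (l + 1)) / 63 ≤ 0.0983 := by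
  by_cases h : l ≤ 40
  · rw [W_of_le h]
    interval_cases l <;> simp only [LamT] <;> norm_num
  · have h2 := W_le_geom l (by omega)
    have h3 := pow_decay l (by omega)
    have h4 : (0 : ℝ) ≤ (l : ℝ) * (l + 1) := by positivity
    have h5 : W l * ((l : ℝ) * (l + 1)) ≤ 1 / 50 * ((l : ℝ) * (l + 1) * (7 / 8) ^ l) := by
      have := mul_le_mul_of_nonneg_right h2 h4
      calc W l * ((l : ℝ) * (l + 1)) ≤ 1 / 50 * (7 / 8) ^ l * ((l : ℝ) * (l + 1)) := this
        _ = _ := by ring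
    rw [div_le_iff₀ (by norm_num)]
    nlinarith


/-! ### Sums of `W` -/

theorem sum_Ioc_left (f : ℕ → ℝ) {L D : ℕ} (h : L < D) :
    ∑ l ∈ Finset.Ioc L D, f l = f (L + 1) + ∑ l ∈ Finset.Ioc (L + 1) D, f l := by
  rw [← Finset.sum_Ioc_consecutive f (Nat.le_succ L) h]
  simp [Nat.Ioc_succ_singleton]

/-- Tail of the weights beyond `L ≥ 40`. -/
theorem tail_geom (L D : ℕ) (hL : 40 ≤ L) :
    ∑ l ∈ Finset.Ioc L D, W l ≤ 4 / 25 * (7 / 8 : ℝ) ^ (L + 1) := by
  have key : ∀ m : ℕ, ∑ l ∈ Finset.Ioc L (L + m), W l ≤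
      4 / 25 * ((7 / 8 : ℝ) ^ (L + 1) - (7 / 8 : ℝ) ^ (L + m + 1)) := by
    intro m
    induction m with
    | zero => simp
    | succ m ih =>
      rw [← add_assoc, Finset.sum_Ioc_succ_top (by omega)]
      have h := W_le_geom (L + m + 1) (by omega)
      have e : (7 / 8 : ℝ) ^ (L + m + 1 + 1) = 7 / 8 * (7 / 8) ^ (L + m + 1) := by ring
      rw [e]
      have e2 : (L + (m + 1) + 1) = (L + m + 1 + 1) := by ring
      nlinarith
  by_cases hD : L ≤ D
  · obtain ⟨m, rfl⟩ := Nat.exists_eq_add_of_le hD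
    have := key m
    have h0 : (0 : ℝ) ≤ (7 / 8 : ℝ) ^ (L + m + 1) := by positivity
    linarith
  · rw [Finset.Ioc_eq_empty (by omega)]
    simp only [Finset.sum_empty]
    positivity

/-- Monotonicity of partial sums in the top limit. -/
theorem sum_Ioc_mono_top (L : ℕ) {D D' : ℕ} (h : D ≤ D') :
    ∑ l ∈ Finset.Ioc L D, W l ≤ ∑ l ∈ Finset.Ioc L D', W l :=
  Finset.sum_le_sum_of_subset_of_nonneg (Finset.Ioc_subset_Ioc_right h) (fun i _ _ => W_nonneg i)

/-- Upper bounds for the partial sums `∑_{l∈(L,40]} W l`. -/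
def TW : ℕ → ℚ
  | 0 => 501738333/200000000
  | 1 => 363108733/200000000
  | 2 => 253247233/200000000
  | 3 => 170112883/200000000
  | 4 => 55045479/100000000
  | 5 => 68809083/200000000
  | 6 => 10430377/50000000
  | 7 => 24647061/200000000
  | 8 => 17809791/250000000
  | 9 => 40460429/1000000000
  | 10 => 22653897/1000000000
  | 11 => 1567247/125000000
  | 12 => 1374749/200000000
  | 13 => 934727/250000000
  | 14 => 252547/125000000
  | 15 => 542833/500000000
  | 16 => 116127/200000000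
  | 17 => 309299/1000000000
  | 18 => 164143/1000000000
  | 19 => 86821/1000000000
  | 20 => 45787/1000000000
  | 21 => 6021/250000000
  | 22 => 12639/1000000000
  | 23 => 331/50000000
  | 24 => 1731/500000000
  | 25 => 1809/1000000000
  | 26 => 189/200000000
  | 27 => 247/500000000
  | 28 => 259/1000000000
  | 29 => 137/1000000000
  | 30 => 73/1000000000
  | 31 => 1/25000000
  | 32 => 23/1000000000
  | 33 => 7/500000000
  | 34 => 9/1000000000
  | 35 => 3/500000000
  | 36 => 1/250000000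
  | 37 => 3/1000000000
  | 38 => 1/500000000
  | 39 => 1/1000000000
  | 40 => 0/1
  | _ => 0

theorem TW_40 : ∑ l ∈ Finset.Ioc 40 40, W l ≤ (TW 40 : ℝ) := by simp [TW]

theorem TW_39 : ∑ l ∈ Finset.Ioc 39 40, W l ≤ (TW 39 : ℝ) := by
  rw [sum_Ioc_left W (by norm_num)]
  have h := TW_40
  rw [W_of_le (by norm_num)]
  simp only [LamT, TW] at h ⊢
  norm_num at h ⊢ <;> linarith

theorem TW_38 : ∑ l ∈ Finset.Ioc 38 40, W l ≤ (TW 38 : ℝ) := by
  rw [sum_Ioc_left W (by norm_num)]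
  have h := TW_39
  rw [W_of_le (by norm_num)]
  simp only [LamT, TW] at h ⊢
  norm_num at h ⊢ <;> linarith

theorem TW_37 : ∑ l ∈ Finset.Ioc 37 40, W l ≤ (TW 37 : ℝ) := by
  rw [sum_Ioc_left W (by norm_num)]
  have h := TW_38
  rw [W_of_le (by norm_num)]
  simp only [LamT, TW] at h ⊢
  norm_num at h ⊢ <;> linarith

theorem TW_36 : ∑ l ∈ Finset.Ioc 36 40, W l ≤ (TW 36 : ℝ) := by
  rw [sum_Ioc_left W (by norm_num)]
  have h := TW_37
  rw [W_of_le (by norm_num)]
  simp only [LamT, TW] at h ⊢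
  norm_num at h ⊢ <;> linarith

theorem TW_35 : ∑ l ∈ Finset.Ioc 35 40, W l ≤ (TW 35 : ℝ) := by
  rw [sum_Ioc_left W (by norm_num)]
  have h := TW_36
  rw [W_of_le (by norm_num)]
  simp only [LamT, TW] at h ⊢
  norm_num at h ⊢ <;> linarith

theorem TW_34 : ∑ l ∈ Finset.Ioc 34 40, W l ≤ (TW 34 : ℝ) := by
  rw [sum_Ioc_left W (by norm_num)]
  have h := TW_35
  rw [W_of_le (by norm_num)]
  simp only [LamT, TW] at h ⊢
  norm_num at h ⊢ <;> linarith

theorem TW_33 : ∑ l ∈ Finset.Ioc 33 40, W l ≤ (TW 33 : ℝ) := by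
  rw [sum_Ioc_left W (by norm_num)]
  have h := TW_34
  rw [W_of_le (by norm_num)]
  simp only [LamT, TW] at h ⊢
  norm_num at h ⊢ <;> linarith

theorem TW_32 : ∑ l ∈ Finset.Ioc 32 40, W l ≤ (TW 32 : ℝ) := by
  rw [sum_Ioc_left W (by norm_num)]
  have h := TW_33
  rw [W_of_le (by norm_num)]
  simp only [LamT, TW] at h ⊢
  norm_num at h ⊢ <;> linarith

theorem TW_31 : ∑ l ∈ Finset.Ioc 31 40, W l ≤ (TW 31 : ℝ) := by
  rw [sum_Ioc_left W (by norm_num)]
  have h := TW_32
  rw [W_of_le (by norm_num)]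
  simp only [LamT, TW] at h ⊢
  norm_num at h ⊢ <;> linarith

theorem TW_30 : ∑ l ∈ Finset.Ioc 30 40, W l ≤ (TW 30 : ℝ) := by
  rw [sum_Ioc_left W (by norm_num)]
  have h := TW_31
  rw [W_of_le (by norm_num)]
  simp only [LamT, TW] at h ⊢
  norm_num at h ⊢ <;> linarith

theorem TW_29 : ∑ l ∈ Finset.Ioc 29 40, W l ≤ (TW 29 : ℝ) := by
  rw [sum_Ioc_left W (by norm_num)]
  have h := TW_30
  rw [W_of_le (by norm_num)]
  simp only [LamT, TW] at h ⊢
  norm_num at h ⊢ <;> linarith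

theorem TW_28 : ∑ l ∈ Finset.Ioc 28 40, W l ≤ (TW 28 : ℝ) := by
  rw [sum_Ioc_left W (by norm_num)]
  have h := TW_29
  rw [W_of_le (by norm_num)]
  simp only [LamT, TW] at h ⊢
  norm_num at h ⊢ <;> linarith

theorem TW_27 : ∑ l ∈ Finset.Ioc 27 40, W l ≤ (TW 27 : ℝ) := by
  rw [sum_Ioc_left W (by norm_num)]
  have h := TW_28
  rw [W_of_le (by norm_num)]
  simp only [LamT, TW] at h ⊢
  norm_num at h ⊢ <;> linarith

theorem TW_26 : ∑ l ∈ Finset.Ioc 26 40, W l ≤ (TW 26 : ℝ) := by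
  rw [sum_Ioc_left W (by norm_num)]
  have h := TW_27
  rw [W_of_le (by norm_num)]
  simp only [LamT, TW] at h ⊢
  norm_num at h ⊢ <;> linarith

theorem TW_25 : ∑ l ∈ Finset.Ioc 25 40, W l ≤ (TW 25 : ℝ) := by
  rw [sum_Ioc_left W (by norm_num)]
  have h := TW_26
  rw [W_of_le (by norm_num)]
  simp only [LamT, TW] at h ⊢
  norm_num at h ⊢ <;> linarith

theorem TW_24 : ∑ l ∈ Finset.Ioc 24 40, W l ≤ (TW 24 : ℝ) := by
  rw [sum_Ioc_left W (by norm_num)]
  have h := TW_25
  rw [W_of_le (by norm_num)]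
  simp only [LamT, TW] at h ⊢
  norm_num at h ⊢ <;> linarith

theorem TW_23 : ∑ l ∈ Finset.Ioc 23 40, W l ≤ (TW 23 : ℝ) := by
  rw [sum_Ioc_left W (by norm_num)]
  have h := TW_24
  rw [W_of_le (by norm_num)]
  simp only [LamT, TW] at h ⊢
  norm_num at h ⊢ <;> linarith

theorem TW_22 : ∑ l ∈ Finset.Ioc 22 40, W l ≤ (TW 22 : ℝ) := by
  rw [sum_Ioc_left W (by norm_num)]
  have h := TW_23
  rw [W_of_le (by norm_num)]
  simp only [LamT, TW] at h ⊢
  norm_num at h ⊢ <;> linarith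

theorem TW_21 : ∑ l ∈ Finset.Ioc 21 40, W l ≤ (TW 21 : ℝ) := by
  rw [sum_Ioc_left W (by norm_num)]
  have h := TW_22
  rw [W_of_le (by norm_num)]
  simp only [LamT, TW] at h ⊢
  norm_num at h ⊢ <;> linarith

theorem TW_20 : ∑ l ∈ Finset.Ioc 20 40, W l ≤ (TW 20 : ℝ) := by
  rw [sum_Ioc_left W (by norm_num)]
  have h := TW_21
  rw [W_of_le (by norm_num)]
  simp only [LamT, TW] at h ⊢
  norm_num at h ⊢ <;> linarith

theorem TW_19 : ∑ l ∈ Finset.Ioc 19 40, W l ≤ (TW 19 : ℝ) := by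
  rw [sum_Ioc_left W (by norm_num)]
  have h := TW_20
  rw [W_of_le (by norm_num)]
  simp only [LamT, TW] at h ⊢
  norm_num at h ⊢ <;> linarith

theorem TW_18 : ∑ l ∈ Finset.Ioc 18 40, W l ≤ (TW 18 : ℝ) := by
  rw [sum_Ioc_left W (by norm_num)]
  have h := TW_19
  rw [W_of_le (by norm_num)]
  simp only [LamT, TW] at h ⊢
  norm_num at h ⊢ <;> linarith

theorem TW_17 : ∑ l ∈ Finset.Ioc 17 40, W l ≤ (TW 17 : ℝ) := by
  rw [sum_Ioc_left W (by norm_num)]
  have h := TW_18
  rw [W_of_le (by norm_num)]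
  simp only [LamT, TW] at h ⊢
  norm_num at h ⊢ <;> linarith

theorem TW_16 : ∑ l ∈ Finset.Ioc 16 40, W l ≤ (TW 16 : ℝ) := by
  rw [sum_Ioc_left W (by norm_num)]
  have h := TW_17
  rw [W_of_le (by norm_num)]
  simp only [LamT, TW] at h ⊢
  norm_num at h ⊢ <;> linarith

theorem TW_15 : ∑ l ∈ Finset.Ioc 15 40, W l ≤ (TW 15 : ℝ) := by
  rw [sum_Ioc_left W (by norm_num)]
  have h := TW_16
  rw [W_of_le (by norm_num)]
  simp only [LamT, TW] at h ⊢
  norm_num at h ⊢ <;> linarith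

theorem TW_14 : ∑ l ∈ Finset.Ioc 14 40, W l ≤ (TW 14 : ℝ) := by
  rw [sum_Ioc_left W (by norm_num)]
  have h := TW_15
  rw [W_of_le (by norm_num)]
  simp only [LamT, TW] at h ⊢
  norm_num at h ⊢ <;> linarith

theorem TW_13 : ∑ l ∈ Finset.Ioc 13 40, W l ≤ (TW 13 : ℝ) := by
  rw [sum_Ioc_left W (by norm_num)]
  have h := TW_14
  rw [W_of_le (by norm_num)]
  simp only [LamT, TW] at h ⊢
  norm_num at h ⊢ <;> linarith

theorem TW_12 : ∑ l ∈ Finset.Ioc 12 40, W l ≤ (TW 12 : ℝ) := by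
  rw [sum_Ioc_left W (by norm_num)]
  have h := TW_13
  rw [W_of_le (by norm_num)]
  simp only [LamT, TW] at h ⊢
  norm_num at h ⊢ <;> linarith

theorem TW_11 : ∑ l ∈ Finset.Ioc 11 40, W l ≤ (TW 11 : ℝ) := by
  rw [sum_Ioc_left W (by norm_num)]
  have h := TW_12
  rw [W_of_le (by norm_num)]
  simp only [LamT, TW] at h ⊢
  norm_num at h ⊢ <;> linarith

theorem TW_10 : ∑ l ∈ Finset.Ioc 10 40, W l ≤ (TW 10 : ℝ) := by
  rw [sum_Ioc_left W (by norm_num)]
  have h := TW_11
  rw [W_of_le (by norm_num)]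
  simp only [LamT, TW] at h ⊢
  norm_num at h ⊢ <;> linarith

theorem TW_9 : ∑ l ∈ Finset.Ioc 9 40, W l ≤ (TW 9 : ℝ) := by
  rw [sum_Ioc_left W (by norm_num)]
  have h := TW_10
  rw [W_of_le (by norm_num)]
  simp only [LamT, TW] at h ⊢
  norm_num at h ⊢ <;> linarith

theorem TW_8 : ∑ l ∈ Finset.Ioc 8 40, W l ≤ (TW 8 : ℝ) := by
  rw [sum_Ioc_left W (by norm_num)]
  have h := TW_9
  rw [W_of_le (by norm_num)]
  simp only [LamT, TW] at h ⊢
  norm_num at h ⊢ <;> linarith

theorem TW_7 : ∑ l ∈ Finset.Ioc 7 40, W l ≤ (TW 7 : ℝ) := by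
  rw [sum_Ioc_left W (by norm_num)]
  have h := TW_8
  rw [W_of_le (by norm_num)]
  simp only [LamT, TW] at h ⊢
  norm_num at h ⊢ <;> linarith

theorem TW_6 : ∑ l ∈ Finset.Ioc 6 40, W l ≤ (TW 6 : ℝ) := by
  rw [sum_Ioc_left W (by norm_num)]
  have h := TW_7
  rw [W_of_le (by norm_num)]
  simp only [LamT, TW] at h ⊢
  norm_num at h ⊢ <;> linarith

theorem TW_5 : ∑ l ∈ Finset.Ioc 5 40, W l ≤ (TW 5 : ℝ) := by
  rw [sum_Ioc_left W (by norm_num)]
  have h := TW_6
  rw [W_of_le (by norm_num)]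
  simp only [LamT, TW] at h ⊢
  norm_num at h ⊢ <;> linarith

theorem TW_4 : ∑ l ∈ Finset.Ioc 4 40, W l ≤ (TW 4 : ℝ) := by
  rw [sum_Ioc_left W (by norm_num)]
  have h := TW_5
  rw [W_of_le (by norm_num)]
  simp only [LamT, TW] at h ⊢
  norm_num at h ⊢ <;> linarith

theorem TW_3 : ∑ l ∈ Finset.Ioc 3 40, W l ≤ (TW 3 : ℝ) := by
  rw [sum_Ioc_left W (by norm_num)]
  have h := TW_4
  rw [W_of_le (by norm_num)]
  simp only [LamT, TW] at h ⊢
  norm_num at h ⊢ <;> linarith

theorem TW_2 : ∑ l ∈ Finset.Ioc 2 40, W l ≤ (TW 2 : ℝ) := by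
  rw [sum_Ioc_left W (by norm_num)]
  have h := TW_3
  rw [W_of_le (by norm_num)]
  simp only [LamT, TW] at h ⊢
  norm_num at h ⊢ <;> linarith

theorem TW_1 : ∑ l ∈ Finset.Ioc 1 40, W l ≤ (TW 1 : ℝ) := by
  rw [sum_Ioc_left W (by norm_num)]
  have h := TW_2
  rw [W_of_le (by norm_num)]
  simp only [LamT, TW] at h ⊢
  norm_num at h ⊢ <;> linarith

theorem TW_0 : ∑ l ∈ Finset.Ioc 0 40, W l ≤ (TW 0 : ℝ) := by
  rw [sum_Ioc_left W (by norm_num)]
  have h := TW_1
  rw [W_of_le (by norm_num)]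
  simp only [LamT, TW] at h ⊢
  norm_num at h ⊢ <;> linarith
/-- Table for `rhoB`. -/
def RT : ℕ → ℚ
  | 0 => 13186699/10000000
  | 1 => 4772103/5000000
  | 2 => 1331519/2000000
  | 3 => 111831/250000
  | 4 => 724041/2500000
  | 5 => 1811483/10000000
  | 6 => 1099757/10000000
  | 7 => 325563/5000000
  | 8 => 188943/5000000
  | 9 => 13509/625000
  | 10 => 122571/10000000
  | 11 => 69411/10000000
  | 12 => 19823/5000000
  | 13 => 5793/2500000
  | 14 => 14141/10000000
  | 15 => 923/1000000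
  | 16 => 411/625000
  | 17 => 103/200000
  | _ => 0


/-- Upper bound for `ρ_0(L) = (1/2) ∑_{l > L} w̃_l`, uniform in the top limit `D`. -/
noncomputable def rhoB (L : ℕ) : ℝ :=
  if L ≤ 16 then (RT L : ℝ) else if L ≤ 40 then (RT 17 : ℝ) else 1 / 10 * (7 / 8 : ℝ) ^ L

theorem tail40 (D : ℕ) : ∑ l ∈ Finset.Ioc 40 D, W l ≤ (33529/50000000) := by
  refine le_trans (tail_geom 40 D le_rfl) ?_
  norm_num

theorem sum_Ioc_le_TW {L : ℕ} (hL : L ≤ 40) (D : ℕ) :
    ∑ l ∈ Finset.Ioc L D, W l ≤ ∑ l ∈ Finset.Ioc L 40, W l + (33529/50000000) := by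
  have h1 : ∑ l ∈ Finset.Ioc L D, W l ≤ ∑ l ∈ Finset.Ioc L (max D 40), W l :=
    sum_Ioc_mono_top L (le_max_left _ _)
  have h2 : ∑ l ∈ Finset.Ioc L (max D 40), W l =
      ∑ l ∈ Finset.Ioc L 40, W l + ∑ l ∈ Finset.Ioc 40 (max D 40), W l :=
    (Finset.sum_Ioc_consecutive W hL (le_max_right _ _)).symm
  have h3 := tail40 (max D 40)
  linarith

theorem rhoB_bound (D L : ℕ) : 1051 / 2000 * ∑ l ∈ Finset.Ioc L D, W l ≤ rhoB L := by
  unfold rhoB
  split_ifs with h1 h2
  · have h3 := sum_Ioc_le_TW (L := L) (by omega) D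
    interval_cases L
    · have h4 := TW_0
      simp only [TW, RT] at h4 ⊢
      push_cast at h4 ⊢
      linarith
    · have h4 := TW_1
      simp only [TW, RT] at h4 ⊢
      push_cast at h4 ⊢
      linarith
    · have h4 := TW_2
      simp only [TW, RT] at h4 ⊢
      push_cast at h4 ⊢
      linarith
    · have h4 := TW_3
      simp only [TW, RT] at h4 ⊢
      push_cast at h4 ⊢
      linarith
    · have h4 := TW_4
      simp only [TW, RT] at h4 ⊢
      push_cast at h4 ⊢
      linarith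
    · have h4 := TW_5
      simp only [TW, RT] at h4 ⊢
      push_cast at h4 ⊢
      linarith
    · have h4 := TW_6
      simp only [TW, RT] at h4 ⊢
      push_cast at h4 ⊢
      linarith
    · have h4 := TW_7
      simp only [TW, RT] at h4 ⊢
      push_cast at h4 ⊢
      linarith
    · have h4 := TW_8
      simp only [TW, RT] at h4 ⊢
      push_cast at h4 ⊢
      linarith
    · have h4 := TW_9
      simp only [TW, RT] at h4 ⊢
      push_cast at h4 ⊢
      linarith
    · have h4 := TW_10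
      simp only [TW, RT] at h4 ⊢
      push_cast at h4 ⊢
      linarith
    · have h4 := TW_11
      simp only [TW, RT] at h4 ⊢
      push_cast at h4 ⊢
      linarith
    · have h4 := TW_12
      simp only [TW, RT] at h4 ⊢
      push_cast at h4 ⊢
      linarith
    · have h4 := TW_13
      simp only [TW, RT] at h4 ⊢
      push_cast at h4 ⊢
      linarith
    · have h4 := TW_14
      simp only [TW, RT] at h4 ⊢
      push_cast at h4 ⊢
      linarith
    · have h4 := TW_15
      simp only [TW, RT] at h4 ⊢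
      push_cast at h4 ⊢
      linarith
    · have h4 := TW_16
      simp only [TW, RT] at h4 ⊢
      push_cast at h4 ⊢
      linarith
  · have h3 := sum_Ioc_le_TW (L := L) (by omega) D
    have h5 : ∑ l ∈ Finset.Ioc L 40, W l ≤ ∑ l ∈ Finset.Ioc 17 40, W l :=
      Finset.sum_le_sum_of_subset_of_nonneg (Finset.Ioc_subset_Ioc_left (by omega))
        (fun i _ _ => W_nonneg i)
    have h4 := TW_17
    simp only [TW, RT] at h4 ⊢
    push_cast at h4 ⊢
    linarith
  · have h3 := tail_geom L D (by omega)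
    have e : (7 / 8 : ℝ) ^ (L + 1) = 7 / 8 * (7 / 8) ^ L := by ring
    rw [e] at h3
    have h4 : (0 : ℝ) ≤ (7 / 8 : ℝ) ^ L := by positivity
    nlinarith

theorem rhoB_nonneg (L : ℕ) : 0 ≤ rhoB L := by
  unfold rhoB
  split_ifs with h1 h2
  · interval_cases L <;> simp only [RT] <;> norm_num
  · simp only [RT]; norm_num
  · positivity

theorem rhoB_low {L : ℕ} (h : L ≤ 16) : rhoB L = (RT L : ℝ) := by
  unfold rhoB; rw [if_pos h]

theorem rhoB_mid {L : ℕ} (h : 17 ≤ L) (h' : L ≤ 40) : rhoB L = (RT 17 : ℝ) := by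
  unfold rhoB; rw [if_neg (show ¬ L ≤ 16 by omega), if_pos h']

theorem rhoB_high {L : ℕ} (h : 41 ≤ L) : rhoB L = 1 / 10 * (7 / 8 : ℝ) ^ L := by
  unfold rhoB; rw [if_neg (show ¬ L ≤ 16 by omega), if_neg (show ¬ L ≤ 40 by omega)]

theorem rhoB_succ_le (L : ℕ) : rhoB (L + 1) ≤ rhoB L := by
  by_cases h1 : L ≤ 15
  · rw [rhoB_low (by omega), rhoB_low (by omega)]
    interval_cases L <;> simp only [RT] <;> norm_num
  by_cases h2 : L = 16
  · subst h2
    rw [rhoB_mid (by omega) (by omega), rhoB_low (by omega)]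
    norm_num [RT]
  by_cases h3 : L ≤ 39
  · rw [rhoB_mid (by omega) (by omega), rhoB_mid (by omega) (by omega)]
  by_cases h4 : L = 40
  · subst h4
    rw [rhoB_high (by omega), rhoB_mid (by omega) (by omega)]
    norm_num [RT]
  · rw [rhoB_high (by omega), rhoB_high (by omega)]
    have e : (7 / 8 : ℝ) ^ (L + 1) = 7 / 8 * (7 / 8) ^ L := by ring
    rw [e]
    have h5 : (0 : ℝ) ≤ (7 / 8 : ℝ) ^ L := by positivity
    nlinarith

theorem rhoB_anti : Antitone rhoB := antitone_nat_of_succ_le rhoB_succ_le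

/-- The full sum: `(1/2) ∑_{l ≤ D} W l ≤ 1.2547`. -/
theorem half_sum_W_le (D : ℕ) : 1 / 2 * ∑ l ∈ Finset.Ioc 0 D, W l ≤ 1.2547 := by
  have h3 := sum_Ioc_le_TW (L := 0) (by omega) D
  have h4 := TW_0
  simp only [TW] at h4
  push_cast at h4
  norm_num at h3 h4 ⊢
  linarith

/-! ### The Finner budget -/

theorem inv_le_log_succ (b : ℕ) (hb : 1 ≤ b) :
    1 / ((b + 1 : ℕ) : ℝ) ≤ Real.log ((b + 1 : ℕ) : ℝ) - Real.log (b : ℝ) := by
  have hb0 : (0 : ℝ) < b := by exact_mod_cast hb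
  have hb1 : (0 : ℝ) < ((b + 1 : ℕ) : ℝ) := by positivity
  rw [← Real.log_div hb1.ne' hb0.ne']
  have h := Real.one_sub_inv_le_log_of_pos (div_pos hb1 hb0)
  refine le_trans (le_of_eq ?_) h
  push_cast
  field_simp
  ring

theorem sum_inv_le_log {a b : ℕ} (ha : 1 ≤ a) (hab : a ≤ b) :
    ∑ l ∈ Finset.Ioc a b, 1 / (l : ℝ) ≤ Real.log (b : ℝ) - Real.log (a : ℝ) := by
  induction b, hab using Nat.le_induction with
  | base => simp
  | succ b hb ih =>
    rw [Finset.sum_Ioc_succ_top hb]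
    have := inv_le_log_succ b (by omega)
    linarith

/-- Generic bound of the sum over a filtered set by two interval pieces. -/
theorem budget (s : Finset ℕ) (hs : ∀ l ∈ s, 1 ≤ l) (h : ℕ) :
    ∑ l ∈ s.filter (fun l => l - kS l ≤ h ∧ h < l), 1 / (63 * (rS l : ℝ)) ≤ 1 := by
  classical
  set S := s.filter (fun l => l - kS l ≤ h ∧ h < l) with hS
  have hmem : ∀ l ∈ S, 1 ≤ l ∧ l - kS l ≤ h ∧ h < l := by
    intro l hl
    rw [hS, Finset.mem_filter] at hl
    exact ⟨hs l hl.1, hl.2⟩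
  -- facts on members
  have hnear : ∀ l, 40 < l → l - kS l ≤ h → l ≤ 5 * h + 4 := by
    intro l h40 hl
    rw [kS_eq h40] at hl
    omega
  have hf_pos : ∀ l, 0 ≤ 1 / (63 * (rS l : ℝ)) := fun l => by positivity
  have hlow : ∀ l, l ≤ 60 → 1 / (63 * (rS l : ℝ)) = 1 / 63 := by
    intro l hl
    have : rS l = 1 := by unfold rS; rw [if_pos hl]
    rw [this]; norm_num
  have hhigh : ∀ l, 60 < l → 1 / (63 * (rS l : ℝ)) ≤ 30 / 63 * (1 / (l : ℝ)) := by
    intro l hl
    have hr : 30 * rS l ≥ l := by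
      unfold rS; rw [if_neg (by omega)]; omega
    have hl0 : (0 : ℝ) < l := by exact_mod_cast (show 0 < l by omega)
    have hr0 : (0 : ℝ) < rS l := by exact_mod_cast rS_pos l
    have hr' : (l : ℝ) ≤ 30 * (rS l : ℝ) := by exact_mod_cast hr
    rw [div_mul_div_comm, div_le_div_iff₀ (by positivity) (by positivity)]
    nlinarith
  by_cases h60 : 60 ≤ h
  · -- all members are in (h, 5h+4]
    have hsub : S ⊆ Finset.Ioc h (5 * h + 4) := by
      intro l hl
      obtain ⟨h1, h2, h3⟩ := hmem l hl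
      rw [Finset.mem_Ioc]
      exact ⟨h3, hnear l (by omega) h2⟩
    have h1 : ∑ l ∈ S, 1 / (63 * (rS l : ℝ)) ≤ ∑ l ∈ S, 30 / 63 * (1 / (l : ℝ)) := by
      refine Finset.sum_le_sum ?_
      intro l hl
      exact hhigh l (by have := (hmem l hl).2.2; omega)
    have h2 : ∑ l ∈ S, 30 / 63 * (1 / (l : ℝ)) ≤ ∑ l ∈ Finset.Ioc h (5 * h + 4), 30 / 63 * (1 / (l : ℝ)) :=
      Finset.sum_le_sum_of_subset_of_nonneg hsub (fun i _ _ => by positivity)
    have e2 : ∑ l ∈ Finset.Ioc h (5 * h + 4), 30 / 63 * (1 / (l : ℝ)) =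
        30 / 63 * ∑ l ∈ Finset.Ioc h (5 * h + 4), 1 / (l : ℝ) := (Finset.mul_sum _ _ _).symm
    rw [e2] at h2
    have h3 := sum_inv_le_log (a := h) (b := 5 * h + 4) (by omega) (by omega)
    have hh0 : (0 : ℝ) < h := by exact_mod_cast (show 0 < h by omega)
    have hh60 : (60 : ℝ) ≤ h := by exact_mod_cast h60
    have h4 : Real.log ((5 * h + 4 : ℕ) : ℝ) - Real.log (h : ℝ) ≤ 1.7 := by
      have hb : (0 : ℝ) < ((5 * h + 4 : ℕ) : ℝ) := by positivity
      rw [← Real.log_div hb.ne' hh0.ne']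
      have h5 : ((5 * h + 4 : ℕ) : ℝ) / h ≤ 76 / 15 := by
        rw [div_le_div_iff₀ hh0 (by norm_num)]
        push_cast
        nlinarith
      have h6 : (76 / 15 : ℝ) ≤ Real.exp 1.7 := by
        refine le_trans ?_ (Real.sum_le_exp_of_nonneg (by norm_num) 8)
        norm_num [Finset.sum_range_succ, Nat.factorial]
      have h7 : Real.log (((5 * h + 4 : ℕ) : ℝ) / h) ≤ Real.log (Real.exp 1.7) :=
        Real.log_le_log (div_pos hb hh0) (le_trans h5 h6)
      rwa [Real.log_exp] at h7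
    nlinarith
  · -- h < 60
    by_cases h8 : h < 8
    · have hsub : S ⊆ Finset.Ioc 0 40 := by
        intro l hl
        obtain ⟨h1, h2, h3⟩ := hmem l hl
        rw [Finset.mem_Ioc]
        refine ⟨by omega, ?_⟩
        by_contra hc
        have := hnear l (by omega) h2
        omega
      have h1 : ∑ l ∈ S, 1 / (63 * (rS l : ℝ)) ≤ ∑ l ∈ Finset.Ioc 0 40, (1 / 63 : ℝ) := by
        refine le_trans (le_of_eq (Finset.sum_congr rfl fun l hl => hlow l ?_)) ?_
        · have := Finset.mem_Ioc.1 (hsub hl); omega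
        · exact Finset.sum_le_sum_of_subset_of_nonneg hsub (fun i _ _ => by norm_num)
      simp only [Finset.sum_const, Nat.card_Ioc, nsmul_eq_mul] at h1
      norm_num at h1 ⊢
      linarith
    · have h8' : 8 ≤ h := by omega
      -- split into low and high parts
      have hsplit : ∑ l ∈ S, 1 / (63 * (rS l : ℝ)) ≤
          ∑ l ∈ Finset.Ioc h 60, (1 / 63 : ℝ) +
            ∑ l ∈ Finset.Ioc 60 (max 60 (5 * h + 4)), 30 / 63 * (1 / (l : ℝ)) := by
        rw [← Finset.sum_filter_add_sum_filter_not S (fun l => l ≤ 60)]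
        apply add_le_add
        · refine le_trans (le_of_eq (Finset.sum_congr rfl fun l hl => hlow l ?_)) ?_
          · exact (Finset.mem_filter.1 hl).2
          · refine Finset.sum_le_sum_of_subset_of_nonneg ?_ (fun i _ _ => by norm_num)
            intro l hl
            have h1 := Finset.mem_filter.1 hl
            obtain ⟨_, _, h3⟩ := hmem l h1.1
            exact Finset.mem_Ioc.2 ⟨h3, h1.2⟩
        · refine le_trans (Finset.sum_le_sum (fun l hl => hhigh l ?_)) ?_
          · have := (Finset.mem_filter.1 hl).2; omega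
          · refine Finset.sum_le_sum_of_subset_of_nonneg ?_ (fun i _ _ => by positivity)
            intro l hl
            have h1 := Finset.mem_filter.1 hl
            obtain ⟨_, h2, _⟩ := hmem l h1.1
            have h4 := hnear l (by omega) h2
            rw [Finset.mem_Ioc]
            refine ⟨by omega, le_trans h4 (le_max_right _ _)⟩
      refine le_trans hsplit ?_
      rw [← Finset.mul_sum]
      simp only [Finset.sum_const, Nat.card_Ioc, nsmul_eq_mul]
      have h3 := sum_inv_le_log (a := 60) (b := max 60 (5 * h + 4)) (by norm_num) (le_max_left _ _)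
      have hbig : (((60 - h : ℕ) : ℝ)) * (1 / 63) + 30 / 63 * (Real.log ((max 60 (5 * h + 4) : ℕ) : ℝ) - Real.log ((60 : ℕ) : ℝ)) ≤ 1 := by
        have h60r : ((60 - h : ℕ) : ℝ) = 60 - (h : ℝ) := by
          rw [Nat.cast_sub (by omega)]; norm_num
        rw [h60r]
        by_cases hc : 5 * h + 4 ≤ 60
        · rw [max_eq_left hc]
          have : (h : ℝ) ≥ 8 := by exact_mod_cast h8'
          norm_num
          linarith
        · rw [max_eq_right (by omega)]
          have h60' : ((60 : ℕ) : ℝ) = 60 := by norm_num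
          rw [h60']
          have hb : (0 : ℝ) < ((5 * h + 4 : ℕ) : ℝ) := by positivity
          have h4 : Real.log ((5 * h + 4 : ℕ) : ℝ) - Real.log 60 ≤
              ((5 * h + 4 : ℕ) : ℝ) / 150 - 1 + 0.93 := by
            rw [← Real.log_div hb.ne' (by norm_num)]
            have h5 : Real.log (((5 * h + 4 : ℕ) : ℝ) / 60 / (5 / 2)) ≤
                ((5 * h + 4 : ℕ) : ℝ) / 60 / (5 / 2) - 1 :=
              Real.log_le_sub_one_of_pos (by positivity)
            rw [Real.log_div (by positivity) (by norm_num)] at h5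
            have h6 : Real.log (5 / 2) ≤ 0.93 := by
              rw [Real.log_le_iff_le_exp (by norm_num)]
              refine le_trans ?_ (Real.sum_le_exp_of_nonneg (by norm_num) 8)
              norm_num [Finset.sum_range_succ, Nat.factorial]
            have h7 : ((5 * h + 4 : ℕ) : ℝ) / 60 / (5 / 2) = ((5 * h + 4 : ℕ) : ℝ) / 150 := by
              field_simp
              norm_num
            rw [h7] at h5
            linarith
          push_cast at h4 ⊢
          have : (h : ℝ) ≤ 59 := by exact_mod_cast (show h ≤ 59 by omega)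
          nlinarith
      have h3' : ∑ l ∈ Finset.Ioc 60 (max 60 (5 * h + 4)), 1 / (l : ℝ) ≤
          Real.log ((max 60 (5 * h + 4) : ℕ) : ℝ) - Real.log ((60 : ℕ) : ℝ) := h3
      have h60r : ((60 - h : ℕ) : ℝ) * (1 / 63) + 30 / 63 * ∑ l ∈ Finset.Ioc 60 (max 60 (5 * h + 4)), 1 / (l : ℝ) ≤ 1 := by
        nlinarith
      exact h60r
end Crest.Agent.Thorp.Numerics
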