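import Crest.Agent.Lib.Thorp.Interface
import Crest.Agent.Lib.Thorp.NumW

/-!
# Thorp shuffle (S0222), numerics: bridge from `NumU`/`NumW` to `Interface` (`Utab`, `klvl`, `rlvl`, `wt`, `wtt`).
-/

set_option autoImplicit false

namespace Crest.Agent.Thorp

open Finset Numerics

theorem Utab_eq_U : ∀ (k : ℕ) (ρ : ℝ), Utab k ρ = U k ρ
  | 0, _ => rfl
  | k + 1, ρ => by
      rw [U_succ]
      simp only [Utab, rtOf]
      rw [Utab_eq_U k ρ, Utab_eq_U k (ρ / 2)]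

theorem klvl_eq_kS (l : ℕ) : klvl l = kS l := rfl

theorem rlvl_eq_rS (l : ℕ) : rlvl l = rS l := rfl

theorem wt_of_gt {l : ℕ} (h : 40 < l) : wt l = W l := by
  unfold wt
  rw [if_neg (by omega), W_of_gt h, klvl_eq_kS, rlvl_eq_rS]
  ring

theorem wt_of_le {l : ℕ} (h : l ≤ 40) : wt l = Real.log (U (l - 1) 1) / 2 ^ (l - 1) := by
  unfold wt
  rw [if_pos h, Utab_eq_U]

theorem wt_nonneg (l : ℕ) : 0 ≤ wt l := by
  by_cases h : l ≤ 40
  · rw [wt_of_le h]
    have h1 := one_add_le_U (l - 1) 1 zero_le_one le_rfl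
    exact div_nonneg (Real.log_nonneg (by linarith)) (by positivity)
  · rw [wt_of_gt (by omega)]
    exact W_nonneg l

theorem wt_le_W {l : ℕ} (h1 : 1 ≤ l) : wt l ≤ W l := by
  by_cases h : l ≤ 40
  · rw [wt_of_le h]; exact log_U_le_W h1 h
  · rw [wt_of_gt (by omega)]

theorem wtt_nonneg (l : ℕ) : 0 ≤ wtt l := by
  unfold wtt
  have := wt_nonneg l
  positivity

/-- The table bound for `ρ_0`: `(1/2) ∑_{l∈(L,D]} w̃_l ≤ rhoB L`. -/
theorem half_sum_wtt_le (L D : ℕ) : (1 / 2 : ℝ) * ∑ l ∈ Finset.Ioc L D, wtt l ≤ rhoB L := by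
  refine le_trans ?_ (rhoB_bound D L)
  have h : ∑ l ∈ Finset.Ioc L D, wtt l ≤ 1.051 * ∑ l ∈ Finset.Ioc L D, W l := by
    rw [Finset.mul_sum]
    refine Finset.sum_le_sum fun l hl => ?_
    unfold wtt
    have h1 : 1 ≤ l := by
      have := (Finset.mem_Ioc.1 hl).1
      omega
    have := wt_le_W h1
    linarith
  norm_num at h ⊢
  linarith

/-- The full sum: `(1/2) ∑_{l ≤ D} w_l ≤ 1.2547`. -/
theorem half_sum_wt_le (D : ℕ) : (1 / 2 : ℝ) * ∑ l ∈ Finset.Icc 1 D, wt l ≤ 1.2547 := by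
  refine le_trans ?_ (half_sum_W_le D)
  have e : Finset.Icc 1 D = Finset.Ioc 0 D := by
    ext x; simp only [Finset.mem_Icc, Finset.mem_Ioc]; omega
  rw [e]
  have h : ∑ l ∈ Finset.Ioc 0 D, wt l ≤ ∑ l ∈ Finset.Ioc 0 D, W l :=
    Finset.sum_le_sum fun l hl => wt_le_W (by have := (Finset.mem_Ioc.1 hl).1; omega)
  linarith

/-- `w_l 2^l` is monotone: used by the bathtub step. -/
theorem wt_mul_pow_le (l : ℕ) (h1 : 1 ≤ l) : wt l * 2 ^ l ≤ wt (l + 1) * 2 ^ (l + 1) := by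
  by_cases h40 : l + 1 ≤ 40
  · rw [wt_of_le (by omega), wt_of_le h40]
    have hu := one_add_le_U (l - 1) 1 zero_le_one le_rfl
    have hv := one_add_le_U (l - 1) (1 / 2) (by norm_num) (by norm_num)
    obtain ⟨m, rfl⟩ : ∃ m, l = m + 1 := ⟨l - 1, by omega⟩
    simp only [Nat.add_sub_cancel] at hu hv ⊢
    rw [U_succ_one, Real.log_mul (by linarith) (by linarith)]
    have hlog : 0 ≤ Real.log (U m (1 / 2)) := Real.log_nonneg (by linarith)
    have e1 : Real.log (U m 1) / 2 ^ m * 2 ^ (m + 1) = 2 * Real.log (U m 1) := by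
      field_simp
      ring
    have e2 : (Real.log (U m 1) + Real.log (U m (1 / 2))) / 2 ^ (m + 1) * 2 ^ (m + 1 + 1)
        = 2 * (Real.log (U m 1) + Real.log (U m (1 / 2))) := by
      field_simp
      ring
    rw [e1, e2]
    linarith
  by_cases h40' : l = 40
  · subst h40'
    have h2 := wt_le_W (l := 40) (by norm_num)
    have h3 := W_mul_pow_le 40 (by norm_num)
    rw [wt_of_gt (show 40 < 40 + 1 by norm_num)]
    have hp : (0 : ℝ) ≤ 2 ^ 40 := by positivity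
    nlinarith [mul_le_mul_of_nonneg_right h2 hp]
  · rw [wt_of_gt (by omega), wt_of_gt (by omega)]
    exact W_mul_pow_le l h1

theorem wt_mul_pow_mono {l l' : ℕ} (h1 : 1 ≤ l) (h : l ≤ l') : wt l * 2 ^ l ≤ wt l' * 2 ^ l' := by
  induction l', h using Nat.le_induction with
  | base => exact le_rfl
  | succ m hm ih => exact le_trans ih (wt_mul_pow_le m (by omega))

/-- The Hölder parameter `s_l = w_l l (l+1) / 63 ≤ 0.0983`. -/
theorem wt_hoelder {l : ℕ} (h1 : 1 ≤ l) : wt l * (l * (l + 1)) / 63 ≤ 0.0983 := by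
  refine le_trans ?_ (W_hoelder h1)
  have h2 := wt_le_W h1
  have h3 : (0 : ℝ) ≤ (l : ℝ) * (l + 1) := by positivity
  exact div_le_div_of_nonneg_right (mul_le_mul_of_nonneg_right h2 h3) (by norm_num)

/-- The form used by `tMoment_of_numerics`. -/
theorem wt_hoelder' (l : ℕ) (h1 : 1 ≤ l) :
    (1 / 63 : ℝ) * wt l * ((l : ℝ) * ((l : ℝ) + 1)) ≤ 0.0983 := by
  have := wt_hoelder h1
  calc (1 / 63 : ℝ) * wt l * ((l : ℝ) * ((l : ℝ) + 1)) = wt l * (l * (l + 1)) / 63 := by ring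
    _ ≤ 0.0983 := this

/-- The Finner budget in terms of `klvl`, `rlvl`: `∑_{l ∈ s, l - k_l ≤ h < l} 1 / (63 r_l) ≤ 1`. -/
theorem finner_budget (s : Finset ℕ) (hs : ∀ l ∈ s, 1 ≤ l) (h : ℕ) :
    ∑ l ∈ s.filter (fun l => l - klvl l ≤ h ∧ h < l), 1 / (63 * (rlvl l : ℝ)) ≤ 1 :=
  budget s hs h

end Crest.Agent.Thorp
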