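import Crest.Agent.Lib.Thorp.TMoment
import Crest.Agent.Lib.Thorp.NumBridge

/-!
# Thorp shuffle (S0222): `Interface.TMoment`, with the numeric inputs from `NumBridge`.
-/

set_option autoImplicit false

namespace Crest.Agent.Thorp

/-- Section 4 of #850. -/
theorem tMoment : Interface.TMoment :=
  tMoment_of_numerics wt_nonneg wt_hoelder' wt_mul_pow_le

end Crest.Agent.Thorp
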