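import Crest.Agent.Lib.Thorp.Defs

/-!
# Thorp shuffle (S0222): the interface between the modules.

Each `def ... : Prop` below is the exact statement one module must export (see findings #850).
The owner of the module proves `theorem ... : Interface.Stmt`; `Assembly.lean` composes them.
Only statements here.
-/

set_option autoImplicit false

namespace Crest.Agent.Thorp

open Finset BigOperators

/-- `U_k(ρ)` for `R = 2` colours (`u = 1`) : the recursion of Section 1 of #850. -/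
noncomputable def Utab : ℕ → ℝ → ℝ
  | 0, ρ => 1 + ρ
  | k + 1, ρ =>
      let ε := (Utab k ρ - 1 - ρ / 2) / 2 ^ k
      let rt := min 1 (ρ + (1 - ρ) * ε)
      (1 - rt) * (Utab k (ρ / 2)) ^ 2 + rt * Utab k ρ * Utab k (ρ / 2)

/-- Generate the equation lemmas of `Utab` here, once, so that later modules share one copy. -/
theorem Utab_eqns_here : True := by
  have := @Utab.eq_def
  have := @Utab.eq_1
  have := @Utab.eq_2
  trivial

/-- Near depth `k_l` of level `l`: `l-1` for `l ≤ 40`, `⌈4l/5⌉` above. -/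
def klvl (l : ℕ) : ℕ := if l ≤ 40 then l - 1 else (4 * l + 4) / 5

/-- Moment `r_l` at level `l`: `1` for `l ≤ 60`, `⌈l/30⌉` above. -/
def rlvl (l : ℕ) : ℕ := if l ≤ 60 then 1 else (l + 29) / 30

/-- The weight `w_l`. -/
noncomputable def wt (l : ℕ) : ℝ :=
  if l ≤ 40 then Real.log (Utab (l - 1) 1) / 2 ^ (l - 1)
  else ((2 : ℝ) ^ rlvl l - 1) * (3 / 4 : ℝ) ^ klvl l / (rlvl l : ℝ)

/-- The inflated weight `w̃_l = 1.051 w_l`. -/
noncomputable def wtt (l : ℕ) : ℝ := 1.051 * wt l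

namespace Interface

/-- Section 1, `R = 2`, `ρ = 1`. (VBound) -/
def VFull : Prop :=
  ∀ (k : ℕ) (S : Finset (Pos k)),
    yk Unit k S 1 ≤ (Utab k 1) ^ ((S.card : ℝ) / (2 : ℝ) ^ k)

/-- Section 1, crude corollary, any number of colours, `ρ = 1`. (VBound) -/
def VCrude : Prop :=
  ∀ (U : Type) [Fintype U] [DecidableEq U] (k : ℕ) (S : Finset (Pos k)),
    yk U k S 1 ≤ Real.exp ((S.card : ℝ) * (Fintype.card U : ℝ) * (3 / 4 : ℝ) ^ k)

/-- Section 2. (Tree) -/
def TreeRenyi : Prop :=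
  ∀ (U : Type) [Fintype U] [DecidableEq U] (k : ℕ) (c : Color U k), Distinct c →
    ∀ d : ℝ, 0 ≤ d →
      ∑ c' : Color U k, (coll k c c') ^ (1 + d) ≤
        (2 : ℝ) ^ (-(d * ((k * (csupp c).card : ℕ) : ℝ))) *
          avg fun T : Coins k => avg fun T' : Coins k => ((weight k c T T' : ℕ) : ℝ) ^ d

/-- Section 3. (Finner + near trace) -/
def FixedT : Prop :=
  ∀ (U : Type) [Fintype U] [DecidableEq U] (k : ℕ) (c : Color U k) (T : Coins k),
    (avg fun T' : Coins k => ((weight k c T T' : ℕ) : ℝ) ^ (1 / 63 : ℝ)) ≤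
      Real.exp ((1 / 63 : ℝ) * ∑ l ∈ Finset.Icc 1 k, wt l * (mateCount l k c T : ℝ))

/-- Section 4. (exp moment over `T`). `j = |supp c| ≥ 1`, `L = D - ⌈log₂ j⌉`. -/
def TMoment : Prop :=
  ∀ (U : Type) [Fintype U] [DecidableEq U] (D : ℕ) (c : Color U D),
    (avg fun T : Coins D =>
        Real.exp ((1 / 63 : ℝ) * ∑ l ∈ Finset.Icc 1 D, wt l * (mateCount l D c T : ℝ))) ≤
      Real.exp ((1 / 63 : ℝ) * ((csupp c).card : ℝ) *
        ((1 / 2 : ℝ) * ∑ l ∈ Finset.Ioc (D - Nat.clog 2 (csupp c).card) D, wtt l))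

/-- Section 4, the full deck: for full support the mate counts are deterministic. -/
def FullDeck : Prop :=
  ∀ (U : Type) [Fintype U] [DecidableEq U] (D : ℕ) (c : Color U D),
    csupp c = Finset.univ → ∀ (T : Coins D) (l : ℕ), l ∈ Finset.Icc 1 D →
      mateCount l D c T = 2 ^ (D - 1)

/-- Section 5. (Young) -/
def Young : Prop :=
  ∀ (ι : Type) [Fintype ι] [DecidableEq ι] (K : Matrix ι ι ℝ) (A : ℝ),
    K.IsSymm → (∀ y y', 0 ≤ K y y') → (∀ y, ∑ y', (K y y') ^ (64 / 63 : ℝ) ≤ A) →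
      (K ^ 64).trace ≤ (Fintype.card ι : ℝ) * A ^ 63

end Interface

end Crest.Agent.Thorp
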