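import Crest.Agent.Lib.Thorp.TreeCount
import Crest.Agent.Lib.Thorp.Interface

/-!
# Thorp shuffle: the tree inequality (helper3)

For a colouring `c` with distinct labels, `d ≥ 0`, `f ≥ 0`:
`∑ c', f c' * coll k c c' ^ (1+d) ≤ 2^{-d k |c|} E_{T,T'} f (c ∘ g⁻¹) * weight k c T T' ^ d`.
-/

set_option autoImplicit false

namespace Crest.Agent.Thorp
namespace Tree

open Finset BigOperators

variable {U : Type}

/-! ### Sheets -/

/-- Inverse of the sheet decomposition. -/
def unsheet {k : ℕ} (s : Pos k → Bool) (a0 a1 : Color U k) : Color U (k + 1) :=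
  fun x =>
    let x' : Bool × Pos k := x
    if xor x'.1 (s x'.2) then a1 x'.2 else a0 x'.2

lemma sheet_unsheet_false {k : ℕ} (s : Pos k → Bool) (a0 a1 : Color U k) :
    sheet s (unsheet s a0 a1) false = a0 := by
  funext p
  show (if xor (xor false (s p)) (s p) then a1 p else a0 p) = a0 p
  simp

lemma sheet_unsheet_true {k : ℕ} (s : Pos k → Bool) (a0 a1 : Color U k) :
    sheet s (unsheet s a0 a1) true = a1 := by
  funext p
  show (if xor (xor true (s p)) (s p) then a1 p else a0 p) = a1 p
  simp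

lemma unsheet_sheet {k : ℕ} (s : Pos k → Bool) (c : Color U (k + 1)) :
    unsheet s (sheet s c false) (sheet s c true) = c := by
  funext x
  obtain ⟨b, p⟩ : Bool × Pos k := x
  show (if xor b (s p) then c ((xor true (s p), p) : Bool × Pos k)
      else c ((xor false (s p), p) : Bool × Pos k)) = c ((b, p) : Bool × Pos k)
  cases b <;> cases hs : s p <;> simp

/-- The sheet decomposition as an equivalence. -/
def sheetEquiv {k : ℕ} (s : Pos k → Bool) : Color U (k + 1) ≃ Color U k × Color U k where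
  toFun c := (sheet s c false, sheet s c true)
  invFun a := unsheet s a.1 a.2
  left_inv c := unsheet_sheet s c
  right_inv a := by
    obtain ⟨a0, a1⟩ := a
    exact Prod.ext (sheet_unsheet_false s a0 a1) (sheet_unsheet_true s a0 a1)

lemma sheet_ext {k : ℕ} (s : Pos k → Bool) {c c' : Color U (k + 1)}
    (h0 : sheet s c false = sheet s c' false) (h1 : sheet s c true = sheet s c' true) : c = c' := by
  rw [← unsheet_sheet s c, ← unsheet_sheet s c', h0, h1]

/-- The key formula: the sheets of the image colouring. -/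
lemma sheet_comp_gOf_inv {k : ℕ} (c : Color U (k + 1)) (T T' : Coins (k + 1)) (b : Bool) :
    sheet (Coins.top T') (fun x => c ((gOf T T')⁻¹ x)) b =
      fun p => sheet (Coins.top T) c b ((gOf (Coins.sub T b) (Coins.sub T' b))⁻¹ p) := by
  funext p
  show c ((gOf T T')⁻¹ ((xor b (Coins.top T' p), p) : Bool × Pos k)) =
    c ((xor b (Coins.top T ((gOf (Coins.sub T b) (Coins.sub T' b))⁻¹ p)),
      (gOf (Coins.sub T b) (Coins.sub T' b))⁻¹ p) : Bool × Pos k)
  rw [gOf_inv_apply]
  have h : xor (xor b (Coins.top T' p)) (Coins.top T' p) = b := by simp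
  rw [h]

lemma comp_mk_eq_unsheet {k : ℕ} (c : Color U (k + 1)) (s s' : Pos k → Bool)
    (T0 T1 T0' T1' : Coins k) :
    (fun x => c ((gOf (Coins.mk s T0 T1) (Coins.mk s' T0' T1'))⁻¹ x)) =
      unsheet s' (fun p => sheet s c false ((gOf T0 T0')⁻¹ p))
        (fun p => sheet s c true ((gOf T1 T1')⁻¹ p)) := by
  apply sheet_ext s'
  · rw [sheet_unsheet_false]
    exact sheet_comp_gOf_inv c (Coins.mk s T0 T1) (Coins.mk s' T0' T1') false
  · rw [sheet_unsheet_true]
    exact sheet_comp_gOf_inv c (Coins.mk s T0 T1) (Coins.mk s' T0' T1') true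

lemma distinct_sheet {k : ℕ} {c : Color U (k + 1)} (hc : Distinct c) (s : Pos k → Bool) (b : Bool) :
    Distinct (sheet s c b) := by
  intro p q u hp hq
  have := hc _ _ u hp hq
  have h2 : (((xor b (s p), p) : Bool × Pos k)).2 = (((xor b (s q), q) : Bool × Pos k)).2 :=
    congrArg (fun x : Bool × Pos k => x.2) this
  exact h2

/-- The supports of the two sheets partition the support. -/
lemma card_csupp_sheet {k : ℕ} (c : Color U (k + 1)) (s : Pos k → Bool) :
    (csupp (sheet s c false)).card + (csupp (sheet s c true)).card = (csupp c).card := by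
  classical
  have h0 : (csupp c).card =
      ∑ x : Bool × Pos k, if (c x).isSome then 1 else 0 := by
    unfold csupp
    rw [Finset.card_filter]
    rfl
  have h1 : ∀ b, (csupp (sheet s c b)).card =
      ∑ p : Pos k, if (c ((xor b (s p), p) : Bool × Pos k)).isSome then 1 else 0 := by
    intro b
    unfold csupp
    rw [Finset.card_filter]
    rfl
  rw [h0, h1, h1, ← Finset.sum_add_distrib, Fintype.sum_prod_type_right]
  refine Finset.sum_congr rfl fun p _ => ?_
  rw [Fintype.sum_bool]
  cases s p <;> simp [add_comm]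

/-! ### One layer of `coll` -/

variable [DecidableEq U]

lemma coll_succ {k : ℕ} (c c' : Color U (k + 1)) :
    coll (k + 1) c c' = avg fun s : Pos k → Bool => avg fun s' : Pos k → Bool =>
      coll k (sheet s c false) (sheet s' c' false) * coll k (sheet s c true) (sheet s' c' true) := by
  change dbl (fun T T' : Coins (k + 1) => if (fun x => c ((gOf T T')⁻¹ x)) = c' then (1 : ℝ) else 0)
    = _
  rw [dbl_succ]
  refine avg_congr fun s => avg_congr fun s' => ?_
  have hcoll : ∀ (a a' : Color U k), coll k a a' =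
      dbl fun T T' : Coins k => if (fun x => a ((gOf T T')⁻¹ x)) = a' then (1 : ℝ) else 0 :=
    fun _ _ => rfl
  rw [hcoll, hcoll, ← dbl_mul_dbl]
  refine dbl_congr fun T0 T0' => dbl_congr fun T1 T1' => ?_
  rw [comp_mk_eq_unsheet c s s' T0 T1 T0' T1']
  have hiff : unsheet s' (fun p => sheet s c false ((gOf T0 T0')⁻¹ p))
        (fun p => sheet s c true ((gOf T1 T1')⁻¹ p)) = c' ↔
      (fun p => sheet s c false ((gOf T0 T0')⁻¹ p)) = sheet s' c' false ∧
      (fun p => sheet s c true ((gOf T1 T1')⁻¹ p)) = sheet s' c' true := by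
    constructor
    · rintro rfl
      exact ⟨(sheet_unsheet_false s' _ _).symm, (sheet_unsheet_true s' _ _).symm⟩
    · rintro ⟨h0, h1⟩
      rw [h0, h1, unsheet_sheet]
  by_cases h0 : (fun p => sheet s c false ((gOf T0 T0')⁻¹ p)) = sheet s' c' false
  · by_cases h1 : (fun p => sheet s c true ((gOf T1 T1')⁻¹ p)) = sheet s' c' true
    · rw [if_pos (hiff.mpr ⟨h0, h1⟩), if_pos h0, if_pos h1, mul_one]
    · rw [if_neg (fun h => h1 (hiff.mp h).2), if_neg h1, mul_zero]
  · rw [if_neg (fun h => h0 (hiff.mp h).1), if_neg h0, zero_mul]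

lemma coll_nonneg {k : ℕ} (c c' : Color U k) : 0 ≤ coll k c c' :=
  avg_nonneg fun _ => avg_nonneg fun _ => by split_ifs <;> norm_num

lemma exists_of_coll_ne_zero {k : ℕ} {a a' : Color U k} (h : coll k a a' ≠ 0) :
    ∃ T T' : Coins k, (fun x => a ((gOf T T')⁻¹ x)) = a' := by
  by_contra hne
  push Not at hne
  apply h
  unfold coll
  have : ∀ T T' : Coins k,
      (if (fun x => a ((gOf T T')⁻¹ x)) = a' then (1 : ℝ) else 0) = 0 :=
    fun T T' => if_neg (hne T T')
  simp only [this]
  simp [avg_def]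

lemma label_of_coll_ne_zero {k : ℕ} {a a' : Color U k} (h : coll k a a' ≠ 0) {p : Pos k} {u : U}
    (hp : a p = some u) : ∃ p', a' p' = some u := by
  obtain ⟨T, T', rfl⟩ := exists_of_coll_ne_zero h
  exact ⟨gOf T T' p, by simpa using hp⟩

/-- The node matching probability. -/
noncomputable def piV {k : ℕ} (c c' : Color U (k + 1)) : ℝ :=
  avg fun s : Pos k → Bool => avg fun s' : Pos k → Bool =>
    if coll k (sheet s c false) (sheet s' c' false) * coll k (sheet s c true) (sheet s' c' true) ≠ 0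
    then (1 : ℝ) else 0

lemma piV_nonneg {k : ℕ} (c c' : Color U (k + 1)) : 0 ≤ piV c c' :=
  avg_nonneg fun _ => avg_nonneg fun _ => by split_ifs <;> norm_num

/-- A nonzero term forces the sheets to match. -/
lemma match_of_ne {k : ℕ} {c : Color U (k + 1)} (hc : Distinct c) (T T' : Coins (k + 1))
    (s s' : Pos k → Bool)
    (hZ : coll k (sheet s c false) (sheet s' (fun x => c ((gOf T T')⁻¹ x)) false) *
      coll k (sheet s c true) (sheet s' (fun x => c ((gOf T T')⁻¹ x)) true) ≠ 0) :
    ∀ x ∈ (csupp c : Finset (Bool × Pos k)),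
      xor x.1 (s x.2) =
        xor ((gOf T T' : Equiv.Perm (Bool × Pos k)) x).1
          (s' ((gOf T T' : Equiv.Perm (Bool × Pos k)) x).2) := by
  rintro ⟨b1, p⟩ hx
  have hb : ∀ b, coll k (sheet s c b) (sheet s' (fun x => c ((gOf T T')⁻¹ x)) b) ≠ 0 := by
    intro b
    cases b
    · exact left_ne_zero_of_mul hZ
    · exact right_ne_zero_of_mul hZ
  have hsome : (c ((b1, p) : Bool × Pos k)).isSome := by
    simpa [csupp] using hx
  obtain ⟨u, hu⟩ := Option.isSome_iff_exists.mp hsome
  set b := xor b1 (s p) with hbdef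
  have h1 : sheet s c b p = some u := by
    show c ((xor b (s p), p) : Bool × Pos k) = some u
    have : xor b (s p) = b1 := by simp [hbdef]
    rw [this, hu]
  obtain ⟨p', hp'⟩ := label_of_coll_ne_zero (hb b) h1
  have h2 : c ((gOf T T')⁻¹ ((xor b (s' p'), p') : Bool × Pos k)) = some u := hp'
  have h3 := hc _ _ u h2 hu
  have h4 : (gOf T T') ((b1, p) : Bool × Pos k) = ((xor b (s' p'), p') : Bool × Pos k) := by
    rw [← h3]
    show (gOf T T' * (gOf T T')⁻¹) _ = _
    simp
  have h5 : (gOf T T' : Equiv.Perm (Bool × Pos k)) ((b1, p) : Bool × Pos k) =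
      ((xor b (s' p'), p') : Bool × Pos k) := h4
  rw [h5]
  show b = xor (xor b (s' p')) (s' p')
  simp

/-- The node probability bound. -/
theorem piV_le {k : ℕ} {c : Color U (k + 1)} (hc : Distinct c) (T T' : Coins (k + 1)) :
    piV c (fun x => c ((gOf T T')⁻¹ x)) ≤
      (1 / 2 : ℝ) ^ (csupp c).card * ((nodeW c T T' : ℕ) : ℝ) := by
  have hcount := avg_match (csupp c : Finset (Bool × Pos k)) (gOf T T' : Equiv.Perm (Bool × Pos k))
  have hcount2 := count_eq_invCount (Coins.top T) (Coins.top T')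
    (fun b => gOf (Coins.sub T b) (Coins.sub T' b)) (gOf T T' : Equiv.Perm (Bool × Pos k))
    (fun b0 p => gOf_apply T T' b0 p) (csupp c : Finset (Bool × Pos k)) (mates c)
    (by
      intro p
      constructor
      · intro h
        have h' := (Finset.mem_filter.mp h).2
        exact ⟨Finset.mem_filter.mpr ⟨Finset.mem_univ _, h'.1⟩,
          Finset.mem_filter.mpr ⟨Finset.mem_univ _, h'.2⟩⟩
      · rintro ⟨h0, h1⟩
        exact Finset.mem_filter.mpr ⟨Finset.mem_univ _,
          (Finset.mem_filter.mp h0).2, (Finset.mem_filter.mp h1).2⟩)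
  have hN : nodeW c T T' =
      (((mates c).powerset.filter fun Y =>
        Y.image ((gOf (Coins.sub T false) (Coins.sub T' false))⁻¹ *
          gOf (Coins.sub T true) (Coins.sub T' true)) = Y).card) := rfl
  have hcard : (((((csupp c : Finset (Bool × Pos k)).powerset.filter fun Z =>
      PC Z ∧ PC (Z.image (gOf T T' : Equiv.Perm (Bool × Pos k)))).card : ℕ) : ℝ)) =
      ((nodeW c T T' : ℕ) : ℝ) := congrArg _ (hcount2.trans hN.symm)
  refine le_trans ?_ (le_of_eq (hcount.trans
    (congrArg (fun t : ℝ => (1 / 2 : ℝ) ^ (csupp c).card * t) hcard)))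
  unfold piV
  refine avg_mono fun s => avg_mono fun s' => ?_
  by_cases hZ : coll k (sheet s c false) (sheet s' (fun x => c ((gOf T T')⁻¹ x)) false) *
      coll k (sheet s c true) (sheet s' (fun x => c ((gOf T T')⁻¹ x)) true) ≠ 0
  · rw [if_pos hZ]
    exact le_of_eq (if_pos (match_of_ne hc T T' s s' hZ)).symm
  · rw [if_neg hZ]
    split_ifs <;> norm_num

/-! ### The functional inequality -/

/-- The inductive statement. -/
def FunIneq (U : Type) [Fintype U] [DecidableEq U] (d : ℝ) (k : ℕ) : Prop :=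
  ∀ c : Color U k, Distinct c → ∀ f : Color U k → ℝ, (∀ c', 0 ≤ f c') →
    ∑ c', f c' * (coll k c c') ^ (1 + d) ≤
      ((2 : ℝ) ^ (-d)) ^ (k * (csupp c).card) *
        dbl fun T T' : Coins k => f (fun x => c ((gOf T T')⁻¹ x)) * ((weight k c T T' : ℕ) : ℝ) ^ d

variable [Fintype U]

lemma funIneq_zero {d : ℝ} (hd : 0 ≤ d) : FunIneq U d 0 := by
  intro c _ f hf
  have hp : (0 : ℝ) < 1 + d := by linarith
  have hg : ∀ (T T' : Coins 0) (c : Color U 0), (fun x => c ((gOf T T')⁻¹ x)) = c := fun _ _ _ => rfl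
  have hcoll : ∀ c' : Color U 0, coll 0 c c' = if c = c' then (1 : ℝ) else 0 := by
    intro c'
    unfold coll
    simp only [hg, avg_const]
  have hR : (dbl fun T T' : Coins 0 =>
      f (fun x => c ((gOf T T')⁻¹ x)) * ((weight 0 c T T' : ℕ) : ℝ) ^ d) = f c := by
    unfold dbl
    simp only [hg]
    have : ∀ T T' : Coins 0, ((weight 0 c T T' : ℕ) : ℝ) ^ d = 1 := by
      intro T T'
      show (((1 : ℕ) : ℝ)) ^ d = 1
      simp
    simp only [this, mul_one, avg_const]
  rw [hR, Finset.sum_eq_single c]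
  · rw [hcoll, if_pos rfl]
    simp
  · intro c' _ hne
    rw [hcoll, if_neg (Ne.symm hne), Real.zero_rpow hp.ne', mul_zero]
  · intro h
    exact absurd (Finset.mem_univ c) h

/-- Two applications of the inductive hypothesis. -/
lemma two_sheets {d : ℝ} {k : ℕ} (IH : FunIneq U d k) {a0 a1 : Color U k}
    (h0 : Distinct a0) (h1 : Distinct a1) (F : Color U k → Color U k → ℝ) (hF : ∀ x y, 0 ≤ F x y) :
    ∑ a0' : Color U k, ∑ a1' : Color U k,
        F a0' a1' * ((coll k a0 a0') ^ (1 + d) * (coll k a1 a1') ^ (1 + d)) ≤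
      ((2 : ℝ) ^ (-d)) ^ (k * (csupp a0).card) * ((2 : ℝ) ^ (-d)) ^ (k * (csupp a1).card) *
        dbl fun T0 T0' : Coins k => dbl fun T1 T1' : Coins k =>
          F (fun x => a0 ((gOf T0 T0')⁻¹ x)) (fun x => a1 ((gOf T1 T1')⁻¹ x)) *
            (((weight k a0 T0 T0' : ℕ) : ℝ) ^ d * ((weight k a1 T1 T1' : ℕ) : ℝ) ^ d) := by
  set K0 : ℝ := ((2 : ℝ) ^ (-d)) ^ (k * (csupp a0).card) with hK0
  set K1 : ℝ := ((2 : ℝ) ^ (-d)) ^ (k * (csupp a1).card) with hK1
  have hK0n : 0 ≤ K0 := pow_nonneg (Real.rpow_nonneg (by norm_num) _) _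
  have hK1n : 0 ≤ K1 := pow_nonneg (Real.rpow_nonneg (by norm_num) _) _
  have hC : ∀ (a a' : Color U k), 0 ≤ (coll k a a') ^ (1 + d) :=
    fun a a' => Real.rpow_nonneg (coll_nonneg a a') _
  rw [Finset.sum_comm]
  calc ∑ a1' : Color U k, ∑ a0' : Color U k,
        F a0' a1' * ((coll k a0 a0') ^ (1 + d) * (coll k a1 a1') ^ (1 + d))
      ≤ ∑ a1' : Color U k, (coll k a1 a1') ^ (1 + d) *
          (K0 * dbl fun T0 T0' : Coins k => F (fun x => a0 ((gOf T0 T0')⁻¹ x)) a1' *
            ((weight k a0 T0 T0' : ℕ) : ℝ) ^ d) := by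
        refine Finset.sum_le_sum fun a1' _ => ?_
        have := IH a0 h0 (fun y => F y a1') (fun y => hF y a1')
        have h2 := mul_le_mul_of_nonneg_left this (hC a1 a1')
        refine le_trans (le_of_eq ?_) h2
        rw [Finset.mul_sum]
        refine Finset.sum_congr rfl fun a0' _ => ?_
        ring
    _ = K0 * dbl fun T0 T0' : Coins k => ((weight k a0 T0 T0' : ℕ) : ℝ) ^ d *
          ∑ a1' : Color U k, F (fun x => a0 ((gOf T0 T0')⁻¹ x)) a1' * (coll k a1 a1') ^ (1 + d) := by
        have : ∀ a1' : Color U k, (coll k a1 a1') ^ (1 + d) *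
            (K0 * dbl fun T0 T0' : Coins k => F (fun x => a0 ((gOf T0 T0')⁻¹ x)) a1' *
              ((weight k a0 T0 T0' : ℕ) : ℝ) ^ d) =
            K0 * dbl fun T0 T0' : Coins k => ((weight k a0 T0 T0' : ℕ) : ℝ) ^ d *
              (F (fun x => a0 ((gOf T0 T0')⁻¹ x)) a1' * (coll k a1 a1') ^ (1 + d)) := by
          intro a1'
          rw [mul_left_comm, ← dbl_mul_left (coll k a1 a1' ^ (1 + d))]
          congr 1
          refine dbl_congr fun T0 T0' => ?_
          ring
        simp only [this]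
        rw [← Finset.mul_sum, sum_dbl]
        congr 2
        funext T0 T0'
        rw [Finset.mul_sum]
    _ ≤ K0 * dbl fun T0 T0' : Coins k => ((weight k a0 T0 T0' : ℕ) : ℝ) ^ d *
          (K1 * dbl fun T1 T1' : Coins k =>
            F (fun x => a0 ((gOf T0 T0')⁻¹ x)) (fun x => a1 ((gOf T1 T1')⁻¹ x)) *
              ((weight k a1 T1 T1' : ℕ) : ℝ) ^ d) := by
        refine mul_le_mul_of_nonneg_left (dbl_mono fun T0 T0' => ?_) hK0n
        refine mul_le_mul_of_nonneg_left ?_ (Real.rpow_nonneg (Nat.cast_nonneg _) _)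
        exact IH a1 h1 _ (fun y => hF _ y)
    _ = K0 * K1 * dbl fun T0 T0' : Coins k => dbl fun T1 T1' : Coins k =>
          F (fun x => a0 ((gOf T0 T0')⁻¹ x)) (fun x => a1 ((gOf T1 T1')⁻¹ x)) *
            (((weight k a0 T0 T0' : ℕ) : ℝ) ^ d * ((weight k a1 T1 T1' : ℕ) : ℝ) ^ d) := by
        rw [mul_assoc K0 K1, ← dbl_mul_left K1]
        congr 1
        refine dbl_congr fun T0 T0' => ?_
        rw [mul_left_comm, ← dbl_mul_left (((weight k a0 T0 T0' : ℕ) : ℝ) ^ d)]
        congr 1
        refine dbl_congr fun T1 T1' => ?_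
        ring

lemma two_pow_neg_pow (d : ℝ) (n : ℕ) :
    (((1 / 2 : ℝ) ^ n)) ^ d = ((2 : ℝ) ^ (-d)) ^ n := by
  have h2 : (1 / 2 : ℝ) = (2 : ℝ) ^ (-1 : ℝ) := by
    rw [Real.rpow_neg_one]; norm_num
  rw [h2, ← Real.rpow_natCast, ← Real.rpow_natCast, ← Real.rpow_mul (by norm_num),
    ← Real.rpow_mul (by norm_num), ← Real.rpow_mul (by norm_num)]
  congr 1
  ring

/-- The induction step. -/
lemma funIneq_succ {d : ℝ} (hd : 0 ≤ d) {k : ℕ} (IH : FunIneq U d k) : FunIneq U d (k + 1) := by
  intro c hc f hf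
  have hp : (0 : ℝ) < 1 + d := by linarith
  set F : Color U (k + 1) → ℝ := fun c' => f c' * (piV c c') ^ d with hFdef
  have hFn : ∀ c', 0 ≤ F c' := fun c' =>
    mul_nonneg (hf c') (Real.rpow_nonneg (piV_nonneg c c') _)
  -- the pointwise Hölder inequality
  have hH : ∀ c' : Color U (k + 1), (coll (k + 1) c c') ^ (1 + d) ≤
      (piV c c') ^ d * avg fun s : Pos k → Bool => avg fun s' : Pos k → Bool =>
        (coll k (sheet s c false) (sheet s' c' false)) ^ (1 + d) *
          (coll k (sheet s c true) (sheet s' c' true)) ^ (1 + d) := by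
    intro c'
    have h := holder_avg (α := (Pos k → Bool) × (Pos k → Bool))
      (fun x => coll k (sheet x.1 c false) (sheet x.2 c' false) *
        coll k (sheet x.1 c true) (sheet x.2 c' true))
      (fun x => mul_nonneg (coll_nonneg _ _) (coll_nonneg _ _)) hd
    rw [avg_prod (fun s s' => coll k (sheet s c false) (sheet s' c' false) *
        coll k (sheet s c true) (sheet s' c' true)), ← coll_succ,
      avg_prod (fun s s' =>
        if coll k (sheet s c false) (sheet s' c' false) *
          coll k (sheet s c true) (sheet s' c' true) ≠ 0 then (1 : ℝ) else 0),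
      avg_prod (fun s s' => (coll k (sheet s c false) (sheet s' c' false) *
        coll k (sheet s c true) (sheet s' c' true)) ^ (1 + d))] at h
    refine h.trans (le_of_eq ?_)
    unfold piV
    congr 1
    refine avg_congr fun s => avg_congr fun s' => ?_
    exact Real.mul_rpow (coll_nonneg _ _) (coll_nonneg _ _)
  -- sum over `c'` for fixed `s, s'`
  have hfixed : ∀ s s' : Pos k → Bool,
      ∑ c' : Color U (k + 1), F c' *
          ((coll k (sheet s c false) (sheet s' c' false)) ^ (1 + d) *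
            (coll k (sheet s c true) (sheet s' c' true)) ^ (1 + d)) ≤
        ((2 : ℝ) ^ (-d)) ^ ((k + 1) * (csupp c).card) *
          dbl fun T0 T0' : Coins k => dbl fun T1 T1' : Coins k =>
            f (fun x => c ((gOf (Coins.mk s T0 T1) (Coins.mk s' T0' T1'))⁻¹ x)) *
              ((weight (k + 1) c (Coins.mk s T0 T1) (Coins.mk s' T0' T1') : ℕ) : ℝ) ^ d := by
    intro s s'
    have hre : ∑ c' : Color U (k + 1), F c' *
          ((coll k (sheet s c false) (sheet s' c' false)) ^ (1 + d) *
            (coll k (sheet s c true) (sheet s' c' true)) ^ (1 + d)) =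
        ∑ a0' : Color U k, ∑ a1' : Color U k, F (unsheet s' a0' a1') *
          ((coll k (sheet s c false) a0') ^ (1 + d) * (coll k (sheet s c true) a1') ^ (1 + d)) := by
      rw [← Fintype.sum_prod_type' (fun a0' a1' : Color U k => F (unsheet s' a0' a1') *
          ((coll k (sheet s c false) a0') ^ (1 + d) * (coll k (sheet s c true) a1') ^ (1 + d))),
        ← Equiv.sum_comp (sheetEquiv s')]
      refine Finset.sum_congr rfl fun c' _ => ?_
      show _ = F (unsheet s' (sheet s' c' false) (sheet s' c' true)) *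
        ((coll k (sheet s c false) (sheet s' c' false)) ^ (1 + d) *
          (coll k (sheet s c true) (sheet s' c' true)) ^ (1 + d))
      rw [unsheet_sheet]
    rw [hre]
    refine (two_sheets IH (distinct_sheet hc s false) (distinct_sheet hc s true)
      (fun a0' a1' => F (unsheet s' a0' a1')) (fun _ _ => hFn _)).trans ?_
    -- exponents
    have hK : ((2 : ℝ) ^ (-d)) ^ (k * (csupp (sheet s c false)).card) *
        ((2 : ℝ) ^ (-d)) ^ (k * (csupp (sheet s c true)).card) =
        ((2 : ℝ) ^ (-d)) ^ (k * (csupp c).card) := by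
      rw [← pow_add, ← Nat.mul_add, card_csupp_sheet]
    have hK2 : ((2 : ℝ) ^ (-d)) ^ ((k + 1) * (csupp c).card) =
        ((2 : ℝ) ^ (-d)) ^ (k * (csupp c).card) * ((2 : ℝ) ^ (-d)) ^ (csupp c).card := by
      rw [← pow_add]; congr 1; ring
    have hκ : (0 : ℝ) ≤ ((2 : ℝ) ^ (-d)) ^ (k * (csupp c).card) :=
      pow_nonneg (Real.rpow_nonneg (by norm_num) _) _
    rw [hK, hK2, mul_assoc]
    refine mul_le_mul_of_nonneg_left ?_ hκ
    rw [← dbl_mul_left]
    refine dbl_mono fun T0 T0' => ?_
    rw [← dbl_mul_left]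
    refine dbl_mono fun T1 T1' => ?_
    -- the pointwise comparison
    set T := Coins.mk s T0 T1 with hT
    set T' := Coins.mk s' T0' T1' with hT'
    have hcomp := comp_mk_eq_unsheet c s s' T0 T1 T0' T1'
    rw [← hcomp]
    have hpi := piV_le hc T T'
    have hpid : (piV c (fun x => c ((gOf T T')⁻¹ x))) ^ d ≤
        ((2 : ℝ) ^ (-d)) ^ (csupp c).card * ((nodeW c T T' : ℕ) : ℝ) ^ d := by
      refine (Real.rpow_le_rpow (piV_nonneg _ _) hpi hd).trans (le_of_eq ?_)
      rw [Real.mul_rpow (pow_nonneg (by norm_num) _) (Nat.cast_nonneg _), two_pow_neg_pow]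
    have hw : ((weight (k + 1) c T T' : ℕ) : ℝ) ^ d = ((nodeW c T T' : ℕ) : ℝ) ^ d *
        (((weight k (sheet s c false) T0 T0' : ℕ) : ℝ) ^ d *
          ((weight k (sheet s c true) T1 T1' : ℕ) : ℝ) ^ d) := by
      have : weight (k + 1) c T T' = nodeW c T T' *
          (weight k (sheet s c false) T0 T0' * weight k (sheet s c true) T1 T1') := rfl
      rw [this]
      push_cast
      rw [Real.mul_rpow (Nat.cast_nonneg _) (mul_nonneg (Nat.cast_nonneg _) (Nat.cast_nonneg _)),
        Real.mul_rpow (Nat.cast_nonneg _) (Nat.cast_nonneg _)]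
    rw [hw]
    have hfn := hf (fun x => c ((gOf T T')⁻¹ x))
    have hw0 : 0 ≤ ((weight k (sheet s c false) T0 T0' : ℕ) : ℝ) ^ d *
          ((weight k (sheet s c true) T1 T1' : ℕ) : ℝ) ^ d :=
      mul_nonneg (Real.rpow_nonneg (Nat.cast_nonneg _) _) (Real.rpow_nonneg (Nat.cast_nonneg _) _)
    show f (fun x => c ((gOf T T')⁻¹ x)) * (piV c (fun x => c ((gOf T T')⁻¹ x))) ^ d * _ ≤ _
    calc f (fun x => c ((gOf T T')⁻¹ x)) * (piV c (fun x => c ((gOf T T')⁻¹ x))) ^ d *
          (((weight k (sheet s c false) T0 T0' : ℕ) : ℝ) ^ d *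
            ((weight k (sheet s c true) T1 T1' : ℕ) : ℝ) ^ d)
        ≤ f (fun x => c ((gOf T T')⁻¹ x)) *
            (((2 : ℝ) ^ (-d)) ^ (csupp c).card * ((nodeW c T T' : ℕ) : ℝ) ^ d) *
          (((weight k (sheet s c false) T0 T0' : ℕ) : ℝ) ^ d *
            ((weight k (sheet s c true) T1 T1' : ℕ) : ℝ) ^ d) := by
          refine mul_le_mul_of_nonneg_right ?_ hw0
          exact mul_le_mul_of_nonneg_left hpid hfn
      _ = _ := by ring
  calc ∑ c' : Color U (k + 1), f c' * (coll (k + 1) c c') ^ (1 + d)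
      ≤ ∑ c' : Color U (k + 1), F c' * avg fun s : Pos k → Bool => avg fun s' : Pos k → Bool =>
          (coll k (sheet s c false) (sheet s' c' false)) ^ (1 + d) *
            (coll k (sheet s c true) (sheet s' c' true)) ^ (1 + d) := by
        refine Finset.sum_le_sum fun c' _ => ?_
        rw [hFdef, mul_assoc]
        exact mul_le_mul_of_nonneg_left (hH c') (hf c')
    _ = avg fun s : Pos k → Bool => avg fun s' : Pos k → Bool =>
          ∑ c' : Color U (k + 1), F c' *
            ((coll k (sheet s c false) (sheet s' c' false)) ^ (1 + d) *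
              (coll k (sheet s c true) (sheet s' c' true)) ^ (1 + d)) := by
        simp only [← avg_mul_left, sum_avg]
    _ ≤ avg fun s : Pos k → Bool => avg fun s' : Pos k → Bool =>
          ((2 : ℝ) ^ (-d)) ^ ((k + 1) * (csupp c).card) *
          dbl fun T0 T0' : Coins k => dbl fun T1 T1' : Coins k =>
            f (fun x => c ((gOf (Coins.mk s T0 T1) (Coins.mk s' T0' T1'))⁻¹ x)) *
              ((weight (k + 1) c (Coins.mk s T0 T1) (Coins.mk s' T0' T1') : ℕ) : ℝ) ^ d :=
        avg_mono fun s => avg_mono fun s' => hfixed s s'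
    _ = _ := by
        simp only [avg_mul_left]
        rw [dbl_succ]

/-- The functional form of the tree inequality. -/
theorem tree_functional {d : ℝ} (hd : 0 ≤ d) (k : ℕ) : FunIneq U d k := by
  induction k with
  | zero => exact funIneq_zero hd
  | succ k ih => exact funIneq_succ hd ih

/-- The functional form of the tree inequality, in the exponent form of the interface. -/
theorem tree_functional' {d : ℝ} (hd : 0 ≤ d) (k : ℕ) (c : Color U k) (hc : Distinct c)
    (f : Color U k → ℝ) (hf : ∀ c', 0 ≤ f c') :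
    ∑ c', f c' * (coll k c c') ^ (1 + d) ≤
      (2 : ℝ) ^ (-(d * ((k * (csupp c).card : ℕ) : ℝ))) *
        avg fun T : Coins k => avg fun T' : Coins k =>
          f (fun x => c ((gOf T T')⁻¹ x)) * ((weight k c T T' : ℕ) : ℝ) ^ d := by
  have h := tree_functional (U := U) hd k c hc f hf
  have hpow : ((2 : ℝ) ^ (-d)) ^ (k * (csupp c).card) =
      (2 : ℝ) ^ (-(d * ((k * (csupp c).card : ℕ) : ℝ))) := by
    rw [← Real.rpow_natCast, ← Real.rpow_mul (by norm_num)]
    congr 1
    ring
  rw [hpow] at h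
  exact h

end Tree

/-- Section 2 of the plan: the tree inequality. -/
theorem treeRenyi : Interface.TreeRenyi := by
  intro U _ _ k c hc d hd
  have h := Tree.tree_functional' (U := U) hd k c hc (fun _ => 1) (fun _ => zero_le_one)
  simpa only [one_mul] using h

end Crest.Agent.Thorp
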