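import Mathlib
import Crest.Prelude.Def_Shuffle

/-!
Generate the equation lemmas of the Prelude's `iterPos`, `stepPos` here, once, so that the modules
importing this one share one copy.
-/

set_option autoImplicit false

namespace Crest.Agent.Thorp

theorem shuffle_aux_here : True := by
  have := @Crest.ProbabilityR.Shuffle.iterPos.eq_def
  have := @Crest.ProbabilityR.Shuffle.iterPos.eq_1
  have := @Crest.ProbabilityR.Shuffle.iterPos.eq_2
  have := @Crest.ProbabilityR.Shuffle.stepPos.eq_1
  trivial

end Crest.Agent.Thorp
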