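import Mathlib
import Crest.Prelude.Def_Shuffle
import Crest.Agent.Lib.Thorp.Defs
import Crest.Agent.Lib.Thorp.ShuffleAux

/-!
# Thorp shuffle: rounds versus the recursive sweep of `Defs`

`iterPos_eq_sweep` shows that `d + 1` Thorp rounds on `2 * 2 ^ d` cards are exactly one sweep,
the table of rounds being in bijection with the coins (`coinsOf_bijective`).
-/

set_option autoImplicit false

namespace Crest.Agent.Thorp

open Crest.ProbabilityR.Shuffle

lemma sweep_succ (k : ℕ) (T : Coins (k + 1)) (b : Bool) (x : Pos k) :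
    sweep (k + 1) T ((b, x) : Bool × Pos k) =
      ((xor b (Coins.top T x), sweep k (Coins.sub T (xor b (Coins.top T x))) x) : Bool × Pos k) := rfl

@[simp] lemma Coins.top_mk {k : ℕ} (s : Pos k → Bool) (T0 T1 : Coins k) :
    Coins.top (Coins.mk s T0 T1) = s := rfl

@[simp] lemma Coins.sub_mk_false {k : ℕ} (s : Pos k → Bool) (T0 T1 : Coins k) :
    Coins.sub (Coins.mk s T0 T1) false = T0 := rfl

@[simp] lemma Coins.sub_mk_true {k : ℕ} (s : Pos k → Bool) (T0 T1 : Coins k) :
    Coins.sub (Coins.mk s T0 T1) true = T1 := rfl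

/-- The number encoded by a position (top bit first). -/
def enc : (k : ℕ) → Pos k → ℕ
  | 0, _ => 0
  | k + 1, (b, x) => (if b then 2 ^ k else 0) + enc k x

lemma enc_lt : ∀ (k : ℕ) (x : Pos k), enc k x < 2 ^ k
  | 0, _ => by simp [enc]
  | k + 1, (b, x) => by
    have h := enc_lt k x
    simp only [enc]
    rw [pow_succ]
    split <;> omega

lemma enc_injective : ∀ (k : ℕ), Function.Injective (enc k)
  | 0, _, _, _ => rfl
  | k + 1, (b, x), (b', x'), h => by
    have hx := enc_lt k x
    have hx' := enc_lt k x'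
    simp only [enc] at h
    have hbb : b = b' := by
      cases b <;> cases b' <;> simp_all <;> omega
    subst hbb
    have : enc k x = enc k x' := by omega
    rw [enc_injective k this]

/-- `Pos k` as `Fin (2 ^ k)`. -/
noncomputable def encEquiv (k : ℕ) : Pos k ≃ Fin (2 ^ k) :=
  Equiv.ofBijective (fun x => ⟨enc k x, enc_lt k x⟩)
    ((Fintype.bijective_iff_injective_and_card _).2
      ⟨fun x y h => enc_injective k (Fin.mk.inj_iff.1 h), by rw [card_Pos, Fintype.card_fin]⟩)

@[simp] lemma encEquiv_val (k : ℕ) (x : Pos k) : (encEquiv k x).val = enc k x := rfl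

lemma two_mul_pow (d : ℕ) : 2 * 2 ^ d = 2 ^ (d + 1) := by rw [pow_succ]; ring

/-- `Pos (d + 1)` as the positions of the deck of the statement. -/
noncomputable def deckEquiv (d : ℕ) : Pos (d + 1) ≃ Fin (2 * 2 ^ d) :=
  (encEquiv (d + 1)).trans (finCongr (two_mul_pow d).symm)

@[simp] lemma deckEquiv_val (d : ℕ) (x : Pos (d + 1)) : (deckEquiv d x).val = enc (d + 1) x := rfl

/-! ### The numeric round -/

/-- One Thorp round on numbers, with the bits given by `c : ℕ → Bool`. -/
def stepNat (m : ℕ) (c : ℕ → Bool) (y : ℕ) : ℕ :=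
  2 * (y % m) + if xor (decide (m ≤ y)) (c (y % m)) then 1 else 0

/-- Rounds `s, s + 1, …, s + n - 1`. -/
def runFrom (m : ℕ) (tbl : ℕ → ℕ → Bool) : ℕ → ℕ → ℕ → ℕ
  | _, 0, y => y
  | s, n + 1, y => runFrom m tbl (s + 1) n (stepNat m (tbl s) y)

/-- Rounds `0, …, t - 1`. -/
def iterNat (m : ℕ) (tbl : ℕ → ℕ → Bool) : ℕ → ℕ → ℕ
  | 0, y => y
  | t + 1, y => stepNat m (tbl t) (iterNat m tbl t y)

lemma iterNat_add (m : ℕ) (tbl : ℕ → ℕ → Bool) (n : ℕ) : ∀ (s y : ℕ),
    iterNat m tbl (s + n) y = runFrom m tbl s n (iterNat m tbl s y) := by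
  induction n with
  | zero => intro s y; rfl
  | succ n ih =>
    intro s y
    have : s + (n + 1) = (s + 1) + n := by ring
    rw [this, ih (s + 1) y]
    rfl

/-- The table of a bit table, extended by `false`. -/
def extTable {m t : ℕ} (cs : Fin t → Fin m → Bool) : ℕ → ℕ → Bool :=
  fun s u => if h : s < t ∧ u < m then cs ⟨s, h.1⟩ ⟨u, h.2⟩ else false

lemma stepPos_val (m : ℕ) (c : Fin m → Bool) (c' : ℕ → Bool) (h : ∀ u : Fin m, c' u.val = c u)
    (y : Fin (2 * m)) : (stepPos m c y).val = stepNat m c' y.val := by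
  have hm : 0 < m := by have := y.isLt; omega
  simp only [stepPos, stepNat]
  rw [h ⟨y.val % m, Nat.mod_lt _ hm⟩]

lemma iterPos_val (m : ℕ) (tbl : ℕ → ℕ → Bool) : ∀ (t : ℕ) (cs : Fin t → Fin m → Bool)
    (_ : ∀ (s : Fin t) (u : Fin m), tbl s.val u.val = cs s u) (x : Fin (2 * m)),
    (iterPos m t cs x).val = iterNat m tbl t x.val
  | 0, _, _, _ => rfl
  | t + 1, cs, hcs, x => by
    have ih := iterPos_val m tbl t (fun i => cs i.castSucc)
      (fun s u => by simpa using hcs s.castSucc u) x
    simp only [iterPos, iterNat]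
    rw [stepPos_val m (cs (Fin.last t)) (tbl t) (fun u => by simpa using hcs (Fin.last t) u), ih]

/-- The flips read off a table of rounds, with `s` rounds done and output so far `w`. -/
def flipsAux (tbl : ℕ → ℕ → Bool) : (k s w : ℕ) → Coins k
  | 0, _, _ => fun i => nomatch (i : Empty)
  | k + 1, s, w =>
    Coins.mk (fun x => tbl s (enc k x * 2 ^ s + w))
      (flipsAux tbl k (s + 1) (2 * w)) (flipsAux tbl k (s + 1) (2 * w + 1))

lemma runFrom_enc (d : ℕ) (tbl : ℕ → ℕ → Bool) : ∀ (k s w : ℕ) (_ : k + s = d + 1)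
    (_ : w < 2 ^ s) (x : Pos k),
    runFrom (2 ^ d) tbl s k (enc k x * 2 ^ s + w) =
      w * 2 ^ k + enc k (sweep k (flipsAux tbl k s w) x)
  | 0, s, w, _, _, x => by simp [runFrom, enc]
  | k + 1, s, w, hks, hw, (b, x) => by
    have hd : d = k + s := by omega
    subst hd
    have hx := enc_lt k x
    have hsp : 2 ^ (k + s) = 2 ^ k * 2 ^ s := pow_add _ _ _
    have hslt : enc k x * 2 ^ s + w < 2 ^ (k + s) := by
      rw [hsp]
      have h2s : 0 < 2 ^ s := by positivity
      nlinarith
    have hstep : stepNat (2 ^ (k + s)) (tbl s)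
        (enc (k + 1) (b, x) * 2 ^ s + w) =
        enc k x * 2 ^ (s + 1) + (2 * w + if xor b (tbl s (enc k x * 2 ^ s + w)) then 1 else 0) := by
      have hy : enc (k + 1) (b, x) * 2 ^ s + w =
          (if b then 2 ^ (k + s) else 0) + (enc k x * 2 ^ s + w) := by
        simp only [enc]
        split
        · rw [hsp]; ring
        · ring
      rw [hy]
      unfold stepNat
      have hmod : ((if b then 2 ^ (k + s) else 0) + (enc k x * 2 ^ s + w)) % 2 ^ (k + s)
          = enc k x * 2 ^ s + w := by
        split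
        · rw [Nat.add_mod_left]; exact Nat.mod_eq_of_lt hslt
        · rw [zero_add]; exact Nat.mod_eq_of_lt hslt
      have hdec : decide (2 ^ (k + s) ≤ (if b then 2 ^ (k + s) else 0) + (enc k x * 2 ^ s + w)) = b := by
        cases b
        · simp; omega
        · simp
      rw [hmod, hdec, pow_succ]
      ring
    show runFrom (2 ^ (k + s)) tbl (s + 1) k
        (stepNat (2 ^ (k + s)) (tbl s) (enc (k + 1) (b, x) * 2 ^ s + w)) = _
    rw [hstep]
    have hflips : flipsAux tbl (k + 1) s w = Coins.mk (fun x => tbl s (enc k x * 2 ^ s + w))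
      (flipsAux tbl k (s + 1) (2 * w)) (flipsAux tbl k (s + 1) (2 * w + 1)) := rfl
    rw [hflips, sweep_succ]
    simp only [Coins.top_mk]
    set b' := xor b (tbl s (enc k x * 2 ^ s + w)) with hb'
    have hw' : 2 * w + (if b' then 1 else 0) < 2 ^ (s + 1) := by
      rw [pow_succ]; split <;> omega
    have ih := runFrom_enc (k + s) tbl k (s + 1) (2 * w + if b' then 1 else 0) (by omega) hw' x
    rw [ih]
    have hfl : (flipsAux tbl k (s + 1) (2 * w + if b' then 1 else 0)) =
        (if b' then flipsAux tbl k (s + 1) (2 * w + 1) else flipsAux tbl k (s + 1) (2 * w)) := by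
      cases b' <;> simp
    rw [hfl]
    have hsub : Coins.sub (Coins.mk (fun x => tbl s (enc k x * 2 ^ s + w))
        (flipsAux tbl k (s + 1) (2 * w)) (flipsAux tbl k (s + 1) (2 * w + 1))) b' =
        (if b' then flipsAux tbl k (s + 1) (2 * w + 1) else flipsAux tbl k (s + 1) (2 * w)) := by
      cases b' <;> rfl
    rw [hsub]
    show _ = w * 2 ^ (k + 1) + enc (k + 1)
        ((b', sweep k (if b' then flipsAux tbl k (s + 1) (2 * w + 1)
          else flipsAux tbl k (s + 1) (2 * w)) x) : Bool × Pos k)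
    simp only [enc]
    cases b' <;> simp <;> ring

/-- The coins of a round table with `d + 1` rounds. -/
def flipsOf {d : ℕ} (cs : Fin (d + 1) → Fin (2 ^ d) → Bool) : Coins (d + 1) :=
  flipsAux (extTable cs) (d + 1) 0 0

lemma extTable_spec {m t : ℕ} (cs : Fin t → Fin m → Bool) (s : Fin t) (u : Fin m) :
    extTable cs s.val u.val = cs s u := by
  simp [extTable, s.isLt, u.isLt]

/-- `d + 1` rounds are a sweep. -/
theorem iterPos_eq_sweep {d : ℕ} (cs : Fin (d + 1) → Fin (2 ^ d) → Bool) (x : Pos (d + 1)) :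
    iterPos (2 ^ d) (d + 1) cs (deckEquiv d x) = deckEquiv d (sweep (d + 1) (flipsOf cs) x) := by
  apply Fin.ext
  rw [iterPos_val (2 ^ d) (extTable cs) (d + 1) cs (extTable_spec cs), deckEquiv_val, deckEquiv_val]
  have h := iterNat_add (2 ^ d) (extTable cs) (d + 1) 0 (enc (d + 1) x)
  rw [zero_add] at h
  rw [h]
  have h2 := runFrom_enc d (extTable cs) (d + 1) 0 0 (by omega) (by simp) x
  simpa [iterNat, flipsOf] using h2

/-! ### `flipsOf` is a bijection -/

lemma flipsAux_eq_of_eq (d : ℕ) (tbl tbl' : ℕ → ℕ → Bool)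
    (h : flipsAux tbl (d + 1) 0 0 = flipsAux tbl' (d + 1) 0 0) :
    ∀ (s w : ℕ), s ≤ d → w < 2 ^ s →
      flipsAux tbl (d + 1 - s) s w = flipsAux tbl' (d + 1 - s) s w := by
  intro s
  induction s with
  | zero =>
    intro w _ hw
    have : w = 0 := by simpa using hw
    subst this
    simpa using h
  | succ s ih =>
    intro w hs hw
    have hk : d + 1 - s = (d - s) + 1 := by omega
    have hk' : d + 1 - (s + 1) = d - s := by omega
    have h' := ih (w / 2) (by omega) (by
      rw [pow_succ] at hw; omega)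
    rw [hk] at h'
    have h1f := congrArg (fun T => Coins.sub T false) h'
    have h1t := congrArg (fun T => Coins.sub T true) h'
    simp only [flipsAux, Coins.sub_mk_false, Coins.sub_mk_true] at h1f h1t
    rw [hk']
    rcases Nat.mod_two_eq_zero_or_one w with hw2 | hw2
    · have : 2 * (w / 2) = w := by omega
      rw [this] at h1f
      exact h1f
    · have : 2 * (w / 2) + 1 = w := by omega
      rw [this] at h1t
      exact h1t

lemma flipsOf_injective (d : ℕ) :
    Function.Injective (flipsOf (d := d)) := by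
  intro cs cs' h
  have hall := flipsAux_eq_of_eq d (extTable cs) (extTable cs') h
  funext s u
  have hs : s.val ≤ d := by have := s.isLt; omega
  -- write `u = x * 2 ^ s + w`
  set w := u.val % 2 ^ s.val with hw
  have hwlt : w < 2 ^ s.val := Nat.mod_lt _ (by positivity)
  have h1 := hall s.val w hs hwlt
  have hk : d + 1 - s.val = (d - s.val) + 1 := by omega
  rw [hk] at h1
  have h2 := congrArg (fun T => Coins.top T) h1
  simp only [flipsAux, Coins.top_mk] at h2
  have hx : u.val / 2 ^ s.val < 2 ^ (d - s.val) := by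
    apply Nat.div_lt_of_lt_mul
    rw [← pow_add]
    have : s.val + (d - s.val) = d := by omega
    rw [this]
    exact u.isLt
  obtain ⟨x, hxenc⟩ : ∃ x : Pos (d - s.val), enc _ x = u.val / 2 ^ s.val := by
    refine ⟨(encEquiv _).symm ⟨_, hx⟩, ?_⟩
    exact congrArg Fin.val ((encEquiv (d - s.val)).apply_symm_apply ⟨_, hx⟩)
  have h3 : extTable cs s.val (enc _ x * 2 ^ s.val + w) = extTable cs' s.val (enc _ x * 2 ^ s.val + w) :=
    congrFun h2 x
  rw [hxenc] at h3
  have hu : u.val / 2 ^ s.val * 2 ^ s.val + w = u.val := by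
    rw [hw]; exact Nat.div_add_mod' _ _
  rw [hu] at h3
  rw [← extTable_spec cs, ← extTable_spec cs']
  exact h3

/-- Number of coins. -/
lemma card_idx : ∀ k, Fintype.card (Idx k) = k * 2 ^ (k - 1)
  | 0 => rfl
  | k + 1 => by
    have h := card_idx k
    show Fintype.card (Pos k ⊕ (Bool × Idx k)) = _
    rw [Fintype.card_sum, Fintype.card_prod, h, card_Pos, Fintype.card_bool]
    cases k with
    | zero => simp
    | succ k =>
      simp only [Nat.add_sub_cancel]
      rw [pow_succ]
      ring

lemma flipsOf_bijective (d : ℕ) : Function.Bijective (flipsOf (d := d)) := by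
  rw [Fintype.bijective_iff_injective_and_card]
  refine ⟨flipsOf_injective d, ?_⟩
  simp only [Fintype.card_fun, Fintype.card_fin, Fintype.card_bool, card_idx]
  rw [← pow_mul]
  congr 1
  simp
  ring

end Crest.Agent.Thorp
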