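import Crest.Agent.Lib.Thorp.Defs
import Crest.Agent.Lib.Thorp.Finner
import Crest.Agent.Lib.Thorp.Model

/-!
# Thorp shuffle: concrete layer for the main inequality (V) (section 1 of #850)

Averages over coins, the one-layer recursion of `coll`, its Gram form, XOR translations of positions
(homogeneity), uniformity of a single position and the one-site value of `coll`.
-/

set_option autoImplicit false
set_option linter.unusedSectionVars false

namespace Crest.Agent.Thorp

open Finset BigOperators

/-! ### Uniform averages -/

section Avg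

variable {α β : Type*} [Fintype α] [Fintype β]

lemma avg_equiv (e : α ≃ β) (f : β → ℝ) : avg (fun a => f (e a)) = avg f := by
  unfold avg
  rw [Fintype.card_congr e]
  congr 1
  exact Equiv.sum_comp e f

lemma avg_prod (f : α × β → ℝ) : avg f = avg fun a => avg fun b => f (a, b) := by
  unfold avg
  rw [Fintype.sum_prod_type, Fintype.card_prod, ← Finset.sum_div]
  rw [Nat.cast_mul, div_div, mul_comm]

lemma avg_mul_left (r : ℝ) (f : α → ℝ) : avg (fun a => r * f a) = r * avg f := by
  unfold avg
  rw [← Finset.mul_sum, mul_div_assoc]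

lemma avg_mul_right (r : ℝ) (f : α → ℝ) : avg (fun a => f a * r) = avg f * r := by
  unfold avg
  rw [← Finset.sum_mul, div_mul_eq_mul_div]

lemma avg_le_avg {f g : α → ℝ} (h : ∀ a, f a ≤ g a) : avg f ≤ avg g :=
  div_le_div_of_nonneg_right (sum_le_sum fun a _ => h a) (Nat.cast_nonneg _)

lemma avg_comm (f : α → β → ℝ) :
    (avg fun a => avg fun b => f a b) = avg fun b => avg fun a => f a b := by
  unfold avg
  rw [← Finset.sum_div, ← Finset.sum_div, Finset.sum_comm, div_div, div_div, mul_comm]

/-- The product of independent averages. -/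
lemma avg_mul_avg (f : α → ℝ) (g : β → ℝ) :
    (avg fun a => avg fun b => f a * g b) = avg f * avg g := by
  simp_rw [avg_mul_left]
  rw [avg_mul_right]

end Avg

/-! ### Structure of the coins -/

lemma Coins.mk_top_sub {k : ℕ} (T : Coins (k + 1)) :
    Coins.mk (Coins.top T) (Coins.sub T false) (Coins.sub T true) = T := by
  funext i
  rcases i with p | ⟨b, j⟩
  · rfl
  · cases b <;> rfl

/-- The coins of a sweep on `Pos (k+1)`: top layer and the two sub-sweeps. -/
def coinsEquiv (k : ℕ) : Coins (k + 1) ≃ (Pos k → Bool) × Coins k × Coins k where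
  toFun T := (Coins.top T, Coins.sub T false, Coins.sub T true)
  invFun q := Coins.mk q.1 q.2.1 q.2.2
  left_inv T := Coins.mk_top_sub T
  right_inv _ := rfl

/-- Factorisation of the uniform average over coins. -/
lemma avg_coins_succ {k : ℕ} (f : Coins (k + 1) → ℝ) :
    avg f = avg fun s : Pos k → Bool => avg fun T0 : Coins k => avg fun T1 : Coins k =>
      f (Coins.mk s T0 T1) := by
  rw [← avg_equiv (coinsEquiv k).symm f, avg_prod]
  refine congrArg _ (funext fun s => ?_)
  rw [avg_prod]
  rfl

@[simp] lemma sweep_apply {k : ℕ} (T : Coins k) (x : Pos k) : sweep k T x = sweepFun k T x := rfl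

@[simp] lemma sweep_symm_apply {k : ℕ} (T : Coins k) (x : Pos k) :
    (sweep k T)⁻¹ x = sweepInv k T x := rfl

lemma sweepFun_succ {k : ℕ} (T : Coins (k + 1)) (b : Bool) (p : Pos k) :
    sweepFun (k + 1) T ((b, p) : Bool × Pos k)
      = ((xor b (Coins.top T p), sweepFun k (Coins.sub T (xor b (Coins.top T p))) p)
          : Bool × Pos k) := rfl

lemma sweepInv_succ {k : ℕ} (T : Coins (k + 1)) (b : Bool) (q : Pos k) :
    sweepInv (k + 1) T ((b, q) : Bool × Pos k)
      = ((xor b (Coins.top T (sweepInv k (Coins.sub T b) q)), sweepInv k (Coins.sub T b) q)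
          : Bool × Pos k) := rfl

/-! ### Gram form of `coll` and its recursion -/

section Coll

variable {U : Type} [DecidableEq U]

/-- `c ∘ g⁻¹ = c'` iff `c ∘ τ⁻¹ = c' ∘ τ'⁻¹`. -/
lemma comp_gOf_iff {k : ℕ} (T T' : Coins k) (c c' : Color U k) :
    ((fun x => c ((gOf T T')⁻¹ x)) = c') ↔
      ((fun z => c (sweepInv k T z)) = fun z => c' (sweepInv k T' z)) := by
  have hg : ∀ x, (gOf T T')⁻¹ x = sweepInv k T (sweepFun k T' x) := fun x => rfl
  constructor
  · intro h
    funext z
    have := congrFun h (sweepInv k T' z)
    simp only [hg, sweepFun_sweepInv] at this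
    exact this
  · intro h
    funext x
    have := congrFun h (sweepFun k T' x)
    simp only [sweepInv_sweepFun] at this
    simp only [hg]
    exact this

lemma coll_eq (k : ℕ) (c c' : Color U k) :
    coll k c c' = avg fun T : Coins k => avg fun T' : Coins k =>
      if (fun z => c (sweepInv k T z)) = (fun z => c' (sweepInv k T' z)) then (1 : ℝ) else 0 := by
  unfold coll
  refine congrArg _ (funext fun T => congrArg _ (funext fun T' => ?_))
  simp only [comp_gOf_iff]

/-- The law of the output colouring. -/
noncomputable def vc (k : ℕ) (c e : Color U k) : ℝ :=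
  avg fun T : Coins k => if (fun z => c (sweepInv k T z)) = e then (1 : ℝ) else 0

lemma vc_nonneg (k : ℕ) (c e : Color U k) : 0 ≤ vc k c e :=
  avg_nonneg fun _ => by split_ifs <;> norm_num

/-- Gram form of `coll`. -/
lemma coll_gram [Fintype U] (k : ℕ) (c c' : Color U k) :
    coll k c c' = ∑ e : Color U k, vc k c e * vc k c' e := by
  rw [coll_eq]
  simp only [vc]
  have key : ∀ e : Color U k, (avg fun T : Coins k =>
      if (fun z => c (sweepInv k T z)) = e then (1 : ℝ) else 0) *
      (avg fun T' : Coins k => if (fun z => c' (sweepInv k T' z)) = e then (1 : ℝ) else 0)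
      = avg fun T : Coins k => avg fun T' : Coins k =>
        (if (fun z => c (sweepInv k T z)) = e then (1 : ℝ) else 0) *
        (if (fun z => c' (sweepInv k T' z)) = e then (1 : ℝ) else 0) :=
    fun e => (avg_mul_avg _ _).symm
  simp_rw [key]
  rw [← avg_sum]
  refine congrArg _ (funext fun T => ?_)
  rw [← avg_sum]
  refine congrArg _ (funext fun T' => ?_)
  rw [Finset.sum_eq_single (fun z => c (sweepInv k T z))]
  · simp only [if_true, one_mul]
    by_cases h : (fun z => c (sweepInv k T z)) = (fun z => c' (sweepInv k T' z))
    · rw [if_pos h, if_pos h.symm]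
    · rw [if_neg h, if_neg (fun h' => h h'.symm)]
  · intro e _ he
    rw [if_neg (fun h => he h.symm), zero_mul]
  · intro h
    exact absurd (mem_univ _) h

lemma coll_nonneg (k : ℕ) (c c' : Color U k) : 0 ≤ coll k c c' :=
  avg_nonneg fun _ => avg_nonneg fun _ => by split_ifs <;> norm_num

lemma coll_comm (k : ℕ) (c c' : Color U k) : coll k c c' = coll k c' c := by
  rw [coll_eq, coll_eq, avg_comm]
  refine congrArg _ (funext fun T => congrArg _ (funext fun T' => ?_))
  simp only [eq_comm]

/-- The output colouring of sheet `b` is the output of the sheet colouring of the sub-sweep. -/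
lemma out_succ {k : ℕ} (T : Coins (k + 1)) (c : Color U (k + 1)) (b : Bool) (q : Pos k) :
    c (sweepInv (k + 1) T ((b, q) : Bool × Pos k))
      = sheet (Coins.top T) c b (sweepInv k (Coins.sub T b) q) := rfl

lemma out_eq_iff {k : ℕ} (T T' : Coins (k + 1)) (c c' : Color U (k + 1)) :
    ((fun z => c (sweepInv (k + 1) T z)) = fun z => c' (sweepInv (k + 1) T' z)) ↔
      ∀ b : Bool, (fun q => sheet (Coins.top T) c b (sweepInv k (Coins.sub T b) q))
        = fun q => sheet (Coins.top T') c' b (sweepInv k (Coins.sub T' b) q) := by
  constructor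
  · intro h b
    funext q
    exact congrFun h ((b, q) : Bool × Pos k)
  · intro h
    funext z
    obtain ⟨b, q⟩ : Bool × Pos k := z
    exact congrFun (h b) q

/-- One-layer recursion of `coll`: `x_{k+1}(c,c') = E_{s,s'} x_k(a₀,a₀') x_k(a₁,a₁')`. -/
theorem coll_succ (k : ℕ) (c c' : Color U (k + 1)) :
    coll (k + 1) c c' = avg fun s : Pos k → Bool => avg fun s' : Pos k → Bool =>
      coll k (sheet s c false) (sheet s' c' false) * coll k (sheet s c true) (sheet s' c' true) := by
  rw [coll_eq]
  simp_rw [avg_coins_succ (k := k)]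
  -- both sides as iterated averages, reorder
  have hind : ∀ (s s' : Pos k → Bool) (T0 T1 T0' T1' : Coins k),
      (if (fun z => c (sweepInv (k + 1) (Coins.mk s T0 T1) z))
          = (fun z => c' (sweepInv (k + 1) (Coins.mk s' T0' T1') z)) then (1 : ℝ) else 0)
      = (if (fun q => sheet s c false (sweepInv k T0 q))
          = (fun q => sheet s' c' false (sweepInv k T0' q)) then (1 : ℝ) else 0)
        * (if (fun q => sheet s c true (sweepInv k T1 q))
          = (fun q => sheet s' c' true (sweepInv k T1' q)) then (1 : ℝ) else 0) := by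
    intro s s' T0 T1 T0' T1'
    have := out_eq_iff (Coins.mk s T0 T1) (Coins.mk s' T0' T1') c c'
    simp only [Coins.top_mk] at this
    by_cases h0 : (fun q => sheet s c false (sweepInv k T0 q))
        = (fun q => sheet s' c' false (sweepInv k T0' q))
    · by_cases h1 : (fun q => sheet s c true (sweepInv k T1 q))
          = (fun q => sheet s' c' true (sweepInv k T1' q))
      · rw [if_pos h0, if_pos h1, if_pos, one_mul]
        rw [this]
        intro b
        cases b
        · exact h0
        · exact h1
      · rw [if_neg h1, if_neg, mul_zero]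
        rw [this]
        intro h
        exact h1 (h true)
    · rw [if_neg h0, if_neg, zero_mul]
      rw [this]
      intro h
      exact h0 (h false)
  simp_rw [hind]
  simp_rw [coll_eq k]
  -- move the average over `s'` to the front of the inner block
  refine congrArg _ (funext fun s => ?_)
  -- inner reordering
  have h1 : ∀ (T0 T1 : Coins k), (avg fun s' : Pos k → Bool => avg fun T0' : Coins k =>
      avg fun T1' : Coins k =>
        (if (fun q => sheet s c false (sweepInv k T0 q))
          = (fun q => sheet s' c' false (sweepInv k T0' q)) then (1 : ℝ) else 0)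
        * (if (fun q => sheet s c true (sweepInv k T1 q))
          = (fun q => sheet s' c' true (sweepInv k T1' q)) then (1 : ℝ) else 0))
      = avg fun s' : Pos k → Bool =>
        (avg fun T0' : Coins k => (if (fun q => sheet s c false (sweepInv k T0 q))
          = (fun q => sheet s' c' false (sweepInv k T0' q)) then (1 : ℝ) else 0))
        * (avg fun T1' : Coins k => (if (fun q => sheet s c true (sweepInv k T1 q))
          = (fun q => sheet s' c' true (sweepInv k T1' q)) then (1 : ℝ) else 0)) := by
    intro T0 T1
    refine congrArg _ (funext fun s' => ?_)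
    exact avg_mul_avg _ _
  simp_rw [h1]
  have h2 : ∀ T0 : Coins k, (avg fun T1 : Coins k => avg fun s' : Pos k → Bool =>
        (avg fun T0' : Coins k => (if (fun q => sheet s c false (sweepInv k T0 q))
          = (fun q => sheet s' c' false (sweepInv k T0' q)) then (1 : ℝ) else 0))
        * (avg fun T1' : Coins k => (if (fun q => sheet s c true (sweepInv k T1 q))
          = (fun q => sheet s' c' true (sweepInv k T1' q)) then (1 : ℝ) else 0)))
      = avg fun s' : Pos k → Bool => avg fun T1 : Coins k =>
        (avg fun T0' : Coins k => (if (fun q => sheet s c false (sweepInv k T0 q))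
          = (fun q => sheet s' c' false (sweepInv k T0' q)) then (1 : ℝ) else 0))
        * (avg fun T1' : Coins k => (if (fun q => sheet s c true (sweepInv k T1 q))
          = (fun q => sheet s' c' true (sweepInv k T1' q)) then (1 : ℝ) else 0)) :=
    fun T0 => avg_comm _
  simp_rw [h2]
  rw [avg_comm]
  refine congrArg _ (funext fun s' => ?_)
  exact avg_mul_avg _ _

end Coll

/-! ### Uniformity of one position -/

/-- The position of a single card after a sweep is uniform. -/
theorem avg_sweep_eq (k : ℕ) (p z : Pos k) :
    (avg fun T : Coins k => if sweepFun k T p = z then (1 : ℝ) else 0) = 1 / 2 ^ k := by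
  induction k with
  | zero =>
    have : p = z := rfl
    subst this
    simp only [pow_zero]
    have : ∀ T : Coins 0, sweepFun 0 T p = p := fun _ => rfl
    simp only [this, if_true]
    exact (avg_const (α := Coins 0) 1).trans (by norm_num)
  | succ k ih =>
    obtain ⟨b, p⟩ : Bool × Pos k := p
    obtain ⟨b', q⟩ : Bool × Pos k := z
    rw [avg_coins_succ]
    have h : ∀ (s : Pos k → Bool) (T0 T1 : Coins k),
        (if sweepFun (k + 1) (Coins.mk s T0 T1) ((b, p) : Bool × Pos k) = ((b', q) : Bool × Pos k)
          then (1 : ℝ) else 0)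
        = (if xor b (s p) = b' then (1 : ℝ) else 0) *
          (if sweepFun k (Coins.sub (Coins.mk s T0 T1) b') p = q then (1 : ℝ) else 0) := by
      intro s T0 T1
      rw [sweepFun_succ]
      simp only [Coins.top_mk]
      by_cases h1 : xor b (s p) = b'
      · subst h1
        simp only [if_true, one_mul]
        by_cases h2 : sweepFun k (Coins.sub (Coins.mk s T0 T1) (xor b (s p))) p = q
        · rw [if_pos h2, if_pos]
          exact Prod.ext rfl h2
        · rw [if_neg h2, if_neg]
          intro he
          exact h2 (congrArg Prod.snd he)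
      · rw [if_neg h1, zero_mul, if_neg]
        intro he
        exact h1 (congrArg Prod.fst he)
    simp_rw [h]
    have h3 : ∀ s : Pos k → Bool, (avg fun T0 : Coins k => avg fun T1 : Coins k =>
        (if xor b (s p) = b' then (1 : ℝ) else 0) *
          (if sweepFun k (Coins.sub (Coins.mk s T0 T1) b') p = q then (1 : ℝ) else 0))
        = (if xor b (s p) = b' then (1 : ℝ) else 0) * (1 / 2 ^ k) := by
      intro s
      simp_rw [avg_mul_left]
      congr 1
      cases b'
      · change (avg fun T0 : Coins k => avg fun _ : Coins k =>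
            if sweepFun k T0 p = q then (1 : ℝ) else 0) = _
        have : (avg fun T0 : Coins k => avg fun _ : Coins k =>
            if sweepFun k T0 p = q then (1 : ℝ) else 0)
            = avg fun T0 : Coins k => if sweepFun k T0 p = q then (1 : ℝ) else 0 := by
          refine congrArg _ (funext fun T0 => ?_)
          exact avg_const _
        rw [this, ih]
      · change (avg fun _ : Coins k => avg fun T1 : Coins k =>
            if sweepFun k T1 p = q then (1 : ℝ) else 0) = _
        have : (avg fun _ : Coins k => avg fun T1 : Coins k =>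
            if sweepFun k T1 p = q then (1 : ℝ) else 0)
            = avg fun T1 : Coins k => if sweepFun k T1 p = q then (1 : ℝ) else 0 := by
          exact avg_const _
        rw [this, ih]
    simp_rw [h3]
    rw [avg_mul_right]
    -- the top coin at `p` is fair
    have h4 : (avg fun s : Pos k → Bool => if xor b (s p) = b' then (1 : ℝ) else 0) = 1 / 2 := by
      let φ : (Pos k → Bool) ≃ (Pos k → Bool) :=
        (Function.Involutive.toPerm (fun s : Pos k → Bool => Function.update s p (!(s p))) (by
          intro s
          funext x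
          by_cases hx : x = p
          · subst hx; simp
          · simp [Function.update_of_ne hx]))
      have hφ : (avg fun s : Pos k → Bool => if xor b ((φ s) p) = b' then (1 : ℝ) else 0)
          = avg fun s : Pos k → Bool => if xor b (s p) = b' then (1 : ℝ) else 0 :=
        avg_equiv φ (fun s => if xor b (s p) = b' then (1 : ℝ) else 0)
      have hsum : ∀ s : Pos k → Bool, (if xor b ((φ s) p) = b' then (1 : ℝ) else 0)
          + (if xor b (s p) = b' then (1 : ℝ) else 0) = 1 := by
        intro s
        have : (φ s) p = !(s p) := by simp [φ, Function.Involutive.toPerm]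
        rw [this]
        cases b <;> cases b' <;> cases s p <;> simp
      have hadd := avg_add (fun s : Pos k → Bool => if xor b ((φ s) p) = b' then (1 : ℝ) else 0)
        (fun s : Pos k → Bool => if xor b (s p) = b' then (1 : ℝ) else 0)
      simp_rw [hsum] at hadd
      rw [hφ, avg_const] at hadd
      linarith
    rw [h4, pow_succ]
    have : (2:ℝ) ^ k ≠ 0 := pow_ne_zero _ (by norm_num)
    field_simp

/-! ### XOR translations -/

/-- Bitwise xor of positions. -/
def xorPos : ∀ k, Pos k → Pos k → Pos k
  | 0, _, _ => ()
  | k + 1, x, y =>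
    let x' : Bool × Pos k := x
    let y' : Bool × Pos k := y
    ((xor x'.1 y'.1, xorPos k x'.2 y'.2) : Bool × Pos k)

lemma xorPos_succ {k : ℕ} (a b : Bool) (u p : Pos k) :
    xorPos (k + 1) ((a, u) : Bool × Pos k) ((b, p) : Bool × Pos k)
      = ((xor a b, xorPos k u p) : Bool × Pos k) := rfl

lemma xorPos_invol : ∀ (k : ℕ) (t p : Pos k), xorPos k t (xorPos k t p) = p
  | 0, _, _ => rfl
  | k + 1, t, p => by
    obtain ⟨a, u⟩ : Bool × Pos k := t
    obtain ⟨b, p⟩ : Bool × Pos k := p
    rw [xorPos_succ, xorPos_succ, xorPos_invol k u p]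
    simp

lemma xorPos_comm : ∀ (k : ℕ) (t p : Pos k), xorPos k t p = xorPos k p t
  | 0, _, _ => rfl
  | k + 1, t, p => by
    obtain ⟨a, u⟩ : Bool × Pos k := t
    obtain ⟨b, p⟩ : Bool × Pos k := p
    rw [xorPos_succ, xorPos_succ, xorPos_comm k u p, Bool.xor_comm]

/-- The translation by `t`. -/
def translate (k : ℕ) (t : Pos k) : Equiv.Perm (Pos k) :=
  Function.Involutive.toPerm (xorPos k t) (xorPos_invol k t)

@[simp] lemma translate_apply (k : ℕ) (t p : Pos k) : translate k t p = xorPos k t p := rfl

/-- Homogeneity: some translation maps `x` to `y`. -/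
lemma exists_translate (k : ℕ) (x y : Pos k) : ∃ t, translate k t x = y :=
  ⟨xorPos k y x, by rw [translate_apply, xorPos_comm k (xorPos k y x) x, xorPos_comm k y x,
    xorPos_invol]⟩

/-- Shift of the coins so that the sweep of the shifted coins is the sweep composed with the
translation. -/
def coinsShift : ∀ k, Pos k → Coins k → Coins k
  | 0, _, T => T
  | k + 1, t, T =>
    let t' : Bool × Pos k := t
    Coins.mk (fun p => xor t'.1 (Coins.top T (xorPos k t'.2 p)))
      (coinsShift k t'.2 (Coins.sub T false)) (coinsShift k t'.2 (Coins.sub T true))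

lemma coinsShift_succ {k : ℕ} (a : Bool) (u : Pos k) (T : Coins (k + 1)) :
    coinsShift (k + 1) ((a, u) : Bool × Pos k) T
      = Coins.mk (fun p => xor a (Coins.top T (xorPos k u p)))
        (coinsShift k u (Coins.sub T false)) (coinsShift k u (Coins.sub T true)) := rfl

lemma coinsShift_sub {k : ℕ} (a : Bool) (u : Pos k) (T : Coins (k + 1)) (b : Bool) :
    Coins.sub (coinsShift (k + 1) ((a, u) : Bool × Pos k) T) b
      = coinsShift k u (Coins.sub T b) := by
  cases b <;> rfl

lemma coinsShift_invol : ∀ (k : ℕ) (t : Pos k) (T : Coins k),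
    coinsShift k t (coinsShift k t T) = T
  | 0, _, _ => rfl
  | k + 1, t, T => by
    obtain ⟨a, u⟩ : Bool × Pos k := t
    rw [coinsShift_succ, coinsShift_succ]
    simp only [Coins.top_mk, Coins.sub_mk_false, Coins.sub_mk_true, coinsShift_invol k u,
      xorPos_invol]
    have : (fun p => xor a (xor a (Coins.top T p))) = Coins.top T := by
      funext p; simp
    rw [this, Coins.mk_top_sub]

/-- The bijection of the coins. -/
def coinsPerm (k : ℕ) (t : Pos k) : Equiv.Perm (Coins k) :=
  Function.Involutive.toPerm (coinsShift k t) (coinsShift_invol k t)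

@[simp] lemma coinsPerm_apply (k : ℕ) (t : Pos k) (T : Coins k) :
    coinsPerm k t T = coinsShift k t T := rfl

/-- `τ_{T^t} = τ_T ∘ t`. -/
theorem sweepFun_shift : ∀ (k : ℕ) (t : Pos k) (T : Coins k) (x : Pos k),
    sweepFun k (coinsShift k t T) x = sweepFun k T (xorPos k t x)
  | 0, _, _, _ => rfl
  | k + 1, t, T, x => by
    obtain ⟨a, u⟩ : Bool × Pos k := t
    obtain ⟨b, p⟩ : Bool × Pos k := x
    rw [xorPos_succ, sweepFun_succ, sweepFun_succ, coinsShift_sub, sweepFun_shift k]
    have e : xor b (Coins.top (coinsShift (k + 1) ((a, u) : Bool × Pos k) T) p)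
        = xor (xor a b) (Coins.top T (xorPos k u p)) := by
      rw [coinsShift_succ, Coins.top_mk]
      cases a <;> cases b <;> cases Coins.top T (xorPos k u p) <;> rfl
    rw [e]

/-- The sweep of the shifted coins is the sweep composed with the translation. -/
theorem sweep_shift (k : ℕ) (t : Pos k) (T : Coins k) :
    sweep k (coinsShift k t T) = sweep k T * translate k t := by
  ext x
  exact sweepFun_shift k t T x

lemma sweepInv_shift (k : ℕ) (t : Pos k) (T : Coins k) (z : Pos k) :
    sweepInv k (coinsShift k t T) z = xorPos k t (sweepInv k T z) := by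
  have h := sweepFun_shift k t T (xorPos k t (sweepInv k T z))
  rw [xorPos_invol, sweepFun_sweepInv] at h
  have := congrArg (sweepInv k (coinsShift k t T)) h
  rw [sweepInv_sweepFun] at this
  exact this.symm

/-- `coll` is invariant under simultaneous translation. -/
theorem coll_translate {U : Type} [DecidableEq U] (k : ℕ) (t : Pos k) (c c' : Color U k) :
    coll k (fun x => c (xorPos k t x)) (fun x => c' (xorPos k t x)) = coll k c c' := by
  rw [coll_eq, coll_eq]
  rw [← avg_equiv (coinsPerm k t)]
  refine congrArg _ (funext fun T => ?_)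
  rw [← avg_equiv (coinsPerm k t)]
  refine congrArg _ (funext fun T' => ?_)
  simp only [coinsPerm_apply, sweepInv_shift, xorPos_invol]

/-! ### Support, weights, one-site colourings -/

section Support

variable {U : Type} [DecidableEq U]

omit [DecidableEq U] in
lemma mem_csupp {k : ℕ} (c : Color U k) (x : Pos k) : x ∈ csupp c ↔ (c x).isSome = true := by
  simp [csupp]

/-- `coll` vanishes unless the supports have equal size. -/
lemma coll_eq_zero_of_card_ne {k : ℕ} (c c' : Color U k)
    (h : (csupp c).card ≠ (csupp c').card) : coll k c c' = 0 := by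
  unfold coll
  have : ∀ T T' : Coins k, (if (fun x => c ((gOf T T')⁻¹ x)) = c' then (1 : ℝ) else 0) = 0 := by
    intro T T'
    rw [if_neg]
    intro he
    apply h
    subst he
    refine Finset.card_bij (fun x _ => gOf T T' x) ?_ ?_ ?_
    · intro x hx
      simpa [mem_csupp] using hx
    · intro x _ y _ hxy
      exact (gOf T T').injective hxy
    · intro y hy
      refine ⟨(gOf T T')⁻¹ y, ?_, by simp⟩
      simpa [mem_csupp] using hy
  simp only [this]
  unfold avg
  simp

/-- `coll` of the zero colouring with itself is one. -/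
lemma coll_none {k : ℕ} : coll (U := U) k (fun _ => none) (fun _ => none) = 1 := by
  unfold coll
  simp only [if_true]
  rw [avg_const, avg_const]

/-- The colouring with a single coloured site. -/
def oneSite {k : ℕ} (p : Pos k) (u : U) : Color U k :=
  fun x => if x = p then some u else none

/-- `x_k(c,c) = 2^{-k}` for a colouring with one coloured site. -/
theorem coll_oneSite {k : ℕ} (p : Pos k) (u : U) :
    coll k (oneSite p u) (oneSite p u) = 1 / 2 ^ k := by
  rw [coll_eq]
  have h : ∀ T T' : Coins k,
      (if (fun z => oneSite p u (sweepInv k T z)) = (fun z => oneSite p u (sweepInv k T' z))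
        then (1 : ℝ) else 0) = if sweepFun k T p = sweepFun k T' p then 1 else 0 := by
    intro T T'
    by_cases hs : sweepFun k T p = sweepFun k T' p
    · rw [if_pos hs, if_pos]
      funext z
      simp only [oneSite]
      have e : ∀ T'' : Coins k, sweepInv k T'' z = p ↔ z = sweepFun k T'' p := by
        intro T''
        constructor
        · intro he
          rw [← he, sweepFun_sweepInv]
        · intro he
          rw [he, sweepInv_sweepFun]
      by_cases hz : z = sweepFun k T p
      · rw [if_pos ((e T).2 hz), if_pos ((e T').2 (hz.trans hs))]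
      · rw [if_neg (fun h => hz ((e T).1 h)), if_neg (fun h => hz (((e T').1 h).trans hs.symm))]
    · rw [if_neg hs, if_neg]
      intro he
      have := congrFun he (sweepFun k T p)
      simp only [oneSite, sweepInv_sweepFun, if_true] at this
      by_cases h2 : sweepInv k T' (sweepFun k T p) = p
      · apply hs
        rw [← h2, sweepFun_sweepInv]
        rw [h2]
      · rw [if_neg h2] at this
        simp at this
  simp_rw [h]
  have h2 : ∀ T : Coins k, (avg fun T' : Coins k =>
      if sweepFun k T p = sweepFun k T' p then (1 : ℝ) else 0) = 1 / 2 ^ k := by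
    intro T
    have := avg_sweep_eq k p (sweepFun k T p)
    rw [← this]
    refine congrArg _ (funext fun T' => ?_)
    simp only [eq_comm]
  simp_rw [h2]
  exact avg_const _

end Support

/-! ### Sheets: the one-layer decomposition of colourings -/

section Sheets

variable {U : Type}

/-- Sum over `Pos (k+1)` as a sum over the two sheets of a top flip. -/
lemma sum_flip {M : Type*} [AddCommMonoid M] {k : ℕ} (s : Pos k → Bool) (f : Pos (k + 1) → M) :
    ∑ x, f x = ∑ p : Pos k, (f ((xor false (s p), p) : Bool × Pos k)
      + f ((xor true (s p), p) : Bool × Pos k)) := by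
  change ∑ x : Bool × Pos k, f x = _
  rw [Fintype.sum_prod_type_right]
  refine Finset.sum_congr rfl fun p _ => ?_
  rw [Fintype.sum_bool]
  cases s p
  · simp [add_comm]
  · simp

/-- The sites of sheet `b`: `S^b_s = {p : (b xor s p, p) ∈ S}`. -/
def sliceSet {k : ℕ} (s : Pos k → Bool) (S : Finset (Pos (k + 1))) (b : Bool) : Finset (Pos k) :=
  univ.filter fun p => ((xor b (s p), p) : Bool × Pos k) ∈ S

lemma mem_sliceSet {k : ℕ} (s : Pos k → Bool) (S : Finset (Pos (k + 1))) (b : Bool) (p : Pos k) :
    p ∈ sliceSet s S b ↔ ((xor b (s p), p) : Bool × Pos k) ∈ S := by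
  simp [sliceSet]

/-- `|S⁰| + |S¹| = |S|`. -/
lemma card_sliceSet {k : ℕ} (s : Pos k → Bool) (S : Finset (Pos (k + 1))) :
    (sliceSet s S false).card + (sliceSet s S true).card = S.card := by
  have h : ∀ (A : Finset (Pos k)), A.card = ∑ p : Pos k, if p ∈ A then 1 else 0 := by
    intro A
    rw [Finset.sum_boole, Finset.filter_mem_eq_inter, Finset.univ_inter]
    simp
  have h' : S.card = ∑ x : Pos (k + 1), if x ∈ S then 1 else 0 := by
    rw [Finset.sum_boole, Finset.filter_mem_eq_inter, Finset.univ_inter]
    simp
  rw [h', sum_flip s, h, h, ← Finset.sum_add_distrib]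
  refine Finset.sum_congr rfl fun p _ => ?_
  simp only [mem_sliceSet]
  congr!

/-- Reassemble a colouring from its two sheets. -/
def joinSheets {k : ℕ} (s : Pos k → Bool) (a0 a1 : Color U k) : Color U (k + 1) :=
  fun x =>
    let x' : Bool × Pos k := x
    if xor x'.1 (s x'.2) = false then a0 x'.2 else a1 x'.2

@[simp] lemma sheet_joinSheets_false {k : ℕ} (s : Pos k → Bool) (a0 a1 : Color U k) :
    sheet s (joinSheets s a0 a1) false = a0 := by
  funext p
  simp [sheet, joinSheets]

@[simp] lemma sheet_joinSheets_true {k : ℕ} (s : Pos k → Bool) (a0 a1 : Color U k) :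
    sheet s (joinSheets s a0 a1) true = a1 := by
  funext p
  simp [sheet, joinSheets]

lemma joinSheets_sheet {k : ℕ} (s : Pos k → Bool) (c : Color U (k + 1)) :
    joinSheets s (sheet s c false) (sheet s c true) = c := by
  funext x
  obtain ⟨b, p⟩ : Bool × Pos k := x
  simp only [joinSheets, sheet]
  cases b <;> cases hs : s p <;> simp

/-- Colourings of `Pos (k+1)` are pairs of sheet colourings. -/
def sheetEquiv {k : ℕ} (s : Pos k → Bool) : Color U (k + 1) ≃ Color U k × Color U k where
  toFun c := (sheet s c false, sheet s c true)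
  invFun q := joinSheets s q.1 q.2
  left_inv c := joinSheets_sheet s c
  right_inv q := by simp

lemma csupp_card_sheets {k : ℕ} (s : Pos k → Bool) (c : Color U (k + 1)) :
    (csupp c).card = (csupp (sheet s c false)).card + (csupp (sheet s c true)).card := by
  have h : ∀ (a : Color U k), (csupp a).card = ∑ p : Pos k, if (a p).isSome then 1 else 0 := by
    intro a
    rw [Finset.sum_boole]
    simp [csupp]
  have h' : (csupp c).card = ∑ x : Pos (k + 1), if (c x).isSome then 1 else 0 := by
    rw [Finset.sum_boole]
    simp [csupp]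
  rw [h', sum_flip s, h, h, ← Finset.sum_add_distrib]
  refine Finset.sum_congr rfl fun p _ => ?_
  simp only [sheet]
  congr!

lemma csupp_subset_iff_sheets {k : ℕ} (s : Pos k → Bool) (c : Color U (k + 1))
    (S : Finset (Pos (k + 1))) :
    csupp c ⊆ S ↔ (csupp (sheet s c false) ⊆ sliceSet s S false ∧
      csupp (sheet s c true) ⊆ sliceSet s S true) := by
  have key : ∀ (b : Bool) (p : Pos k), sheet s c b p = c ((xor b (s p), p) : Bool × Pos k) :=
    fun _ _ => rfl
  constructor
  · intro h
    refine ⟨?_, ?_⟩ <;>
    · intro p hp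
      rw [mem_csupp, key] at hp
      rw [mem_sliceSet]
      exact h ((mem_csupp _ _).2 hp)
  · rintro ⟨h0, h1⟩ x hx
    obtain ⟨b, p⟩ : Bool × Pos k := x
    rw [mem_csupp] at hx
    cases hb : xor b (s p)
    · have hb' : b = xor false (s p) := by
        cases b <;> cases hs : s p <;> simp_all
      have hp : p ∈ csupp (sheet s c false) := by
        rw [mem_csupp, key, ← hb']
        exact hx
      have := h0 hp
      rw [mem_sliceSet, ← hb'] at this
      exact this
    · have hb' : b = xor true (s p) := by
        cases b <;> cases hs : s p <;> simp_all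
      have hp : p ∈ csupp (sheet s c true) := by
        rw [mem_csupp, key, ← hb']
        exact hx
      have := h1 hp
      rw [mem_sliceSet, ← hb'] at this
      exact this

/-- `mixW W a b` is `b` on `W` and `a` off `W`. -/
def mixW {k : ℕ} (W : Finset (Pos k)) (a b : Color U k) : Color U k :=
  fun p => if p ∈ W then b p else a p

/-- The top coins differing from `s` exactly on `W`. -/
def flipOn {k : ℕ} (s : Pos k → Bool) (W : Finset (Pos k)) : Pos k → Bool :=
  fun p => if p ∈ W then !(s p) else s p

/-- For fixed `s`, the coins `s'` correspond to their disagreement sets `W`. -/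
def flipEquiv {k : ℕ} (s : Pos k → Bool) : Finset (Pos k) ≃ (Pos k → Bool) where
  toFun W := flipOn s W
  invFun s' := univ.filter fun p => s' p ≠ s p
  left_inv W := by
    ext p
    simp only [flipOn, mem_filter, mem_univ, true_and]
    by_cases h : p ∈ W <;> simp [h]
  right_inv s' := by
    funext p
    simp only [flipOn, mem_filter, mem_univ, true_and]
    by_cases h : s' p = s p
    · simp [h]
    · simp only [h, not_false_eq_true, if_true, ne_eq]
      cases hs : s p <;> cases hs' : s' p <;> simp_all

lemma sheet_flipOn {k : ℕ} (s : Pos k → Bool) (W : Finset (Pos k)) (c : Color U (k + 1)) (b : Bool) :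
    sheet (flipOn s W) c b = mixW W (sheet s c b) (sheet s c (!b)) := by
  funext p
  simp only [sheet, flipOn, mixW]
  by_cases h : p ∈ W
  · simp only [h, if_true]
    congr 2
    cases b <;> cases s p <;> rfl
  · simp [h]

/-- Colourings supported in `A`. -/
def Colr {k : ℕ} [Fintype U] [DecidableEq U] (A : Finset (Pos k)) : Finset (Color U k) :=
  univ.filter fun c => csupp c ⊆ A

lemma mem_Colr {k : ℕ} [Fintype U] [DecidableEq U] (A : Finset (Pos k)) (c : Color U k) :
    c ∈ Colr A ↔ csupp c ⊆ A := by
  simp [Colr]

lemma yk_eq [Fintype U] [DecidableEq U] (k : ℕ) (S : Finset (Pos k)) (ρ : ℝ) :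
    yk U k S ρ = ∑ c ∈ (Colr S : Finset (Color U k)), ρ ^ (csupp c).card * coll k c c := by
  unfold yk Colr
  rw [Finset.sum_filter]

variable [DecidableEq U]

/-- The self-correlation recursion with the disagreement set `W`. -/
theorem coll_succ_self (k : ℕ) (c : Color U (k + 1)) :
    coll (k + 1) c c = avg fun s : Pos k → Bool => avg fun W : Finset (Pos k) =>
      coll k (sheet s c false) (mixW W (sheet s c false) (sheet s c true)) *
      coll k (sheet s c true) (mixW W (sheet s c true) (sheet s c false)) := by
  rw [coll_succ]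
  refine congrArg _ (funext fun s => ?_)
  rw [← avg_equiv (flipEquiv s)]
  refine congrArg _ (funext fun W => ?_)
  change coll k _ (sheet (flipOn s W) c false) * coll k _ (sheet (flipOn s W) c true) = _
  rw [sheet_flipOn, sheet_flipOn]
  rfl

/-- One-layer recursion of `y_k`. -/
theorem yk_succ [Fintype U] (k : ℕ) (S : Finset (Pos (k + 1))) (ρ : ℝ) :
    yk U (k + 1) S ρ = avg fun s : Pos k → Bool => avg fun W : Finset (Pos k) =>
      ∑ a0 ∈ (Colr (sliceSet s S false) : Finset (Color U k)),
      ∑ a1 ∈ (Colr (sliceSet s S true) : Finset (Color U k)),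
        ρ ^ ((csupp a0).card + (csupp a1).card) *
          (coll k a0 (mixW W a0 a1) * coll k a1 (mixW W a1 a0)) := by
  rw [yk_eq]
  simp_rw [coll_succ_self]
  simp_rw [← avg_mul_left]
  rw [← avg_sum]
  refine congrArg _ (funext fun s => ?_)
  rw [← avg_sum]
  refine congrArg _ (funext fun W => ?_)
  rw [← Finset.sum_product']
  refine Finset.sum_nbij' (fun c => (sheet s c false, sheet s c true)) (fun q => joinSheets s q.1 q.2)
    ?_ ?_ ?_ ?_ ?_
  · intro c hc
    rw [mem_Colr, csupp_subset_iff_sheets s] at hc
    simp only [mem_product, mem_Colr]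
    exact hc
  · rintro ⟨a0, a1⟩ hq
    simp only [mem_product, mem_Colr] at hq
    rw [mem_Colr, csupp_subset_iff_sheets s]
    simpa using hq
  · intro c _
    exact joinSheets_sheet s c
  · rintro ⟨a0, a1⟩ _
    simp
  · intro c _
    rw [csupp_card_sheets s c]

end Sheets

/-! ### Abstract kernel bridges -/

section Bridge

variable {U : Type} [DecidableEq U]

/-- Translation invariance of the one-point marginal sum (the form used in (R5)). -/
lemma coll_comp_xor (k : ℕ) (t : Pos k) (c : Color U k) :
    coll k (fun x => c (xorPos k t x)) (fun x => c (xorPos k t x)) = coll k c c :=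
  coll_translate k t c c

/-- `|c ∘ t| = |c|`. -/
lemma csupp_card_xor {k : ℕ} (t : Pos k) (c : Color U k) :
    (csupp (fun x => c (xorPos k t x))).card = (csupp c).card := by
  refine Finset.card_bij (fun x _ => xorPos k t x) ?_ ?_ ?_
  · intro x hx
    simpa [mem_csupp] using hx
  · intro x _ y _ h
    have := congrArg (xorPos k t) h
    simpa [xorPos_invol] using this
  · intro y hy
    refine ⟨xorPos k t y, ?_, xorPos_invol k t y⟩
    simpa [mem_csupp, xorPos_invol] using hy

/-- Homogeneity of the one-point sums: `∑_{c ∋ x} f(|c|) x_k(c,c)` does not depend on `x`. -/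
lemma sum_mem_supp_eq [Fintype U] (k : ℕ) (f : ℕ → ℝ) (x y : Pos k) :
    ∑ c : Color U k, (if x ∈ csupp c then f (csupp c).card * coll k c c else 0)
      = ∑ c : Color U k, (if y ∈ csupp c then f (csupp c).card * coll k c c else 0) := by
  obtain ⟨t, ht⟩ := exists_translate k x y
  rw [translate_apply] at ht
  -- the bijection `c ↦ c ∘ t`
  let φ : Color U k ≃ Color U k :=
    Function.Involutive.toPerm (fun c x => c (xorPos k t x)) (by
      intro c
      funext x
      simp only [xorPos_invol])
  rw [← Equiv.sum_comp φ]
  refine Finset.sum_congr rfl fun c _ => ?_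
  have h1 : (φ c) = fun z => c (xorPos k t z) := rfl
  rw [h1, csupp_card_xor, coll_comp_xor]
  have h2 : x ∈ csupp (fun z => c (xorPos k t z)) ↔ y ∈ csupp c := by
    rw [mem_csupp, mem_csupp, ht]
  by_cases hy : y ∈ csupp c
  · rw [if_pos hy, if_pos (h2.2 hy)]
  · rw [if_neg hy, if_neg (fun h => hy (h2.1 h))]

/-- One-point sums as an average over sites: `∑_{c ∋ x} f x_k(c,c) = 2^{-k} ∑_c |c| f x_k(c,c)`. -/
theorem sum_mem_supp_avg [Fintype U] (k : ℕ) (f : ℕ → ℝ) (x : Pos k) :
    ∑ c : Color U k, (if x ∈ csupp c then f (csupp c).card * coll k c c else 0)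
      = (1 / 2 ^ k) * ∑ c : Color U k, ((csupp c).card : ℝ) * (f (csupp c).card * coll k c c) := by
  have h : ∑ y : Pos k, ∑ c : Color U k,
      (if y ∈ csupp c then f (csupp c).card * coll k c c else 0)
      = ∑ c : Color U k, ((csupp c).card : ℝ) * (f (csupp c).card * coll k c c) := by
    rw [Finset.sum_comm]
    refine Finset.sum_congr rfl fun c _ => ?_
    rw [Finset.sum_ite_mem, Finset.univ_inter, Finset.sum_const, nsmul_eq_mul]
  have h2 : ∑ y : Pos k, ∑ c : Color U k,
      (if y ∈ csupp c then f (csupp c).card * coll k c c else 0)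
      = 2 ^ k * ∑ c : Color U k, (if x ∈ csupp c then f (csupp c).card * coll k c c else 0) := by
    have : ∀ y : Pos k, ∑ c : Color U k,
        (if y ∈ csupp c then f (csupp c).card * coll k c c else 0)
        = ∑ c : Color U k, (if x ∈ csupp c then f (csupp c).card * coll k c c else 0) :=
      fun y => sum_mem_supp_eq k f y x
    simp_rw [this]
    rw [Finset.sum_const, Finset.card_univ, card_Pos, nsmul_eq_mul]
    push_cast
    rfl
  rw [← h, h2]
  have : (2:ℝ) ^ k ≠ 0 := pow_ne_zero _ (by norm_num)
  field_simp

omit [DecidableEq U] in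
lemma csupp_none {k : ℕ} : csupp (fun _ => none : Color U k) = ∅ := by
  ext x
  simp [csupp]

lemma csupp_oneSite {k : ℕ} (p : Pos k) (u : U) : csupp (oneSite p u) = {p} := by
  ext x
  simp only [csupp, oneSite, mem_filter, mem_univ, true_and, mem_singleton]
  by_cases h : x = p <;> simp [h]

/-- The full generating sum is at least `1 + |U| σ`. -/
theorem yk_univ_ge [Fintype U] (k : ℕ) {σ : ℝ} (hσ : 0 ≤ σ) :
    1 + (Fintype.card U : ℝ) * σ ≤ yk U k univ σ := by
  classical
  rw [yk_eq]
  have hcolr : (Colr univ : Finset (Color U k)) = univ := by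
    ext c; simp [mem_Colr]
  rw [hcolr]
  -- the subset of colourings used
  let P : Finset (Color U k) := (univ : Finset (Pos k × U)).image (fun q => oneSite q.1 q.2)
  have hnone : (fun _ => none : Color U k) ∉ P := by
    intro h
    obtain ⟨q, _, hq⟩ := mem_image.1 h
    have := congrFun hq q.1
    simp [oneSite] at this
  have hinj : Function.Injective (fun q : Pos k × U => (oneSite q.1 q.2 : Color U k)) := by
    rintro ⟨p, u⟩ ⟨p', u'⟩ h
    have h1 := congrFun h p
    simp only [oneSite, if_true] at h1
    by_cases hp : p = p'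
    · subst hp
      simp only [if_true, Option.some.injEq] at h1
      rw [h1]
    · rw [if_neg hp] at h1
      simp at h1
  have hsum : ∑ c ∈ P, σ ^ (csupp c).card * coll k c c = (Fintype.card U : ℝ) * σ := by
    rw [Finset.sum_image (fun a _ b _ h => hinj h)]
    have : ∀ q : Pos k × U, σ ^ (csupp (oneSite q.1 q.2 : Color U k)).card
        * coll k (oneSite q.1 q.2 : Color U k) (oneSite q.1 q.2) = σ * (1 / 2 ^ k) := by
      intro q
      rw [csupp_oneSite, coll_oneSite]
      simp
    simp_rw [this]
    rw [Finset.sum_const, Finset.card_univ, Fintype.card_prod, card_Pos, nsmul_eq_mul]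
    have h2 : (2:ℝ) ^ k ≠ 0 := pow_ne_zero _ (by norm_num)
    push_cast
    field_simp
  have hsub : insert (fun _ => none : Color U k) P ⊆ univ := subset_univ _
  calc 1 + (Fintype.card U : ℝ) * σ
      = ∑ c ∈ insert (fun _ => none : Color U k) P, σ ^ (csupp c).card * coll k c c := by
        rw [Finset.sum_insert hnone, hsum, csupp_none, coll_none]
        simp
    _ ≤ _ := Finset.sum_le_sum_of_subset_of_nonneg hsub (fun c _ _ =>
        mul_nonneg (pow_nonneg hσ _) (coll_nonneg k c c))

end Bridge

end Crest.Agent.Thorp
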