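import Crest.Agent.Lib.Thorp.VStep
import Crest.Agent.Lib.Thorp.VConcrete
import Crest.Agent.Lib.Thorp.Interface

/-!
# Thorp shuffle: the main inequality (V) of Section 1 of #850 for the sweep.

`VB.level_step` (abstract step, file `VStep`) + `VConcrete` (recursion of `coll`, homogeneity,
one-site values) give `Interface.VFull` and `Interface.VCrude`.
-/

set_option autoImplicit false
set_option linter.unusedSectionVars false
set_option linter.unusedSimpArgs false
set_option linter.unusedVariables false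

namespace Crest.Agent.Thorp

open Finset BigOperators

section Bridge

variable {U : Type} [Fintype U] [DecidableEq U]

/-- The blank colour. -/
local instance instZeroOption : Zero (Option U) := ⟨none⟩

lemma supp_eq_csupp {k : ℕ} (c : Color U k) : VB.supp c = csupp c := by
  ext p
  simp only [VB.mem_supp, mem_csupp]
  rw [Option.isSome_iff_ne_none]
  rfl

lemma wt_eq_card {k : ℕ} (c : Color U k) : VB.wt c = (csupp c).card := by
  unfold VB.wt
  rw [supp_eq_csupp]

lemma colIn_eq_Colr {k : ℕ} (A : Finset (Pos k)) :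
    (VB.colIn A : Finset (Pos k → Option U)) = Colr A := by
  ext c
  rw [VB.mem_colIn, mem_Colr, supp_eq_csupp]

lemma avg_avg_eq {Ω : Type*} [Fintype Ω] (F : Ω → Ω → ℝ) :
    (avg fun T => avg fun T' => F T T') = (∑ T, ∑ T', F T T') / (Fintype.card Ω : ℝ) ^ 2 := by
  unfold avg
  rw [← Finset.sum_div, div_div, sq]

lemma coll_eq_xx {k : ℕ} (c c' : Color U k) : coll k c c' = VB.xx (sweep k) c c' := by
  rw [VB.xx_eq_avg']
  unfold coll
  rw [avg_avg_eq]
  congr 1

lemma yk_eq_yy (k : ℕ) (S : Finset (Pos k)) (ρ : ℝ) :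
    yk U k S ρ = VB.yy (Option U) (sweep k) S ρ := by
  rw [yk_eq]
  unfold VB.yy
  rw [colIn_eq_Colr]
  refine Finset.sum_congr rfl fun c _ => ?_
  rw [wt_eq_card, coll_eq_xx]

lemma Afull_hom (k : ℕ) (ρ : ℝ) (x y : Pos k) :
    VB.Afull (Option U) (sweep k) ρ x = VB.Afull (Option U) (sweep k) ρ y := by
  unfold VB.Afull
  have h := sum_mem_supp_eq (U := U) k (fun n => (ρ / 2) ^ n) x y
  simp only [supp_eq_csupp, wt_eq_card, ← coll_eq_xx]
  exact h

lemma xx_one_site (k : ℕ) (c : Pos k → Option U) (hc : VB.wt c = 1) :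
    VB.xx (sweep k) c c = 1 / (Fintype.card (Pos k) : ℝ) := by
  rw [wt_eq_card, Finset.card_eq_one] at hc
  obtain ⟨p, hp⟩ := hc
  have hpp : p ∈ csupp c := by rw [hp]; exact Finset.mem_singleton_self p
  rw [mem_csupp, Option.isSome_iff_exists] at hpp
  obtain ⟨u, hu⟩ := hpp
  have hcc : c = oneSite p u := by
    funext x
    by_cases hx : x = p
    · subst hx
      simp [oneSite, hu]
    · have : x ∉ csupp c := by
        rw [hp]
        simpa using hx
      rw [mem_csupp] at this
      simp only [oneSite, hx, if_false]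
      simpa using this
  rw [← coll_eq_xx, hcc, coll_oneSite, card_Pos]
  push_cast
  rfl

instance instNonemptyCoins (k : ℕ) : Nonempty (Coins k) := ⟨fun _ => false⟩

/-- `y_{k+1} = yPlus`. -/
lemma yk_succ_eq_yPlus (k : ℕ) (S : Finset (Pos (k + 1))) (ρ : ℝ) :
    yk U (k + 1) S ρ = VB.yPlus (Option U) (sweep k) (P := Pos k) S ρ := by
  rw [yk_eq]
  unfold VB.yPlus
  have hcard : (2 : ℝ) ^ Fintype.card (Pos k) = (Fintype.card (Pos k → Bool) : ℝ) := by
    simp
  rw [hcard]
  have : (Colr S : Finset (Color U (k + 1))) = VB.colIn (P := Bool × Pos k) S := by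
    rw [← colIn_eq_Colr (k := k + 1) S]
    rfl
  rw [this]
  refine Finset.sum_congr rfl fun c _ => ?_
  have hw : VB.wt (P := Bool × Pos k) c = (csupp c).card := wt_eq_card (k := k + 1) c
  rw [coll_succ, avg_avg_eq, hw]
  congr 1
  congr 1
  refine Finset.sum_congr rfl fun s _ => Finset.sum_congr rfl fun s' _ => ?_
  rw [coll_eq_xx, coll_eq_xx]
  rfl

/-- The base case. -/
lemma yk_zero_le (S : Finset (Pos 0)) {ρ : ℝ} (h0 : 0 ≤ ρ) :
    yk U 0 S ρ ≤ (1 + (Fintype.card U : ℝ) * ρ) ^ ((S.card : ℝ) / (2 : ℝ) ^ 0) := by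
  classical
  -- coll at level 0
  have hcoll : ∀ c : Color U 0, coll 0 c c = 1 := by
    intro c
    unfold coll
    have hg : ∀ T T' : Coins 0, (fun x => c ((gOf T T')⁻¹ x)) = c := by
      intro T T'
      funext x
      rfl
    simp only [hg, if_true]
    rw [avg_const, avg_const]
  have hcoin : ∀ x : Pos 0, x = () := fun x => rfl
  have hsum : ∀ F : Color U 0 → ℝ, ∑ c : Color U 0, F c = ∑ o : Option U, F (fun _ => o) := by
    intro F
    refine Finset.sum_bij' (fun c _ => c ()) (fun o _ _ => o) ?_ ?_ ?_ ?_ ?_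
    · intros; exact Finset.mem_univ _
    · intros; exact Finset.mem_univ _
    · intro c _
      funext x
      rfl
    · intro o _
      rfl
    · intro c _
      rfl
  have hsub : Subsingleton (Pos 0) := inferInstanceAs (Subsingleton Unit)
  have hnone : csupp (fun _ => none : Color U 0) = ∅ := csupp_none
  have hsome : ∀ u : U, csupp (fun _ => some u : Color U 0) = univ := by
    intro u
    ext x
    simp [csupp]
  have hone : (univ : Finset (Pos 0)).card = 1 := by
    rw [Finset.card_univ, card_Pos]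
    rfl
  unfold yk
  rw [hsum, Fintype.sum_option]
  simp only [hcoll, mul_one, hnone, hsome, hone, Finset.card_empty, pow_zero, pow_one, div_one]
  rcases Finset.eq_empty_or_nonempty S with hS | ⟨x, hx⟩
  · subst hS
    have hne : ¬ (univ : Finset (Pos 0)) ⊆ ∅ := by
      intro h
      have := h (Finset.mem_univ (() : Pos 0))
      simp at this
    simp [hne]
  · have hS : S = univ := Finset.eq_univ_of_forall fun y => by
      rw [Subsingleton.elim y x]
      exact hx
    subst hS
    simp [hone]

/-- The main inequality with the sharp recursion, `R = 2`. -/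
theorem yk_le_Utab : ∀ (k : ℕ) (ρ : ℝ), 0 ≤ ρ → ρ ≤ 1 → ∀ S : Finset (Pos k),
    yk Unit k S ρ ≤ (Utab k ρ) ^ ((S.card : ℝ) / (2 : ℝ) ^ k)
  | 0, ρ, h0, h1, S => by
      have := yk_zero_le (U := Unit) S h0
      simpa [Utab] using this
  | k + 1, ρ, h0, h1, S => by
      have hN : ((Fintype.card (Pos k) : ℕ) : ℝ) = (2 : ℝ) ^ k := by
        rw [card_Pos]; push_cast; rfl
      have hB : ∀ A : Finset (Pos k), VB.yy (Option Unit) (sweep k) A ρ
          ≤ (Utab k ρ) ^ ((A.card : ℝ) / (Fintype.card (Pos k) : ℝ)) := by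
        intro A
        rw [hN, ← yk_eq_yy]
        exact yk_le_Utab k ρ h0 h1 A
      have hB' : ∀ A : Finset (Pos k), VB.yy (Option Unit) (sweep k) A (ρ / 2)
          ≤ (Utab k (ρ / 2)) ^ ((A.card : ℝ) / (Fintype.card (Pos k) : ℝ)) := by
        intro A
        rw [hN, ← yk_eq_yy]
        exact yk_le_Utab k (ρ / 2) (by linarith) (by linarith) A
      have : Nonempty (Pos k) := instNonemptyPos k
      have := VB.level_step (C := Option Unit) (sweep k) h0 h1 (Afull_hom k ρ)
        (xx_one_site k) hB hB' (S : Finset (Bool × Pos k))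
      rw [yk_succ_eq_yPlus]
      refine le_trans this (le_of_eq ?_)
      have hC : ((Fintype.card (Option Unit) : ℕ) : ℝ) - 1 = 1 := by
        simp
        norm_num
      rw [hC, hN]
      simp only [Utab, one_mul]
      have hex : (2 * (2 : ℝ) ^ k) = 2 ^ (k + 1) := by
        rw [pow_succ]; ring
      rw [hex]
      congr 1
      ring

/-- Section 1, `R = 2`, `ρ = 1`. -/
theorem vFull : Interface.VFull := fun k S => yk_le_Utab k 1 (by norm_num) (le_refl _) S

/-- The crude corollary, any number of colours. -/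
theorem yk_le_exp (U : Type) [Fintype U] [DecidableEq U] : ∀ (k : ℕ) (ρ : ℝ), 0 ≤ ρ → ρ ≤ 1 →
    ∀ S : Finset (Pos k),
    yk U k S ρ ≤ (Real.exp ((Fintype.card U : ℝ) * ρ * (3 / 2 : ℝ) ^ k)) ^ ((S.card : ℝ) / (2 : ℝ) ^ k)
  | 0, ρ, h0, h1, S => by
      refine le_trans (yk_zero_le S h0) ?_
      apply Real.rpow_le_rpow (by positivity) _ (by positivity)
      simp only [pow_zero, mul_one]
      have := Real.add_one_le_exp ((Fintype.card U : ℝ) * ρ)
      linarith
  | k + 1, ρ, h0, h1, S => by
      have hN : ((Fintype.card (Pos k) : ℕ) : ℝ) = (2 : ℝ) ^ k := by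
        rw [card_Pos]; push_cast; rfl
      have hB : ∀ A : Finset (Pos k), VB.yy (Option U) (sweep k) A ρ
          ≤ (Real.exp ((Fintype.card U : ℝ) * ρ * (3 / 2 : ℝ) ^ k))
            ^ ((A.card : ℝ) / (Fintype.card (Pos k) : ℝ)) := by
        intro A
        rw [hN, ← yk_eq_yy]
        exact yk_le_exp U k ρ h0 h1 A
      have hB' : ∀ A : Finset (Pos k), VB.yy (Option U) (sweep k) A (ρ / 2)
          ≤ (Real.exp ((Fintype.card U : ℝ) * (ρ / 2) * (3 / 2 : ℝ) ^ k))
            ^ ((A.card : ℝ) / (Fintype.card (Pos k) : ℝ)) := by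
        intro A
        rw [hN, ← yk_eq_yy]
        exact yk_le_exp U k (ρ / 2) (by linarith) (by linarith) A
      have : Nonempty (Pos k) := instNonemptyPos k
      have := VB.level_step_crude (C := Option U) (sweep k) h0 h1 hB hB' (S : Finset (Bool × Pos k))
      rw [yk_succ_eq_yPlus]
      refine le_trans this (le_of_eq ?_)
      rw [hN, ← Real.exp_add]
      have hex : (2 * (2 : ℝ) ^ k) = 2 ^ (k + 1) := by
        rw [pow_succ]; ring
      rw [hex]
      congr 2
      rw [pow_succ]
      ring

/-- Section 1, crude corollary, any number of colours, `ρ = 1`. -/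
theorem vCrude : Interface.VCrude := by
  intro U _ _ k S
  refine le_trans (yk_le_exp U k 1 (by norm_num) (le_refl _) S) (le_of_eq ?_)
  rw [← Real.exp_mul]
  congr 1
  have h : (3 / 4 : ℝ) ^ k = (3 / 2 : ℝ) ^ k / 2 ^ k := by
    rw [← div_pow]
    norm_num
  rw [h]
  field_simp

end Bridge

end Crest.Agent.Thorp
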