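import Mathlib

/-!
# Thorp shuffle (S0222), Section 5 of the paper proof: Schur-Young with Holder only.

`K` a symmetric stochastic matrix on a finite set `X`, `M = |X|`, `q ≥ 2`.
If `sup_y (1/M) ∑_{y'} (M K y y') ^ (q/(q-1)) ≤ C` then `(K^q) y y' ≤ C^(q-1) / M`,
so `Tr (K^q) ≤ C^(q-1)`.
-/

set_option autoImplicit false
set_option linter.unusedSectionVars false

namespace Crest.Agent.Thorp.YoungCore

open Finset BigOperators

variable {X : Type*} [Fintype X]

/-- Uniform average. -/
noncomputable def E (f : X → ℝ) : ℝ := (∑ x, f x) / (Fintype.card X : ℝ)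

lemma E_nonneg {f : X → ℝ} (hf : ∀ x, 0 ≤ f x) : 0 ≤ E f :=
  div_nonneg (Finset.sum_nonneg fun x _ => hf x) (Nat.cast_nonneg _)

lemma E_mono {f g : X → ℝ} (h : ∀ x, f x ≤ g x) : E f ≤ E g :=
  div_le_div_of_nonneg_right (Finset.sum_le_sum fun x _ => h x) (Nat.cast_nonneg _)

lemma E_mul_const (f : X → ℝ) (c : ℝ) : E (fun x => f x * c) = E f * c := by
  unfold E
  rw [← Finset.sum_mul]
  ring

lemma E_const_mul (f : X → ℝ) (c : ℝ) : E (fun x => c * f x) = c * E f := by
  unfold E
  rw [← Finset.mul_sum]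
  ring

lemma E_div_const (f : X → ℝ) (c : ℝ) : E (fun x => f x / c) = E f / c := by
  unfold E
  rw [← Finset.sum_div]
  ring

lemma E_add (f g : X → ℝ) : E (fun x => f x + g x) = E f + E g := by
  unfold E
  rw [Finset.sum_add_distrib]
  ring

lemma E_comm (f : X → X → ℝ) : E (fun x => E (fun y => f x y)) = E (fun y => E (fun x => f x y)) := by
  unfold E
  rw [← Finset.sum_div, ← Finset.sum_div, Finset.sum_comm]

lemma E_const [Nonempty X] (c : ℝ) : E (fun _ : X => c) = c := by
  unfold E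
  have : (Fintype.card X : ℝ) ≠ 0 := by
    exact_mod_cast Fintype.card_ne_zero
  simp only [Finset.sum_const, Finset.card_univ, nsmul_eq_mul]
  field_simp

/-- If the average of a nonnegative function vanishes, so does the function. -/
lemma eq_zero_of_E_eq_zero [Nonempty X] {f : X → ℝ} (hf : ∀ x, 0 ≤ f x) (h : E f = 0) (x : X) :
    f x = 0 := by
  unfold E at h
  have hc : (Fintype.card X : ℝ) ≠ 0 := by exact_mod_cast Fintype.card_ne_zero
  have h0 : ∑ x, f x = 0 := by
    rcases div_eq_zero_iff.mp h with h | h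
    · exact h
    · exact absurd h hc
  exact (Finset.sum_eq_zero_iff_of_nonneg fun x _ => hf x).mp h0 x (Finset.mem_univ x)

/-- Holder for three functions and positive weights. -/
lemma holder3 [Nonempty X] {u v w : X → ℝ} (hu : ∀ x, 0 ≤ u x) (hv : ∀ x, 0 ≤ v x) (hw : ∀ x, 0 ≤ w x)
    {a b c : ℝ} (ha : 0 < a) (hb : 0 < b) (hc : 0 < c) (habc : a + b + c = 1) :
    E (fun x => u x ^ a * v x ^ b * w x ^ c) ≤ E u ^ a * E v ^ b * E w ^ c := by
  have hU := E_nonneg hu
  have hV := E_nonneg hv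
  have hW := E_nonneg hw
  by_cases hU0 : E u = 0
  · have : ∀ x, u x = 0 := eq_zero_of_E_eq_zero hu hU0
    have h2 : E (fun x => u x ^ a * v x ^ b * w x ^ c) = 0 := by
      unfold E
      simp [this, Real.zero_rpow ha.ne']
    rw [h2]
    positivity
  by_cases hV0 : E v = 0
  · have : ∀ x, v x = 0 := eq_zero_of_E_eq_zero hv hV0
    have h2 : E (fun x => u x ^ a * v x ^ b * w x ^ c) = 0 := by
      unfold E
      simp [this, Real.zero_rpow hb.ne']
    rw [h2]
    positivity
  by_cases hW0 : E w = 0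
  · have : ∀ x, w x = 0 := eq_zero_of_E_eq_zero hw hW0
    have h2 : E (fun x => u x ^ a * v x ^ b * w x ^ c) = 0 := by
      unfold E
      simp [this, Real.zero_rpow hc.ne']
    rw [h2]
    positivity
  have hU1 : 0 < E u := lt_of_le_of_ne hU (Ne.symm hU0)
  have hV1 : 0 < E v := lt_of_le_of_ne hV (Ne.symm hV0)
  have hW1 : 0 < E w := lt_of_le_of_ne hW (Ne.symm hW0)
  set N := E u ^ a * E v ^ b * E w ^ c with hN
  have hNpos : 0 < N := by positivity
  have key : ∀ x, u x ^ a * v x ^ b * w x ^ c ≤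
      N * (a * (u x / E u) + b * (v x / E v) + c * (w x / E w)) := by
    intro x
    have h := Real.geom_mean_le_arith_mean3_weighted ha.le hb.le hc.le
      (div_nonneg (hu x) hU) (div_nonneg (hv x) hV) (div_nonneg (hw x) hW) habc
    rw [Real.div_rpow (hu x) hU, Real.div_rpow (hv x) hV, Real.div_rpow (hw x) hW] at h
    have e : u x ^ a * v x ^ b * w x ^ c =
        N * (u x ^ a / E u ^ a * (v x ^ b / E v ^ b) * (w x ^ c / E w ^ c)) := by
      rw [hN]
      have h1 := (Real.rpow_pos_of_pos hU1 a).ne'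
      have h2 := (Real.rpow_pos_of_pos hV1 b).ne'
      have h3 := (Real.rpow_pos_of_pos hW1 c).ne'
      field_simp
    rw [e]
    exact mul_le_mul_of_nonneg_left h hNpos.le
  calc E (fun x => u x ^ a * v x ^ b * w x ^ c)
      ≤ E (fun x => N * (a * (u x / E u) + b * (v x / E v) + c * (w x / E w))) := E_mono key
    _ = N * (a * (E u / E u) + b * (E v / E v) + c * (E w / E w)) := by
        rw [E_const_mul, E_add, E_add, E_const_mul, E_const_mul, E_const_mul,
          E_div_const, E_div_const, E_div_const]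
    _ = N := by
        rw [div_self hU1.ne', div_self hV1.ne', div_self hW1.ne']
        rw [show a * 1 + b * 1 + c * 1 = a + b + c by ring, habc, mul_one]

/-- Holder for two functions and positive weights. -/
lemma holder2 [Nonempty X] {u v : X → ℝ} (hu : ∀ x, 0 ≤ u x) (hv : ∀ x, 0 ≤ v x)
    {a b : ℝ} (ha : 0 < a) (hb : 0 < b) (hab : a + b = 1) :
    E (fun x => u x ^ a * v x ^ b) ≤ E u ^ a * E v ^ b := by
  have hU := E_nonneg hu
  have hV := E_nonneg hv
  by_cases hU0 : E u = 0
  · have : ∀ x, u x = 0 := eq_zero_of_E_eq_zero hu hU0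
    have h2 : E (fun x => u x ^ a * v x ^ b) = 0 := by
      unfold E
      simp [this, Real.zero_rpow ha.ne']
    rw [h2]
    positivity
  by_cases hV0 : E v = 0
  · have : ∀ x, v x = 0 := eq_zero_of_E_eq_zero hv hV0
    have h2 : E (fun x => u x ^ a * v x ^ b) = 0 := by
      unfold E
      simp [this, Real.zero_rpow hb.ne']
    rw [h2]
    positivity
  have hU1 : 0 < E u := lt_of_le_of_ne hU (Ne.symm hU0)
  have hV1 : 0 < E v := lt_of_le_of_ne hV (Ne.symm hV0)
  set N := E u ^ a * E v ^ b with hN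
  have hNpos : 0 < N := by positivity
  have key : ∀ x, u x ^ a * v x ^ b ≤ N * (a * (u x / E u) + b * (v x / E v)) := by
    intro x
    have h := Real.geom_mean_le_arith_mean2_weighted ha.le hb.le
      (div_nonneg (hu x) hU) (div_nonneg (hv x) hV) hab
    rw [Real.div_rpow (hu x) hU, Real.div_rpow (hv x) hV] at h
    have e : u x ^ a * v x ^ b = N * (u x ^ a / E u ^ a * (v x ^ b / E v ^ b)) := by
      rw [hN]
      have h1 := (Real.rpow_pos_of_pos hU1 a).ne'
      have h2 := (Real.rpow_pos_of_pos hV1 b).ne'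
      field_simp
    rw [e]
    exact mul_le_mul_of_nonneg_left h hNpos.le
  calc E (fun x => u x ^ a * v x ^ b)
      ≤ E (fun x => N * (a * (u x / E u) + b * (v x / E v))) := E_mono key
    _ = N * (a * (E u / E u) + b * (E v / E v)) := by
        rw [E_const_mul, E_add, E_const_mul, E_const_mul, E_div_const, E_div_const]
    _ = N := by
        rw [div_self hU1.ne', div_self hV1.ne']
        rw [show a * 1 + b * 1 = a + b by ring, hab, mul_one]

/-- One step of Young: `‖G f‖_s ≤ ...` in moment form. -/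
lemma young_step [Nonempty X] {G : X → X → ℝ} {f : X → ℝ} (hG : ∀ x y, 0 ≤ G x y)
    (hGs : ∀ x y, G x y = G y x) (hf : ∀ x, 0 ≤ f x)
    {p r s a b c C : ℝ} (hp : 0 < p) (hr : 0 < r) (hs : 0 < s)
    (ha : 0 < a) (hb : 0 < b) (hc : 0 < c) (habc : a + b + c = 1)
    (h1 : p * (a + b) = 1) (h2 : r * (a + c) = 1) (h3 : a * s = 1)
    (hC : ∀ y, E (fun y' => G y y' ^ p) ≤ C) :
    E (fun y => (E (fun y' => G y y' * f y')) ^ s) ≤
      (E (fun y' => f y' ^ r) * C) * (C ^ (b * s) * E (fun y' => f y' ^ r) ^ (c * s)) := by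
  set m := E (fun y' => f y' ^ r) with hm
  have hm0 : 0 ≤ m := E_nonneg fun x => Real.rpow_nonneg (hf x) _
  have hpow : ∀ (t : ℝ) (z : X), 0 ≤ G z z → True := fun _ _ _ => trivial
  have hC0 : 0 ≤ C := by
    obtain ⟨y⟩ := ‹Nonempty X›
    exact le_trans (E_nonneg fun x => Real.rpow_nonneg (hG y x) _) (hC y)
  have pointwise : ∀ y, (E (fun y' => G y y' * f y')) ^ s ≤
      E (fun y' => G y y' ^ p * f y' ^ r) * (C ^ (b * s) * m ^ (c * s)) := by
    intro y
    set u : X → ℝ := fun y' => G y y' ^ p * f y' ^ r with hu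
    set v : X → ℝ := fun y' => G y y' ^ p with hv
    set w : X → ℝ := fun y' => f y' ^ r with hw
    have hu0 : ∀ x, 0 ≤ u x := fun x =>
      mul_nonneg (Real.rpow_nonneg (hG y x) _) (Real.rpow_nonneg (hf x) _)
    have hv0 : ∀ x, 0 ≤ v x := fun x => Real.rpow_nonneg (hG y x) _
    have hw0 : ∀ x, 0 ≤ w x := fun x => Real.rpow_nonneg (hf x) _
    have hid : ∀ x, G y x * f x = u x ^ a * v x ^ b * w x ^ c := by
      intro x
      simp only [hu, hv, hw]
      have hG' := hG y x
      have hf' := hf x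
      rw [Real.mul_rpow (Real.rpow_nonneg hG' _) (Real.rpow_nonneg hf' _)]
      rw [← Real.rpow_mul hG', ← Real.rpow_mul hf', ← Real.rpow_mul hG', ← Real.rpow_mul hf']
      have e1 : G y x ^ (p * a) * G y x ^ (p * b) = G y x := by
        rw [← Real.rpow_add_of_nonneg hG' (by positivity) (by positivity),
          ← mul_add, h1, Real.rpow_one]
      have e2 : f x ^ (r * a) * f x ^ (r * c) = f x := by
        rw [← Real.rpow_add_of_nonneg hf' (by positivity) (by positivity),
          ← mul_add, h2, Real.rpow_one]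
      calc G y x * f x = (G y x ^ (p * a) * G y x ^ (p * b)) * (f x ^ (r * a) * f x ^ (r * c)) := by
            rw [e1, e2]
        _ = _ := by ring
    have hH := holder3 hu0 hv0 hw0 ha hb hc habc
    have hE : E (fun y' => G y y' * f y') ≤ E u ^ a * E v ^ b * E w ^ c := by
      calc E (fun y' => G y y' * f y') = E (fun x => u x ^ a * v x ^ b * w x ^ c) := by
            congr 1; funext x; exact hid x
        _ ≤ _ := hH
    have hE0 : 0 ≤ E (fun y' => G y y' * f y') :=
      E_nonneg fun x => mul_nonneg (hG y x) (hf x)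
    have hU0 := E_nonneg hu0
    have hV0 := E_nonneg hv0
    have hW0 := E_nonneg hw0
    calc (E (fun y' => G y y' * f y')) ^ s
        ≤ (E u ^ a * E v ^ b * E w ^ c) ^ s := Real.rpow_le_rpow hE0 hE hs.le
      _ = (E u ^ a) ^ s * (E v ^ b) ^ s * (E w ^ c) ^ s := by
          rw [Real.mul_rpow (by positivity) (by positivity),
            Real.mul_rpow (by positivity) (by positivity)]
      _ = E u * (E v ^ (b * s) * E w ^ (c * s)) := by
          rw [← Real.rpow_mul hU0, ← Real.rpow_mul hV0, ← Real.rpow_mul hW0, h3, Real.rpow_one]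
          ring
      _ ≤ E u * (C ^ (b * s) * m ^ (c * s)) := by
          apply mul_le_mul_of_nonneg_left _ hU0
          have hvC : E v ≤ C := hC y
          exact mul_le_mul (Real.rpow_le_rpow hV0 hvC (by positivity)) le_rfl
            (Real.rpow_nonneg hW0 _) (Real.rpow_nonneg hC0 _)
  have hfub : E (fun y => E (fun y' => G y y' ^ p * f y' ^ r)) ≤ m * C := by
    rw [E_comm]
    calc E (fun y' => E (fun y => G y y' ^ p * f y' ^ r))
        = E (fun y' => f y' ^ r * E (fun y => G y' y ^ p)) := by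
          congr 1; funext y'
          rw [← E_const_mul]
          congr 1; funext y
          rw [hGs y y']; ring
      _ ≤ E (fun y' => f y' ^ r * C) := by
          apply E_mono
          intro y'
          exact mul_le_mul_of_nonneg_left (hC y') (Real.rpow_nonneg (hf y') _)
      _ = m * C := by rw [E_mul_const]
  calc E (fun y => (E (fun y' => G y y' * f y')) ^ s)
      ≤ E (fun y => E (fun y' => G y y' ^ p * f y' ^ r) * (C ^ (b * s) * m ^ (c * s))) :=
        E_mono pointwise
    _ = E (fun y => E (fun y' => G y y' ^ p * f y' ^ r)) * (C ^ (b * s) * m ^ (c * s)) := by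
        rw [E_mul_const]
    _ ≤ (m * C) * (C ^ (b * s) * m ^ (c * s)) := by
        apply mul_le_mul_of_nonneg_right hfub
        exact mul_nonneg (Real.rpow_nonneg hC0 _) (Real.rpow_nonneg hm0 _)

section Matrix

variable [DecidableEq X] [Nonempty X]

/-- Density of the `i`-step kernel with respect to the uniform probability measure. -/
noncomputable def Gam (K : Matrix X X ℝ) (i : ℕ) (y y' : X) : ℝ :=
  (Fintype.card X : ℝ) * (K ^ i) y y'

lemma card_pos_real : (0 : ℝ) < (Fintype.card X : ℝ) := by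
  exact_mod_cast Fintype.card_pos

lemma pow_entries_nonneg {K : Matrix X X ℝ} (hnn : ∀ x y, 0 ≤ K x y) (i : ℕ) :
    ∀ x y, 0 ≤ (K ^ i) x y := by
  induction i with
  | zero =>
      intro x y
      rw [pow_zero, Matrix.one_apply]
      split_ifs <;> norm_num
  | succ i ih =>
      intro x y
      rw [pow_succ, Matrix.mul_apply]
      exact Finset.sum_nonneg fun z _ => mul_nonneg (ih x z) (hnn z y)

lemma pow_entries_symm {K : Matrix X X ℝ} (hs : ∀ x y, K x y = K y x) (i : ℕ) (x y : X) :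
    (K ^ i) x y = (K ^ i) y x := by
  have hK : K.transpose = K := by
    ext a b
    exact hs b a
  have : (K ^ i).transpose = K ^ i := by
    rw [Matrix.transpose_pow, hK]
  exact (congrFun (congrFun this y) x)

lemma Gam_nonneg {K : Matrix X X ℝ} (hnn : ∀ x y, 0 ≤ K x y) (i : ℕ) (x y : X) :
    0 ≤ Gam K i x y :=
  mul_nonneg (Nat.cast_nonneg _) (pow_entries_nonneg hnn i x y)

lemma Gam_symm {K : Matrix X X ℝ} (hs : ∀ x y, K x y = K y x) (i : ℕ) (x y : X) :
    Gam K i x y = Gam K i y x := by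
  unfold Gam
  rw [pow_entries_symm hs]

/-- `Γ_{a+b}(y,y') = E_z Γ_a(y,z) Γ_b(z,y')`. -/
lemma Gam_add (K : Matrix X X ℝ) (a b : ℕ) (y y' : X) :
    Gam K (a + b) y y' = E (fun z => Gam K a y z * Gam K b z y') := by
  unfold Gam E
  rw [pow_add, Matrix.mul_apply, Finset.mul_sum, Finset.sum_div]
  refine Finset.sum_congr rfl fun z _ => ?_
  have := (card_pos_real (X := X)).ne'
  field_simp

/-- The Young moment induction: `i + j = q`, `(E Γ_i(y,·)^(q/j))^j ≤ C^((q-1) i)`. -/
lemma young_moment {K : Matrix X X ℝ} (hnn : ∀ x y, 0 ≤ K x y) (hs : ∀ x y, K x y = K y x)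
    {q : ℕ} {C : ℝ} (hq : 2 ≤ q)
    (hC : ∀ y, E (fun y' => Gam K 1 y y' ^ ((q : ℝ) / ((q : ℝ) - 1))) ≤ C) :
    ∀ i j : ℕ, 1 ≤ i → 1 ≤ j → i + j = q → ∀ y,
      (E (fun y' => Gam K i y y' ^ ((q : ℝ) / (j : ℝ)))) ^ j ≤ C ^ ((q - 1) * i) := by
  have hq0 : (0 : ℝ) < q := by exact_mod_cast (by omega : 0 < q)
  have hq1 : (0 : ℝ) < (q : ℝ) - 1 := by
    have : (2 : ℝ) ≤ q := by exact_mod_cast hq
    linarith
  have hC0 : 0 ≤ C := by
    obtain ⟨y⟩ := ‹Nonempty X›
    exact le_trans (E_nonneg fun x => Real.rpow_nonneg (Gam_nonneg hnn 1 y x) _) (hC y)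
  intro i
  induction i with
  | zero => intro j h; omega
  | succ i ih =>
    intro j _ hj hij y
    rcases Nat.eq_zero_or_pos i with h0 | hipos
    · -- base case
      subst h0
      have hjq : j = q - 1 := by omega
      have hcast : (j : ℝ) = (q : ℝ) - 1 := by
        rw [hjq, Nat.cast_sub (by omega : 1 ≤ q)]
        simp
      rw [hcast]
      have h1 := hC y
      have h2 : 0 ≤ E (fun y' => Gam K (0 + 1) y y' ^ ((q : ℝ) / ((q : ℝ) - 1))) :=
        E_nonneg fun x => Real.rpow_nonneg (Gam_nonneg hnn _ y x) _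
      have h3 : (q - 1) * (0 + 1) = j := by omega
      rw [h3]
      exact pow_le_pow_left₀ h2 h1 j
    · -- inductive step
      have ih' := ih (j + 1) hipos (by omega) (by omega) y
      set f : X → ℝ := fun z => Gam K i y z with hf
      have hf0 : ∀ z, 0 ≤ f z := fun z => Gam_nonneg hnn i y z
      set G : X → X → ℝ := Gam K 1 with hG
      have hG0 : ∀ a b, 0 ≤ G a b := Gam_nonneg hnn 1
      have hGs : ∀ a b, G a b = G b a := Gam_symm hs 1
      have hj0 : (0 : ℝ) < j := by exact_mod_cast hj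
      have hi0 : (0 : ℝ) < i := by exact_mod_cast hipos
      have hqcast : (q : ℝ) = (i : ℝ) + (j : ℝ) + 1 := by
        have : q = i + j + 1 := by omega
        rw [this]; push_cast; ring
      have hj10 : (0 : ℝ) < (j : ℝ) + 1 := by linarith
      have hstep := young_step (G := G) (f := f) (C := C)
        (p := (q : ℝ) / ((q : ℝ) - 1)) (r := (q : ℝ) / ((j + 1 : ℕ) : ℝ)) (s := (q : ℝ) / (j : ℝ))
        (a := (j : ℝ) / q) (b := (i : ℝ) / q) (c := 1 / q)
        hG0 hGs hf0 (div_pos hq0 hq1)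
        (div_pos hq0 (by push_cast; exact hj10)) (div_pos hq0 hj0)
        (div_pos hj0 hq0) (div_pos hi0 hq0) (div_pos one_pos hq0)
        (by field_simp; linarith)
        (by
          have : (q : ℝ) - 1 = (i : ℝ) + j := by linarith
          rw [this]
          have h' : (i : ℝ) + j ≠ 0 := by positivity
          field_simp
          ring)
        (by
          push_cast
          field_simp)
        (by field_simp)
        hC
      set m := E (fun y' => f y' ^ ((q : ℝ) / ((j + 1 : ℕ) : ℝ))) with hm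
      have hm0 : 0 ≤ m := E_nonneg fun x => Real.rpow_nonneg (hf0 x) _
      have hlhs : (fun y'' => Gam K (i + 1) y y'' ^ ((q : ℝ) / (j : ℝ))) =
          fun y'' => (E (fun y' => G y'' y' * f y')) ^ ((q : ℝ) / (j : ℝ)) := by
        funext y''
        congr 1
        rw [Gam_add]
        congr 1
        funext z
        rw [hG, hf, Gam_symm hs 1 y'' z]
        ring
      rw [hlhs]
      have hlhs0 : 0 ≤ E (fun y'' => (E (fun y' => G y'' y' * f y')) ^ ((q : ℝ) / (j : ℝ))) :=
        E_nonneg fun x => Real.rpow_nonneg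
          (E_nonneg fun z => mul_nonneg (hG0 x z) (hf0 z)) _
      have hpowle := pow_le_pow_left₀ hlhs0 hstep j
      refine le_trans hpowle ?_
      have hb : (i : ℝ) / q * ((q : ℝ) / (j : ℝ)) = (i : ℝ) * (1 / (j : ℝ)) := by
        field_simp
      have hc : 1 / (q : ℝ) * ((q : ℝ) / (j : ℝ)) = 1 * (1 / (j : ℝ)) := by
        field_simp
      rw [hb, hc]
      have hjne : (j : ℝ) ≠ 0 := hj0.ne'
      have e1 : (C ^ ((i : ℝ) * (1 / (j : ℝ)))) ^ j = C ^ i := by
        rw [← Real.rpow_natCast, ← Real.rpow_mul hC0, ← Real.rpow_natCast]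
        congr 1
        field_simp
      have e2 : (m ^ ((1 : ℝ) * (1 / (j : ℝ)))) ^ j = m := by
        rw [← Real.rpow_natCast, ← Real.rpow_mul hm0]
        have : (1 : ℝ) * (1 / (j : ℝ)) * (j : ℝ) = 1 := by field_simp
        rw [this, Real.rpow_one]
      calc (m * C * (C ^ ((i : ℝ) * (1 / (j : ℝ))) * m ^ ((1 : ℝ) * (1 / (j : ℝ))))) ^ j
          = m ^ j * C ^ j * ((C ^ ((i : ℝ) * (1 / (j : ℝ)))) ^ j * (m ^ ((1 : ℝ) * (1 / (j : ℝ)))) ^ j) := by
            ring
        _ = m ^ (j + 1) * C ^ (i + j) := by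
            rw [e1, e2]
            ring
        _ ≤ C ^ ((q - 1) * i) * C ^ (i + j) := by
            apply mul_le_mul_of_nonneg_right ih' (pow_nonneg hC0 _)
        _ = C ^ ((q - 1) * (i + 1)) := by
            rw [← pow_add]
            congr 1
            have : q - 1 = i + j := by omega
            rw [this]
            ring

/-- **Schur-Young, entrywise.** -/
theorem young_entry {K : Matrix X X ℝ} (hnn : ∀ x y, 0 ≤ K x y) (hs : ∀ x y, K x y = K y x)
    {q : ℕ} {C : ℝ} (hq : 2 ≤ q)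
    (hC : ∀ y, E (fun y' => Gam K 1 y y' ^ ((q : ℝ) / ((q : ℝ) - 1))) ≤ C) (y y' : X) :
    Gam K q y y' ≤ C ^ (q - 1) := by
  have hq0 : (0 : ℝ) < q := by exact_mod_cast (by omega : 0 < q)
  have hq1 : (0 : ℝ) < (q : ℝ) - 1 := by
    have : (2 : ℝ) ≤ q := by exact_mod_cast hq
    linarith
  have hC0 : 0 ≤ C := by
    exact le_trans (E_nonneg fun x => Real.rpow_nonneg (Gam_nonneg hnn 1 y x) _) (hC y)
  have hm := young_moment hnn hs hq hC (q - 1) 1 (by omega) le_rfl (by omega) y'
  rw [pow_one] at hm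
  have hcast1 : (((1 : ℕ) : ℝ)) = 1 := by norm_num
  rw [hcast1, div_one] at hm
  set u : X → ℝ := fun z => Gam K 1 y z ^ ((q : ℝ) / ((q : ℝ) - 1)) with hu
  set v : X → ℝ := fun z => Gam K (q - 1) y' z ^ (q : ℝ) with hv
  have hu0 : ∀ z, 0 ≤ u z := fun z => Real.rpow_nonneg (Gam_nonneg hnn 1 y z) _
  have hv0 : ∀ z, 0 ≤ v z := fun z => Real.rpow_nonneg (Gam_nonneg hnn _ y' z) _
  have hH := holder2 hu0 hv0 (a := ((q : ℝ) - 1) / q) (b := 1 / q)
    (div_pos hq1 hq0) (div_pos one_pos hq0) (by field_simp; ring)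
  have hid : ∀ z, u z ^ (((q : ℝ) - 1) / q) * v z ^ (1 / (q : ℝ)) =
      Gam K 1 y z * Gam K (q - 1) z y' := by
    intro z
    simp only [hu, hv]
    rw [← Real.rpow_mul (Gam_nonneg hnn 1 y z), ← Real.rpow_mul (Gam_nonneg hnn _ y' z)]
    have e1 : (q : ℝ) / ((q : ℝ) - 1) * (((q : ℝ) - 1) / q) = 1 := by
      field_simp
    have e2 : (q : ℝ) * (1 / (q : ℝ)) = 1 := by field_simp
    rw [e1, e2, Real.rpow_one, Real.rpow_one, Gam_symm hs _ y' z]
  have hfinal : Gam K q y y' = E (fun z => u z ^ (((q : ℝ) - 1) / q) * v z ^ (1 / (q : ℝ))) := by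
    have : q = 1 + (q - 1) := by omega
    conv_lhs => rw [this]
    rw [Gam_add]
    congr 1
    funext z
    rw [hid z]
  rw [hfinal]
  refine le_trans hH ?_
  have hU := E_nonneg hu0
  have hV := E_nonneg hv0
  have e3 : E u ^ (((q : ℝ) - 1) / q) ≤ C ^ (((q : ℝ) - 1) / q) :=
    Real.rpow_le_rpow hU (hC y) (by positivity)
  have e4 : E v ^ (1 / (q : ℝ)) ≤ (C ^ ((q - 1) * (q - 1))) ^ (1 / (q : ℝ)) :=
    Real.rpow_le_rpow hV hm (by positivity)
  refine le_trans (mul_le_mul e3 e4 (Real.rpow_nonneg hV _) (Real.rpow_nonneg hC0 _)) ?_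
  apply le_of_eq
  have hnat : (((q - 1 : ℕ)) : ℝ) = (q : ℝ) - 1 := by
    rw [Nat.cast_sub (by omega : 1 ≤ q)]
    simp
  rw [← Real.rpow_natCast C ((q - 1) * (q - 1)), ← Real.rpow_mul hC0,
    ← Real.rpow_add_of_nonneg hC0 (by positivity) (by positivity), ← Real.rpow_natCast C (q - 1)]
  congr 1
  push_cast
  rw [hnat]
  field_simp
  ring

/-- **Schur-Young**: with `M = |X|`, if `sup_y (1/M) ∑_{y'} (M K y y') ^ (q/(q-1)) ≤ C` for a
symmetric nonnegative matrix `K`, then `(K ^ q) y y' ≤ C ^ (q-1) / M`. -/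
theorem young_apply_le {K : Matrix X X ℝ} (hnn : ∀ x y, 0 ≤ K x y) (hs : ∀ x y, K x y = K y x)
    {q : ℕ} {C : ℝ} (hq : 2 ≤ q)
    (hC : ∀ y, (∑ y', ((Fintype.card X : ℝ) * K y y') ^ ((q : ℝ) / ((q : ℝ) - 1))) /
      (Fintype.card X : ℝ) ≤ C) (y y' : X) :
    (K ^ q) y y' ≤ C ^ (q - 1) / (Fintype.card X : ℝ) := by
  have hC' : ∀ y, E (fun y' => Gam K 1 y y' ^ ((q : ℝ) / ((q : ℝ) - 1))) ≤ C := by
    intro y
    have := hC y
    simpa [E, Gam, pow_one] using this
  have h := young_entry hnn hs hq hC' y y'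
  unfold Gam at h
  rw [le_div_iff₀ card_pos_real]
  linarith

/-- **Schur-Young, trace form**: `Tr (K ^ q) ≤ C ^ (q-1)`. -/
theorem young_trace_le {K : Matrix X X ℝ} (hnn : ∀ x y, 0 ≤ K x y) (hs : ∀ x y, K x y = K y x)
    {q : ℕ} {C : ℝ} (hq : 2 ≤ q)
    (hC : ∀ y, (∑ y', ((Fintype.card X : ℝ) * K y y') ^ ((q : ℝ) / ((q : ℝ) - 1))) /
      (Fintype.card X : ℝ) ≤ C) :
    (K ^ q).trace ≤ C ^ (q - 1) := by
  have hM : (0 : ℝ) < (Fintype.card X : ℝ) := card_pos_real
  calc (K ^ q).trace = ∑ y, (K ^ q) y y := rfl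
    _ ≤ ∑ _y : X, C ^ (q - 1) / (Fintype.card X : ℝ) :=
        Finset.sum_le_sum fun y _ => young_apply_le hnn hs hq hC y y
    _ = C ^ (q - 1) := by
        rw [Finset.sum_const, Finset.card_univ, nsmul_eq_mul]
        field_simp

end Matrix

end Crest.Agent.Thorp.YoungCore
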