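import Crest.Agent.Lib.Thorp.Interface
import Crest.Agent.Lib.Thorp.YoungCore

/-! # `Interface.Young` from `YoungCore`. -/

set_option autoImplicit false

namespace Crest.Agent.Thorp

open Finset BigOperators

theorem young_iface : Interface.Young := by
  intro ι _ _ K A hs hnn hA
  classical
  by_cases hι : Nonempty ι
  · have hN : (0 : ℝ) < (Fintype.card ι : ℝ) := by exact_mod_cast Fintype.card_pos
    set N : ℝ := (Fintype.card ι : ℝ) with hNdef
    have hA0 : 0 ≤ A := by
      obtain ⟨y⟩ := hι
      refine le_trans (Finset.sum_nonneg fun y' _ => Real.rpow_nonneg (hnn y y') _) (hA y)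
    have hq : ((64 : ℕ) : ℝ) / (((64 : ℕ) : ℝ) - 1) = (64 / 63 : ℝ) := by norm_num
    have := YoungCore.young_trace_le (X := ι) (K := K) (q := 64) (C := N ^ (1 / 63 : ℝ) * A) hnn
      (fun x y => by
        have h := congrFun (congrFun hs x) y
        simpa [Matrix.transpose_apply] using h.symm)
      (by norm_num)
      (by
        intro y
        rw [hq]
        have h1 : ∀ y', (N * K y y') ^ (64 / 63 : ℝ) = N ^ (64 / 63 : ℝ) * (K y y') ^ (64 / 63 : ℝ) :=
          fun y' => Real.mul_rpow hN.le (hnn y y')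
        rw [Finset.sum_congr rfl (fun y' _ => h1 y')]
        rw [← Finset.mul_sum, div_le_iff₀ hN]
        have h2 : N ^ (64 / 63 : ℝ) = N ^ (1 / 63 : ℝ) * N := by
          rw [show (64 / 63 : ℝ) = 1 / 63 + 1 by norm_num, Real.rpow_add hN, Real.rpow_one]
        rw [h2]
        have h3 := hA y
        have h4 : 0 ≤ N ^ (1 / 63 : ℝ) * N := mul_nonneg (Real.rpow_nonneg hN.le _) hN.le
        calc N ^ (1 / 63 : ℝ) * N * ∑ y', K y y' ^ (64 / 63 : ℝ)
            ≤ N ^ (1 / 63 : ℝ) * N * A := mul_le_mul_of_nonneg_left h3 h4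
          _ = N ^ (1 / 63 : ℝ) * A * N := by ring)
    refine this.trans (le_of_eq ?_)
    rw [mul_pow]
    congr 1
    rw [← Real.rpow_natCast, ← Real.rpow_mul hN.le]
    norm_num
  · have : IsEmpty ι := not_nonempty_iff.1 hι
    simp [Matrix.trace]

end Crest.Agent.Thorp
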