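import Crest.Agent.Lib.Thorp.Bridge
import Crest.Agent.Lib.Thorp.Tree
import Crest.Agent.Lib.Thorp.YoungIface
import Crest.Agent.Lib.Thorp.VBound
import Crest.Agent.Lib.Thorp.FixedTBudget
import Crest.Agent.Lib.Thorp.TMomentFinal
import Crest.Agent.Lib.Thorp.NumBridge

/-!
# Thorp shuffle (S0222): the unconditional bounds on `Φ_j = Tr (K_j ^ 64)`.
-/

set_option autoImplicit false

namespace Crest.Agent.Thorp

open Finset BigOperators Numerics

theorem fixedT_iface : Interface.FixedT := NF.fixedT_of_V vFull vCrude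

/-- `n! e^n ≤ e n n^n`. -/
theorem factorial_mul_exp_le (n : ℕ) (hn : 1 ≤ n) :
    (n.factorial : ℝ) * Real.exp n ≤ Real.exp 1 * n * (n : ℝ) ^ n := by
  induction n, hn using Nat.le_induction with
  | base => simp
  | succ n hn ih =>
      have hn0 : (0 : ℝ) < n := by exact_mod_cast hn
      have key : (n : ℝ) * (n : ℝ) ^ n * Real.exp 1 ≤ ((n : ℝ) + 1) ^ (n + 1) := by
        -- `e ≤ (1 + 1/n)^(n+1)`
        have h1 : (1 : ℝ) ≤ ((n : ℝ) + 1) * Real.log (1 + 1 / (n : ℝ)) := by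
          have h2 : Real.log (1 + 1 / (n : ℝ)) = - Real.log (1 - 1 / ((n : ℝ) + 1)) := by
            have hh : (1 - 1 / ((n : ℝ) + 1)) * (1 + 1 / (n : ℝ)) = 1 := by
              field_simp
              ring
            have hp1 : (1 - 1 / ((n : ℝ) + 1)) ≠ 0 := by
              intro h0
              rw [h0, zero_mul] at hh
              norm_num at hh
            have hp2 : (1 + 1 / (n : ℝ)) ≠ 0 := by
              intro h0
              rw [h0, mul_zero] at hh
              norm_num at hh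
            have := Real.log_mul hp1 hp2
            rw [hh, Real.log_one] at this
            linarith
          rw [h2]
          have h3 : Real.log (1 - 1 / ((n : ℝ) + 1)) ≤ (1 - 1 / ((n : ℝ) + 1)) - 1 :=
            Real.log_le_sub_one_of_pos (by
              have : 1 / ((n : ℝ) + 1) < 1 := by
                rw [div_lt_one (by positivity)]
                linarith
              linarith)
          have h4 : (0 : ℝ) < (n : ℝ) + 1 := by positivity
          have h5 : ((n : ℝ) + 1) * (- Real.log (1 - 1 / ((n : ℝ) + 1))) ≥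
              ((n : ℝ) + 1) * (1 / ((n : ℝ) + 1)) := by
            apply mul_le_mul_of_nonneg_left _ h4.le
            linarith
          have h6 : ((n : ℝ) + 1) * (1 / ((n : ℝ) + 1)) = 1 := by field_simp
          linarith
        have h7 : Real.exp 1 ≤ Real.exp (((n : ℝ) + 1) * Real.log (1 + 1 / (n : ℝ))) :=
          Real.exp_le_exp.2 h1
        have h8 : Real.exp (((n : ℝ) + 1) * Real.log (1 + 1 / (n : ℝ))) =
            (1 + 1 / (n : ℝ)) ^ (n + 1) := by
          have hpos : (0 : ℝ) < 1 + 1 / (n : ℝ) := by positivity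
          rw [mul_comm, Real.exp_mul, Real.exp_log hpos]
          rw [show ((n : ℝ) + 1) = ((n + 1 : ℕ) : ℝ) by push_cast; ring, Real.rpow_natCast]
        rw [h8] at h7
        have h9 : ((n : ℝ) + 1) ^ (n + 1) = (n : ℝ) ^ (n + 1) * (1 + 1 / (n : ℝ)) ^ (n + 1) := by
          rw [← mul_pow]
          congr 1
          field_simp
        rw [h9, pow_succ' (n : ℝ) n]
        exact mul_le_mul_of_nonneg_left h7 (by positivity)
      have e1 : (((n + 1).factorial : ℕ) : ℝ) = ((n : ℝ) + 1) * (n.factorial : ℝ) := by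
        rw [Nat.factorial_succ]; push_cast; ring
      have e2 : Real.exp ((n + 1 : ℕ) : ℝ) = Real.exp n * Real.exp 1 := by
        push_cast; rw [Real.exp_add]
      rw [e1, e2]
      push_cast
      calc ((n : ℝ) + 1) * (n.factorial : ℝ) * (Real.exp n * Real.exp 1)
          = ((n : ℝ) + 1) * Real.exp 1 * ((n.factorial : ℝ) * Real.exp n) := by ring
        _ ≤ ((n : ℝ) + 1) * Real.exp 1 * (Real.exp 1 * n * (n : ℝ) ^ n) :=
            mul_le_mul_of_nonneg_left ih (by positivity)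
        _ = Real.exp 1 * ((n : ℝ) + 1) * ((n : ℝ) * (n : ℝ) ^ n * Real.exp 1) := by ring
        _ ≤ Real.exp 1 * ((n : ℝ) + 1) * ((n : ℝ) + 1) ^ (n + 1) :=
            mul_le_mul_of_nonneg_left key (by positivity)

/-- The bound on `Φ_j` used for `j < n`. -/
theorem phi_le (D j : ℕ) :
    ((tupleMat (xLaw D) j) ^ 64).trace ≤ Real.exp ((j : ℝ) * rhoB (D - Nat.clog 2 j)) := by
  have h := tuple_trace_le treeRenyi young_iface fixedT_iface tMoment D j
  refine h.trans ?_
  have h1 : (Fintype.card (Fin j ↪ Pos D) : ℝ) * ((2 : ℝ) ^ (D * j))⁻¹ ≤ 1 := by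
    have h2 : Fintype.card (Fin j ↪ Pos D) ≤ (2 ^ D) ^ j := by
      rw [Fintype.card_embedding_eq, Fintype.card_fin, card_Pos]
      exact Nat.descFactorial_le_pow _ _
    have h3 : (Fintype.card (Fin j ↪ Pos D) : ℝ) ≤ (2 : ℝ) ^ (D * j) := by
      rw [pow_mul]
      exact_mod_cast h2
    have h4 : (0 : ℝ) < (2 : ℝ) ^ (D * j) := by positivity
    rw [← div_eq_mul_inv, div_le_one h4]
    exact h3
  have h5 := half_sum_wtt_le (D - Nat.clog 2 j) D
  calc _ ≤ 1 * Real.exp ((j : ℝ) * ((1 / 2 : ℝ) * ∑ l ∈ Finset.Ioc (D - Nat.clog 2 j) D, wtt l)) :=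
        mul_le_mul_of_nonneg_right h1 (Real.exp_pos _).le
    _ ≤ _ := by
        rw [one_mul]
        exact Real.exp_le_exp.2 (mul_le_mul_of_nonneg_left h5 (Nat.cast_nonneg _))

/-- The bound on `Φ_n`: `ln Φ_n ≤ 0.2547 n + ln (e n)`. -/
theorem phi_full_le (D : ℕ) (hD : 1 ≤ D) :
    ((tupleMat (xLaw D) (2 ^ D)) ^ 64).trace ≤
      Real.exp 1 * ((2 : ℝ) ^ D) * Real.exp (0.2547 * (2 : ℝ) ^ D) := by
  have h := tuple_trace_full_le treeRenyi young_iface fixedT_iface fullDeck D
  refine h.trans ?_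
  have hn : 1 ≤ 2 ^ D := Nat.one_le_two_pow
  have hf := factorial_mul_exp_le (2 ^ D) hn
  have hcard : (Fintype.card (Fin (2 ^ D) ↪ Pos D) : ℝ) = ((2 ^ D).factorial : ℝ) := by
    rw [Fintype.card_embedding_eq, Fintype.card_fin, card_Pos, Nat.descFactorial_self]
  rw [hcard]
  set n : ℝ := (2 : ℝ) ^ D with hnd
  have hnat : (((2 ^ D : ℕ)) : ℝ) = n := by rw [hnd]; push_cast; rfl
  rw [hnat] at hf
  have hn0 : 0 < n := by rw [hnd]; positivity
  have hpow : ((2 : ℝ) ^ (D * 2 ^ D)) = n ^ (2 ^ D) := by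
    rw [hnd, ← pow_mul]
  rw [hpow]
  have hnnat : (n : ℝ) ^ (2 ^ D) > 0 := by positivity
  have hsum : (2 : ℝ) ^ (D - 1) * ∑ l ∈ Finset.Icc 1 D, wt l ≤ 1.2547 * n := by
    have h1 := half_sum_wt_le D
    have h2 : n = 2 * (2 : ℝ) ^ (D - 1) := by
      rw [hnd]
      obtain ⟨d, rfl⟩ : ∃ d, D = d + 1 := ⟨D - 1, by omega⟩
      simp [pow_succ]
      ring
    rw [h2]
    have h3 : (0 : ℝ) < (2 : ℝ) ^ (D - 1) := by positivity
    nlinarith
  have hexp : Real.exp ((2 : ℝ) ^ (D - 1) * ∑ l ∈ Finset.Icc 1 D, wt l) ≤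
      Real.exp n * Real.exp (0.2547 * n) := by
    rw [← Real.exp_add]
    apply Real.exp_le_exp.2
    linarith
  -- assemble
  have hE : 0 < Real.exp (0.2547 * n) := Real.exp_pos _
  have hEn : 0 < Real.exp n := Real.exp_pos _
  calc ((2 ^ D).factorial : ℝ) * (n ^ (2 ^ D))⁻¹ *
        Real.exp ((2 : ℝ) ^ (D - 1) * ∑ l ∈ Finset.Icc 1 D, wt l)
      ≤ ((2 ^ D).factorial : ℝ) * (n ^ (2 ^ D))⁻¹ * (Real.exp n * Real.exp (0.2547 * n)) :=
        mul_le_mul_of_nonneg_left hexp (by positivity)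
    _ = (((2 ^ D).factorial : ℝ) * Real.exp n) * (n ^ (2 ^ D))⁻¹ * Real.exp (0.2547 * n) := by ring
    _ ≤ (Real.exp 1 * n * n ^ (2 ^ D)) * (n ^ (2 ^ D))⁻¹ * Real.exp (0.2547 * n) := by
        apply mul_le_mul_of_nonneg_right _ hE.le
        apply mul_le_mul_of_nonneg_right hf (by positivity)
    _ = Real.exp 1 * n * Real.exp (0.2547 * n) := by
        field_simp

end Crest.Agent.Thorp
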