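import Crest.Agent.Lib.Thorp.SpecThorp
import Crest.Agent.Lib.Thorp.PhiBound
import Crest.Agent.Lib.Thorp.NumFinal

/-!
# Thorp shuffle, S0222: the final assembly

Combines `spectral_thorp` (Section 6), `phi_le`, `phi_full_le` (Sections 2-5), the asymptotics
`lowHigh_tendsto`, and `tv_tendsto_of_trace` (Section 7).
-/

set_option autoImplicit false

namespace Crest.Agent.Thorp.Final

open Numerics

/-- The majorant of `Φ_j`. -/
noncomputable def PhiD (D j : ℕ) : ℝ :=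
  if j = 2 ^ D then Real.exp 1 * (2 : ℝ) ^ D * Real.exp (0.2547 * (2 : ℝ) ^ D)
  else Real.exp ((j : ℝ) * rhoB (D - Nat.clog 2 j))

theorem PhiD_pos (D j : ℕ) : 0 < PhiD D j := by
  unfold PhiD
  split_ifs <;> positivity

theorem exists_best (D i : ℕ) (h : 2 * i ≤ 2 ^ D) :
    ∃ j ∈ Finset.Icc i (2 ^ D - i), ∀ j' ∈ Finset.Icc i (2 ^ D - i),
      PhiD D j / (j.choose i : ℝ) ≤ PhiD D j' / (j'.choose i : ℝ) := by
  apply Finset.exists_min_image
  exact ⟨i, Finset.mem_Icc.2 ⟨le_rfl, by omega⟩⟩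

open Classical in
/-- `j_i` minimising `Φ_j / C(j,i)`. -/
noncomputable def bestJ (D i : ℕ) : ℕ :=
  if h : 2 * i ≤ 2 ^ D then (exists_best D i h).choose else i

theorem bestJ_spec (D i : ℕ) (h : 2 * i ≤ 2 ^ D) :
    bestJ D i ∈ Finset.Icc i (2 ^ D - i) ∧ ∀ j' ∈ Finset.Icc i (2 ^ D - i),
      PhiD D (bestJ D i) / ((bestJ D i).choose i : ℝ) ≤ PhiD D j' / (j'.choose i : ℝ) := by
  unfold bestJ
  rw [dif_pos h]
  exact (exists_best D i h).choose_spec

/-- `β_i^q`. -/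
noncomputable def bq (D i : ℕ) : ℝ := PhiD D (bestJ D i) / ((bestJ D i).choose i : ℝ)

theorem bq_nonneg (D i : ℕ) : 0 ≤ bq D i :=
  div_nonneg (PhiD_pos _ _).le (Nat.cast_nonneg _)

theorem bq_mul_choose_le (D i j : ℕ) (h1 : i ≤ j) (h2 : i + j ≤ 2 ^ D) :
    bq D i * (j.choose i : ℝ) ≤ PhiD D j := by
  have hs := bestJ_spec D i (by omega)
  have h3 := hs.2 j (Finset.mem_Icc.2 ⟨h1, by omega⟩)
  have h4 : (0 : ℝ) < (j.choose i : ℝ) := by exact_mod_cast Nat.choose_pos h1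
  have h5 : bq D i ≤ PhiD D j / (j.choose i : ℝ) := h3
  rwa [le_div_iff₀ h4] at h5

/-- `M₀`. -/
noncomputable def M0 (D : ℕ) : ℝ := Real.exp (0.2791 * (2 : ℝ) ^ D) / (29 * ((2 : ℝ) ^ D + 1))

theorem M0_pos (D : ℕ) : 0 < M0 D := by
  unfold M0
  positivity

/-- `B^q`. -/
noncomputable def Bq (D : ℕ) : ℝ := PhiD D (2 ^ D) / M0 D

theorem Bq_nonneg (D : ℕ) : 0 ≤ Bq D := div_nonneg (PhiD_pos _ _).le (M0_pos _).le

theorem Bq_mul (D : ℕ) :
    Bq D * Real.exp (0.2791 * (2 : ℝ) ^ D) = 29 * ((2 : ℝ) ^ D + 1) * PhiD D (2 ^ D) := by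
  unfold Bq M0
  have h1 : Real.exp (0.2791 * (2 : ℝ) ^ D) ≠ 0 := (Real.exp_pos _).ne'
  have h2 : (29 * ((2 : ℝ) ^ D + 1)) ≠ 0 := by positivity
  field_simp

theorem lowHigh :
    Filter.Tendsto (fun D : ℕ =>
      ∑ i ∈ Finset.Icc 1 (2 ^ D / 12), ((2 ^ D).choose i : ℝ) * (bq D i) ^ 15 * PhiD D i
        + (Bq D) ^ 15 * PhiD D (2 ^ D)) Filter.atTop (nhds 0) := by
  apply lowHigh_tendsto PhiD bq Bq (Real.exp 1) (Real.exp_pos _).le 0
  · exact fun D j => (PhiD_pos D j).le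
  · intro D _ j _ hj
    unfold PhiD
    rw [if_neg hj.ne]
  · intro D _
    unfold PhiD
    rw [if_pos rfl]
  · exact bq_nonneg
  · intro D _ i j _ h1 h2
    exact bq_mul_choose_le D i j h1 h2
  · exact Bq_nonneg
  · intro D _
    exact (Bq_mul D).le

/-- The bound from Section 6 with our choices. -/
theorem trace_le (k : ℕ) (hk : 4 ≤ k) :
    traceX (k + 1) 1024 ≤ 1 + (∑ i ∈ Finset.Icc 1 (2 ^ (k + 1) / 12),
        ((2 ^ (k + 1)).choose i : ℝ) * (bq (k + 1) i) ^ 15 * PhiD (k + 1) i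
        + (Bq (k + 1)) ^ 15 * PhiD (k + 1) (2 ^ (k + 1))) := by
  have hn32 : 32 ≤ 2 ^ (k + 1) := by
    calc 32 = 2 ^ 5 := by norm_num
      _ ≤ 2 ^ (k + 1) := Nat.pow_le_pow_right (by norm_num) (by omega)
  obtain ⟨e, he⟩ : ∃ e, k = e + 2 := ⟨k - 2, by omega⟩
  have hn8 : 2 ^ (k + 1) = 8 * 2 ^ e := by rw [he]; ring
  have hk2 : 2 ^ k = 4 * 2 ^ e := by rw [he]; ring
  have hcast : (((2 ^ (k + 1) : ℕ)) : ℝ) = (2 : ℝ) ^ (k + 1) := by push_cast; rfl
  have h := Spec.spectral_thorp k 64 (by norm_num) (PhiD (k + 1))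
    (by
      intro j _
      by_cases hj : j = 2 ^ (k + 1)
      · unfold PhiD
        rw [if_pos hj, hj]
        exact phi_full_le (k + 1) (by omega)
      · unfold PhiD
        rw [if_neg hj]
        exact phi_le (k + 1) j)
    (2 ^ (k + 1) / 12) (2 ^ (k + 1) / 4) (2 ^ (k + 1) / 8 - 1) (bestJ (k + 1)) (M0 (k + 1))
    (M0_pos _)
    (by omega)
    (by
      intro i hi
      obtain ⟨h1, h2⟩ := Finset.mem_Icc.1 hi
      have h3 : 12 * i ≤ 2 ^ (k + 1) := by
        have := Nat.div_mul_le_self (2 ^ (k + 1)) 12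
        omega
      obtain ⟨h4, _⟩ := bestJ_spec (k + 1) i (by omega)
      obtain ⟨h5, h6⟩ := Finset.mem_Icc.1 h4
      exact ⟨h5, by omega, by omega⟩)
    (by
      intro t ht
      obtain ⟨h1, h2⟩ := Finset.mem_Ioc.1 ht
      have h3 : 4 * t ≤ 2 ^ (k + 1) := by
        have := Nat.div_mul_le_self (2 ^ (k + 1)) 4
        omega
      refine ⟨by omega, by omega, ?_⟩
      have h4 := exp_le_choose_t (n := 2 ^ (k + 1)) (t := t) (by omega) h1 h3
      rw [hcast] at h4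
      unfold M0
      rw [div_le_iff₀ (by positivity)]
      calc _ ≤ _ := h4
        _ = _ := by ring)
    (by omega) (by omega) (by omega) (by omega)
    (by
      have h4 := exp_le_choose_half (n := 2 ^ (k + 1)) (m' := 2 ^ e) Nat.one_le_two_pow hn8
      rw [hcast] at h4
      have h5 : 2 ^ (k + 1) / 2 = 2 ^ k := by omega
      have h6 : 2 ^ (k + 1) / 8 - 1 = 2 ^ e - 1 := by omega
      rw [h5] at h4
      rw [h6]
      unfold M0
      rw [div_le_iff₀ (by positivity)]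
      calc _ ≤ _ := h4
        _ = _ := by ring)
    (by omega)
  have h1024 : 16 * 64 = 1024 := by norm_num
  rw [h1024] at h
  refine le_trans h (le_of_eq ?_)
  rw [add_assoc]
  congr 2
  refine Finset.sum_congr rfl fun i _ => ?_
  unfold bq
  ring

/-- `trace X^1024 → 1`. -/
theorem traceX_tendsto :
    Filter.Tendsto (fun d : ℕ => traceX (d + 1) 1024) Filter.atTop (nhds 1) := by
  have h0 := (Filter.tendsto_add_atTop_iff_nat 1).2 lowHigh
  have h1 := h0.const_add (1 : ℝ)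
  rw [add_zero] at h1
  refine tendsto_of_tendsto_of_tendsto_of_le_of_le' tendsto_const_nhds h1 ?_ ?_
  · refine Filter.Eventually.of_forall fun d => ?_
    have h2 := tv_sq_le_trace d 10
    have h3 : (0 : ℝ) ≤ (Crest.ProbabilityR.Shuffle.tvFromUniform (2 ^ d) (2 ^ 10 * (d + 1))) ^ 2 :=
      sq_nonneg _
    have h4 := le_trans h3 h2
    have h5 : (2 : ℕ) ^ 10 = 1024 := by norm_num
    rw [h5] at h4
    have h6 : traceX (d + 1) 1024 = Matrix.trace ((opX (d + 1)) ^ 1024) := by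
      simp only [traceX, opX_eq_perMat]
    rw [h6]
    linarith
  · filter_upwards [Filter.eventually_ge_atTop 4] with d hd
    exact trace_le d hd

/-- The statement S0222. -/
theorem main :
    Filter.Tendsto (fun d : ℕ => Crest.ProbabilityR.Shuffle.tvFromUniform (2 ^ d) (1600 * (d + 1)))
      Filter.atTop (nhds 0) :=
  tv_tendsto_of_trace traceX_tendsto

end Crest.Agent.Thorp.Final
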