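import Crest.Agent.Lib.Thorp.NearTrace
import Crest.Agent.Lib.Thorp.Interface

/-!
# Thorp shuffle (S0222): `Interface.FixedT` (#850, Section 3).

Level Finner inequality over the coins `T'` + the near-trace bound at each node.
-/

set_option autoImplicit false

namespace Crest.Agent.Thorp.NF

open Finset BigOperators

/-- The near coordinates. -/
def nearSet (k m : ℕ) : Finset (Idx k) := Finset.univ.filter fun i => m < lev k i

theorem sub_mix (k m : ℕ) (y x : Coins (k + 1)) (b : Bool) :
    Coins.sub (mix (nearSet (k + 1) m) y x) b =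
      mix (nearSet k m) (Coins.sub y b) (Coins.sub x b) := by
  funext j
  have h : (Sum.inr (b, j) : Pos k ⊕ (Bool × Idx k)) ∈ nearSet (k + 1) m ↔ j ∈ nearSet k m := by
    constructor <;> intro hh
    · exact Finset.mem_filter.2 ⟨Finset.mem_univ _, (Finset.mem_filter.1 hh).2⟩
    · exact Finset.mem_filter.2 ⟨Finset.mem_univ _, (Finset.mem_filter.1 hh).2⟩
  show (if (Sum.inr (b, j) : Pos k ⊕ (Bool × Idx k)) ∈ nearSet (k + 1) m then _ else _) =
    (if j ∈ nearSet k m then _ else _)
  simp only [h]
  rfl

theorem nearC_mix (k m : ℕ) (y x : Coins k) : nearC m (mix (nearSet k m) y x) = nearC m y := by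
  funext i
  simp only [nearC, mix, nearSet, Finset.mem_filter, Finset.mem_univ, true_and]
  by_cases h : m < lev k i <;> simp [h]

theorem farC_mix (k m : ℕ) (y x : Coins k) : farC m (mix (nearSet k m) y x) = farC m x := by
  funext i
  simp only [farC, mix, nearSet, Finset.mem_filter, Finset.mem_univ, true_and]
  by_cases h : m < lev k i <;> simp [h]

theorem sweep_mix (k m : ℕ) (y x : Coins k) :
    sweep k (mix (nearSet k m) y x) = fr m x * nr m y := by
  rw [sweep_eq_far_mul_near k m, nearC_mix, farC_mix]
  rfl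

section Node

variable {U : Type} [Fintype U] [DecidableEq U] {U' : Type}

/-- The moment of `N_v` at a node, over the near coins of the children. -/
theorem nodeW_avgOn {k r : ℕ} (ε : Option U ≃ (Fin r → Bool)) (hε : ε none = fun _ => false)
    (m : ℕ) (W : ℝ) (hY : ∀ S : Finset (Pos k), nearY U m S ≤ Real.exp ((S.card : ℝ) * W))
    (c : Color U' (k + 1)) (T x : Coins (k + 1)) :
    avgOn (nearSet (k + 1) m) (fun T' => ((nodeW c T T' : ℕ) : ℝ) ^ r) x ≤
      Real.exp (((mates c).card : ℝ) * W) := by
  set A0 : Equiv.Perm (Pos k) := (sweep k (Coins.sub T false))⁻¹ * fr m (Coins.sub x false) with hA0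
  set A1 : Equiv.Perm (Pos k) := (sweep k (Coins.sub T true))⁻¹ * fr m (Coins.sub x true) with hA1
  have key : ∀ y : Coins (k + 1), nodeW c T (mix (nearSet (k + 1) m) y x) =
      invCount (A0 * nr m (Coins.sub y false) * (nr m (Coins.sub y true))⁻¹ * A1⁻¹) (mates c) := by
    intro y
    unfold nodeW gOf
    rw [sub_mix, sub_mix, sweep_mix, sweep_mix, hA0, hA1]
    have : ((fr m (Coins.sub x false) * nr m (Coins.sub y false))⁻¹ * sweep k (Coins.sub T false))⁻¹ *
        ((fr m (Coins.sub x true) * nr m (Coins.sub y true))⁻¹ * sweep k (Coins.sub T true)) =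
        (sweep k (Coins.sub T false))⁻¹ * fr m (Coins.sub x false) * nr m (Coins.sub y false) *
          (nr m (Coins.sub y true))⁻¹ *
          ((sweep k (Coins.sub T true))⁻¹ * fr m (Coins.sub x true))⁻¹ := by
      group
    rw [this]
  unfold avgOn
  simp only [key]
  have h2 := avg_sub (k := k) (fun y0 y1 =>
    ((invCount (A0 * nr m y0 * (nr m y1)⁻¹ * A1⁻¹) (mates c) : ℕ) : ℝ) ^ r)
  refine le_of_eq_of_le h2 ?_
  exact node_near_le ε hε m W hY A0 A1 (mates c)

/-- The moment of the product of the `N_v` at a level. -/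
theorem levW_avgOn {j r : ℕ} (ε : Option U ≃ (Fin r → Bool)) (hε : ε none = fun _ => false)
    (m : ℕ) (W : ℝ) (hY : ∀ S : Finset (Pos j), nearY U m S ≤ Real.exp ((S.card : ℝ) * W)) :
    ∀ (k : ℕ) (c : Color U' k) (T x : Coins k),
      avgOn (nearSet k m) (fun T' => ((levW (j + 1) k c T T' : ℕ) : ℝ) ^ r) x ≤
        Real.exp ((mateCount (j + 1) k c T : ℝ) * W) := by
  intro k
  induction k with
  | zero =>
    intro c T x
    have h1 : (fun T' : Coins 0 => ((levW (j + 1) 0 c T T' : ℕ) : ℝ) ^ r) = fun _ => 1 := by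
      funext T'
      simp [levW]
    rw [h1, avgOn_const]
    simp [mateCount]
  | succ k ih =>
    intro c T x
    by_cases h : j + 1 = k + 1
    · have hjk : j = k := by omega
      subst hjk
      have h1 : (fun T' : Coins (j + 1) => ((levW (j + 1) (j + 1) c T T' : ℕ) : ℝ) ^ r) =
          fun T' => ((nodeW c T T' : ℕ) : ℝ) ^ r := by
        funext T'
        simp [levW]
      rw [h1]
      have h2 : mateCount (j + 1) (j + 1) c T = (mates c).card := by
        simp [mateCount]
      rw [h2]
      exact nodeW_avgOn ε hε m W hY c T x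
    · have h1 : ∀ T' : Coins (k + 1), ((levW (j + 1) (k + 1) c T T' : ℕ) : ℝ) ^ r =
          ((levW (j + 1) k (sheet (Coins.top T) c false) (Coins.sub T false)
              (Coins.sub T' false) : ℕ) : ℝ) ^ r *
          ((levW (j + 1) k (sheet (Coins.top T) c true) (Coins.sub T true)
              (Coins.sub T' true) : ℕ) : ℝ) ^ r := by
        intro T'
        rw [← mul_pow, ← Nat.cast_mul]
        congr 2
        simp only [levW]
        rw [if_neg h]
      have h2 : mateCount (j + 1) (k + 1) c T =
          mateCount (j + 1) k (sheet (Coins.top T) c false) (Coins.sub T false) +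
          mateCount (j + 1) k (sheet (Coins.top T) c true) (Coins.sub T true) := by
        simp only [mateCount]
        rw [if_neg h]
      rw [h2]
      push_cast
      rw [add_mul, Real.exp_add]
      unfold avgOn
      simp only [h1, sub_mix]
      have h3 := avg_sub (k := k) (fun y0 y1 =>
          ((levW (j + 1) k (sheet (Coins.top T) c false) (Coins.sub T false)
              (mix (nearSet k m) y0 (Coins.sub x false)) : ℕ) : ℝ) ^ r *
          ((levW (j + 1) k (sheet (Coins.top T) c true) (Coins.sub T true)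
              (mix (nearSet k m) y1 (Coins.sub x true)) : ℕ) : ℝ) ^ r)
      refine le_of_eq_of_le h3 ?_
      rw [avg_mul]
      have i0 := ih (sheet (Coins.top T) c false) (Coins.sub T false) (Coins.sub x false)
      have i1 := ih (sheet (Coins.top T) c true) (Coins.sub T true) (Coins.sub x true)
      exact mul_le_mul i0 i1 (avg_nonneg fun _ => by positivity) (Real.exp_pos _).le

/-- `levW l` depends only on the coins of level `< l`. -/
theorem levW_dep (l : ℕ) : ∀ (k : ℕ) (c : Color U' k) (T x y : Coins k),
    (∀ i, lev k i < l → x i = y i) → levW l k c T x = levW l k c T y := by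
  intro k
  induction k with
  | zero => intro c T x y _; rfl
  | succ k ih =>
    intro c T x y h
    by_cases hl : l = k + 1
    · subst hl
      have h0 : ∀ b, Coins.sub x b = Coins.sub y b := by
        intro b
        funext j
        exact h (Sum.inr (b, j)) (lt_of_le_of_lt (lev_le k j) (Nat.lt_succ_self k))
      simp only [levW, if_true, nodeW, h0]
    · simp only [levW]
      rw [if_neg hl, if_neg hl]
      congr 1
      · exact ih _ _ _ _ fun j hj => h (Sum.inr (false, j)) hj
      · exact ih _ _ _ _ fun j hj => h (Sum.inr (true, j)) hj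

/-- The weight is the product of the levels. -/
theorem weight_eq_prod : ∀ (k : ℕ) (c : Color U' k) (T T' : Coins k),
    weight k c T T' = ∏ l ∈ Finset.Icc 1 k, levW l k c T T' := by
  intro k
  induction k with
  | zero => intro c T T'; rfl
  | succ k ih =>
    intro c T T'
    rw [Finset.prod_Icc_succ_top (by omega)]
    have h1 : levW (k + 1) (k + 1) c T T' = nodeW c T T' := by simp [levW]
    have h2 : ∀ l ∈ Finset.Icc 1 k, levW l (k + 1) c T T' =
        levW l k (sheet (Coins.top T) c false) (Coins.sub T false) (Coins.sub T' false) *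
        levW l k (sheet (Coins.top T) c true) (Coins.sub T true) (Coins.sub T' true) := by
      intro l hl
      have : l ≠ k + 1 := by
        have := (Finset.mem_Icc.1 hl).2
        omega
      simp only [levW]
      rw [if_neg this]
    rw [h1, Finset.prod_congr rfl h2, Finset.prod_mul_distrib]
    simp only [weight]
    rw [ih, ih]
    ring

end Node

/-! ### The schedule -/

theorem klvl_le {l : ℕ} (h : 1 ≤ l) : klvl l ≤ l - 1 := by
  unfold klvl
  split_ifs <;> omega

theorem rlvl_pos (l : ℕ) : 1 ≤ rlvl l := by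
  unfold rlvl
  split_ifs <;> omega

/-- Positivity of `U_k(ρ)`. -/
theorem Utab_ge : ∀ (k : ℕ) (ρ : ℝ), 0 ≤ ρ → ρ ≤ 1 → 1 + ρ / 2 ≤ Utab k ρ := by
  intro k
  induction k with
  | zero =>
    intro ρ h0 _
    simp only [Utab]
    linarith
  | succ k ih =>
    intro ρ h0 h1
    have hA := ih (ρ / 2) (by linarith) (by linarith)
    have hB := ih ρ h0 h1
    simp only [Utab]
    set A := Utab k (ρ / 2)
    set B := Utab k ρ
    set ε := (B - 1 - ρ / 2) / 2 ^ k
    have hε : 0 ≤ ε := div_nonneg (by linarith) (by positivity)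
    set rt := min 1 (ρ + (1 - ρ) * ε)
    have hrt0 : 0 ≤ rt := le_min zero_le_one (add_nonneg h0 (mul_nonneg (by linarith) hε))
    have hrt1 : rt ≤ 1 := min_le_left _ _
    have hA1 : 1 + ρ / 4 ≤ A := by
      have : ρ / 2 / 2 = ρ / 4 := by ring
      rw [this] at hA
      exact hA
    have hA0 : 0 ≤ A := by linarith
    have h2 : 1 + ρ / 2 ≤ A * A := by nlinarith
    have h3 : 1 + ρ / 2 ≤ B * A := by nlinarith
    have : (1 - rt) * A ^ 2 + rt * B * A =
        (1 - rt) * (A * A) + rt * (B * A) := by ring
    rw [this]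
    nlinarith [mul_le_mul_of_nonneg_left h2 (by linarith : 0 ≤ 1 - rt),
      mul_le_mul_of_nonneg_left h3 hrt0]

theorem Utab_pos (k : ℕ) : 0 < Utab k 1 := by
  have := Utab_ge k 1 zero_le_one le_rfl
  linarith

/-- The colours for `r = 1`. -/
def unitEps : Option Unit ≃ (Fin 1 → Bool) where
  toFun o := fun _ => o.isSome
  invFun v := if v 0 then some () else none
  left_inv o := by
    cases o <;> simp
  right_inv v := by
    funext i
    have : i = 0 := Subsingleton.elim _ _
    subst this
    cases h : v 0 <;> simp [h]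

/-- The near bound at level `j + 1`. -/
def NearBoundAt (j : ℕ) : Prop :=
  ∃ (V : Type) (_ : Fintype V) (_ : DecidableEq V)
    (ε : Option V ≃ (Fin (rlvl (j + 1)) → Bool)), ε none = (fun _ => false) ∧
    ∀ S : Finset (Pos j), nearY V (j - klvl (j + 1)) S ≤
      Real.exp ((S.card : ℝ) * (wt (j + 1) * (rlvl (j + 1) : ℝ)))

/-- A colour set for `2^r` colours. -/
abbrev UR (r : ℕ) : Type := {v : Fin r → Bool // v ≠ fun _ => false}

theorem nearY_le' {U : Type} [Fintype U] [DecidableEq U] {k K m : ℕ} (hk : k = K + m) (W : ℝ)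
    (h0 : ∀ S : Finset (Pos K), nearY U 0 S ≤ Real.exp ((S.card : ℝ) * W))
    (S : Finset (Pos k)) : nearY U m S ≤ Real.exp ((S.card : ℝ) * W) := by
  subst hk
  exact nearY_le K W h0 m S

theorem nearBoundAt_of (hV : Interface.VFull) (hC : Interface.VCrude) (j : ℕ) : NearBoundAt j := by
  unfold NearBoundAt
  by_cases hl : j + 1 ≤ 40
  · have hr : rlvl (j + 1) = 1 := by
      unfold rlvl
      rw [if_pos (by omega)]
    have hk : klvl (j + 1) = j := by
      unfold klvl
      rw [if_pos hl]
      simp
    rw [hr, hk]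
    refine ⟨Unit, inferInstance, inferInstance, unitEps, rfl, ?_⟩
    · intro S
      rw [Nat.sub_self, nearY_zero]
      refine (hV j _).trans (le_of_eq ?_)
      rw [Real.rpow_def_of_pos (Utab_pos j), Finset.card_image_of_injective _ (iotaEquiv j).injective]
      congr 1
      have : wt (j + 1) = Real.log (Utab j 1) / 2 ^ j := by
        unfold wt
        rw [if_pos hl]
        simp
      rw [this]
      push_cast
      ring
  · have hk : klvl (j + 1) ≤ j := klvl_le (l := j + 1) (by omega)
    set r := rlvl (j + 1) with hr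
    have hrpos : 1 ≤ r := rlvl_pos _
    have hcard : (Fintype.card (UR r) : ℝ) = 2 ^ r - 1 := by
      have h1 : Fintype.card (Option (UR r)) = Fintype.card (Fin r → Bool) :=
        Fintype.card_congr (Equiv.optionSubtypeNe (fun _ => false))
      rw [Fintype.card_option, Fintype.card_fun, Fintype.card_fin, Fintype.card_bool] at h1
      have h2 : (Fintype.card (UR r) : ℝ) + 1 = 2 ^ r := by exact_mod_cast h1
      linarith
    refine ⟨UR r, inferInstance, inferInstance, Equiv.optionSubtypeNe (fun _ => false), rfl, ?_⟩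
    intro S
    refine nearY_le' (K := klvl (j + 1)) (by omega) _ (fun S' => ?_) S
    rw [nearY_zero]
    refine (hC (UR r) (klvl (j + 1)) _).trans (le_of_eq ?_)
    rw [Finset.card_image_of_injective _ (iotaEquiv _).injective]
    congr 1
    have hw : wt (j + 1) * (r : ℝ) = ((2 : ℝ) ^ r - 1) * (3 / 4 : ℝ) ^ klvl (j + 1) := by
      unfold wt
      rw [if_neg hl, ← hr]
      have : (r : ℝ) ≠ 0 := by positivity
      field_simp
    rw [hw, hcard]
    ring

/-! ### Finner -/

/-- The budget of the schedule. -/
def Budget : Prop :=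
  ∀ (k h : ℕ), ∑ l ∈ Finset.Icc 1 k with (l - klvl l ≤ h ∧ h < l),
    1 / ((63 : ℝ) * (rlvl l : ℝ)) ≤ 1

/-- `Interface.FixedT`, given the near bounds at all levels and the budget. -/
theorem fixedT_of (hN : ∀ j, NearBoundAt j) (hB : Budget) : Interface.FixedT := by
  intro U _ _ k c T
  have hw : ∀ T' : Coins k, ((weight k c T T' : ℕ) : ℝ) ^ (1 / 63 : ℝ) =
      ∏ l ∈ Finset.Icc 1 k, ((levW l k c T T' : ℕ) : ℝ) ^ (1 / 63 : ℝ) := by
    intro T'
    rw [weight_eq_prod, Nat.cast_prod, Real.finsetProd_rpow]
    intro l _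
    positivity
  simp only [hw]
  have hfin := finner (lev k) (Finset.Icc 1 k) (fun l => (63 : ℝ) * (rlvl l : ℝ))
    (fun l => Real.exp (wt l * (mateCount l k c T : ℝ) / 63)) (k + 1)
    (fun l x => ((levW l k c T x : ℕ) : ℝ) ^ (1 / 63 : ℝ)) (fun l => l - klvl l) (fun l => l)
    (fun l _ x => by positivity)
    (fun l _ => by
      have := rlvl_pos l
      positivity)
    (fun l _ => (Real.exp_pos _).le)
    (fun l _ x y hxy => by
      rw [levW_dep l k c T x y fun i hi => hxy i (lt_min hi (Nat.lt_succ_of_le (lev_le k i)))])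
    (fun h => hB k h)
    (fun l hl x => by
      obtain ⟨hl1, _⟩ := Finset.mem_Icc.1 hl
      obtain ⟨j, rfl⟩ : ∃ j, l = j + 1 := ⟨l - 1, by omega⟩
      obtain ⟨V, iF, iD, ε, hε, hY⟩ := hN j
      have hk := klvl_le (l := j + 1) hl1
      have hset : (Finset.univ.filter fun i => j + 1 - klvl (j + 1) ≤ lev k i) =
          nearSet k (j - klvl (j + 1)) := by
        unfold nearSet
        apply Finset.filter_congr
        intro i _
        have : j + 1 - 1 = j := by omega
        omega
      have hpow : (fun z : Coins k => (((levW (j + 1) k c T z : ℕ) : ℝ) ^ (1 / 63 : ℝ)) ^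
          ((63 : ℝ) * (rlvl (j + 1) : ℝ))) =
          fun z => ((levW (j + 1) k c T z : ℕ) : ℝ) ^ (rlvl (j + 1)) := by
        funext z
        rw [← Real.rpow_mul (by positivity)]
        have : (1 / 63 : ℝ) * ((63 : ℝ) * (rlvl (j + 1) : ℝ)) = (rlvl (j + 1) : ℝ) := by ring
        rw [this, Real.rpow_natCast]
      rw [hset, hpow]
      refine (levW_avgOn ε hε (j - klvl (j + 1)) _ hY k c T x).trans (le_of_eq ?_)
      rw [← Real.exp_mul]
      congr 1
      ring)
  refine hfin.trans (le_of_eq ?_)
  rw [← Real.exp_sum, Finset.mul_sum]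
  congr 1
  refine Finset.sum_congr rfl fun l _ => ?_
  ring

end Crest.Agent.Thorp.NF
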