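import Crest.Agent.Lib.Thorp.Finner

/-!
# Thorp shuffle (S0222): near/far decomposition and the bottom-up recursion of a sweep.

* `sweep_far_near`: a sweep is `far ∘ near`, where `near` uses the coins of level `> m` and `far`
  the coins of level `≤ m`.
* `sweep_snoc`: the bottom-up recursion of a sweep (last bit).
* `sweep_rev`: `sweep (revC T) = ι ∘ (sweep T)⁻¹ ∘ ι`, `ι` the bit reversal, `revC` a bijection of
  the coins.
-/

set_option autoImplicit false

namespace Crest.Agent.Thorp.NF

open Finset BigOperators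

/-! ### Levels -/

theorem lev_le : ∀ k (i : Idx k), lev k i ≤ k
  | 0, i => nomatch (i : Empty)
  | k + 1, i => by
    rcases (i : Pos k ⊕ (Bool × Idx k)) with p | ⟨b, j⟩
    · exact le_rfl
    · exact (lev_le k j).trans (Nat.le_succ k)

theorem lev_pos : ∀ k (i : Idx k), 0 < lev k i
  | 0, i => nomatch (i : Empty)
  | k + 1, i => by
    rcases (i : Pos k ⊕ (Bool × Idx k)) with p | ⟨b, j⟩
    · exact Nat.succ_pos k
    · exact lev_pos k j

theorem sweep_succ (k : ℕ) (T : Coins (k + 1)) (b : Bool) (x : Pos k) :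
    sweep (k + 1) T ((b, x) : Bool × Pos k) =
      ((xor b (Coins.top T x), sweep k (Coins.sub T (xor b (Coins.top T x))) x) :
        Bool × Pos k) := rfl

theorem sweep_inv_succ (k : ℕ) (T : Coins (k + 1)) (b : Bool) (y : Pos k) :
    (sweep (k + 1) T)⁻¹ ((b, y) : Bool × Pos k) =
      ((xor b (Coins.top T ((sweep k (Coins.sub T b))⁻¹ y)), (sweep k (Coins.sub T b))⁻¹ y) :
        Bool × Pos k) := rfl

/-! ### Masks -/

/-- Keep the coins of level `> m`. -/
def nearC {k : ℕ} (m : ℕ) (T : Coins k) : Coins k := fun i => if m < lev k i then T i else false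

/-- Keep the coins of level `≤ m`. -/
def farC {k : ℕ} (m : ℕ) (T : Coins k) : Coins k := fun i => if m < lev k i then false else T i

theorem sub_nearC {k : ℕ} (m : ℕ) (T : Coins (k + 1)) (b : Bool) :
    Coins.sub (nearC m T) b = nearC m (Coins.sub T b) := rfl

theorem sub_farC {k : ℕ} (m : ℕ) (T : Coins (k + 1)) (b : Bool) :
    Coins.sub (farC m T) b = farC m (Coins.sub T b) := rfl

/-- The sweep of the all-false coins is the identity. -/
theorem sweep_false : ∀ (k : ℕ) (x : Pos k), sweep k (fun _ => false) x = x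
  | 0, _ => rfl
  | k + 1, x => by
    obtain ⟨b, p⟩ : Bool × Pos k := x
    show ((xor b false, sweep k (fun _ => false) p) : Bool × Pos k) = (b, p)
    rw [sweep_false k p]
    simp

theorem nearC_of_le {k m : ℕ} (h : k ≤ m) (T : Coins k) : nearC m T = fun _ => false := by
  funext i
  have := lev_le k i
  simp only [nearC]
  rw [if_neg (by omega)]

theorem farC_of_le {k m : ℕ} (h : k ≤ m) (T : Coins k) : farC m T = T := by
  funext i
  have := lev_le k i
  simp only [farC]
  rw [if_neg (by omega)]

/-- A sweep is `far ∘ near`. -/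
theorem sweep_far_near : ∀ (k m : ℕ) (T : Coins k) (x : Pos k),
    sweep k T x = sweep k (farC m T) (sweep k (nearC m T) x)
  | 0, _, _, _ => rfl
  | k + 1, m, T, x => by
    obtain ⟨b, p⟩ : Bool × Pos k := x
    by_cases h : m < k + 1
    · have h1 : Coins.top (nearC m T) p = Coins.top T p := by
        simp only [Coins.top, nearC]
        exact if_pos h
      have h2 : ∀ q, Coins.top (farC m T) q = false := by
        intro q
        simp only [Coins.top, farC]
        exact if_pos h
      rw [sweep_succ k T b p, sweep_succ k (nearC m T) b p, h1]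
      rw [sweep_succ k (farC m T), h2]
      simp only [Bool.xor_false]
      rw [sub_nearC, sub_farC, ← sweep_far_near k m]
    · have h1 : ∀ q, Coins.top (nearC m T) q = false := by
        intro q
        simp only [Coins.top, nearC]
        exact if_neg h
      have h2 : ∀ q, Coins.top (farC m T) q = Coins.top T q := by
        intro q
        simp only [Coins.top, farC]
        exact if_neg h
      rw [sweep_succ k T b p, sweep_succ k (nearC m T) b p, h1]
      simp only [Bool.xor_false]
      rw [sub_nearC, nearC_of_le (by omega), sweep_false, sweep_succ k (farC m T), h2, sub_farC,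
        farC_of_le (by omega)]

/-- The perm form of `sweep_far_near`. -/
theorem sweep_eq_far_mul_near (k m : ℕ) (T : Coins k) :
    sweep k T = sweep k (farC m T) * sweep k (nearC m T) :=
  Equiv.ext fun x => sweep_far_near k m T x

/-! ### Bottom-up recursion -/

/-- Append a last bit. -/
def snoc : ∀ {k : ℕ}, Pos k → Bool → Pos (k + 1)
  | 0, _, a => ((a, ()) : Bool × Pos 0)
  | k + 1, x, a =>
      let x' : Bool × Pos k := x
      ((x'.1, snoc x'.2 a) : Bool × Pos (k + 1))

theorem snoc_succ {k : ℕ} (b : Bool) (p : Pos k) (a : Bool) :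
    snoc (k := k + 1) ((b, p) : Bool × Pos k) a = ((b, snoc p a) : Bool × Pos (k + 1)) := rfl

theorem snoc_injective : ∀ {k : ℕ} {p q : Pos k} {a b : Bool}, snoc p a = snoc q b → p = q ∧ a = b
  | 0, _, _, _, _, h => ⟨rfl, congrArg Prod.fst (show ((_, ()) : Bool × Unit) = (_, ()) from h)⟩
  | k + 1, p, q, a, b, h => by
    obtain ⟨b1, p1⟩ : Bool × Pos k := p
    obtain ⟨b2, p2⟩ : Bool × Pos k := q
    rw [snoc_succ, snoc_succ] at h
    have h' := Prod.ext_iff.1 h
    obtain ⟨h1, h2⟩ := snoc_injective h'.2
    have h0 : b1 = b2 := h'.1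
    subst h0
    subst h1
    exact ⟨rfl, h2⟩

theorem snoc_surjective : ∀ {k : ℕ} (x : Pos (k + 1)), ∃ (q : Pos k) (a : Bool), snoc q a = x
  | 0, x => by
    obtain ⟨a, u⟩ : Bool × Unit := x
    exact ⟨(), a, rfl⟩
  | k + 1, x => by
    obtain ⟨b, p⟩ : Bool × Pos (k + 1) := x
    obtain ⟨q, a, h⟩ := snoc_surjective p
    refine ⟨((b, q) : Bool × Pos k), a, ?_⟩
    rw [snoc_succ, h]

/-- `Pos (k+1) ≃ Pos k × Bool`. -/
noncomputable def snocEquiv (k : ℕ) : Pos k × Bool ≃ Pos (k + 1) :=
  Equiv.ofBijective (fun p => snoc p.1 p.2)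
    ⟨fun p q h => Prod.ext (snoc_injective h).1 (snoc_injective h).2,
     fun x => by
      obtain ⟨q, a, h⟩ := snoc_surjective x
      exact ⟨(q, a), h⟩⟩

/-- The coin indices of the sweep on the first `k` bits when the last bit is `a`. -/
def embC (a : Bool) : ∀ {k : ℕ}, Idx k → Idx (k + 1)
  | 0, i => nomatch (i : Empty)
  | k + 1, i =>
      match (i : Pos k ⊕ (Bool × Idx k)) with
      | Sum.inl p => (Sum.inl (snoc p a) : Pos (k + 1) ⊕ (Bool × Idx (k + 1)))
      | Sum.inr (b, j) => (Sum.inr (b, embC a j) : Pos (k + 1) ⊕ (Bool × Idx (k + 1)))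

/-- The coin indices of the last layer. -/
def embBot : ∀ {k : ℕ}, Pos k → Idx (k + 1)
  | 0, _ => (Sum.inl () : Pos 0 ⊕ (Bool × Idx 0))
  | k + 1, x =>
      let x' : Bool × Pos k := x
      (Sum.inr (x'.1, embBot x'.2) : Pos (k + 1) ⊕ (Bool × Idx (k + 1)))

theorem lev_embC (a : Bool) : ∀ {k : ℕ} (i : Idx k), lev (k + 1) (embC a i) = lev k i + 1
  | 0, i => nomatch (i : Empty)
  | k + 1, i => by
    rcases (i : Pos k ⊕ (Bool × Idx k)) with p | ⟨b, j⟩
    · rfl
    · exact lev_embC a j

theorem lev_embBot : ∀ {k : ℕ} (x : Pos k), lev (k + 1) (embBot x) = 1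
  | 0, _ => rfl
  | k + 1, x => by
    obtain ⟨b, p⟩ : Bool × Pos k := x
    exact lev_embBot p

/-- The map `Pos k ⊕ (Bool × Idx k) → Idx (k+1)` of the bottom-up decomposition. -/
def idxBot {k : ℕ} : Pos k ⊕ (Bool × Idx k) → Idx (k + 1)
  | Sum.inl q => embBot q
  | Sum.inr (a, j) => embC a j

theorem idxBot_injective : ∀ {k : ℕ}, Function.Injective (idxBot (k := k))
  | 0, x, y, _ => by
    rcases x with u | ⟨a, j⟩
    · rcases y with v | ⟨a', j'⟩
      · rfl
      · exact nomatch (j' : Empty)
    · exact nomatch (j : Empty)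
  | k + 1, x, y, h => by
    have IH := idxBot_injective (k := k)
    rcases x with x | ⟨a, i⟩
    · obtain ⟨b, q⟩ : Bool × Pos k := x
      rcases y with y | ⟨a', i'⟩
      · obtain ⟨b', q'⟩ : Bool × Pos k := y
        have h1 : (Sum.inr (b, embBot q) : Pos (k + 1) ⊕ (Bool × Idx (k + 1))) =
            Sum.inr (b', embBot q') := h
        simp only [Sum.inr.injEq, Prod.mk.injEq] at h1
        obtain ⟨rfl, h2⟩ := h1
        have := @IH (Sum.inl q) (Sum.inl q') h2
        simp only [Sum.inl.injEq] at this
        subst this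
        rfl
      · rcases (i' : Pos k ⊕ (Bool × Idx k)) with p' | ⟨b', j'⟩
        · exact absurd (show (Sum.inr (b, embBot q) : Pos (k + 1) ⊕ (Bool × Idx (k + 1))) =
            Sum.inl (snoc p' a') from h) (by simp)
        · have h1 : (Sum.inr (b, embBot q) : Pos (k + 1) ⊕ (Bool × Idx (k + 1))) =
            Sum.inr (b', embC a' j') := h
          simp only [Sum.inr.injEq, Prod.mk.injEq] at h1
          obtain ⟨rfl, h2⟩ := h1
          have := @IH (Sum.inl q) (Sum.inr (a', j')) h2
          simp at this
    · rcases (i : Pos k ⊕ (Bool × Idx k)) with p | ⟨b, j⟩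
      · rcases y with y | ⟨a', i'⟩
        · obtain ⟨b', q'⟩ : Bool × Pos k := y
          exact absurd (show (Sum.inl (snoc p a) : Pos (k + 1) ⊕ (Bool × Idx (k + 1))) =
            Sum.inr (b', embBot q') from h) (by simp)
        · rcases (i' : Pos k ⊕ (Bool × Idx k)) with p' | ⟨b', j'⟩
          · have h1 : (Sum.inl (snoc p a) : Pos (k + 1) ⊕ (Bool × Idx (k + 1))) =
              Sum.inl (snoc p' a') := h
            simp only [Sum.inl.injEq] at h1
            obtain ⟨rfl, rfl⟩ := snoc_injective h1
            rfl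
          · exact absurd (show (Sum.inl (snoc p a) : Pos (k + 1) ⊕ (Bool × Idx (k + 1))) =
              Sum.inr (b', embC a' j') from h) (by simp)
      · rcases y with y | ⟨a', i'⟩
        · obtain ⟨b', q'⟩ : Bool × Pos k := y
          have h1 : (Sum.inr (b, embC a j) : Pos (k + 1) ⊕ (Bool × Idx (k + 1))) =
              Sum.inr (b', embBot q') := h
          simp only [Sum.inr.injEq, Prod.mk.injEq] at h1
          obtain ⟨rfl, h2⟩ := h1
          have := @IH (Sum.inr (a, j)) (Sum.inl q') h2
          simp at this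
        · rcases (i' : Pos k ⊕ (Bool × Idx k)) with p' | ⟨b', j'⟩
          · exact absurd (show (Sum.inr (b, embC a j) : Pos (k + 1) ⊕ (Bool × Idx (k + 1))) =
              Sum.inl (snoc p' a') from h) (by simp)
          · have h1 : (Sum.inr (b, embC a j) : Pos (k + 1) ⊕ (Bool × Idx (k + 1))) =
              Sum.inr (b', embC a' j') := h
            simp only [Sum.inr.injEq, Prod.mk.injEq] at h1
            obtain ⟨rfl, h2⟩ := h1
            have := @IH (Sum.inr (a, j)) (Sum.inr (a', j')) h2
            simp only [Sum.inr.injEq, Prod.mk.injEq] at this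
            obtain ⟨rfl, rfl⟩ := this
            rfl

theorem idxBot_bijective {k : ℕ} : Function.Bijective (idxBot (k := k)) :=
  (Finite.injective_iff_bijective (α := Idx (k + 1))
    (f := (idxBot (k := k) : Pos k ⊕ (Bool × Idx k) → Idx (k + 1)))).1 idxBot_injective

/-- The coins of the sweep on the first `k` bits, when the last bit is `a`. -/
def cut (a : Bool) {k : ℕ} (T : Coins (k + 1)) : Coins k := fun i => T (embC a i)

/-- The coins of the last layer. -/
def botC {k : ℕ} (T : Coins (k + 1)) : Pos k → Bool := fun x => T (embBot x)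

theorem top_cut (a : Bool) {k : ℕ} (T : Coins (k + 1 + 1)) (p : Pos k) :
    Coins.top (cut a T) p = Coins.top T (snoc p a) := rfl

theorem sub_cut (a : Bool) {k : ℕ} (T : Coins (k + 1 + 1)) (b : Bool) :
    Coins.sub (cut a T) b = cut a (Coins.sub T b) := rfl

theorem botC_succ {k : ℕ} (T : Coins (k + 1 + 1)) (b : Bool) (q : Pos k) :
    botC T ((b, q) : Bool × Pos k) = botC (Coins.sub T b) q := rfl

/-- The bottom-up recursion of a sweep. -/
theorem sweep_snoc : ∀ {k : ℕ} (T : Coins (k + 1)) (q : Pos k) (a : Bool),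
    sweep (k + 1) T (snoc q a) =
      snoc (sweep k (cut a T) q) (xor a (botC T (sweep k (cut a T) q)))
  | 0, _, _, _ => rfl
  | k + 1, T, q, a => by
    obtain ⟨b, p⟩ : Bool × Pos k := q
    rw [snoc_succ, sweep_succ, sweep_succ, top_cut, sub_cut, sweep_snoc, snoc_succ, botC_succ]

/-- Bit reversal. -/
def iota : ∀ {k : ℕ}, Pos k → Pos k
  | 0, x => x
  | k + 1, x =>
      let x' : Bool × Pos k := x
      snoc (iota x'.2) x'.1

theorem iota_snoc : ∀ {k : ℕ} (q : Pos k) (a : Bool),
    iota (snoc q a) = ((a, iota q) : Bool × Pos k)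
  | 0, _, _ => rfl
  | k + 1, q, a => by
    obtain ⟨b, p⟩ : Bool × Pos k := q
    rw [snoc_succ]
    show snoc (iota (snoc p a)) b = _
    rw [iota_snoc]
    rfl

theorem iota_iota : ∀ {k : ℕ} (x : Pos k), iota (iota x) = x
  | 0, _ => rfl
  | k + 1, x => by
    obtain ⟨b, p⟩ : Bool × Pos k := x
    show iota (snoc (iota p) b) = _
    rw [iota_snoc, iota_iota]

/-- Bit reversal as a permutation. -/
def iotaEquiv (k : ℕ) : Equiv.Perm (Pos k) where
  toFun := iota
  invFun := iota
  left_inv := iota_iota
  right_inv := iota_iota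

/-- The coin indices permutation behind `revC`. -/
def revIdx : ∀ {k : ℕ}, Idx k → Idx k
  | 0, i => i
  | k + 1, i =>
      match (i : Pos k ⊕ (Bool × Idx k)) with
      | Sum.inl r => embBot (iota r)
      | Sum.inr (a, j) => embC a (revIdx j)

theorem revIdx_injective : ∀ {k : ℕ}, Function.Injective (revIdx (k := k))
  | 0, i, _, _ => nomatch (i : Empty)
  | k + 1, x, y, h => by
    have key : ∀ z : Pos k ⊕ (Bool × Idx k), revIdx (k := k + 1) z =
        idxBot (Sum.map iota (Prod.map id revIdx) z) := by
      intro z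
      rcases z with r | ⟨a, j⟩ <;> rfl
    have h1 : revIdx (k := k + 1) x = revIdx (k := k + 1) y := h
    rw [key x, key y] at h1
    have h2 := idxBot_injective h1
    have hinj : Function.Injective
        (Sum.map (iota (k := k)) (Prod.map (id : Bool → Bool) (revIdx (k := k)))) :=
      Function.Injective.sumMap (f := iota (k := k))
        (g := Prod.map (id : Bool → Bool) (revIdx (k := k)))
        (Function.LeftInverse.injective iota_iota)
        (Function.Injective.prodMap Function.injective_id revIdx_injective)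
    exact hinj h2

theorem revIdx_bijective {k : ℕ} : Function.Bijective (revIdx (k := k)) :=
  Finite.injective_iff_bijective.1 revIdx_injective

/-- The coins of the reversed sweep. -/
def revC {k : ℕ} (T : Coins k) : Coins k := fun i => T (revIdx i)

theorem top_revC {k : ℕ} (T : Coins (k + 1)) (r : Pos k) :
    Coins.top (revC T) r = botC T (iota r) := rfl

theorem sub_revC {k : ℕ} (T : Coins (k + 1)) (a : Bool) :
    Coins.sub (revC T) a = revC (cut a T) := rfl

/-- `τ ∘ ι ∘ rev τ = ι`. -/
theorem sweep_iota_sweep_revC : ∀ {k : ℕ} (T : Coins k) (x : Pos k),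
    sweep k T (iota (sweep k (revC T) x)) = iota x
  | 0, _, _ => rfl
  | k + 1, T, x => by
    obtain ⟨a, r⟩ : Bool × Pos k := x
    rw [sweep_succ, top_revC, sub_revC]
    show sweep (k + 1) T (snoc (iota (sweep k (revC (cut (xor a (botC T (iota r))) T)) r))
      (xor a (botC T (iota r)))) = snoc (iota r) a
    rw [sweep_snoc]
    rw [sweep_iota_sweep_revC]
    simp

/-- `rev τ = ι ∘ τ⁻¹ ∘ ι`. -/
theorem sweep_revC {k : ℕ} (T : Coins k) (x : Pos k) :
    sweep k (revC T) x = iota ((sweep k T)⁻¹ (iota x)) := by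
  have h := sweep_iota_sweep_revC T x
  have h2 : iota (sweep k (revC T) x) = (sweep k T)⁻¹ (iota x) := by
    rw [← h]; simp
  rw [← h2, iota_iota]

/-- `revC` is a bijection of the coins. -/
noncomputable def revCEquiv (k : ℕ) : Coins k ≃ Coins k :=
  Equiv.arrowCongr (Equiv.ofBijective _ (revIdx_bijective (k := k))).symm (Equiv.refl Bool)

theorem revCEquiv_apply {k : ℕ} (T : Coins k) : revCEquiv k T = revC T := by
  funext i
  show T ((Equiv.ofBijective _ (revIdx_bijective (k := k))).symm.symm i) = T (revIdx i)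
  rfl

end Crest.Agent.Thorp.NF
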