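import Crest.Agent.Lib.Thorp.NearFar

/-!
# Thorp shuffle (S0222): the near trace (#850, Section 3).

`nearY U m S` is the trace over colourings supported in `S` of the collision probability of the
near part of the sweep.  Main results:
* `nearY_zero`: for `m = 0` it is `yk U k (ι S) 1`;
* `nearY_succ`: the last-bit recursion, giving `nearY_le`;
* `invCount_pow`: `N(h,S)^r` counts invariant colourings with `2^r` colours;
* `node_near_le`: the bound of the `r`-th moment of `N(h,S)` over the near coins of the children.
-/

set_option autoImplicit false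

namespace Crest.Agent.Thorp.NF

open Finset BigOperators

/-! ### averages -/

theorem avg_equiv {α β : Type*} [Fintype α] [Fintype β] (e : α ≃ β) (f : β → ℝ) :
    avg (fun a => f (e a)) = avg f := by
  unfold avg
  rw [Fintype.card_congr e, Equiv.sum_comp e f]

theorem avg_prod {α β : Type*} [Fintype α] [Fintype β] (f : α × β → ℝ) :
    avg f = avg fun a => avg fun b => f (a, b) := by
  unfold avg
  rw [Fintype.sum_prod_type, Fintype.card_prod, ← Finset.sum_div, div_div]
  push_cast
  rw [mul_comm]

theorem avg_mul {α β : Type*} [Fintype α] [Fintype β] (f : α → ℝ) (g : β → ℝ) :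
    avg (fun a => avg fun b => f a * g b) = avg f * avg g := by
  have h : ∀ a, (avg fun b => f a * g b) = f a * avg g := fun a => avg_const_mul _ _
  simp only [h]
  exact avg_mul_const _ _

/-! ### decompositions of the coins -/

/-- Top-down decomposition of the coins. -/
def topEquiv (k : ℕ) : Coins (k + 1) ≃ (Pos k → Bool) × Coins k × Coins k where
  toFun T := (Coins.top T, Coins.sub T false, Coins.sub T true)
  invFun p := Coins.mk p.1 p.2.1 p.2.2
  left_inv T := by
    funext i
    rcases (i : Pos k ⊕ (Bool × Idx k)) with p | ⟨b, j⟩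
    · rfl
    · cases b <;> rfl
  right_inv p := by
    obtain ⟨s, T0, T1⟩ := p
    rfl

theorem avg_split {k : ℕ} (e : Coins (k + 1) ≃ (Pos k → Bool) × Coins k × Coins k)
    (F : Coins k → Coins k → ℝ) :
    avg (fun T : Coins (k + 1) => F (e T).2.1 (e T).2.2) =
      avg fun T0 : Coins k => avg fun T1 : Coins k => F T0 T1 := by
  rw [avg_equiv e (fun p => F p.2.1 p.2.2), avg_prod]
  simp only
  rw [avg_const]
  rw [avg_prod]

/-- The two sub-sweeps are independent. -/
theorem avg_sub {k : ℕ} (F : Coins k → Coins k → ℝ) :
    avg (fun T : Coins (k + 1) => F (Coins.sub T false) (Coins.sub T true)) =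
      avg fun T0 : Coins k => avg fun T1 : Coins k => F T0 T1 :=
  avg_split (topEquiv k) F

/-- The bottom-up map. -/
def botMap (k : ℕ) (T : Coins (k + 1)) : (Pos k → Bool) × Coins k × Coins k :=
  (botC T, cut false T, cut true T)

theorem botMap_bijective (k : ℕ) : Function.Bijective (botMap k) := by
  rw [Fintype.bijective_iff_injective_and_card]
  refine ⟨?_, Fintype.card_congr (topEquiv k)⟩
  intro T T' h
  have h1 : botC T = botC T' := congrArg Prod.fst h
  have h2 : cut false T = cut false T' := congrArg (fun p => p.2.1) h
  have h3 : cut true T = cut true T' := congrArg (fun p => p.2.2) h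
  funext i
  obtain ⟨z, rfl⟩ := (idxBot_bijective (k := k)).2 i
  rcases z with q | ⟨a, j⟩
  · exact congrFun h1 q
  · cases a
    · exact congrFun h2 j
    · exact congrFun h3 j

/-- The bottom-up equivalence. -/
noncomputable def botEquiv (k : ℕ) : Coins (k + 1) ≃ (Pos k → Bool) × Coins k × Coins k :=
  Equiv.ofBijective _ (botMap_bijective k)

/-- The two cuts are independent. -/
theorem avg_cut {k : ℕ} (F : Coins k → Coins k → ℝ) :
    avg (fun T : Coins (k + 1) => F (cut false T) (cut true T)) =
      avg fun T0 : Coins k => avg fun T1 : Coins k => F T0 T1 :=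
  avg_split (botEquiv k) F

/-! ### near and far sweeps -/

/-- The near sweep. -/
def nr {k : ℕ} (m : ℕ) (T : Coins k) : Equiv.Perm (Pos k) := sweep k (nearC m T)

/-- The far sweep. -/
def fr {k : ℕ} (m : ℕ) (T : Coins k) : Equiv.Perm (Pos k) := sweep k (farC m T)

theorem nr_zero {k : ℕ} (T : Coins k) : nr 0 T = sweep k T := by
  unfold nr
  congr 1
  funext i
  simp [nearC, lev_pos k i]

theorem nr_snoc {k : ℕ} (m : ℕ) (T : Coins (k + 1)) (q : Pos k) (a : Bool) :
    nr (m + 1) T (snoc q a) = snoc (nr m (cut a T) q) a := by
  have h1 : cut a (nearC (m + 1) T) = nearC m (cut a T) := by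
    funext i
    simp only [cut, nearC, lev_embC]
    by_cases h : m < lev k i
    · rw [if_pos h, if_pos (by omega)]
    · rw [if_neg h, if_neg (by omega)]
  have h2 : ∀ x, botC (nearC (m + 1) T) x = false := by
    intro x
    simp only [botC, nearC, lev_embBot]
    exact if_neg (by omega)
  unfold nr
  rw [sweep_snoc, h1, h2]
  simp

/-! ### the near trace -/

section Trace

variable {U : Type} [DecidableEq U]

/-- Collision probability of the near sweep on a colouring. -/
noncomputable def nearColl {k : ℕ} (m : ℕ) (c : Color U k) : ℝ :=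
  avg fun T : Coins k => avg fun T' : Coins k =>
    if (fun x => c (nr m T x)) = (fun x => c (nr m T' x)) then (1 : ℝ) else 0

theorem nearColl_nonneg {k : ℕ} (m : ℕ) (c : Color U k) : 0 ≤ nearColl m c :=
  avg_nonneg fun _ => avg_nonneg fun _ => by split_ifs <;> norm_num

variable [Fintype U]

/-- The near trace. -/
noncomputable def nearY (U : Type) [Fintype U] [DecidableEq U] {k : ℕ} (m : ℕ)
    (S : Finset (Pos k)) : ℝ :=
  ∑ c : Color U k, if csupp c ⊆ S then nearColl m c else 0

theorem nearY_nonneg {k : ℕ} (m : ℕ) (S : Finset (Pos k)) : 0 ≤ nearY U m S :=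
  Finset.sum_nonneg fun c _ => by
    split_ifs
    · exact nearColl_nonneg m c
    · exact le_rfl

/-- Precomposition of a colouring with a permutation. -/
def colorComp {k : ℕ} (A : Equiv.Perm (Pos k)) : Color U k ≃ Color U k where
  toFun c := fun x => c (A x)
  invFun c := fun x => c (A⁻¹ x)
  left_inv c := by funext x; simp
  right_inv c := by funext x; simp

omit [DecidableEq U] [Fintype U] in
theorem csupp_comp_subset {k : ℕ} (A : Equiv.Perm (Pos k)) (c : Color U k) (S : Finset (Pos k)) :
    csupp (fun x => c (A x)) ⊆ S.image (⇑(A⁻¹)) ↔ csupp c ⊆ S := by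
  constructor
  · intro h x hx
    have hx' : (c x).isSome := by simpa [csupp] using hx
    have : (A⁻¹ : Equiv.Perm (Pos k)) x ∈ csupp (fun x => c (A x)) := by simpa [csupp] using hx'
    obtain ⟨y, hy, hyx⟩ := Finset.mem_image.1 (h this)
    have : y = x := (A⁻¹).injective hyx
    exact this ▸ hy
  · intro h x hx
    have hx' : (c (A x)).isSome := by simpa [csupp] using hx
    have : A x ∈ csupp c := by simpa [csupp] using hx'
    exact Finset.mem_image.2 ⟨A x, h this, by simp⟩

/-- A change of variables in the near trace. -/
theorem nearY_comp {k : ℕ} (m : ℕ) (A : Equiv.Perm (Pos k)) (S : Finset (Pos k)) :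
    (∑ c : Color U k, if csupp c ⊆ S then nearColl m (fun x => c (A x)) else 0) =
      nearY U m (S.image (⇑(A⁻¹))) := by
  unfold nearY
  rw [← Equiv.sum_comp (colorComp A)
    (fun c : Color U k => if csupp c ⊆ S.image (⇑(A⁻¹)) then nearColl m c else 0)]
  refine Finset.sum_congr rfl fun c _ => ?_
  show _ = if csupp (fun x => c (A x)) ⊆ S.image (⇑(A⁻¹)) then nearColl m (fun x => c (A x)) else 0
  simp only [csupp_comp_subset]

/-! #### base case `m = 0` -/

theorem nearColl_zero {k : ℕ} (c : Color U k) :
    nearColl 0 c = coll k (fun x => c (iota x)) (fun x => c (iota x)) := by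
  have e : ∀ (F : Coins k → ℝ), avg F = avg (fun T => F (revC T)) := fun F => by
    rw [← avg_equiv (revCEquiv k) F]
    simp only [revCEquiv_apply]
  unfold nearColl coll
  rw [e]
  refine congrArg avg (funext fun T => ?_)
  rw [e]
  refine congrArg avg (funext fun T' => ?_)
  refine if_congr ?_ rfl rfl
  simp only [nr_zero]
  constructor
  · intro h
    funext x
    have h1 := congrFun h (iota (sweep k T' x))
    simp only [sweep_revC, iota_iota] at h1
    simp only [gOf, mul_inv_rev, inv_inv, Equiv.Perm.coe_mul, Function.comp_apply]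
    rw [h1]
    simp
  · intro h
    funext x
    have h1 := congrFun h ((sweep k T')⁻¹ (iota x))
    simp only [gOf, mul_inv_rev, inv_inv, Equiv.Perm.coe_mul, Function.comp_apply] at h1
    simp only [sweep_revC]
    rw [← h1]
    simp

theorem nearY_zero {k : ℕ} (S : Finset (Pos k)) :
    nearY U 0 S = yk U k (S.image (⇑(iotaEquiv k))) 1 := by
  unfold nearY yk
  rw [← Equiv.sum_comp (colorComp (iotaEquiv k))
    (fun c : Color U k => if csupp c ⊆ S.image (⇑(iotaEquiv k)) then
      (1 : ℝ) ^ (csupp c).card * coll k c c else 0)]
  refine Finset.sum_congr rfl fun c _ => ?_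
  show (if csupp c ⊆ S then nearColl 0 c else 0) =
    if csupp (fun x => c (iota x)) ⊆ S.image (⇑(iotaEquiv k)) then
      (1 : ℝ) ^ (csupp (fun x => c (iota x))).card *
        coll k (fun x => c (iota x)) (fun x => c (iota x)) else 0
  have h1 : csupp (fun x => c (iota x)) ⊆ S.image (⇑(iotaEquiv k)) ↔ csupp c ⊆ S :=
    csupp_comp_subset (iotaEquiv k) c S
  by_cases hc : csupp c ⊆ S
  · rw [if_pos hc, if_pos (h1.2 hc), one_pow, one_mul, nearColl_zero]
  · rw [if_neg hc, if_neg (fun h => hc (h1.1 h))]

/-! #### the last-bit recursion -/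

/-- Restriction of a colouring to the last bit `a`. -/
def snocC {k : ℕ} (c : Color U (k + 1)) (a : Bool) : Color U k := fun q => c (snoc q a)

theorem avg_cut_mul {k : ℕ} (f g : Coins k → ℝ) :
    avg (fun T : Coins (k + 1) => f (cut false T) * g (cut true T)) = avg f * avg g := by
  rw [avg_cut (fun a b => f a * g b), avg_mul]

omit [Fintype U] in
theorem nearColl_succ {k : ℕ} (m : ℕ) (c : Color U (k + 1)) :
    nearColl (m + 1) c = nearColl m (snocC c false) * nearColl m (snocC c true) := by
  let I : Bool → Coins k → Coins k → ℝ := fun a A B =>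
    if (fun q => snocC c a (nr m A q)) = (fun q => snocC c a (nr m B q)) then (1 : ℝ) else 0
  have hI : ∀ T T' : Coins (k + 1),
      (if (fun x => c (nr (m + 1) T x)) = (fun x => c (nr (m + 1) T' x)) then (1 : ℝ) else 0) =
        I false (cut false T) (cut false T') * I true (cut true T) (cut true T') := by
    intro T T'
    have hiff : (fun x => c (nr (m + 1) T x)) = (fun x => c (nr (m + 1) T' x)) ↔
        ((fun q => snocC c false (nr m (cut false T) q)) =
            (fun q => snocC c false (nr m (cut false T') q))) ∧
        ((fun q => snocC c true (nr m (cut true T) q)) =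
            (fun q => snocC c true (nr m (cut true T') q))) := by
      constructor
      · intro h
        constructor
        · funext q
          have := congrFun h (snoc q false)
          simpa only [nr_snoc, snocC] using this
        · funext q
          have := congrFun h (snoc q true)
          simpa only [nr_snoc, snocC] using this
      · rintro ⟨h0, h1⟩
        funext x
        obtain ⟨q, a, rfl⟩ := snoc_surjective x
        cases a
        · have := congrFun h0 q
          simpa only [nr_snoc, snocC] using this
        · have := congrFun h1 q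
          simpa only [nr_snoc, snocC] using this
    simp only [I]
    by_cases h : (fun x => c (nr (m + 1) T x)) = (fun x => c (nr (m + 1) T' x))
    · rw [if_pos h, if_pos (hiff.1 h).1, if_pos (hiff.1 h).2, one_mul]
    · rw [if_neg h]
      by_cases h0 : (fun q => snocC c false (nr m (cut false T) q)) =
          (fun q => snocC c false (nr m (cut false T') q))
      · have h1 : ¬ ((fun q => snocC c true (nr m (cut true T) q)) =
            (fun q => snocC c true (nr m (cut true T') q))) := fun h1 => h (hiff.2 ⟨h0, h1⟩)
        rw [if_neg h1, mul_zero]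
      · rw [if_neg h0, zero_mul]
  unfold nearColl
  simp only [hI]
  have hin : ∀ T : Coins (k + 1), (avg fun T' : Coins (k + 1) =>
      I false (cut false T) (cut false T') * I true (cut true T) (cut true T')) =
      (avg fun B => I false (cut false T) B) * (avg fun B => I true (cut true T) B) :=
    fun T => avg_cut_mul _ _
  simp only [hin]
  exact avg_cut_mul (fun A => avg fun B => I false A B) (fun A => avg fun B => I true A B)

/-- The slice of a set of positions at last bit `a`. -/
def slice {k : ℕ} (S : Finset (Pos (k + 1))) (a : Bool) : Finset (Pos k) :=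
  Finset.univ.filter fun q => snoc q a ∈ S

theorem card_slice {k : ℕ} (S : Finset (Pos (k + 1))) :
    (slice S false).card + (slice S true).card = S.card := by
  have h1 : (S.card : ℕ) = ∑ x : Pos (k + 1), if x ∈ S then 1 else 0 := by
    rw [Finset.sum_ite_mem]; simp
  rw [h1, ← Equiv.sum_comp (snocEquiv k), Fintype.sum_prod_type]
  simp only [Fintype.sum_bool]
  show _ = ∑ x : Pos k, ((if snoc x true ∈ S then 1 else 0) + if snoc x false ∈ S then 1 else 0)
  rw [Finset.sum_add_distrib, add_comm]
  unfold slice
  rw [Finset.card_filter, Finset.card_filter]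

/-- Colourings on `Pos (k+1)` are pairs of colourings on `Pos k`. -/
noncomputable def colorSplit (k : ℕ) : Color U (k + 1) ≃ Color U k × Color U k where
  toFun c := (snocC c false, snocC c true)
  invFun p := fun x =>
    let z := (snocEquiv k).symm x
    if z.2 then p.2 z.1 else p.1 z.1
  left_inv c := by
    funext x
    obtain ⟨q, a, rfl⟩ := snoc_surjective x
    have : (snocEquiv k).symm (snoc q a) = (q, a) := (snocEquiv k).symm_apply_apply (q, a)
    simp only [this]
    cases a <;> rfl
  right_inv p := by
    obtain ⟨c0, c1⟩ := p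
    have h : ∀ (q : Pos k) (a : Bool), (snocEquiv k).symm (snoc q a) = (q, a) := fun q a =>
      (snocEquiv k).symm_apply_apply (q, a)
    refine Prod.ext ?_ ?_
    · funext q
      simp [snocC, h]
    · funext q
      simp [snocC, h]

omit [DecidableEq U] [Fintype U] in
theorem csupp_subset_iff {k : ℕ} (c : Color U (k + 1)) (S : Finset (Pos (k + 1))) :
    csupp c ⊆ S ↔ csupp (snocC c false) ⊆ slice S false ∧ csupp (snocC c true) ⊆ slice S true := by
  have hmem : ∀ (a : Bool) (q : Pos k), q ∈ csupp (snocC c a) ↔ snoc q a ∈ csupp c := by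
    intro a q
    simp [csupp, snocC]
  constructor
  · intro h
    constructor
    · intro q hq
      simp only [slice, Finset.mem_filter, Finset.mem_univ, true_and]
      exact h ((hmem _ _).1 hq)
    · intro q hq
      simp only [slice, Finset.mem_filter, Finset.mem_univ, true_and]
      exact h ((hmem _ _).1 hq)
  · rintro ⟨h0, h1⟩ x hx
    obtain ⟨q, a, rfl⟩ := snoc_surjective x
    cases a
    · have := h0 ((hmem _ _).2 hx)
      simpa [slice] using this
    · have := h1 ((hmem _ _).2 hx)
      simpa [slice] using this

theorem nearY_succ {k : ℕ} (m : ℕ) (S : Finset (Pos (k + 1))) :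
    nearY U (m + 1) S = nearY U m (slice S false) * nearY U m (slice S true) := by
  unfold nearY
  rw [← Equiv.sum_comp (colorSplit (U := U) k).symm, Fintype.sum_prod_type, Finset.sum_mul_sum]
  refine Finset.sum_congr rfl fun c0 _ => Finset.sum_congr rfl fun c1 _ => ?_
  set c := (colorSplit (U := U) k).symm (c0, c1) with hc
  have h0 : snocC c false = c0 := by
    have := (colorSplit (U := U) k).apply_symm_apply (c0, c1)
    exact congrArg Prod.fst this
  have h1 : snocC c true = c1 := by
    have := (colorSplit (U := U) k).apply_symm_apply (c0, c1)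
    exact congrArg Prod.snd this
  rw [nearColl_succ, h0, h1]
  by_cases hh : csupp c ⊆ S
  · have := (csupp_subset_iff c S).1 hh
    rw [h0, h1] at this
    rw [if_pos hh, if_pos this.1, if_pos this.2]
  · rw [if_neg hh]
    have hnot := mt (csupp_subset_iff c S).2 hh
    rw [h0, h1] at hnot
    by_cases h2 : csupp c0 ⊆ slice S false
    · have h3 : ¬ csupp c1 ⊆ slice S true := fun h3 => hnot ⟨h2, h3⟩
      rw [if_neg h3, mul_zero]
    · rw [if_neg h2, zero_mul]

/-- The near trace of `m` low bits is controlled by the full trace on the top bits. -/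
theorem nearY_le (K : ℕ) (W : ℝ)
    (h0 : ∀ S : Finset (Pos K), nearY U 0 S ≤ Real.exp ((S.card : ℝ) * W)) :
    ∀ (m : ℕ) (S : Finset (Pos (K + m))), nearY U m S ≤ Real.exp ((S.card : ℝ) * W) := by
  intro m
  induction m with
  | zero => exact h0
  | succ m ih =>
    intro S
    have hS : (S.card : ℝ) = ((slice S false).card : ℝ) + ((slice S true).card : ℝ) := by
      rw [← Nat.cast_add, card_slice]
    have h1 := nearY_succ (U := U) m S
    rw [h1, hS, add_mul, Real.exp_add]
    exact mul_le_mul (ih _) (ih _) (nearY_nonneg _ _) (Real.exp_pos _).le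

end Trace

/-! ### invariant colourings -/

section Count

variable {U : Type} [Fintype U] [DecidableEq U]

/-- `N(h,S)^r` counts the `h`-invariant colourings supported in `S`, with `2^r` colours. -/
theorem invCount_pow {k r : ℕ} (ε : Option U ≃ (Fin r → Bool)) (hε : ε none = fun _ => false)
    (h : Equiv.Perm (Pos k)) (S : Finset (Pos k)) :
    (invCount h S) ^ r =
      (Finset.univ.filter fun c : Color U k => csupp c ⊆ S ∧ (fun x => c (h x)) = c).card := by
  classical
  unfold invCount
  set G := S.powerset.filter fun Z => Z.image h = Z with hG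
  have hcard : G.card ^ r = (Fintype.piFinset fun _ : Fin r => G).card := by
    rw [Fintype.card_piFinset_const]
  rw [hcard]
  symm
  have hmemG : ∀ Z : Finset (Pos k), Z ∈ G ↔ Z ⊆ S ∧ Z.image h = Z := by
    intro Z
    simp [hG, Finset.mem_powerset]
  have hsome : ∀ o : Option U, o.isSome = true ↔ ε o ≠ fun _ => false := by
    intro o
    constructor
    · intro ho hzero
      rw [← hε] at hzero
      have := ε.injective hzero
      subst this
      simp at ho
    · intro ho
      cases o with
      | none => exact absurd hε ho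
      | some u => rfl
  refine Finset.card_bij (fun c _ i => Finset.univ.filter fun x => ε (c x) i = true) ?_ ?_ ?_
  · -- membership
    intro c hc
    obtain ⟨h1, h2⟩ := (Finset.mem_filter.1 hc).2
    refine Fintype.mem_piFinset.2 fun i => (hmemG _).2 ⟨?_, ?_⟩
    · intro x hx
      have hx1 : ε (c x) i = true := (Finset.mem_filter.1 hx).2
      refine h1 ?_
      simp only [csupp, Finset.mem_filter, Finset.mem_univ, true_and]
      refine (hsome _).2 fun h0 => ?_
      rw [h0] at hx1
      simp at hx1
    · ext y
      simp only [Finset.mem_image, Finset.mem_filter, Finset.mem_univ, true_and]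
      constructor
      · rintro ⟨x, hx, rfl⟩
        have := congrFun h2 x
        rw [this]
        exact hx
      · intro hy
        refine ⟨(h⁻¹ : Equiv.Perm (Pos k)) y, ?_, by simp⟩
        have := congrFun h2 ((h⁻¹ : Equiv.Perm (Pos k)) y)
        simp only [Equiv.Perm.coe_inv, Equiv.apply_symm_apply] at this
        simp only [Equiv.Perm.coe_inv]
        rw [← this]
        exact hy
  · -- injective
    intro c _ c' _ hcc
    funext x
    apply ε.injective
    funext i
    have h1 := congrFun hcc i
    have h2 : x ∈ (Finset.univ.filter fun x => ε (c x) i = true) ↔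
        x ∈ (Finset.univ.filter fun x => ε (c' x) i = true) := by
      rw [h1]
    simp only [Finset.mem_filter, Finset.mem_univ, true_and] at h2
    cases h3 : ε (c x) i
    · cases h4 : ε (c' x) i
      · rfl
      · have := h2.2 h4
        rw [h3] at this
        simp at this
    · exact (h2.1 h3).symm
  · -- surjective
    intro Z hZ
    have hZ' := fun i => (hmemG _).1 (Fintype.mem_piFinset.1 hZ i)
    refine ⟨fun x => ε.symm (fun i => decide (x ∈ Z i)), ?_, ?_⟩
    · simp only [Finset.mem_filter, Finset.mem_univ, true_and]
      constructor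
      · intro x hx
        simp only [csupp, Finset.mem_filter, Finset.mem_univ, true_and] at hx
        have h1 := (hsome _).1 hx
        simp only [Equiv.apply_symm_apply] at h1
        by_contra hxS
        apply h1
        funext i
        have : x ∉ Z i := fun hxi => hxS ((hZ' i).1 hxi)
        simp [this]
      · funext x
        congr 1
        funext i
        have hiff : h x ∈ Z i ↔ x ∈ Z i := by
          constructor
          · intro hx
            rw [← (hZ' i).2] at hx
            obtain ⟨z, hz, hzx⟩ := Finset.mem_image.1 hx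
            have := h.injective hzx
            exact this ▸ hz
          · intro hx
            rw [← (hZ' i).2]
            exact Finset.mem_image_of_mem _ hx
        simp [hiff]
    · funext i
      ext x
      simp

end Count

/-! ### The pairing and Cauchy-Schwarz -/

section Pairing

variable {U : Type} [Fintype U] [DecidableEq U]

/-- `v_a(e) = P(a ∘ near = e)`. -/
noncomputable def vnear {k : ℕ} (m : ℕ) (a e : Color U k) : ℝ :=
  avg fun y : Coins k => if (fun x => a (nr m y x)) = e then (1 : ℝ) else 0

theorem avg_pair {k : ℕ} (m : ℕ) (a b : Color U k) :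
    (avg fun y0 : Coins k => avg fun y1 : Coins k =>
      if (fun x => a (nr m y0 x)) = (fun x => b (nr m y1 x)) then (1 : ℝ) else 0) =
      ∑ e : Color U k, vnear m a e * vnear m b e := by
  have h1 : ∀ e : Color U k, vnear m a e * vnear m b e =
      avg fun y0 : Coins k => avg fun y1 : Coins k =>
        (if (fun x => a (nr m y0 x)) = e then (1 : ℝ) else 0) *
          (if (fun x => b (nr m y1 x)) = e then (1 : ℝ) else 0) := by
    intro e
    rw [avg_mul]
    rfl
  simp only [h1]
  rw [← avg_sum]
  refine congrArg avg (funext fun y0 => ?_)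
  rw [← avg_sum]
  refine congrArg avg (funext fun y1 => ?_)
  rw [Finset.sum_eq_single (fun x => a (nr m y0 x))]
  · simp only [if_true, one_mul]
    simp only [eq_comm]
  · intro e _ he
    rw [if_neg (Ne.symm he), zero_mul]
  · intro h
    exact absurd (Finset.mem_univ _) h

theorem nearColl_eq_sum {k : ℕ} (m : ℕ) (a : Color U k) :
    nearColl m a = ∑ e : Color U k, vnear m a e ^ 2 := by
  simp only [sq]
  exact avg_pair m a a

/-- The invariance condition in terms of the two near sweeps. -/
theorem inv_iff {k : ℕ} (c : Color U k) (A0 A1 n0 n1 : Equiv.Perm (Pos k)) :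
    (fun x => c ((A0 * n0 * n1⁻¹ * A1⁻¹) x)) = c ↔
      (fun x => (fun z => c (A0 z)) (n0 x)) = (fun x => (fun z => c (A1 z)) (n1 x)) := by
  constructor
  · intro h
    funext x
    have := congrFun h (A1 (n1 x))
    simpa using this
  · intro h
    funext x
    have := congrFun h ((n1⁻¹ : Equiv.Perm (Pos k)) ((A1⁻¹ : Equiv.Perm (Pos k)) x))
    simpa using this

/-- The moment bound at a node over the near coins of the children. -/
theorem node_near_le {k r : ℕ} (ε : Option U ≃ (Fin r → Bool)) (hε : ε none = fun _ => false)
    (m : ℕ) (W : ℝ) (hY : ∀ S : Finset (Pos k), nearY U m S ≤ Real.exp ((S.card : ℝ) * W))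
    (A0 A1 : Equiv.Perm (Pos k)) (S : Finset (Pos k)) :
    (avg fun y0 : Coins k => avg fun y1 : Coins k =>
      ((invCount (A0 * nr m y0 * (nr m y1)⁻¹ * A1⁻¹) S : ℕ) : ℝ) ^ r) ≤
      Real.exp ((S.card : ℝ) * W) := by
  classical
  set C : Finset (Color U k) := Finset.univ.filter fun c => csupp c ⊆ S with hC
  have h1 : ∀ y0 y1 : Coins k,
      ((invCount (A0 * nr m y0 * (nr m y1)⁻¹ * A1⁻¹) S : ℕ) : ℝ) ^ r =
      ∑ c ∈ C, if (fun x => (fun z => c (A0 z)) (nr m y0 x)) =
          (fun x => (fun z => c (A1 z)) (nr m y1 x)) then (1 : ℝ) else 0 := by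
    intro y0 y1
    rw [← Nat.cast_pow, invCount_pow ε hε, Finset.card_filter, Nat.cast_sum, hC,
      Finset.sum_filter]
    refine Finset.sum_congr rfl fun c _ => ?_
    by_cases hc : csupp c ⊆ S
    · simp only [hc, true_and, if_true]
      by_cases h2 : (fun x => c ((A0 * nr m y0 * (nr m y1)⁻¹ * A1⁻¹) x)) = c
      · rw [if_pos h2, if_pos ((inv_iff c A0 A1 _ _).1 h2)]
        simp
      · rw [if_neg h2, if_neg (fun h3 => h2 ((inv_iff c A0 A1 _ _).2 h3))]
        simp
    · simp [hc]
  simp only [h1]
  have h2 : (avg fun y0 : Coins k => avg fun y1 : Coins k =>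
      ∑ c ∈ C, if (fun x => (fun z => c (A0 z)) (nr m y0 x)) =
          (fun x => (fun z => c (A1 z)) (nr m y1 x)) then (1 : ℝ) else 0) =
      ∑ c ∈ C, ∑ e : Color U k, vnear m (fun z => c (A0 z)) e * vnear m (fun z => c (A1 z)) e := by
    simp only [avg_sum, ← avg_pair]
  rw [h2, ← Finset.sum_product']
  refine (Real.sum_mul_le_sqrt_mul_sqrt _ _ _).trans ?_
  rw [Finset.sum_product (f := fun i : Color U k × Color U k => vnear m (fun z => i.1 (A0 z)) i.2 ^ 2),
    Finset.sum_product (f := fun i : Color U k × Color U k => vnear m (fun z => i.1 (A1 z)) i.2 ^ 2)]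
  have h3 : ∀ A : Equiv.Perm (Pos k),
      (∑ c ∈ C, ∑ e : Color U k, vnear m (fun z => c (A z)) e ^ 2) ≤
        Real.exp ((S.card : ℝ) * W) := by
    intro A
    have h4 : (∑ c ∈ C, ∑ e : Color U k, vnear m (fun z => c (A z)) e ^ 2) =
        nearY U m (S.image (⇑(A⁻¹))) := by
      rw [← nearY_comp, hC, Finset.sum_filter]
      refine Finset.sum_congr rfl fun c _ => ?_
      by_cases hc : csupp c ⊆ S
      · rw [if_pos hc, if_pos hc, nearColl_eq_sum]
      · rw [if_neg hc, if_neg hc]
    rw [h4]
    refine (hY _).trans (le_of_eq ?_)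
    rw [Finset.card_image_of_injective _ (A⁻¹).injective]
  have hE : Real.exp ((S.card : ℝ) * W) =
      Real.sqrt (Real.exp ((S.card : ℝ) * W)) * Real.sqrt (Real.exp ((S.card : ℝ) * W)) :=
    (Real.mul_self_sqrt (Real.exp_pos _).le).symm
  rw [hE]
  exact mul_le_mul (Real.sqrt_le_sqrt (h3 A0)) (Real.sqrt_le_sqrt (h3 A1))
    (Real.sqrt_nonneg _) (Real.sqrt_nonneg _)

end Pairing

end Crest.Agent.Thorp.NF
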