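import Mathlib

/-!
# Thorp shuffle (S0222), numerics: the sequence `U_k(ρ)` of #850 for `R = 2`.
-/

set_option autoImplicit false

namespace Crest.Agent.Thorp.Numerics

/-- The weight `rt` of #850 (R6). -/
noncomputable def rtOf (k : ℕ) (ρ Uρ : ℝ) : ℝ :=
  min 1 (ρ + (1 - ρ) * ((Uρ - 1 - ρ / 2) / 2 ^ k))

/-- `U_0(ρ) = 1 + ρ`, `U_{k+1}(ρ) = (1 - rt) U_k(ρ/2)^2 + rt U_k(ρ) U_k(ρ/2)` with
`rt = min(1, ρ + (1-ρ) 2^{-k} (U_k(ρ) - 1 - ρ/2))`. -/
noncomputable def U : ℕ → ℝ → ℝ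
  | 0, ρ => 1 + ρ
  | k + 1, ρ =>
      (1 - rtOf k ρ (U k ρ)) * (U k (ρ / 2)) ^ 2 + rtOf k ρ (U k ρ) * U k ρ * U k (ρ / 2)

theorem U_zero (ρ : ℝ) : U 0 ρ = 1 + ρ := rfl

theorem U_succ (k : ℕ) (ρ : ℝ) :
    U (k + 1) ρ = (1 - rtOf k ρ (U k ρ)) * (U k (ρ / 2)) ^ 2 + rtOf k ρ (U k ρ) * U k ρ * U k (ρ / 2) :=
  rfl

theorem rtOf_le_one (k : ℕ) (ρ x : ℝ) : rtOf k ρ x ≤ 1 := min_le_left _ _

theorem rtOf_nonneg (k : ℕ) {ρ x : ℝ} (h0 : 0 ≤ ρ) (h1 : ρ ≤ 1) (hx : 1 + ρ ≤ x) :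
    0 ≤ rtOf k ρ x := by
  unfold rtOf
  refine le_min zero_le_one ?_
  have h2 : 0 ≤ (x - 1 - ρ / 2) / 2 ^ k := by
    apply div_nonneg _ (by positivity)
    linarith
  have h3 : 0 ≤ (1 - ρ) * ((x - 1 - ρ / 2) / 2 ^ k) := mul_nonneg (by linarith) h2
  linarith

/-- Lower bound `1 + ρ ≤ U_k(ρ)`. -/
theorem one_add_le_U : ∀ (k : ℕ) (ρ : ℝ), 0 ≤ ρ → ρ ≤ 1 → 1 + ρ ≤ U k ρ
  | 0, ρ, _, _ => le_of_eq rfl
  | k + 1, ρ, h0, h1 => by
      have hu := one_add_le_U k ρ h0 h1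
      have hu' := one_add_le_U k (ρ / 2) (by linarith) (by linarith)
      have hr0 := rtOf_nonneg k h0 h1 hu
      have hr1 := rtOf_le_one k ρ (U k ρ)
      rw [U_succ]
      set r := rtOf k ρ (U k ρ)
      set u := U k ρ
      set v := U k (ρ / 2)
      have hv0 : 0 ≤ v := by linarith
      have key : (1 + ρ / 2) * (1 + ρ / 2) ≤ (1 - r) * v ^ 2 + r * u * v := by
        have h3 : (1 + ρ / 2) ≤ (1 - r) * v + r * u := by
          have : (1 + ρ / 2) = (1 - r) * (1 + ρ / 2) + r * (1 + ρ / 2) := by ring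
          rw [this]
          have h4 : (1 - r) * (1 + ρ / 2) ≤ (1 - r) * v :=
            mul_le_mul_of_nonneg_left hu' (by linarith)
          have h5 : r * (1 + ρ / 2) ≤ r * u :=
            mul_le_mul_of_nonneg_left (by linarith) hr0
          linarith
        have h6 : (1 - r) * v ^ 2 + r * u * v = v * ((1 - r) * v + r * u) := by ring
        rw [h6]
        exact mul_le_mul hu' h3 (by linarith) hv0
      nlinarith [key, sq_nonneg ρ]

theorem U_pos (k : ℕ) {ρ : ℝ} (h0 : 0 ≤ ρ) (h1 : ρ ≤ 1) : 0 < U k ρ := by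
  have := one_add_le_U k ρ h0 h1
  linarith

/-- One step upper bound: from `U_k(ρ) ≤ A`, `U_k(ρ/2) ≤ B`, `B ≤ A`, and `rt ≤ r ≤ 1`. -/
theorem U_succ_le (k : ℕ) {ρ A B r : ℝ} (h0 : 0 ≤ ρ) (h1 : ρ ≤ 1)
    (hA : U k ρ ≤ A) (hB : U k (ρ / 2) ≤ B) (hBA : B ≤ A)
    (hr : rtOf k ρ (U k ρ) ≤ r) (hr1 : r ≤ 1) :
    U (k + 1) ρ ≤ B * ((1 - r) * B + r * A) := by
  have hu := one_add_le_U k ρ h0 h1
  have hu' := one_add_le_U k (ρ / 2) (by linarith) (by linarith)
  have hr0 := rtOf_nonneg k h0 h1 hu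
  have hr1' := rtOf_le_one k ρ (U k ρ)
  rw [U_succ]
  set t := rtOf k ρ (U k ρ)
  set u := U k ρ
  set v := U k (ρ / 2)
  have hv0 : 0 ≤ v := by linarith
  have hB0 : 0 ≤ B := le_trans hv0 hB
  have h6 : (1 - t) * v ^ 2 + t * u * v = v * ((1 - t) * v + t * u) := by ring
  rw [h6]
  have h7 : (1 - t) * v + t * u ≤ (1 - t) * B + t * A := by
    have h8 : (1 - t) * v ≤ (1 - t) * B := mul_le_mul_of_nonneg_left hB (by linarith)
    have h9 : t * u ≤ t * A := mul_le_mul_of_nonneg_left hA hr0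
    linarith
  have h10 : (1 - t) * B + t * A ≤ (1 - r) * B + r * A := by
    have : (1 - r) * B + r * A - ((1 - t) * B + t * A) = (r - t) * (A - B) := by ring
    have h11 : 0 ≤ (r - t) * (A - B) := mul_nonneg (by linarith) (by linarith)
    linarith
  have h12 : 0 ≤ (1 - t) * v + t * u :=
    add_nonneg (mul_nonneg (by linarith) hv0) (mul_nonneg hr0 (by linarith))
  exact mul_le_mul hB (le_trans h7 h10) h12 hB0

/-- Bound for `rtOf` from an upper bound on `U_k(ρ)`. -/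
theorem rtOf_le_of_le (k : ℕ) {ρ x A r : ℝ} (h1 : ρ ≤ 1) (hx : x ≤ A)
    (hr : ρ + (1 - ρ) * ((A - 1 - ρ / 2) / 2 ^ k) ≤ r) : rtOf k ρ x ≤ r := by
  unfold rtOf
  refine le_trans (min_le_right _ _) (le_trans ?_ hr)
  have h2 : (x - 1 - ρ / 2) / 2 ^ k ≤ (A - 1 - ρ / 2) / 2 ^ k :=
    div_le_div_of_nonneg_right (by linarith) (by positivity)
  have h3 := mul_le_mul_of_nonneg_left h2 (by linarith : (0:ℝ) ≤ 1 - ρ)
  linarith

/-- At `ρ = 1`: `U_{k+1}(1) = U_k(1) U_k(1/2)`. -/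
theorem U_succ_one (k : ℕ) : U (k + 1) 1 = U k 1 * U k (1 / 2) := by
  rw [U_succ]
  have hu := one_add_le_U k 1 zero_le_one le_rfl
  have hr : rtOf k 1 (U k 1) = 1 := by
    unfold rtOf
    simp
  rw [hr]
  ring


/-! ### Closed form bound for small `ρ` -/

theorem U_le_closed : ∀ (k : ℕ) (ρ : ℝ), 0 ≤ ρ → ρ ≤ 1 / 16 → U k ρ ≤ 1 + ρ + 3 * ρ ^ 2
  | 0, ρ, h0, _ => by
      rw [U_zero]; nlinarith [sq_nonneg ρ]
  | k + 1, ρ, h0, h1 => by
      have hA := U_le_closed k ρ h0 h1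
      have hB := U_le_closed k (ρ / 2) (by linarith) (by linarith)
      have hBA : 1 + ρ / 2 + 3 * (ρ / 2) ^ 2 ≤ 1 + ρ + 3 * ρ ^ 2 := by nlinarith [sq_nonneg ρ]
      have hr : rtOf k ρ (U k ρ) ≤ 3 / 2 * ρ + 3 * ρ ^ 2 := by
        refine rtOf_le_of_le k (by linarith) hA ?_
        have h2 : 0 ≤ 1 + ρ + 3 * ρ ^ 2 - 1 - ρ / 2 := by nlinarith [sq_nonneg ρ]
        have h3 : (1 + ρ + 3 * ρ ^ 2 - 1 - ρ / 2) / 2 ^ k ≤ 1 + ρ + 3 * ρ ^ 2 - 1 - ρ / 2 :=
          div_le_self h2 (one_le_pow₀ (by norm_num))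
        have h4 : (1 - ρ) * ((1 + ρ + 3 * ρ ^ 2 - 1 - ρ / 2) / 2 ^ k) ≤
            (1 + ρ + 3 * ρ ^ 2 - 1 - ρ / 2) := by
          have h5 : 0 ≤ (1 + ρ + 3 * ρ ^ 2 - 1 - ρ / 2) / 2 ^ k := div_nonneg h2 (by positivity)
          nlinarith
        nlinarith
      have hr1 : 3 / 2 * ρ + 3 * ρ ^ 2 ≤ 1 := by nlinarith
      refine le_trans (U_succ_le k h0 (by linarith) hA hB hBA hr hr1) ?_
      have key : 1 + ρ + 3 * ρ ^ 2 -
          (1 + ρ / 2 + 3 * (ρ / 2) ^ 2) * ((1 - (3 / 2 * ρ + 3 * ρ ^ 2)) * (1 + ρ / 2 + 3 * (ρ / 2) ^ 2)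
            + (3 / 2 * ρ + 3 * ρ ^ 2) * (1 + ρ + 3 * ρ ^ 2))
          = ρ ^ 2 * (1 / 2 - 6 * ρ - 165 / 16 * ρ ^ 2 - 225 / 32 * ρ ^ 3 - 81 / 16 * ρ ^ 4) := by ring
      have h6 : 0 ≤ 1 / 2 - 6 * ρ - 165 / 16 * ρ ^ 2 - 225 / 32 * ρ ^ 3 - 81 / 16 * ρ ^ 4 := by
        have h7 : ρ ^ 2 ≤ 1 / 256 := by nlinarith
        have h8 : ρ ^ 3 ≤ 1 / 4096 := by nlinarith [pow_nonneg h0 2]
        have h9 : ρ ^ 4 ≤ 1 / 65536 := by nlinarith [pow_nonneg h0 2]
        linarith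
      have h10 := mul_nonneg (sq_nonneg ρ) h6
      linarith

theorem bot6 (k : ℕ) : U k (1 / 64) ≤ 4163 / 4096 := by
  have := U_le_closed k (1 / 64) (by norm_num) (by norm_num)
  refine le_trans this ?_
  norm_num

/-! ### Table (generated) -/

theorem T0_1 : U 0 (1 / 2) ≤ (3/2) := by rw [U_zero]; norm_num

theorem T0_2 : U 0 (1 / 4) ≤ (5/4) := by rw [U_zero]; norm_num

theorem T0_3 : U 0 (1 / 8) ≤ (9/8) := by rw [U_zero]; norm_num

theorem T0_4 : U 0 (1 / 16) ≤ (17/16) := by rw [U_zero]; norm_num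

theorem T0_5 : U 0 (1 / 32) ≤ (33/32) := by rw [U_zero]; norm_num

theorem T1_5 : U 1 (1 / 32) ≤ (5168423/5000000) := by
  have hB : U 0 ((1 / 32 : ℝ) / 2) ≤ (4163/4096) := by
    rw [(show ((1:ℝ) / 32) / 2 = 1 / 64 by norm_num)]; exact bot6 0
  have hr : rtOf 0 (1 / 32) (U 0 (1 / 32)) ≤ (115967/2500000) :=
    rtOf_le_of_le 0 (by norm_num) T0_5 (by norm_num)
  exact le_trans (U_succ_le 0 (by norm_num) (by norm_num) T0_5 hB (by norm_num) hr (by norm_num))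
    (by norm_num)

theorem T1_4 : U 1 (1 / 16) ≤ (10664349/10000000) := by
  have hB : U 0 ((1 / 16 : ℝ) / 2) ≤ (33/32) := by
    rw [(show ((1:ℝ) / 16) / 2 = 1 / 32 by norm_num)]; exact T0_5
  have hr : rtOf 0 (1 / 16) (U 0 (1 / 16)) ≤ (917969/10000000) :=
    rtOf_le_of_le 0 (by norm_num) T0_4 (by norm_num)
  exact le_trans (U_succ_le 0 (by norm_num) (by norm_num) T0_4 hB (by norm_num) hr (by norm_num))
    (by norm_num)

theorem T1_3 : U 1 (1 / 8) ≤ (11408387/10000000) := by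
  have hB : U 0 ((1 / 8 : ℝ) / 2) ≤ (17/16) := by
    rw [(show ((1:ℝ) / 8) / 2 = 1 / 16 by norm_num)]; exact T0_4
  have hr : rtOf 0 (1 / 8) (U 0 (1 / 8)) ≤ (23/128) :=
    rtOf_le_of_le 0 (by norm_num) T0_3 (by norm_num)
  exact le_trans (U_succ_le 0 (by norm_num) (by norm_num) T0_3 hB (by norm_num) hr (by norm_num))
    (by norm_num)

theorem T1_2 : U 1 (1 / 4) ≤ (13139649/10000000) := by
  have hB : U 0 ((1 / 4 : ℝ) / 2) ≤ (9/8) := by
    rw [(show ((1:ℝ) / 4) / 2 = 1 / 8 by norm_num)]; exact T0_3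
  have hr : rtOf 0 (1 / 4) (U 0 (1 / 4)) ≤ (11/32) :=
    rtOf_le_of_le 0 (by norm_num) T0_2 (by norm_num)
  exact le_trans (U_succ_le 0 (by norm_num) (by norm_num) T0_2 hB (by norm_num) hr (by norm_num))
    (by norm_num)

theorem T1_1 : U 1 (1 / 2) ≤ (225/128) := by
  have hB : U 0 ((1 / 2 : ℝ) / 2) ≤ (5/4) := by
    rw [(show ((1:ℝ) / 2) / 2 = 1 / 4 by norm_num)]; exact T0_2
  have hr : rtOf 0 (1 / 2) (U 0 (1 / 2)) ≤ (5/8) :=
    rtOf_le_of_le 0 (by norm_num) T0_1 (by norm_num)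
  exact le_trans (U_succ_le 0 (by norm_num) (by norm_num) T0_1 hB (by norm_num) hr (by norm_num))
    (by norm_num)

theorem T2_5 : U 2 (1 / 32) ≤ (2584217/2500000) := by
  have hB : U 1 ((1 / 32 : ℝ) / 2) ≤ (4163/4096) := by
    rw [(show ((1:ℝ) / 32) / 2 = 1 / 64 by norm_num)]; exact bot6 1
  have hr : rtOf 1 (1 / 32) (U 1 (1 / 32)) ≤ (399977/10000000) :=
    rtOf_le_of_le 1 (by norm_num) T1_5 (by norm_num)
  exact le_trans (U_succ_le 1 (by norm_num) (by norm_num) T1_5 hB (by norm_num) hr (by norm_num))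
    (by norm_num)

theorem T2_4 : U 2 (1 / 16) ≤ (10711781/10000000) := by
  have hB : U 1 ((1 / 16 : ℝ) / 2) ≤ (5168423/5000000) := by
    rw [(show ((1:ℝ) / 16) / 2 = 1 / 32 by norm_num)]; exact T1_5
  have hr : rtOf 1 (1 / 16) (U 1 (1 / 16)) ≤ (78993/1000000) :=
    rtOf_le_of_le 1 (by norm_num) T1_4 (by norm_num)
  exact le_trans (U_succ_le 1 (by norm_num) (by norm_num) T1_4 hB (by norm_num) hr (by norm_num))
    (by norm_num)

theorem T2_3 : U 2 (1 / 8) ≤ (11499213/10000000) := by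
  have hB : U 1 ((1 / 8 : ℝ) / 2) ≤ (10664349/10000000) := by
    rw [(show ((1:ℝ) / 8) / 2 = 1 / 16 by norm_num)]; exact T1_4
  have hr : rtOf 1 (1 / 8) (U 1 (1 / 8)) ≤ (398183/2500000) :=
    rtOf_le_of_le 1 (by norm_num) T1_3 (by norm_num)
  exact le_trans (U_succ_le 1 (by norm_num) (by norm_num) T1_3 hB (by norm_num) hr (by norm_num))
    (by norm_num)

theorem T2_2 : U 2 (1 / 4) ≤ (13648861/10000000) := by
  have hB : U 1 ((1 / 4 : ℝ) / 2) ≤ (11408387/10000000) := by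
    rw [(show ((1:ℝ) / 4) / 2 = 1 / 8 by norm_num)]; exact T1_3
  have hr : rtOf 1 (1 / 4) (U 1 (1 / 4)) ≤ (3208619/10000000) :=
    rtOf_le_of_le 1 (by norm_num) T1_2 (by norm_num)
  exact le_trans (U_succ_le 1 (by norm_num) (by norm_num) T1_2 hB (by norm_num) hr (by norm_num))
    (by norm_num)

theorem T2_1 : U 2 (1 / 2) ≤ (2092143/1000000) := by
  have hB : U 1 ((1 / 2 : ℝ) / 2) ≤ (13139649/10000000) := by
    rw [(show ((1:ℝ) / 2) / 2 = 1 / 4 by norm_num)]; exact T1_2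
  have hr : rtOf 1 (1 / 2) (U 1 (1 / 2)) ≤ (1567383/2500000) :=
    rtOf_le_of_le 1 (by norm_num) T1_1 (by norm_num)
  exact le_trans (U_succ_le 1 (by norm_num) (by norm_num) T1_1 hB (by norm_num) hr (by norm_num))
    (by norm_num)

theorem T3_5 : U 3 (1 / 32) ≤ (10336099/10000000) := by
  have hB : U 2 ((1 / 32 : ℝ) / 2) ≤ (4163/4096) := by
    rw [(show ((1:ℝ) / 32) / 2 = 1 / 64 by norm_num)]; exact bot6 2
  have hr : rtOf 2 (1 / 32) (U 2 (1 / 32)) ≤ (89061/2500000) :=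
    rtOf_le_of_le 2 (by norm_num) T2_5 (by norm_num)
  exact le_trans (U_succ_le 2 (by norm_num) (by norm_num) T2_5 hB (by norm_num) hr (by norm_num))
    (by norm_num)

theorem T3_4 : U 3 (1 / 16) ≤ (10712933/10000000) := by
  have hB : U 2 ((1 / 16 : ℝ) / 2) ≤ (2584217/2500000) := by
    rw [(show ((1:ℝ) / 16) / 2 = 1 / 32 by norm_num)]; exact T2_5
  have hr : rtOf 2 (1 / 16) (U 2 (1 / 16)) ≤ (359291/5000000) :=
    rtOf_le_of_le 2 (by norm_num) T2_4 (by norm_num)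
  exact le_trans (U_succ_le 2 (by norm_num) (by norm_num) T2_4 hB (by norm_num) hr (by norm_num))
    (by norm_num)

theorem T3_3 : U 3 (1 / 8) ≤ (11595791/10000000) := by
  have hB : U 2 ((1 / 8 : ℝ) / 2) ≤ (10711781/10000000) := by
    rw [(show ((1:ℝ) / 8) / 2 = 1 / 16 by norm_num)]; exact T2_4
  have hr : rtOf 2 (1 / 8) (U 2 (1 / 8)) ≤ (288247/2000000) :=
    rtOf_le_of_le 2 (by norm_num) T2_3 (by norm_num)
  exact le_trans (U_succ_le 2 (by norm_num) (by norm_num) T2_3 hB (by norm_num) hr (by norm_num))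
    (by norm_num)

theorem T3_2 : U 3 (1 / 4) ≤ (3488089/2500000) := by
  have hB : U 2 ((1 / 4 : ℝ) / 2) ≤ (11499213/10000000) := by
    rw [(show ((1:ℝ) / 4) / 2 = 1 / 8 by norm_num)]; exact T2_3
  have hr : rtOf 2 (1 / 4) (U 2 (1 / 4)) ≤ (2949787/10000000) :=
    rtOf_le_of_le 2 (by norm_num) T2_2 (by norm_num)
  exact le_trans (U_succ_le 2 (by norm_num) (by norm_num) T2_2 hB (by norm_num) hr (by norm_num))
    (by norm_num)

theorem T3_1 : U 3 (1 / 2) ≤ (24637169/10000000) := by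
  have hB : U 2 ((1 / 2 : ℝ) / 2) ≤ (13648861/10000000) := by
    rw [(show ((1:ℝ) / 2) / 2 = 1 / 4 by norm_num)]; exact T2_2
  have hr : rtOf 2 (1 / 2) (U 2 (1 / 2)) ≤ (6052679/10000000) :=
    rtOf_le_of_le 2 (by norm_num) T2_1 (by norm_num)
  exact le_trans (U_succ_le 2 (by norm_num) (by norm_num) T2_1 hB (by norm_num) hr (by norm_num))
    (by norm_num)

theorem T4_5 : U 4 (1 / 32) ≤ (5167843/5000000) := by
  have hB : U 3 ((1 / 32 : ℝ) / 2) ≤ (4163/4096) := by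
    rw [(show ((1:ℝ) / 32) / 2 = 1 / 64 by norm_num)]; exact bot6 3
  have hr : rtOf 3 (1 / 32) (U 3 (1 / 32)) ≤ (334279/10000000) :=
    rtOf_le_of_le 3 (by norm_num) T3_5 (by norm_num)
  exact le_trans (U_succ_le 3 (by norm_num) (by norm_num) T3_5 hB (by norm_num) hr (by norm_num))
    (by norm_num)

theorem T4_4 : U 4 (1 / 16) ≤ (5354833/5000000) := by
  have hB : U 3 ((1 / 16 : ℝ) / 2) ≤ (10336099/10000000) := by
    rw [(show ((1:ℝ) / 16) / 2 = 1 / 32 by norm_num)]; exact T3_5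
  have hr : rtOf 3 (1 / 16) (U 3 (1 / 16)) ≤ (335963/5000000) :=
    rtOf_le_of_le 3 (by norm_num) T3_4 (by norm_num)
  exact le_trans (U_succ_le 3 (by norm_num) (by norm_num) T3_4 hB (by norm_num) hr (by norm_num))
    (by norm_num)

theorem T4_3 : U 4 (1 / 8) ≤ (11604961/10000000) := by
  have hB : U 3 ((1 / 8 : ℝ) / 2) ≤ (10712933/10000000) := by
    rw [(show ((1:ℝ) / 8) / 2 = 1 / 16 by norm_num)]; exact T3_4
  have hr : rtOf 3 (1 / 8) (U 3 (1 / 8)) ≤ (1356181/10000000) :=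
    rtOf_le_of_le 3 (by norm_num) T3_3 (by norm_num)
  exact le_trans (U_succ_le 3 (by norm_num) (by norm_num) T3_3 hB (by norm_num) hr (by norm_num))
    (by norm_num)

theorem T4_2 : U 4 (1 / 4) ≤ (14198623/10000000) := by
  have hB : U 3 ((1 / 4 : ℝ) / 2) ≤ (11595791/10000000) := by
    rw [(show ((1:ℝ) / 4) / 2 = 1 / 8 by norm_num)]; exact T3_3
  have hr : rtOf 3 (1 / 4) (U 3 (1 / 4)) ≤ (1376673/5000000) :=
    rtOf_le_of_le 3 (by norm_num) T3_2 (by norm_num)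
  exact le_trans (U_succ_le 3 (by norm_num) (by norm_num) T3_2 hB (by norm_num) hr (by norm_num))
    (by norm_num)

theorem T4_1 : U 4 (1 / 2) ≤ (28051609/10000000) := by
  have hB : U 3 ((1 / 2 : ℝ) / 2) ≤ (3488089/2500000) := by
    rw [(show ((1:ℝ) / 2) / 2 = 1 / 4 by norm_num)]; exact T3_2
  have hr : rtOf 3 (1 / 2) (U 3 (1 / 2)) ≤ (2879287/5000000) :=
    rtOf_le_of_le 3 (by norm_num) T3_1 (by norm_num)
  exact le_trans (U_succ_le 3 (by norm_num) (by norm_num) T3_1 hB (by norm_num) hr (by norm_num))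
    (by norm_num)

theorem T5_5 : U 5 (1 / 32) ≤ (10335481/10000000) := by
  have hB : U 4 ((1 / 32 : ℝ) / 2) ≤ (4163/4096) := by
    rw [(show ((1:ℝ) / 32) / 2 = 1 / 64 by norm_num)]; exact bot6 4
  have hr : rtOf 4 (1 / 32) (U 4 (1 / 32)) ≤ (64673/2000000) :=
    rtOf_le_of_le 4 (by norm_num) T4_5 (by norm_num)
  exact le_trans (U_succ_le 4 (by norm_num) (by norm_num) T4_5 hB (by norm_num) hr (by norm_num))
    (by norm_num)

theorem T5_4 : U 5 (1 / 16) ≤ (10707699/10000000) := by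
  have hB : U 4 ((1 / 16 : ℝ) / 2) ≤ (5167843/5000000) := by
    rw [(show ((1:ℝ) / 16) / 2 = 1 / 32 by norm_num)]; exact T4_5
  have hr : rtOf 4 (1 / 16) (U 4 (1 / 16)) ≤ (40517/625000) :=
    rtOf_le_of_le 4 (by norm_num) T4_4 (by norm_num)
  exact le_trans (U_succ_le 4 (by norm_num) (by norm_num) T4_4 hB (by norm_num) hr (by norm_num))
    (by norm_num)

theorem T5_3 : U 5 (1 / 8) ≤ (181167/156250) := by
  have hB : U 4 ((1 / 8 : ℝ) / 2) ≤ (5354833/5000000) := by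
    rw [(show ((1:ℝ) / 8) / 2 = 1 / 16 by norm_num)]; exact T4_4
  have hr : rtOf 4 (1 / 8) (U 4 (1 / 8)) ≤ (162949/1250000) :=
    rtOf_le_of_le 4 (by norm_num) T4_3 (by norm_num)
  exact le_trans (U_succ_le 4 (by norm_num) (by norm_num) T4_3 hB (by norm_num) hr (by norm_num))
    (by norm_num)

theorem T5_2 : U 5 (1 / 4) ≤ (14261599/10000000) := by
  have hB : U 4 ((1 / 4 : ℝ) / 2) ≤ (11604961/10000000) := by
    rw [(show ((1:ℝ) / 4) / 2 = 1 / 8 by norm_num)]; exact T4_3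
  have hr : rtOf 4 (1 / 4) (U 4 (1 / 4)) ≤ (2638217/10000000) :=
    rtOf_le_of_le 4 (by norm_num) T4_2 (by norm_num)
  exact le_trans (U_succ_le 4 (by norm_num) (by norm_num) T4_2 hB (by norm_num) hr (by norm_num))
    (by norm_num)

theorem T5_1 : U 5 (1 / 2) ≤ (15475331/5000000) := by
  have hB : U 4 ((1 / 2 : ℝ) / 2) ≤ (14198623/10000000) := by
    rw [(show ((1:ℝ) / 2) / 2 = 1 / 4 by norm_num)]; exact T4_2
  have hr : rtOf 4 (1 / 2) (U 4 (1 / 2)) ≤ (1371497/2500000) :=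
    rtOf_le_of_le 4 (by norm_num) T4_1 (by norm_num)
  exact le_trans (U_succ_le 4 (by norm_num) (by norm_num) T4_1 hB (by norm_num) hr (by norm_num))
    (by norm_num)

theorem T6_5 : U 6 (1 / 32) ≤ (10335379/10000000) := by
  have hB : U 5 ((1 / 32 : ℝ) / 2) ≤ (4163/4096) := by
    rw [(show ((1:ℝ) / 32) / 2 = 1 / 64 by norm_num)]; exact bot6 5
  have hr : rtOf 5 (1 / 32) (U 5 (1 / 32)) ≤ (158963/5000000) :=
    rtOf_le_of_le 5 (by norm_num) T5_5 (by norm_num)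
  exact le_trans (U_succ_le 5 (by norm_num) (by norm_num) T5_5 hB (by norm_num) hr (by norm_num))
    (by norm_num)

theorem T6_4 : U 6 (1 / 16) ≤ (10706707/10000000) := by
  have hB : U 5 ((1 / 16 : ℝ) / 2) ≤ (10335481/10000000) := by
    rw [(show ((1:ℝ) / 16) / 2 = 1 / 32 by norm_num)]; exact T5_5
  have hr : rtOf 5 (1 / 16) (U 5 (1 / 16)) ≤ (636579/10000000) :=
    rtOf_le_of_le 5 (by norm_num) T5_4 (by norm_num)
  exact le_trans (U_succ_le 5 (by norm_num) (by norm_num) T5_4 hB (by norm_num) hr (by norm_num))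
    (by norm_num)

theorem T6_3 : U 6 (1 / 8) ≤ (11586721/10000000) := by
  have hB : U 5 ((1 / 8 : ℝ) / 2) ≤ (10707699/10000000) := by
    rw [(show ((1:ℝ) / 8) / 2 = 1 / 16 by norm_num)]; exact T5_4
  have hr : rtOf 5 (1 / 8) (U 5 (1 / 8)) ≤ (255303/2000000) :=
    rtOf_le_of_le 5 (by norm_num) T5_3 (by norm_num)
  exact le_trans (U_succ_le 5 (by norm_num) (by norm_num) T5_3 hB (by norm_num) hr (by norm_num))
    (by norm_num)

theorem T6_2 : U 6 (1 / 4) ≤ (3559639/2500000) := by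
  have hB : U 5 ((1 / 4 : ℝ) / 2) ≤ (181167/156250) := by
    rw [(show ((1:ℝ) / 4) / 2 = 1 / 8 by norm_num)]; exact T5_3
  have hr : rtOf 5 (1 / 4) (U 5 (1 / 4)) ≤ (514117/2000000) :=
    rtOf_le_of_le 5 (by norm_num) T5_2 (by norm_num)
  exact le_trans (U_succ_le 5 (by norm_num) (by norm_num) T5_2 hB (by norm_num) hr (by norm_num))
    (by norm_num)

theorem T6_1 : U 6 (1 / 2) ≤ (32926129/10000000) := by
  have hB : U 5 ((1 / 2 : ℝ) / 2) ≤ (14261599/10000000) := by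
    rw [(show ((1:ℝ) / 2) / 2 = 1 / 4 by norm_num)]; exact T5_2
  have hr : rtOf 5 (1 / 2) (U 5 (1 / 2)) ≤ (1322073/2500000) :=
    rtOf_le_of_le 5 (by norm_num) T5_1 (by norm_num)
  exact le_trans (U_succ_le 5 (by norm_num) (by norm_num) T5_1 hB (by norm_num) hr (by norm_num))
    (by norm_num)

theorem T7_5 : U 7 (1 / 32) ≤ (10335329/10000000) := by
  have hB : U 6 ((1 / 32 : ℝ) / 2) ≤ (4163/4096) := by
    rw [(show ((1:ℝ) / 32) / 2 = 1 / 64 by norm_num)]; exact bot6 6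
  have hr : rtOf 6 (1 / 32) (U 6 (1 / 32)) ≤ (78803/2500000) :=
    rtOf_le_of_le 6 (by norm_num) T6_5 (by norm_num)
  exact le_trans (U_succ_le 6 (by norm_num) (by norm_num) T6_5 hB (by norm_num) hr (by norm_num))
    (by norm_num)

theorem T7_4 : U 7 (1 / 16) ≤ (5353107/5000000) := by
  have hB : U 6 ((1 / 16 : ℝ) / 2) ≤ (10335379/10000000) := by
    rw [(show ((1:ℝ) / 16) / 2 = 1 / 32 by norm_num)]; exact T6_5
  have hr : rtOf 6 (1 / 16) (U 6 (1 / 16)) ≤ (25231/400000) :=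
    rtOf_le_of_le 6 (by norm_num) T6_4 (by norm_num)
  exact le_trans (U_succ_le 6 (by norm_num) (by norm_num) T6_4 hB (by norm_num) hr (by norm_num))
    (by norm_num)

theorem T7_3 : U 7 (1 / 8) ≤ (11582373/10000000) := by
  have hB : U 6 ((1 / 8 : ℝ) / 2) ≤ (10706707/10000000) := by
    rw [(show ((1:ℝ) / 8) / 2 = 1 / 16 by norm_num)]; exact T6_4
  have hr : rtOf 6 (1 / 8) (U 6 (1 / 8)) ≤ (1263149/10000000) :=
    rtOf_le_of_le 6 (by norm_num) T6_3 (by norm_num)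
  exact le_trans (U_succ_le 6 (by norm_num) (by norm_num) T6_3 hB (by norm_num) hr (by norm_num))
    (by norm_num)

theorem T7_2 : U 7 (1 / 4) ≤ (3551031/2500000) := by
  have hB : U 6 ((1 / 4 : ℝ) / 2) ≤ (11586721/10000000) := by
    rw [(show ((1:ℝ) / 4) / 2 = 1 / 8 by norm_num)]; exact T6_3
  have hr : rtOf 6 (1 / 4) (U 6 (1 / 4)) ≤ (2535023/10000000) :=
    rtOf_le_of_le 6 (by norm_num) T6_2 (by norm_num)
  exact le_trans (U_succ_le 6 (by norm_num) (by norm_num) T6_2 hB (by norm_num) hr (by norm_num))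
    (by norm_num)

theorem T7_1 : U 7 (1 / 2) ≤ (8500617/2500000) := by
  have hB : U 6 ((1 / 2 : ℝ) / 2) ≤ (3559639/2500000) := by
    rw [(show ((1:ℝ) / 2) / 2 = 1 / 4 by norm_num)]; exact T6_2
  have hr : rtOf 6 (1 / 2) (U 6 (1 / 2)) ≤ (257979/500000) :=
    rtOf_le_of_le 6 (by norm_num) T6_1 (by norm_num)
  exact le_trans (U_succ_le 6 (by norm_num) (by norm_num) T6_1 hB (by norm_num) hr (by norm_num))
    (by norm_num)

theorem T8_5 : U 8 (1 / 32) ≤ (10335303/10000000) := by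
  have hB : U 7 ((1 / 32 : ℝ) / 2) ≤ (4163/4096) := by
    rw [(show ((1:ℝ) / 32) / 2 = 1 / 64 by norm_num)]; exact bot6 7
  have hr : rtOf 7 (1 / 32) (U 7 (1 / 32)) ≤ (2452/78125) :=
    rtOf_le_of_le 7 (by norm_num) T7_5 (by norm_num)
  exact le_trans (U_succ_le 7 (by norm_num) (by norm_num) T7_5 hB (by norm_num) hr (by norm_num))
    (by norm_num)

theorem T8_4 : U 8 (1 / 16) ≤ (10705971/10000000) := by
  have hB : U 7 ((1 / 16 : ℝ) / 2) ≤ (10335329/10000000) := by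
    rw [(show ((1:ℝ) / 16) / 2 = 1 / 32 by norm_num)]; exact T7_5
  have hr : rtOf 7 (1 / 16) (U 7 (1 / 16)) ≤ (156971/2500000) :=
    rtOf_le_of_le 7 (by norm_num) T7_4 (by norm_num)
  exact le_trans (U_succ_le 7 (by norm_num) (by norm_num) T7_4 hB (by norm_num) hr (by norm_num))
    (by norm_num)

theorem T8_3 : U 8 (1 / 8) ≤ (11580171/10000000) := by
  have hB : U 7 ((1 / 8 : ℝ) / 2) ≤ (5353107/5000000) := by
    rw [(show ((1:ℝ) / 8) / 2 = 1 / 16 by norm_num)]; exact T7_4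
  have hr : rtOf 7 (1 / 8) (U 7 (1 / 8)) ≤ (251309/2000000) :=
    rtOf_le_of_le 7 (by norm_num) T7_3 (by norm_num)
  exact le_trans (U_succ_le 7 (by norm_num) (by norm_num) T7_3 hB (by norm_num) hr (by norm_num))
    (by norm_num)

theorem T8_2 : U 8 (1 / 4) ≤ (7089773/5000000) := by
  have hB : U 7 ((1 / 4 : ℝ) / 2) ≤ (11582373/10000000) := by
    rw [(show ((1:ℝ) / 4) / 2 = 1 / 8 by norm_num)]; exact T7_3
  have hr : rtOf 7 (1 / 4) (U 7 (1 / 4)) ≤ (251731/1000000) :=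
    rtOf_le_of_le 7 (by norm_num) T7_2 (by norm_num)
  exact le_trans (U_succ_le 7 (by norm_num) (by norm_num) T7_2 hB (by norm_num) hr (by norm_num))
    (by norm_num)

theorem T8_1 : U 8 (1 / 2) ≤ (3447283/1000000) := by
  have hB : U 7 ((1 / 2 : ℝ) / 2) ≤ (3551031/2500000) := by
    rw [(show ((1:ℝ) / 2) / 2 = 1 / 4 by norm_num)]; exact T7_2
  have hr : rtOf 7 (1 / 2) (U 7 (1 / 2)) ≤ (1016799/2000000) :=
    rtOf_le_of_le 7 (by norm_num) T7_1 (by norm_num)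
  exact le_trans (U_succ_le 7 (by norm_num) (by norm_num) T7_1 hB (by norm_num) hr (by norm_num))
    (by norm_num)

theorem T9_5 : U 9 (1 / 32) ≤ (10335291/10000000) := by
  have hB : U 8 ((1 / 32 : ℝ) / 2) ≤ (4163/4096) := by
    rw [(show ((1:ℝ) / 32) / 2 = 1 / 64 by norm_num)]; exact bot6 8
  have hr : rtOf 8 (1 / 32) (U 8 (1 / 32)) ≤ (156589/5000000) :=
    rtOf_le_of_le 8 (by norm_num) T8_5 (by norm_num)
  exact le_trans (U_succ_le 8 (by norm_num) (by norm_num) T8_5 hB (by norm_num) hr (by norm_num))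
    (by norm_num)

theorem T9_4 : U 9 (1 / 16) ≤ (1338231/1250000) := by
  have hB : U 8 ((1 / 16 : ℝ) / 2) ≤ (10335303/10000000) := by
    rw [(show ((1:ℝ) / 16) / 2 = 1 / 32 by norm_num)]; exact T8_5
  have hr : rtOf 8 (1 / 16) (U 8 (1 / 16)) ≤ (626441/10000000) :=
    rtOf_le_of_le 8 (by norm_num) T8_4 (by norm_num)
  exact le_trans (U_succ_le 8 (by norm_num) (by norm_num) T8_4 hB (by norm_num) hr (by norm_num))
    (by norm_num)

theorem T9_3 : U 9 (1 / 8) ≤ (11579077/10000000) := by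
  have hB : U 8 ((1 / 8 : ℝ) / 2) ≤ (10705971/10000000) := by
    rw [(show ((1:ℝ) / 8) / 2 = 1 / 16 by norm_num)]; exact T8_4
  have hr : rtOf 8 (1 / 8) (U 8 (1 / 8)) ≤ (250653/2000000) :=
    rtOf_le_of_le 8 (by norm_num) T8_3 (by norm_num)
  exact le_trans (U_succ_le 8 (by norm_num) (by norm_num) T8_3 hB (by norm_num) hr (by norm_num))
    (by norm_num)

theorem T9_2 : U 9 (1 / 4) ≤ (283303/200000) := by
  have hB : U 8 ((1 / 4 : ℝ) / 2) ≤ (11580171/10000000) := by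
    rw [(show ((1:ℝ) / 4) / 2 = 1 / 8 by norm_num)]; exact T8_3
  have hr : rtOf 8 (1 / 4) (U 8 (1 / 4)) ≤ (2508583/10000000) :=
    rtOf_le_of_le 8 (by norm_num) T8_2 (by norm_num)
  exact le_trans (U_succ_le 8 (by norm_num) (by norm_num) T8_2 hB (by norm_num) hr (by norm_num))
    (by norm_num)

theorem T9_1 : U 9 (1 / 2) ≤ (34616921/10000000) := by
  have hB : U 8 ((1 / 2 : ℝ) / 2) ≤ (7089773/5000000) := by
    rw [(show ((1:ℝ) / 2) / 2 = 1 / 4 by norm_num)]; exact T8_2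
  have hr : rtOf 8 (1 / 2) (U 8 (1 / 2)) ≤ (1260729/2500000) :=
    rtOf_le_of_le 8 (by norm_num) T8_1 (by norm_num)
  exact le_trans (U_succ_le 8 (by norm_num) (by norm_num) T8_1 hB (by norm_num) hr (by norm_num))
    (by norm_num)

theorem T10_5 : U 10 (1 / 32) ≤ (2583821/2500000) := by
  have hB : U 9 ((1 / 32 : ℝ) / 2) ≤ (4163/4096) := by
    rw [(show ((1:ℝ) / 32) / 2 = 1 / 64 by norm_num)]; exact bot6 9
  have hr : rtOf 9 (1 / 32) (U 9 (1 / 32)) ≤ (312839/10000000) :=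
    rtOf_le_of_le 9 (by norm_num) T9_5 (by norm_num)
  exact le_trans (U_succ_le 9 (by norm_num) (by norm_num) T9_5 hB (by norm_num) hr (by norm_num))
    (by norm_num)

theorem T10_4 : U 10 (1 / 16) ≤ (2676447/2500000) := by
  have hB : U 9 ((1 / 16 : ℝ) / 2) ≤ (10335291/10000000) := by
    rw [(show ((1:ℝ) / 16) / 2 = 1 / 32 by norm_num)]; exact T9_5
  have hr : rtOf 9 (1 / 16) (U 9 (1 / 16)) ≤ (625721/10000000) :=
    rtOf_le_of_le 9 (by norm_num) T9_4 (by norm_num)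
  exact le_trans (U_succ_le 9 (by norm_num) (by norm_num) T9_4 hB (by norm_num) hr (by norm_num))
    (by norm_num)

theorem T10_3 : U 10 (1 / 8) ≤ (11578529/10000000) := by
  have hB : U 9 ((1 / 8 : ℝ) / 2) ≤ (1338231/1250000) := by
    rw [(show ((1:ℝ) / 8) / 2 = 1 / 16 by norm_num)]; exact T9_4
  have hr : rtOf 9 (1 / 8) (U 9 (1 / 8)) ≤ (1251631/10000000) :=
    rtOf_le_of_le 9 (by norm_num) T9_3 (by norm_num)
  exact le_trans (U_succ_le 9 (by norm_num) (by norm_num) T9_3 hB (by norm_num) hr (by norm_num))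
    (by norm_num)

theorem T10_2 : U 10 (1 / 4) ≤ (1415739/1000000) := by
  have hB : U 9 ((1 / 4 : ℝ) / 2) ≤ (11579077/10000000) := by
    rw [(show ((1:ℝ) / 4) / 2 = 1 / 8 by norm_num)]; exact T9_3
  have hr : rtOf 9 (1 / 4) (U 9 (1 / 4)) ≤ (2504271/10000000) :=
    rtOf_le_of_le 9 (by norm_num) T9_2 (by norm_num)
  exact le_trans (U_succ_le 9 (by norm_num) (by norm_num) T9_2 hB (by norm_num) hr (by norm_num))
    (by norm_num)

theorem T10_1 : U 10 (1 / 2) ≤ (34612841/10000000) := by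
  have hB : U 9 ((1 / 2 : ℝ) / 2) ≤ (283303/200000) := by
    rw [(show ((1:ℝ) / 2) / 2 = 1 / 4 by norm_num)]; exact T9_2
  have hr : rtOf 9 (1 / 2) (U 9 (1 / 2)) ≤ (5021599/10000000) :=
    rtOf_le_of_le 9 (by norm_num) T9_1 (by norm_num)
  exact le_trans (U_succ_le 9 (by norm_num) (by norm_num) T9_1 hB (by norm_num) hr (by norm_num))
    (by norm_num)

theorem T11_5 : U 11 (1 / 32) ≤ (10335281/10000000) := by
  have hB : U 10 ((1 / 32 : ℝ) / 2) ≤ (4163/4096) := by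
    rw [(show ((1:ℝ) / 32) / 2 = 1 / 64 by norm_num)]; exact bot6 10
  have hr : rtOf 10 (1 / 32) (U 10 (1 / 32)) ≤ (31267/1000000) :=
    rtOf_le_of_le 10 (by norm_num) T10_5 (by norm_num)
  exact le_trans (U_succ_le 10 (by norm_num) (by norm_num) T10_5 hB (by norm_num) hr (by norm_num))
    (by norm_num)

theorem T11_4 : U 11 (1 / 16) ≤ (10705757/10000000) := by
  have hB : U 10 ((1 / 16 : ℝ) / 2) ≤ (2583821/2500000) := by
    rw [(show ((1:ℝ) / 16) / 2 = 1 / 32 by norm_num)]; exact T10_5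
  have hr : rtOf 10 (1 / 16) (U 10 (1 / 16)) ≤ (625361/10000000) :=
    rtOf_le_of_le 10 (by norm_num) T10_4 (by norm_num)
  exact le_trans (U_succ_le 10 (by norm_num) (by norm_num) T10_4 hB (by norm_num) hr (by norm_num))
    (by norm_num)

theorem T11_3 : U 11 (1 / 8) ≤ (11578259/10000000) := by
  have hB : U 10 ((1 / 8 : ℝ) / 2) ≤ (2676447/2500000) := by
    rw [(show ((1:ℝ) / 8) / 2 = 1 / 16 by norm_num)]; exact T10_4
  have hr : rtOf 10 (1 / 8) (U 10 (1 / 8)) ≤ (250163/2000000) :=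
    rtOf_le_of_le 10 (by norm_num) T10_3 (by norm_num)
  exact le_trans (U_succ_le 10 (by norm_num) (by norm_num) T10_3 hB (by norm_num) hr (by norm_num))
    (by norm_num)

theorem T11_2 : U 11 (1 / 4) ≤ (2830671/2000000) := by
  have hB : U 10 ((1 / 4 : ℝ) / 2) ≤ (11578529/10000000) := by
    rw [(show ((1:ℝ) / 4) / 2 = 1 / 8 by norm_num)]; exact T10_3
  have hr : rtOf 10 (1 / 4) (U 10 (1 / 4)) ≤ (250213/1000000) :=
    rtOf_le_of_le 10 (by norm_num) T10_2 (by norm_num)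
  exact le_trans (U_succ_le 10 (by norm_num) (by norm_num) T10_2 hB (by norm_num) hr (by norm_num))
    (by norm_num)

theorem T11_1 : U 11 (1 / 2) ≤ (3455423/1000000) := by
  have hB : U 10 ((1 / 2 : ℝ) / 2) ≤ (1415739/1000000) := by
    rw [(show ((1:ℝ) / 2) / 2 = 1 / 4 by norm_num)]; exact T10_2
  have hr : rtOf 10 (1 / 2) (U 10 (1 / 2)) ≤ (2505399/5000000) :=
    rtOf_le_of_le 10 (by norm_num) T10_1 (by norm_num)
  exact le_trans (U_succ_le 10 (by norm_num) (by norm_num) T10_1 hB (by norm_num) hr (by norm_num))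
    (by norm_num)

theorem T12_5 : U 12 (1 / 32) ≤ (129191/125000) := by
  have hB : U 11 ((1 / 32 : ℝ) / 2) ≤ (4163/4096) := by
    rw [(show ((1:ℝ) / 32) / 2 = 1 / 64 by norm_num)]; exact bot6 11
  have hr : rtOf 11 (1 / 32) (U 11 (1 / 32)) ≤ (62517/2000000) :=
    rtOf_le_of_le 11 (by norm_num) T11_5 (by norm_num)
  exact le_trans (U_succ_le 11 (by norm_num) (by norm_num) T11_5 hB (by norm_num) hr (by norm_num))
    (by norm_num)

theorem T12_4 : U 12 (1 / 16) ≤ (5352871/5000000) := by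
  have hB : U 11 ((1 / 16 : ℝ) / 2) ≤ (10335281/10000000) := by
    rw [(show ((1:ℝ) / 16) / 2 = 1 / 32 by norm_num)]; exact T11_5
  have hr : rtOf 11 (1 / 16) (U 11 (1 / 16)) ≤ (625181/10000000) :=
    rtOf_le_of_le 11 (by norm_num) T11_4 (by norm_num)
  exact le_trans (U_succ_le 11 (by norm_num) (by norm_num) T11_4 hB (by norm_num) hr (by norm_num))
    (by norm_num)

theorem T12_3 : U 12 (1 / 8) ≤ (5789061/5000000) := by
  have hB : U 11 ((1 / 8 : ℝ) / 2) ≤ (10705757/10000000) := by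
    rw [(show ((1:ℝ) / 8) / 2 = 1 / 16 by norm_num)]; exact T11_4
  have hr : rtOf 11 (1 / 8) (U 11 (1 / 8)) ≤ (156301/1250000) :=
    rtOf_le_of_le 11 (by norm_num) T11_3 (by norm_num)
  exact le_trans (U_succ_le 11 (by norm_num) (by norm_num) T11_3 hB (by norm_num) hr (by norm_num))
    (by norm_num)

theorem T12_2 : U 12 (1 / 4) ≤ (1768913/1250000) := by
  have hB : U 11 ((1 / 4 : ℝ) / 2) ≤ (11578259/10000000) := by
    rw [(show ((1:ℝ) / 4) / 2 = 1 / 8 by norm_num)]; exact T11_3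
  have hr : rtOf 11 (1 / 4) (U 11 (1 / 4)) ≤ (312633/1250000) :=
    rtOf_le_of_le 11 (by norm_num) T11_2 (by norm_num)
  exact le_trans (U_succ_le 11 (by norm_num) (by norm_num) T11_2 hB (by norm_num) hr (by norm_num))
    (by norm_num)

theorem T12_1 : U 12 (1 / 2) ≤ (2155271/625000) := by
  have hB : U 11 ((1 / 2 : ℝ) / 2) ≤ (2830671/2000000) := by
    rw [(show ((1:ℝ) / 2) / 2 = 1 / 4 by norm_num)]; exact T11_2
  have hr : rtOf 11 (1 / 2) (U 11 (1 / 2)) ≤ (1001077/2000000) :=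
    rtOf_le_of_le 11 (by norm_num) T11_1 (by norm_num)
  exact le_trans (U_succ_le 11 (by norm_num) (by norm_num) T11_1 hB (by norm_num) hr (by norm_num))
    (by norm_num)

theorem T13_5 : U 13 (1 / 32) ≤ (10335279/10000000) := by
  have hB : U 12 ((1 / 32 : ℝ) / 2) ≤ (4163/4096) := by
    rw [(show ((1:ℝ) / 32) / 2 = 1 / 64 by norm_num)]; exact bot6 12
  have hr : rtOf 12 (1 / 32) (U 12 (1 / 32)) ≤ (312543/10000000) :=
    rtOf_le_of_le 12 (by norm_num) T12_5 (by norm_num)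
  exact le_trans (U_succ_le 12 (by norm_num) (by norm_num) T12_5 hB (by norm_num) hr (by norm_num))
    (by norm_num)

theorem T13_4 : U 13 (1 / 16) ≤ (2141147/2000000) := by
  have hB : U 12 ((1 / 16 : ℝ) / 2) ≤ (129191/125000) := by
    rw [(show ((1:ℝ) / 16) / 2 = 1 / 32 by norm_num)]; exact T12_5
  have hr : rtOf 12 (1 / 16) (U 12 (1 / 16)) ≤ (625091/10000000) :=
    rtOf_le_of_le 12 (by norm_num) T12_4 (by norm_num)
  exact le_trans (U_succ_le 12 (by norm_num) (by norm_num) T12_4 hB (by norm_num) hr (by norm_num))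
    (by norm_num)

theorem T13_3 : U 13 (1 / 8) ≤ (5789027/5000000) := by
  have hB : U 12 ((1 / 8 : ℝ) / 2) ≤ (5352871/5000000) := by
    rw [(show ((1:ℝ) / 8) / 2 = 1 / 16 by norm_num)]; exact T12_4
  have hr : rtOf 12 (1 / 8) (U 12 (1 / 8)) ≤ (312551/2500000) :=
    rtOf_le_of_le 12 (by norm_num) T12_3 (by norm_num)
  exact le_trans (U_succ_le 12 (by norm_num) (by norm_num) T12_3 hB (by norm_num) hr (by norm_num))
    (by norm_num)

theorem T13_2 : U 13 (1 / 4) ≤ (2830053/2000000) := by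
  have hB : U 12 ((1 / 4 : ℝ) / 2) ≤ (5789061/5000000) := by
    rw [(show ((1:ℝ) / 4) / 2 = 1 / 8 by norm_num)]; exact T12_3
  have hr : rtOf 12 (1 / 4) (U 12 (1 / 4)) ≤ (625133/2500000) :=
    rtOf_le_of_le 12 (by norm_num) T12_2 (by norm_num)
  exact le_trans (U_succ_le 12 (by norm_num) (by norm_num) T12_2 hB (by norm_num) hr (by norm_num))
    (by norm_num)

theorem T13_1 : U 13 (1 / 2) ≤ (3442061/1000000) := by
  have hB : U 12 ((1 / 2 : ℝ) / 2) ≤ (1768913/1250000) := by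
    rw [(show ((1:ℝ) / 2) / 2 = 1 / 4 by norm_num)]; exact T12_2
  have hr : rtOf 12 (1 / 2) (U 12 (1 / 2)) ≤ (1250671/2500000) :=
    rtOf_le_of_le 12 (by norm_num) T12_1 (by norm_num)
  exact le_trans (U_succ_le 12 (by norm_num) (by norm_num) T12_1 hB (by norm_num) hr (by norm_num))
    (by norm_num)

theorem T14_5 : U 14 (1 / 32) ≤ (10335279/10000000) := by
  have hB : U 13 ((1 / 32 : ℝ) / 2) ≤ (4163/4096) := by
    rw [(show ((1:ℝ) / 32) / 2 = 1 / 64 by norm_num)]; exact bot6 13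
  have hr : rtOf 13 (1 / 32) (U 13 (1 / 32)) ≤ (156261/5000000) :=
    rtOf_le_of_le 13 (by norm_num) T13_5 (by norm_num)
  exact le_trans (U_succ_le 13 (by norm_num) (by norm_num) T13_5 hB (by norm_num) hr (by norm_num))
    (by norm_num)

theorem T14_4 : U 14 (1 / 16) ≤ (10705731/10000000) := by
  have hB : U 13 ((1 / 16 : ℝ) / 2) ≤ (10335279/10000000) := by
    rw [(show ((1:ℝ) / 16) / 2 = 1 / 32 by norm_num)]; exact T13_5
  have hr : rtOf 13 (1 / 16) (U 13 (1 / 16)) ≤ (312523/5000000) :=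
    rtOf_le_of_le 13 (by norm_num) T13_4 (by norm_num)
  exact le_trans (U_succ_le 13 (by norm_num) (by norm_num) T13_4 hB (by norm_num) hr (by norm_num))
    (by norm_num)

theorem T14_3 : U 14 (1 / 8) ≤ (11578021/10000000) := by
  have hB : U 13 ((1 / 8 : ℝ) / 2) ≤ (2141147/2000000) := by
    rw [(show ((1:ℝ) / 8) / 2 = 1 / 16 by norm_num)]; exact T13_4
  have hr : rtOf 13 (1 / 8) (U 13 (1 / 8)) ≤ (625051/5000000) :=
    rtOf_le_of_le 13 (by norm_num) T13_3 (by norm_num)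
  exact le_trans (U_succ_le 13 (by norm_num) (by norm_num) T13_3 hB (by norm_num) hr (by norm_num))
    (by norm_num)

theorem T14_2 : U 14 (1 / 4) ≤ (14149743/10000000) := by
  have hB : U 13 ((1 / 4 : ℝ) / 2) ≤ (5789027/5000000) := by
    rw [(show ((1:ℝ) / 4) / 2 = 1 / 8 by norm_num)]; exact T13_3
  have hr : rtOf 13 (1 / 4) (U 13 (1 / 4)) ≤ (1250133/5000000) :=
    rtOf_le_of_le 13 (by norm_num) T13_2 (by norm_num)
  exact le_trans (U_succ_le 13 (by norm_num) (by norm_num) T13_2 hB (by norm_num) hr (by norm_num))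
    (by norm_num)

theorem T14_1 : U 14 (1 / 2) ≤ (4296047/1250000) := by
  have hB : U 13 ((1 / 2 : ℝ) / 2) ≤ (2830053/2000000) := by
    rw [(show ((1:ℝ) / 2) / 2 = 1 / 4 by norm_num)]; exact T13_2
  have hr : rtOf 13 (1 / 2) (U 13 (1 / 2)) ≤ (2500669/5000000) :=
    rtOf_le_of_le 13 (by norm_num) T13_1 (by norm_num)
  exact le_trans (U_succ_le 13 (by norm_num) (by norm_num) T13_1 hB (by norm_num) hr (by norm_num))
    (by norm_num)

theorem T15_5 : U 15 (1 / 32) ≤ (5167639/5000000) := by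
  have hB : U 14 ((1 / 32 : ℝ) / 2) ≤ (4163/4096) := by
    rw [(show ((1:ℝ) / 32) / 2 = 1 / 64 by norm_num)]; exact bot6 14
  have hr : rtOf 14 (1 / 32) (U 14 (1 / 32)) ≤ (312511/10000000) :=
    rtOf_le_of_le 14 (by norm_num) T14_5 (by norm_num)
  exact le_trans (U_succ_le 14 (by norm_num) (by norm_num) T14_5 hB (by norm_num) hr (by norm_num))
    (by norm_num)

theorem T15_4 : U 15 (1 / 16) ≤ (1070573/1000000) := by
  have hB : U 14 ((1 / 16 : ℝ) / 2) ≤ (10335279/10000000) := by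
    rw [(show ((1:ℝ) / 16) / 2 = 1 / 32 by norm_num)]; exact T14_5
  have hr : rtOf 14 (1 / 16) (U 14 (1 / 16)) ≤ (625023/10000000) :=
    rtOf_le_of_le 14 (by norm_num) T14_4 (by norm_num)
  exact le_trans (U_succ_le 14 (by norm_num) (by norm_num) T14_4 hB (by norm_num) hr (by norm_num))
    (by norm_num)

theorem T15_3 : U 15 (1 / 8) ≤ (2894501/2500000) := by
  have hB : U 14 ((1 / 8 : ℝ) / 2) ≤ (10705731/10000000) := by
    rw [(show ((1:ℝ) / 8) / 2 = 1 / 16 by norm_num)]; exact T14_4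
  have hr : rtOf 14 (1 / 8) (U 14 (1 / 8)) ≤ (1250051/10000000) :=
    rtOf_le_of_le 14 (by norm_num) T14_3 (by norm_num)
  exact le_trans (U_succ_le 14 (by norm_num) (by norm_num) T14_3 hB (by norm_num) hr (by norm_num))
    (by norm_num)

theorem T15_2 : U 15 (1 / 4) ≤ (14149483/10000000) := by
  have hB : U 14 ((1 / 4 : ℝ) / 2) ≤ (11578021/10000000) := by
    rw [(show ((1:ℝ) / 4) / 2 = 1 / 8 by norm_num)]; exact T14_3
  have hr : rtOf 14 (1 / 4) (U 14 (1 / 4)) ≤ (2500133/10000000) :=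
    rtOf_le_of_le 14 (by norm_num) T14_2 (by norm_num)
  exact le_trans (U_succ_le 14 (by norm_num) (by norm_num) T14_2 hB (by norm_num) hr (by norm_num))
    (by norm_num)

theorem T15_1 : U 15 (1 / 2) ≤ (34327857/10000000) := by
  have hB : U 14 ((1 / 2 : ℝ) / 2) ≤ (14149743/10000000) := by
    rw [(show ((1:ℝ) / 2) / 2 = 1 / 4 by norm_num)]; exact T14_2
  have hr : rtOf 14 (1 / 2) (U 14 (1 / 2)) ≤ (1250167/2500000) :=
    rtOf_le_of_le 14 (by norm_num) T14_1 (by norm_num)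
  exact le_trans (U_succ_le 14 (by norm_num) (by norm_num) T14_1 hB (by norm_num) hr (by norm_num))
    (by norm_num)

theorem T16_5 : U 16 (1 / 32) ≤ (5167639/5000000) := by
  have hB : U 15 ((1 / 32 : ℝ) / 2) ≤ (4163/4096) := by
    rw [(show ((1:ℝ) / 32) / 2 = 1 / 64 by norm_num)]; exact bot6 15
  have hr : rtOf 15 (1 / 32) (U 15 (1 / 32)) ≤ (156253/5000000) :=
    rtOf_le_of_le 15 (by norm_num) T15_5 (by norm_num)
  exact le_trans (U_succ_le 15 (by norm_num) (by norm_num) T15_5 hB (by norm_num) hr (by norm_num))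
    (by norm_num)

theorem T16_4 : U 16 (1 / 16) ≤ (167277/156250) := by
  have hB : U 15 ((1 / 16 : ℝ) / 2) ≤ (5167639/5000000) := by
    rw [(show ((1:ℝ) / 16) / 2 = 1 / 32 by norm_num)]; exact T15_5
  have hr : rtOf 15 (1 / 16) (U 15 (1 / 16)) ≤ (156253/2500000) :=
    rtOf_le_of_le 15 (by norm_num) T15_4 (by norm_num)
  exact le_trans (U_succ_le 15 (by norm_num) (by norm_num) T15_4 hB (by norm_num) hr (by norm_num))
    (by norm_num)

theorem T16_3 : U 16 (1 / 8) ≤ (5788999/5000000) := by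
  have hB : U 15 ((1 / 8 : ℝ) / 2) ≤ (1070573/1000000) := by
    rw [(show ((1:ℝ) / 8) / 2 = 1 / 16 by norm_num)]; exact T15_4
  have hr : rtOf 15 (1 / 8) (U 15 (1 / 8)) ≤ (625013/5000000) :=
    rtOf_le_of_le 15 (by norm_num) T15_3 (by norm_num)
  exact le_trans (U_succ_le 15 (by norm_num) (by norm_num) T15_3 hB (by norm_num) hr (by norm_num))
    (by norm_num)

theorem T16_2 : U 16 (1 / 4) ≤ (14149353/10000000) := by
  have hB : U 15 ((1 / 4 : ℝ) / 2) ≤ (2894501/2500000) := by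
    rw [(show ((1:ℝ) / 4) / 2 = 1 / 8 by norm_num)]; exact T15_3
  have hr : rtOf 15 (1 / 4) (U 15 (1 / 4)) ≤ (2500067/10000000) :=
    rtOf_le_of_le 15 (by norm_num) T15_2 (by norm_num)
  exact le_trans (U_succ_le 15 (by norm_num) (by norm_num) T15_2 hB (by norm_num) hr (by norm_num))
    (by norm_num)

theorem T16_1 : U 16 (1 / 2) ≤ (34297419/10000000) := by
  have hB : U 15 ((1 / 2 : ℝ) / 2) ≤ (14149483/10000000) := by
    rw [(show ((1:ℝ) / 2) / 2 = 1 / 4 by norm_num)]; exact T15_2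
  have hr : rtOf 15 (1 / 2) (U 15 (1 / 2)) ≤ (2500167/5000000) :=
    rtOf_le_of_le 15 (by norm_num) T15_1 (by norm_num)
  exact le_trans (U_succ_le 15 (by norm_num) (by norm_num) T15_1 hB (by norm_num) hr (by norm_num))
    (by norm_num)


/-! ### Uniform bounds for `k ≥ 16` -/

theorem rtOf_le_tail (K k : ℕ) {ρ x A r : ℝ} (h1 : ρ ≤ 1) (hx : x ≤ A) (hA : 1 + ρ / 2 ≤ A)
    (hr : ρ + (1 - ρ) * ((A - 1 - ρ / 2) / 2 ^ K) ≤ r) : rtOf (K + k) ρ x ≤ r := by
  refine rtOf_le_of_le (K + k) h1 hx (le_trans ?_ hr)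
  have h2 : (A - 1 - ρ / 2) / 2 ^ (K + k) ≤ (A - 1 - ρ / 2) / 2 ^ K :=
    div_le_div_of_nonneg_left (by linarith) (by positivity)
      (pow_le_pow_right₀ (by norm_num) (by omega))
  have h3 := mul_le_mul_of_nonneg_left h2 (by linarith : (0:ℝ) ≤ 1 - ρ)
  linarith

theorem Inv5 (k : ℕ) : U (16 + k) (1 / 32) ≤ (10337/10000) := by
  induction k with
  | zero => exact le_trans T16_5 (by norm_num)
  | succ k ih =>
    have hB : U (16 + k) ((1 / 32 : ℝ) / 2) ≤ (4163/4096) := by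
      rw [(show ((1:ℝ) / 32) / 2 = 1 / 64 by norm_num)]; exact le_trans (bot6 (16 + k)) (by norm_num)
    have hr : rtOf (16 + k) (1 / 32) (U (16 + k) (1 / 32)) ≤ (312503/10000000) :=
      rtOf_le_tail 16 k (by norm_num) ih (by norm_num) (by norm_num)
    have h := U_succ_le (16 + k) (ρ := 1 / 32) (by norm_num) (by norm_num) ih hB (by norm_num) hr (by norm_num)
    exact le_trans h (by norm_num)

theorem Inv4 (k : ℕ) : U (16 + k) (1 / 16) ≤ (10711/10000) := by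
  induction k with
  | zero => exact le_trans T16_4 (by norm_num)
  | succ k ih =>
    have hB : U (16 + k) ((1 / 16 : ℝ) / 2) ≤ (10337/10000) := by
      rw [(show ((1:ℝ) / 16) / 2 = 1 / 32 by norm_num)]; exact Inv5 k
    have hr : rtOf (16 + k) (1 / 16) (U (16 + k) (1 / 16)) ≤ (312503/5000000) :=
      rtOf_le_tail 16 k (by norm_num) ih (by norm_num) (by norm_num)
    have h := U_succ_le (16 + k) (ρ := 1 / 16) (by norm_num) (by norm_num) ih hB (by norm_num) hr (by norm_num)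
    exact le_trans h (by norm_num)

theorem Inv3 (k : ℕ) : U (16 + k) (1 / 8) ≤ (1449/1250) := by
  induction k with
  | zero => exact le_trans T16_3 (by norm_num)
  | succ k ih =>
    have hB : U (16 + k) ((1 / 8 : ℝ) / 2) ≤ (10711/10000) := by
      rw [(show ((1:ℝ) / 8) / 2 = 1 / 16 by norm_num)]; exact Inv4 k
    have hr : rtOf (16 + k) (1 / 8) (U (16 + k) (1 / 8)) ≤ (1250013/10000000) :=
      rtOf_le_tail 16 k (by norm_num) ih (by norm_num) (by norm_num)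
    have h := U_succ_le (16 + k) (ρ := 1 / 8) (by norm_num) (by norm_num) ih hB (by norm_num) hr (by norm_num)
    exact le_trans h (by norm_num)

theorem Inv2 (k : ℕ) : U (16 + k) (1 / 4) ≤ (887/625) := by
  induction k with
  | zero => exact le_trans T16_2 (by norm_num)
  | succ k ih =>
    have hB : U (16 + k) ((1 / 4 : ℝ) / 2) ≤ (1449/1250) := by
      rw [(show ((1:ℝ) / 4) / 2 = 1 / 8 by norm_num)]; exact Inv3 k
    have hr : rtOf (16 + k) (1 / 4) (U (16 + k) (1 / 4)) ≤ (1250017/5000000) :=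
      rtOf_le_tail 16 k (by norm_num) ih (by norm_num) (by norm_num)
    have h := U_succ_le (16 + k) (ρ := 1 / 4) (by norm_num) (by norm_num) ih hB (by norm_num) hr (by norm_num)
    exact le_trans h (by norm_num)

theorem Inv1 (k : ℕ) : U (16 + k) (1 / 2) ≤ (17341/5000) := by
  induction k with
  | zero => exact le_trans T16_1 (by norm_num)
  | succ k ih =>
    have hB : U (16 + k) ((1 / 2 : ℝ) / 2) ≤ (887/625) := by
      rw [(show ((1:ℝ) / 2) / 2 = 1 / 4 by norm_num)]; exact Inv2 k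
    have hr : rtOf (16 + k) (1 / 2) (U (16 + k) (1 / 2)) ≤ (500017/1000000) :=
      rtOf_le_tail 16 k (by norm_num) ih (by norm_num) (by norm_num)
    have h := U_succ_le (16 + k) (ρ := 1 / 2) (by norm_num) (by norm_num) ih hB (by norm_num) hr (by norm_num)
    exact le_trans h (by norm_num)

end Crest.Agent.Thorp.Numerics
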