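import Mathlib

/-!
# Thorp shuffle, S0222: spectral assembly, basic objects (Section 6 of helper84's plan)

`H α` is the Hilbert space of real functions on `Perm α`.  `R π` is right translation
(action on cards).  `M I` is the space of functions of `σ|_I`, `V t` is the span of the `M I`, with
`|I| ≤ t`, `P I = M I ⊓ (V (|I|-1))ᗮ` the pure functions.
-/

set_option autoImplicit false
set_option linter.unusedSectionVars false
set_option linter.unusedSimpArgs false
set_option linter.unusedVariables false

namespace Crest.Agent.Thorp.Spec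

open scoped RealInnerProductSpace
open Module

variable {α : Type*} [Fintype α] [DecidableEq α]

/-- The Hilbert space of functions on permutations. -/
abbrev H (α : Type*) [Fintype α] [DecidableEq α] := EuclideanSpace ℝ (Equiv.Perm α)

/-- Generate this auxiliary lemma here, once, so that later modules share one copy. -/
theorem H_aux_here : True := by
  have := @H.congr_simp.{0}
  trivial

lemma inner_eq_sum (f g : H α) : ⟪f, g⟫ = ∑ σ, f σ * g σ := by
  simp [PiLp.inner_apply, mul_comm]

/-- Build an element of `H α` from a function. -/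
noncomputable def mk (f : Equiv.Perm α → ℝ) : H α := WithLp.toLp 2 f

@[simp] lemma mk_apply (f : Equiv.Perm α → ℝ) (σ : Equiv.Perm α) : mk f σ = f σ := rfl

lemma H_ext {f g : H α} (h : ∀ σ, f σ = g σ) : f = g := by
  apply PiLp.ext; exact h

/-- Right translation. -/
noncomputable def R (π : Equiv.Perm α) : H α →ₗ[ℝ] H α where
  toFun f := mk (fun σ => f (σ * π))
  map_add' f g := by apply H_ext; intro σ; simp
  map_smul' c f := by apply H_ext; intro σ; simp

@[simp] lemma R_apply (π : Equiv.Perm α) (f : H α) (σ : Equiv.Perm α) : R π f σ = f (σ * π) := rfl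

lemma R_mul (π π' : Equiv.Perm α) (f : H α) : R (π * π') f = R π (R π' f) := by
  apply H_ext; intro σ; simp [mul_assoc]

@[simp] lemma R_one (f : H α) : R (1 : Equiv.Perm α) f = f := by
  apply H_ext; intro σ; simp

lemma inner_R_R (π : Equiv.Perm α) (f g : H α) : ⟪R π f, R π g⟫ = ⟪f, g⟫ := by
  rw [inner_eq_sum, inner_eq_sum]
  exact Equiv.sum_comp (Equiv.mulRight π) (fun σ => f σ * g σ)

lemma inner_R_left (π : Equiv.Perm α) (f g : H α) : ⟪R π f, g⟫ = ⟪f, R π⁻¹ g⟫ := by
  have : g = R π (R π⁻¹ g) := by rw [← R_mul]; simp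
  conv_lhs => rw [this]
  exact inner_R_R _ _ _

lemma norm_R (π : Equiv.Perm α) (f : H α) : ‖R π f‖ = ‖f‖ := by
  have h := inner_R_R π f f
  rw [real_inner_self_eq_norm_sq, real_inner_self_eq_norm_sq] at h
  have := norm_nonneg (R π f); have := norm_nonneg f
  nlinarith [sq_abs (‖R π f‖ - ‖f‖)]

/-- `M I` : the functions of `σ|_I`. -/
def M (I : Finset α) : Submodule ℝ (H α) where
  carrier := {f | ∀ σ σ' : Equiv.Perm α, (∀ c ∈ I, σ c = σ' c) → f σ = f σ'}
  add_mem' := by
    intro f g hf hg σ σ' h
    simp [hf σ σ' h, hg σ σ' h]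
  zero_mem' := by intro σ σ' _; simp
  smul_mem' := by
    intro c f hf σ σ' h
    simp [hf σ σ' h]

lemma mem_M {I : Finset α} {f : H α} :
    f ∈ M I ↔ ∀ σ σ' : Equiv.Perm α, (∀ c ∈ I, σ c = σ' c) → f σ = f σ' := Iff.rfl

lemma mem_M_iff_R {I : Finset α} {f : H α} :
    f ∈ M I ↔ ∀ π : Equiv.Perm α, (∀ c ∈ I, π c = c) → R π f = f := by
  constructor
  · intro hf π hπ
    apply H_ext; intro σ
    rw [R_apply]
    apply hf
    intro c hc
    simp [hπ c hc]
  · intro hf σ σ' h
    have key := hf (σ⁻¹ * σ') (by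
      intro c hc
      have := h c hc
      simp [← this])
    have := congrArg (fun g : H α => g σ) key
    simp only [R_apply] at this
    rw [← this]
    simp

lemma M_mono {I J : Finset α} (h : I ⊆ J) : (M I : Submodule ℝ (H α)) ≤ M J := by
  intro f hf σ σ' hσ
  exact hf σ σ' (fun c hc => hσ c (h hc))

/-- Right translation moves `M I` to `M (π I)`. -/
lemma R_mem_M (π : Equiv.Perm α) {I : Finset α} {f : H α} (hf : f ∈ M I) :
    R π f ∈ M (I.image π) := by
  intro σ σ' h
  rw [R_apply, R_apply]
  apply hf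
  intro c hc
  simpa using h (π c) (Finset.mem_image_of_mem _ hc)

/-- `V t` : the span of the `M I`, `|I| ≤ t`. -/
def V (t : ℕ) : Submodule ℝ (H α) := ⨆ (I : Finset α) (_ : I.card ≤ t), M I

lemma M_le_V {I : Finset α} {t : ℕ} (h : I.card ≤ t) : (M I : Submodule ℝ (H α)) ≤ V t :=
  le_iSup₂_of_le I h le_rfl

lemma V_mono {s t : ℕ} (h : s ≤ t) : (V s : Submodule ℝ (H α)) ≤ V t := by
  apply iSup₂_le
  intro I hI
  exact M_le_V (hI.trans h)

lemma R_mem_V (π : Equiv.Perm α) {t : ℕ} {f : H α} (hf : f ∈ V t) : R π f ∈ V t := by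
  have : (V t : Submodule ℝ (H α)) ≤ (V t).comap (R π) := by
    apply iSup₂_le
    intro I hI g hg
    exact M_le_V ((Finset.card_image_le).trans hI) (R_mem_M π hg)
  exact this hf

lemma R_mem_V_perp (π : Equiv.Perm α) {t : ℕ} {f : H α} (hf : f ∈ (V t : Submodule ℝ (H α))ᗮ) :
    R π f ∈ (V t : Submodule ℝ (H α))ᗮ := by
  rw [Submodule.mem_orthogonal] at hf ⊢
  intro u hu
  rw [real_inner_comm, inner_R_left, real_inner_comm]
  exact hf _ (R_mem_V _ hu)

/-- General lemma: an operator with adjoint preserving `S` commutes with the projection on `S`. -/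
lemma commute_proj {E : Type*} [NormedAddCommGroup E] [InnerProductSpace ℝ E]
    [FiniteDimensional ℝ E] (T T' : E →ₗ[ℝ] E) (hadj : ∀ x y, ⟪T x, y⟫ = ⟪x, T' y⟫)
    (S : Submodule ℝ E) (h1 : ∀ x ∈ S, T x ∈ S) (h2 : ∀ x ∈ S, T' x ∈ S) (x : E) :
    S.starProjection (T x) = T (S.starProjection x) := by
  apply Submodule.eq_starProjection_of_mem_of_inner_eq_zero (h1 _ (Submodule.starProjection_apply_mem _ _))
  intro w hw
  rw [← map_sub, hadj]
  exact Submodule.starProjection_inner_eq_zero _ _ (h2 _ hw)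

/-- Pure functions on `I`. -/
noncomputable def P (I : Finset α) : Submodule ℝ (H α) := M I ⊓ (V (I.card - 1) : Submodule ℝ (H α))ᗮ

lemma P_le_M (I : Finset α) : (P I : Submodule ℝ (H α)) ≤ M I := inf_le_left

lemma card_image_perm (π : Equiv.Perm α) (I : Finset α) : (I.image π).card = I.card :=
  Finset.card_image_of_injective _ π.injective

lemma R_mem_P (π : Equiv.Perm α) {I : Finset α} {f : H α} (hf : f ∈ P I) :
    R π f ∈ P (I.image π) := by
  refine ⟨R_mem_M π hf.1, ?_⟩
  rw [card_image_perm]
  exact R_mem_V_perp π hf.2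

/-- Purity: the sum over the free slot of a pure function vanishes. -/
lemma pure_sum_eq_zero {I : Finset α} {u : H α} (hu : u ∈ P I) {x₀ : α} (hx₀ : x₀ ∈ I) :
    ∑ x ∈ (I.erase x₀)ᶜ, R (Equiv.swap x₀ x) u = 0 := by
  set K := I.erase x₀ with hK
  set h : H α := ∑ x ∈ Kᶜ, R (Equiv.swap x₀ x) u with hh
  have happ : ∀ σ, h σ = ∑ x ∈ Kᶜ, u (σ * Equiv.swap x₀ x) := by
    intro σ
    simp [hh, Finset.sum_apply]
  have hx₀K : x₀ ∉ K := by simp [hK]
  -- h is a function of σ|_K
  have hM : h ∈ M K := by
    intro σ σ' hσ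
    rw [happ, happ]
    refine Finset.sum_nbij' (fun x => σ'⁻¹ (σ x)) (fun x => σ⁻¹ (σ' x)) ?_ ?_ ?_ ?_ ?_
    · intro x hx
      simp only [Finset.mem_compl] at hx ⊢
      intro hc
      apply hx
      have h1 := hσ _ hc
      have h2 : σ' (σ'⁻¹ (σ x)) = σ x := by simp
      have : σ x = σ (σ'⁻¹ (σ x)) := by rw [h1, h2]
      have := σ.injective this
      rw [this]; exact hc
    · intro x hx
      simp only [Finset.mem_compl] at hx ⊢
      intro hc
      apply hx
      have h1 := hσ _ hc
      have h2 : σ (σ⁻¹ (σ' x)) = σ' x := by simp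
      have : σ' x = σ' (σ⁻¹ (σ' x)) := by rw [← h1, h2]
      have := σ'.injective this
      rw [this]; exact hc
    · intro x _; simp
    · intro x _; simp
    · intro x hx
      simp only [Finset.mem_compl] at hx
      apply hu.1
      intro c hc
      simp only [Equiv.Perm.coe_mul, Function.comp_apply]
      by_cases hcx : c = x₀
      · subst hcx
        simp
      · have hcK : c ∈ K := by simp [hK, hcx, hc]
        have hcx' : c ≠ x := fun e => hx (e ▸ hcK)
        have hcx'' : c ≠ σ'⁻¹ (σ x) := by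
          intro e
          apply hx
          have h1 := hσ _ hcK
          have : σ c = σ x := by
            rw [h1, e]; simp
          rw [← σ.injective this]; exact hcK
        rw [Equiv.swap_apply_of_ne_of_ne hcx hcx', Equiv.swap_apply_of_ne_of_ne hcx hcx'']
        exact hσ c hcK
  have hV : h ∈ V (I.card - 1) := by
    apply M_le_V (I := K) _ hM
    rw [hK, Finset.card_erase_of_mem hx₀]
  have h0 : ⟪u, h⟫ = 0 := hu.2 h hV |> fun e => by rw [real_inner_comm]; exact e
  have hself : ⟪h, h⟫ = 0 := by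
    conv_lhs => rw [hh]
    rw [sum_inner]
    apply Finset.sum_eq_zero
    intro x hx
    simp only [Finset.mem_compl] at hx
    rw [inner_R_left, Equiv.swap_inv]
    have : R (Equiv.swap x₀ x) h = h := by
      apply (mem_M_iff_R.mp hM)
      intro c hc
      apply Equiv.swap_apply_of_ne_of_ne
      · exact fun e => hx₀K (e ▸ hc)
      · exact fun e => hx (e ▸ hc)
    rw [this]
    exact h0
  exact inner_self_eq_zero.mp hself

end Crest.Agent.Thorp.Spec
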