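import Crest.Agent.Lib.Thorp.SpecBasic

/-!
# Thorp shuffle, S0222: the multiplicity chain (6(a) of the plan)
-/

set_option autoImplicit false
set_option linter.unusedSectionVars false
set_option linter.unusedSimpArgs false
set_option linter.unusedVariables false

namespace Crest.Agent.Thorp.Spec

open scoped RealInnerProductSpace
open Module

variable {α : Type*} [Fintype α] [DecidableEq α]

/-- The operators of the assembly: symmetric, positive, commuting with the right action,
preserving the spaces `M I`. -/
structure GoodOp (X : H α →ₗ[ℝ] H α) : Prop where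
  symm : X.IsSymmetric
  nonneg : ∀ f, 0 ≤ ⟪X f, f⟫
  comm : ∀ π f, X (R π f) = R π (X f)
  M_inv : ∀ I f, f ∈ M I → X f ∈ M I

variable {X : H α →ₗ[ℝ] H α}

lemma GoodOp.V_inv (hX : GoodOp X) {t : ℕ} {f : H α} (hf : f ∈ V t) : X f ∈ V t := by
  have : (V t : Submodule ℝ (H α)) ≤ (V t).comap X := by
    apply iSup₂_le
    intro I hI g hg
    exact M_le_V hI (hX.M_inv I g hg)
  exact this hf

lemma GoodOp.proj_comm_X (hX : GoodOp X) (S : Submodule ℝ (H α)) (hS : ∀ f ∈ S, X f ∈ S) (f : H α) :
    S.starProjection (X f) = X (S.starProjection f) :=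
  commute_proj X X (fun x y => hX.symm x y) S hS hS f

lemma proj_comm_R (t : ℕ) (π : Equiv.Perm α) (f : H α) :
    (V t : Submodule ℝ (H α)).starProjection (R π f) = R π ((V t : Submodule ℝ (H α)).starProjection f) :=
  commute_proj (R π) (R π⁻¹) (inner_R_left π) _ (fun _ h => R_mem_V _ h) (fun _ h => R_mem_V _ h) f

/-- The projection on an eigenspace preserves invariant subspaces. -/
lemma GoodOp.eigenproj_mem (hX : GoodOp X) (μ : ℝ) (S : Submodule ℝ (H α)) (hS : ∀ f ∈ S, X f ∈ S)
    {f : H α} (hf : f ∈ S) : (Module.End.eigenspace X μ).starProjection f ∈ S := by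
  set W := Module.End.eigenspace X μ with hW
  have h1 : ∀ x ∈ W, (S.starProjection : H α →ₗ[ℝ] H α) x ∈ W := by
    intro x hx
    rw [hW, Module.End.mem_eigenspace_iff] at hx ⊢
    show X (S.starProjection x) = μ • S.starProjection x
    rw [← hX.proj_comm_X S hS, hx, map_smul]
  have h2 := commute_proj (S.starProjection : H α →ₗ[ℝ] H α) (S.starProjection : H α →ₗ[ℝ] H α)
    (fun x y => Submodule.inner_starProjection_left_eq_right S x y) W h1 h1 f
  have h3 : S.starProjection f = f := (Submodule.starProjection_eq_self_iff).mpr hf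
  have h4 : W.starProjection f = S.starProjection (W.starProjection f) := by
    have := h2
    simp only [ContinuousLinearMap.coe_coe] at this
    rwa [h3] at this
  rw [h4]
  exact Submodule.starProjection_apply_mem _ _

lemma finrank_biSup_le {ι E : Type*} [AddCommGroup E] [Module ℝ E] [FiniteDimensional ℝ E]
    (s : Finset ι) (N : ι → Submodule ℝ E) :
    finrank ℝ ↥(⨆ i ∈ s, N i) ≤ ∑ i ∈ s, finrank ℝ (N i) := by
  classical
  induction s using Finset.induction_on with
  | empty => simp
  | insert a s ha ih =>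
    rw [Finset.sum_insert ha, Finset.iSup_insert]
    exact (Submodule.finrank_add_le_finrank_add_finrank _ _).trans (Nat.add_le_add_left ih _)

/-- The linear equivalence given by right translation. -/
noncomputable def Re (π : Equiv.Perm α) : H α ≃ₗ[ℝ] H α :=
  LinearEquiv.ofLinearMap (R π) (R π⁻¹)
    (by ext1 f; simp [← R_mul])
    (by ext1 f; simp [← R_mul])

@[simp] lemma Re_apply (π : Equiv.Perm α) (f : H α) : Re π f = R π f := rfl

lemma GoodOp.finrank_P_le (hX : GoodOp X) (μ : ℝ) (π : Equiv.Perm α) (I : Finset α) :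
    finrank ℝ ↥(Module.End.eigenspace X μ ⊓ P I) ≤
      finrank ℝ ↥(Module.End.eigenspace X μ ⊓ P (I.image π)) := by
  have hle : (Module.End.eigenspace X μ ⊓ P I : Submodule ℝ (H α)).map (Re π : H α →ₗ[ℝ] H α) ≤
      Module.End.eigenspace X μ ⊓ P (I.image π) := by
    rintro _ ⟨f, ⟨hf1, hf2⟩, rfl⟩
    refine ⟨?_, R_mem_P π hf2⟩
    have hf1' : X f = μ • f := Module.End.mem_eigenspace_iff.mp hf1
    apply Module.End.mem_eigenspace_iff.mpr
    show X (R π f) = μ • R π f
    rw [hX.comm, hf1', map_smul]
  calc finrank ℝ ↥(Module.End.eigenspace X μ ⊓ P I)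
      = finrank ℝ ↥((Module.End.eigenspace X μ ⊓ P I : Submodule ℝ (H α)).map (Re π : H α →ₗ[ℝ] H α)) :=
        (LinearEquiv.finrank_map_eq (Re π) _).symm
    _ ≤ _ := Submodule.finrank_mono hle

lemma GoodOp.finrank_P_eq (hX : GoodOp X) (μ : ℝ) {I I' : Finset α} (h : I.card = I'.card) :
    finrank ℝ ↥(Module.End.eigenspace X μ ⊓ P I) = finrank ℝ ↥(Module.End.eigenspace X μ ⊓ P I') := by
  have key : ∀ {A B : Finset α}, A.card = B.card →
      finrank ℝ ↥(Module.End.eigenspace X μ ⊓ P A) ≤ finrank ℝ ↥(Module.End.eigenspace X μ ⊓ P B) := by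
    intro A B hAB
    classical
    let e : {x // x ∈ A} ≃ {x // x ∈ B} := Finset.equivOfCardEq hAB
    have : A.image (e.extendSubtype) = B := by
      apply Finset.eq_of_subset_of_card_le
      · intro y hy
        obtain ⟨x, hx, rfl⟩ := Finset.mem_image.mp hy
        exact Equiv.extendSubtype_mem e x hx
      · rw [card_image_perm, hAB]
    have h2 := hX.finrank_P_le μ e.extendSubtype A
    rwa [this] at h2
  exact le_antisymm (key h) (key h.symm)

/-- The chain. -/
theorem GoodOp.chain_le (hX : GoodOp X) (μ : ℝ) (i : ℕ) (hi : 1 ≤ i) :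
    (Module.End.eigenspace X μ ⊓ V i : Submodule ℝ (H α)) ≤
      (Module.End.eigenspace X μ ⊓ V (i - 1)) ⊔
        ⨆ I ∈ (Finset.univ : Finset (Finset α)).filter (fun I => I.card = i),
          (Module.End.eigenspace X μ ⊓ P I) := by
  have key : (V i : Submodule ℝ (H α)) ≤ ((Module.End.eigenspace X μ ⊓ V (i - 1)) ⊔
        ⨆ I ∈ (Finset.univ : Finset (Finset α)).filter (fun I => I.card = i),
          (Module.End.eigenspace X μ ⊓ P I)).comap
            ((Module.End.eigenspace X μ).starProjection : H α →ₗ[ℝ] H α) := by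
    apply iSup₂_le
    intro I hI g hg
    rw [Submodule.mem_comap, ContinuousLinearMap.coe_coe]
    have hg'W : (Module.End.eigenspace X μ).starProjection g ∈ Module.End.eigenspace X μ :=
      Submodule.starProjection_apply_mem _ _
    have hg'M : (Module.End.eigenspace X μ).starProjection g ∈ M I :=
      hX.eigenproj_mem μ (M I) (hX.M_inv I) hg
    generalize (Module.End.eigenspace X μ).starProjection g = g' at hg'W hg'M ⊢
    by_cases hIi : I.card = i
    · -- split along V (i-1)
      have h1 : (V (i - 1) : Submodule ℝ (H α)).starProjection g' ∈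
          (Module.End.eigenspace X μ ⊓ V (i - 1) : Submodule ℝ (H α)) := by
        refine ⟨?_, Submodule.starProjection_apply_mem _ _⟩
        have hg'W' : X g' = μ • g' := Module.End.mem_eigenspace_iff.mp hg'W
        apply Module.End.mem_eigenspace_iff.mpr
        rw [← hX.proj_comm_X _ (fun f hf => hX.V_inv hf), hg'W', map_smul]
      have h2 : g' - (V (i - 1) : Submodule ℝ (H α)).starProjection g' ∈
          (Module.End.eigenspace X μ ⊓ P I : Submodule ℝ (H α)) := by
        refine ⟨Submodule.sub_mem _ hg'W h1.1, ?_, ?_⟩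
        · rw [SetLike.mem_coe, mem_M_iff_R]
          intro κ hκ
          rw [map_sub, ← proj_comm_R (i - 1) κ g', (mem_M_iff_R.mp hg'M) κ hκ]
        · rw [hIi]
          exact Submodule.sub_starProjection_mem_orthogonal _
      have h3 : g' = (V (i - 1) : Submodule ℝ (H α)).starProjection g' +
          (g' - (V (i - 1) : Submodule ℝ (H α)).starProjection g') := by abel
      rw [h3]
      apply Submodule.add_mem
      · exact Submodule.mem_sup_left h1
      · apply Submodule.mem_sup_right
        exact Submodule.mem_iSup_of_mem I (Submodule.mem_iSup_of_mem (by simp [hIi]) h2)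
    · apply Submodule.mem_sup_left
      exact ⟨hg'W, M_le_V (by omega) hg'M⟩
  rintro f ⟨hfW, hfV⟩
  have := key hfV
  have h5 : (Module.End.eigenspace X μ).starProjection f = f :=
    (Submodule.starProjection_eq_self_iff).mpr hfW
  simpa [h5] using this

/-- The multiplicity inequality along the chain. -/
theorem GoodOp.finrank_chain (hX : GoodOp X) (μ : ℝ) (I₀ : Finset α) (hi : 1 ≤ I₀.card) :
    finrank ℝ ↥(Module.End.eigenspace X μ ⊓ V I₀.card : Submodule ℝ (H α)) ≤
      finrank ℝ ↥(Module.End.eigenspace X μ ⊓ V (I₀.card - 1) : Submodule ℝ (H α)) +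
        (Fintype.card α).choose I₀.card * finrank ℝ ↥(Module.End.eigenspace X μ ⊓ P I₀) := by
  have h1 := Submodule.finrank_mono (hX.chain_le μ I₀.card hi)
  have h2 := Submodule.finrank_add_le_finrank_add_finrank
    (Module.End.eigenspace X μ ⊓ V (I₀.card - 1) : Submodule ℝ (H α))
    (⨆ I ∈ (Finset.univ : Finset (Finset α)).filter (fun I => I.card = I₀.card),
          (Module.End.eigenspace X μ ⊓ P I))
  refine h1.trans (h2.trans (Nat.add_le_add_left ?_ _))
  refine (finrank_biSup_le _ _).trans ?_
  rw [Finset.sum_congr rfl (g := fun _ => finrank ℝ ↥(Module.End.eigenspace X μ ⊓ P I₀))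
    (fun I hI => hX.finrank_P_eq μ (by simpa using hI))]
  rw [Finset.sum_const, smul_eq_mul]
  apply le_of_eq
  congr 1
  have : (Finset.univ : Finset (Finset α)).filter (fun I => I.card = I₀.card) =
      (Finset.univ : Finset α).powersetCard I₀.card := by
    ext I
    simp [Finset.mem_powersetCard]
  rw [this, Finset.card_powersetCard, Finset.card_univ]

end Crest.Agent.Thorp.Spec
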