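import Crest.Agent.Lib.Thorp.SpecBasic

/-!
# Thorp shuffle, S0222: independence of translates of a pure function (6(b) of the plan)
-/

set_option autoImplicit false
set_option linter.unusedSectionVars false
set_option linter.unusedSimpArgs false
set_option linter.unusedVariables false

namespace Crest.Agent.Thorp.Spec

open scoped RealInnerProductSpace
open Module

variable {α : Type*} [Fintype α] [DecidableEq α]

/-- Potential `T N l k = (N+1) k! (N-k-l)! / (N-l+1)!`. -/
noncomputable def T (N l k : ℕ) : ℝ :=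
  ((N + 1 : ℕ) * k.factorial * (N - k - l).factorial : ℝ) / (N - l + 1).factorial

lemma T_nonneg (N l k : ℕ) : 0 ≤ T N l k := by
  unfold T; positivity

lemma T_zero_zero (N : ℕ) : T N 0 0 = 1 := by
  unfold T
  simp only [Nat.factorial_zero, Nat.sub_zero, Nat.cast_one, mul_one]
  rw [Nat.factorial_succ]
  have : (N.factorial : ℝ) ≠ 0 := by positivity
  have h2 : ((N + 1 : ℕ) : ℝ) ≠ 0 := by positivity
  push_cast
  push_cast at h2
  field_simp

/-- Pascal rule for the potential. -/
lemma T_pascal (N l k : ℕ) (h : k + l + 1 ≤ N) : T N l k + T N l (k + 1) = T N (l + 1) k := by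
  obtain ⟨a, rfl⟩ : ∃ a, N = a + k + l + 1 := ⟨N - (k + l + 1), by omega⟩
  unfold T
  have e1 : a + k + l + 1 - k - l = a + 1 := by omega
  have e2 : a + k + l + 1 - (k + 1) - l = a := by omega
  have e3 : a + k + l + 1 - k - (l + 1) = a := by omega
  have e4 : a + k + l + 1 - l + 1 = a + k + 2 := by omega
  have e5 : a + k + l + 1 - (l + 1) + 1 = a + k + 1 := by omega
  rw [e1, e2, e3, e4, e5]
  rw [show a + k + 2 = (a + k + 1) + 1 from rfl, Nat.factorial_succ (a + k + 1),
    Nat.factorial_succ k, Nat.factorial_succ a]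
  have h1 : ((a + k + 1).factorial : ℝ) ≠ 0 := by positivity
  have h2 : (((a + k + 1) + 1 : ℕ) : ℝ) ≠ 0 := by positivity
  push_cast
  push_cast at h2
  field_simp
  ring

/-- The recursion of the base coefficient. -/
lemma T_zero_succ (N k : ℕ) (h : k + 1 ≤ N) :
    ((N - k : ℕ) : ℝ) * T N 0 (k + 1) = (k + 1 : ℕ) * T N 0 k := by
  obtain ⟨a, rfl⟩ : ∃ a, N = a + k + 1 := ⟨N - (k + 1), by omega⟩
  unfold T
  have e1 : a + k + 1 - (k + 1) - 0 = a := by omega
  have e2 : a + k + 1 - k - 0 = a + 1 := by omega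
  have e3 : a + k + 1 - k = a + 1 := by omega
  rw [e1, e2, e3, Nat.factorial_succ k, Nat.factorial_succ a]
  push_cast
  ring

/-- The key estimate: a pure function on `I₁` is nearly orthogonal to `M I`. -/
theorem inner_pure_le (i : ℕ) (k : ℕ) : ∀ (I₁ I : Finset α), I₁.card = i → I.card = i →
    (I₁ \ I).card = k → ∀ u ∈ P I₁, ∀ v ∈ M I,
      |⟪u, v⟫| ≤ T (Fintype.card α - i) 0 k * (‖u‖ * ‖v‖) := by
  induction k with
  | zero =>
    intro I₁ I h1 h2 h3 u hu v hv
    rw [T_zero_zero, one_mul]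
    exact abs_real_inner_le_norm u v
  | succ k ih =>
    intro I₁ I h1 h2 h3 u hu v hv
    set N := Fintype.card α - i with hN
    obtain ⟨x₀, hx₀⟩ : (I₁ \ I).Nonempty := by
      rw [← Finset.card_pos]; omega
    have hx₀1 : x₀ ∈ I₁ := (Finset.mem_sdiff.mp hx₀).1
    have hx₀2 : x₀ ∉ I := (Finset.mem_sdiff.mp hx₀).2
    have hpure := pure_sum_eq_zero hu hx₀1
    set S := (I₁.erase x₀)ᶜ with hS
    set B := I \ I₁ with hB
    set A := S.filter (fun x => x ∉ I) with hA
    have hSsplit : S = A ∪ B := by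
      ext x
      simp only [hS, hA, hB, Finset.mem_compl, Finset.mem_erase, Finset.mem_filter, Finset.mem_union,
        Finset.mem_sdiff, not_and]
      constructor
      · intro hx
        by_cases hxI : x ∈ I
        · right
          refine ⟨hxI, fun hx1 => ?_⟩
          have : x ≠ x₀ := fun e => hx₀2 (e ▸ hxI)
          exact hx this hx1
        · left; exact ⟨hx, hxI⟩
      · rintro (⟨hx, _⟩ | ⟨hx1, hx2⟩)
        · exact hx
        · intro _ hxI₁; exact absurd hxI₁ hx2
    have hdisj : Disjoint A B := by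
      rw [Finset.disjoint_left]
      intro x hxA hxB
      exact (Finset.mem_filter.mp hxA).2 (Finset.mem_sdiff.mp hxB).1
    have hcardB : B.card = k + 1 := by
      have h4 := Finset.card_sdiff_add_card_inter I₁ I
      have h5 := Finset.card_sdiff_add_card_inter I I₁
      rw [Finset.inter_comm] at h5
      rw [hB]
      omega
    have hcardS : S.card = Fintype.card α - (i - 1) := by
      rw [hS, Finset.card_compl, Finset.card_erase_of_mem hx₀1, h1]
    have hile : i ≤ Fintype.card α := h1 ▸ Finset.card_le_univ _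
    have hipos : 1 ≤ i := by
      rw [← h1]; exact Finset.card_pos.mpr ⟨x₀, hx₀1⟩
    have hcardA : A.card = N - k := by
      have h4 : S.card = A.card + B.card := by
        rw [hSsplit]; exact Finset.card_union_of_disjoint hdisj
      omega
    have hx₀A : x₀ ∈ A := by
      simp [hA, hS, hx₀2]
    have hNk : 0 < N - k := by
      rw [← hcardA]; exact Finset.card_pos.mpr ⟨x₀, hx₀A⟩
    have hk1N : k + 1 ≤ N := by omega
    -- inner products with v
    have hsum : ∑ x ∈ S, ⟪R (Equiv.swap x₀ x) u, v⟫ = 0 := by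
      rw [← sum_inner, hpure, inner_zero_left]
    rw [hSsplit, Finset.sum_union hdisj] at hsum
    have hAterm : ∑ x ∈ A, ⟪R (Equiv.swap x₀ x) u, v⟫ = (N - k : ℕ) * ⟪u, v⟫ := by
      rw [← hcardA, ← nsmul_eq_mul]
      rw [← Finset.sum_const]
      apply Finset.sum_congr rfl
      intro x hx
      have hxI := (Finset.mem_filter.mp hx).2
      rw [inner_R_left, Equiv.swap_inv]
      congr 1
      apply (mem_M_iff_R.mp hv)
      intro c hc
      apply Equiv.swap_apply_of_ne_of_ne
      · exact fun e => hx₀2 (e ▸ hc)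
      · exact fun e => hxI (e ▸ hc)
    have hBterm : ∀ x ∈ B, |⟪R (Equiv.swap x₀ x) u, v⟫| ≤ T N 0 k * (‖u‖ * ‖v‖) := by
      intro x hx
      have hxI : x ∈ I := (Finset.mem_sdiff.mp hx).1
      have hxI₁ : x ∉ I₁ := (Finset.mem_sdiff.mp hx).2
      have hu' := R_mem_P (Equiv.swap x₀ x) hu
      have hcard : ((I₁.image (Equiv.swap x₀ x)) \ I).card = k := by
        have : (I₁.image (Equiv.swap x₀ x)) \ I = (I₁ \ I).erase x₀ := by
          ext y
          simp only [Finset.mem_sdiff, Finset.mem_image, Finset.mem_erase]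
          constructor
          · rintro ⟨⟨z, hz, rfl⟩, hy⟩
            by_cases hzx : z = x₀
            · subst hzx
              simp at hy
              exact absurd hxI hy
            · have hzx' : z ≠ x := fun e => hxI₁ (e ▸ hz)
              rw [Equiv.swap_apply_of_ne_of_ne hzx hzx'] at hy ⊢
              exact ⟨hzx, hz, hy⟩
          · rintro ⟨hy0, hy1, hy2⟩
            have hyx : y ≠ x := fun e => hxI₁ (e ▸ hy1)
            refine ⟨⟨y, hy1, Equiv.swap_apply_of_ne_of_ne hy0 hyx⟩, hy2⟩
        rw [this, Finset.card_erase_of_mem hx₀, h3]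
        rfl
      have := ih _ I (by rw [card_image_perm, h1]) h2 hcard _ hu' v hv
      rwa [norm_R] at this
    have hbound : ((N - k : ℕ) : ℝ) * |⟪u, v⟫| ≤ (k + 1 : ℕ) * (T N 0 k * (‖u‖ * ‖v‖)) := by
      have h6 : ((N - k : ℕ) : ℝ) * ⟪u, v⟫ = - ∑ x ∈ B, ⟪R (Equiv.swap x₀ x) u, v⟫ := by
        rw [← hAterm]; linarith
      calc ((N - k : ℕ) : ℝ) * |⟪u, v⟫| = |((N - k : ℕ) : ℝ) * ⟪u, v⟫| := by
            rw [abs_mul]; simp
        _ = |∑ x ∈ B, ⟪R (Equiv.swap x₀ x) u, v⟫| := by rw [h6, abs_neg]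
        _ ≤ ∑ x ∈ B, |⟪R (Equiv.swap x₀ x) u, v⟫| := Finset.abs_sum_le_sum_abs _ _
        _ ≤ ∑ x ∈ B, (T N 0 k * (‖u‖ * ‖v‖)) := Finset.sum_le_sum hBterm
        _ = (k + 1 : ℕ) * (T N 0 k * (‖u‖ * ‖v‖)) := by
            rw [Finset.sum_const, hcardB, nsmul_eq_mul]
    have hpos : (0 : ℝ) < ((N - k : ℕ) : ℝ) := by exact_mod_cast hNk
    have hrec := T_zero_succ N k hk1N
    have : ((N - k : ℕ) : ℝ) * |⟪u, v⟫| ≤ ((N - k : ℕ) : ℝ) * (T N 0 (k + 1) * (‖u‖ * ‖v‖)) := by
      calc ((N - k : ℕ) : ℝ) * |⟪u, v⟫| ≤ (k + 1 : ℕ) * (T N 0 k * (‖u‖ * ‖v‖)) := hbound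
        _ = ((N - k : ℕ) : ℝ) * (T N 0 (k + 1) * (‖u‖ * ‖v‖)) := by
            linear_combination (-(‖u‖ * ‖v‖)) * hrec
    exact le_of_mul_le_mul_left this hpos

/-- The operator `∏_{c ∈ l} (1 - (c d_c))`, applied from the head of the list. -/
noncomputable def A (d : α → α) : List α → (H α →ₗ[ℝ] H α)
  | [] => LinearMap.id
  | c :: l => (A d l) ∘ₗ (LinearMap.id - R (Equiv.swap c (d c)))

lemma A_nil (d : α → α) (g : H α) : A d [] g = g := rfl

lemma A_cons (d : α → α) (c : α) (l : List α) (g : H α) :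
    A d (c :: l) g = A d l g - A d l (R (Equiv.swap c (d c)) g) := by
  simp [A, map_sub]

/-- Counting lemma for the moved set. -/
lemma card_step {I : Finset α} {c e : α} {τ : Equiv.Perm α} (hc : c ∈ I) (he : e ∉ I)
    (h1 : τ c = c) (h2 : τ e = e) :
    ((I.image (Equiv.swap c e * τ)) \ I).card = ((I.image τ) \ I).card + 1 := by
  have hce : c ≠ e := fun h => he (h ▸ hc)
  have key : (I.image (Equiv.swap c e * τ)) \ I = insert e ((I.image τ) \ I) := by
    ext y
    simp only [Finset.mem_sdiff, Finset.mem_image, Finset.mem_insert, Equiv.Perm.coe_mul,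
      Function.comp_apply]
    constructor
    · rintro ⟨⟨z, hz, rfl⟩, hy⟩
      by_cases hz1 : τ z = c
      · have : z = c := τ.injective (by rw [hz1, h1])
        subst this
        simp [hz1]
      · by_cases hz2 : τ z = e
        · have : z = e := τ.injective (by rw [hz2, h2])
          subst this
          exact absurd hz he
        · rw [Equiv.swap_apply_of_ne_of_ne hz1 hz2] at hy ⊢
          exact Or.inr ⟨⟨z, hz, rfl⟩, hy⟩
    · rintro (rfl | ⟨⟨z, hz, rfl⟩, hy⟩)
      · exact ⟨⟨c, hc, by simp [h1]⟩, he⟩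
      · have hz1 : τ z ≠ c := fun h => hy (h ▸ hc)
        have hz2 : τ z ≠ e := by
          intro h
          have : z = e := τ.injective (by rw [h, h2])
          exact he (this ▸ hz)
        exact ⟨⟨z, hz, Equiv.swap_apply_of_ne_of_ne hz1 hz2⟩, hy⟩
  rw [key, Finset.card_insert_of_notMem]
  simp only [Finset.mem_sdiff, Finset.mem_image, not_and, not_not]
  rintro ⟨z, hz, hze⟩
  have : z = e := τ.injective (by rw [hze, h2])
  exact absurd (this ▸ hz) he

section Bound

variable {I : Finset α} {d : α → α} {f : H α}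

/-- Bound for all the non-leading terms. -/
lemma S_bound (hf : f ∈ P I) (hd1 : ∀ c ∈ I, d c ∉ I) (hd2 : Set.InjOn d I)
    (hN : 2 * I.card ≤ Fintype.card α) (l : List α) :
    l.Nodup → (∀ c ∈ l, c ∈ I) → ∀ τ : Equiv.Perm α, (∀ c ∈ l, τ c = c ∧ τ (d c) = d c) →
      ((I.image τ) \ I).card + l.length ≤ I.card →
      |⟪A d l (R τ f), f⟫| ≤ T (Fintype.card α - I.card) l.length ((I.image τ) \ I).card * (‖f‖ * ‖f‖) := by
  induction l with
  | nil =>
    intro _ _ τ _ _
    have := inner_pure_le I.card _ (I.image τ) I (card_image_perm τ I) rfl rfl (R τ f)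
      (R_mem_P τ hf) f (P_le_M I hf)
    rw [norm_R] at this
    simpa [A_nil] using this
  | cons c l ih =>
    intro hnd hl τ hτ hcard
    have hnd' : c ∉ l ∧ l.Nodup := by simpa using hnd
    have hcI : c ∈ I := hl c (by simp)
    have hl' : ∀ c' ∈ l, c' ∈ I := fun c' hc' => hl c' (by simp [hc'])
    obtain ⟨h1, h2⟩ := hτ c (by simp)
    rw [List.length_cons] at hcard ⊢
    set k := ((I.image τ) \ I).card with hk
    have hstep := card_step (τ := τ) hcI (hd1 c hcI) h1 h2
    have hih1 := ih hnd'.2 hl' τ (fun c' hc' => hτ c' (by simp [hc'])) (by omega)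
    have hih2 := ih hnd'.2 hl' (Equiv.swap c (d c) * τ) (by
      intro c' hc'
      obtain ⟨h3, h4⟩ := hτ c' (by simp [hc'])
      have hc'I := hl' c' hc'
      have hne : c' ≠ c := fun e => hnd'.1 (e ▸ hc')
      constructor
      · simp only [Equiv.Perm.coe_mul, Function.comp_apply, h3]
        apply Equiv.swap_apply_of_ne_of_ne hne
        exact fun e => hd1 c hcI (e ▸ hc'I)
      · simp only [Equiv.Perm.coe_mul, Function.comp_apply, h4]
        apply Equiv.swap_apply_of_ne_of_ne
        · exact fun e => hd1 c' hc'I (e ▸ hcI)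
        · exact fun e => hne (hd2 hc'I hcI e)) (by rw [hstep]; omega)
    rw [hstep] at hih2
    have hpas := T_pascal (Fintype.card α - I.card) l.length k (by omega)
    rw [A_cons, ← R_mul, inner_sub_left, ← hpas, add_mul]
    calc _ ≤ |⟪A d l (R τ f), f⟫| + |⟪A d l (R (Equiv.swap c (d c) * τ) f), f⟫| := abs_sub _ _
      _ ≤ _ := add_le_add hih1 hih2

/-- Leading-term deficiency. -/
lemma D_step (N l : ℕ) (h : l + 1 ≤ N) :
    (l : ℝ) / ((N - l : ℕ) + 1) + T N l 1 = ((l + 1 : ℕ) : ℝ) / ((N - (l + 1) : ℕ) + 1) := by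
  obtain ⟨a, rfl⟩ : ∃ a, N = a + l + 1 := ⟨N - (l + 1), by omega⟩
  unfold T
  have e1 : a + l + 1 - l = a + 1 := by omega
  have e2 : a + l + 1 - 1 - l = a := by omega
  have e4 : a + l + 1 - (l + 1) = a := by omega
  rw [e1, e2, e4]
  rw [Nat.factorial_succ (a + 1), Nat.factorial_succ a]
  have h1 : (a.factorial : ℝ) ≠ 0 := by positivity
  have h2 : ((a : ℝ) + 1) ≠ 0 := by positivity
  have h3 : ((a : ℝ) + 1 + 1) ≠ 0 := by positivity
  push_cast
  simp only [Nat.factorial_one, Nat.cast_one]
  field_simp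
  ring

lemma A_lower (hf : f ∈ P I) (hd1 : ∀ c ∈ I, d c ∉ I) (hd2 : Set.InjOn d I)
    (hN : 2 * I.card ≤ Fintype.card α) (l : List α) :
    l.Nodup → (∀ c ∈ l, c ∈ I) →
      (1 - (l.length : ℝ) / ((Fintype.card α - I.card - l.length : ℕ) + 1)) * (‖f‖ * ‖f‖) ≤ ⟪A d l f, f⟫ := by
  induction l with
  | nil =>
    intro _ _
    simp [A_nil]
    exact le_of_eq (sq _).symm
  | cons c l ih =>
    intro hnd hl
    have hnd' : c ∉ l ∧ l.Nodup := by simpa using hnd
    have hcI : c ∈ I := hl c (by simp)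
    have hl' : ∀ c' ∈ l, c' ∈ I := fun c' hc' => hl c' (by simp [hc'])
    have hih := ih hnd'.2 hl'
    have hlen : (c :: l).length ≤ I.card := by
      have : (c :: l).toFinset ⊆ I := by
        intro x hx
        exact hl x (by simpa using hx)
      have h2 := Finset.card_le_card this
      rwa [List.toFinset_card_of_nodup hnd] at h2
    rw [List.length_cons] at hlen ⊢
    have hstep := card_step (τ := 1) hcI (hd1 c hcI) rfl rfl
    have hemp : ((I.image (1 : Equiv.Perm α)) \ I).card = 0 := by simp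
    rw [hemp] at hstep
    rw [mul_one] at hstep
    have hb := S_bound hf hd1 hd2 hN l hnd'.2 hl' (Equiv.swap c (d c)) (by
      intro c' hc'
      have hc'I := hl' c' hc'
      have hne : c' ≠ c := fun e => hnd'.1 (e ▸ hc')
      constructor
      · apply Equiv.swap_apply_of_ne_of_ne hne
        exact fun e => hd1 c hcI (e ▸ hc'I)
      · apply Equiv.swap_apply_of_ne_of_ne
        · exact fun e => hd1 c' hc'I (e ▸ hcI)
        · exact fun e => hne (hd2 hc'I hcI e)) (by rw [hstep]; omega)
    rw [hstep] at hb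
    have hD := D_step (Fintype.card α - I.card) l.length (by omega)
    rw [A_cons, inner_sub_left]
    have h3 := (abs_le.mp hb).2
    have h4 : (1 - ((l.length + 1 : ℕ) : ℝ) / ((Fintype.card α - I.card - (l.length + 1) : ℕ) + 1)) * (‖f‖ * ‖f‖)
        = (1 - (l.length : ℝ) / ((Fintype.card α - I.card - l.length : ℕ) + 1)) * (‖f‖ * ‖f‖)
          - T (Fintype.card α - I.card) l.length (0 + 1) * (‖f‖ * ‖f‖) := by
      rw [← hD]; ring
    rw [h4]
    linarith

end Bound

/-- The operator `A` kills a function fixed by one of the swaps. -/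
lemma A_kill {I : Finset α} {d : α → α} (hd1 : ∀ c ∈ I, d c ∉ I) (hd2 : Set.InjOn d I)
    (l : List α) : l.Nodup → (∀ c ∈ l, c ∈ I) → ∀ c ∈ l, ∀ g : H α,
      R (Equiv.swap c (d c)) g = g → A d l g = 0 := by
  induction l with
  | nil => intro _ _ c hc; simp at hc
  | cons c' l ih =>
    intro hnd hl c hc g hg
    have hnd' : c' ∉ l ∧ l.Nodup := by simpa using hnd
    have hl' : ∀ c' ∈ l, c' ∈ I := fun c' hc' => hl c' (by simp [hc'])
    by_cases hcc : c = c'
    · subst hcc
      rw [A_cons, hg, sub_self]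
    · have hcl : c ∈ l := by
        simpa [hcc] using hc
      have hcI := hl' c hcl
      have hc'I : c' ∈ I := hl c' (by simp)
      have hcomm : Equiv.swap c (d c) * Equiv.swap c' (d c') = Equiv.swap c' (d c') * Equiv.swap c (d c) := by
        apply Equiv.Perm.Disjoint.commute
        apply Equiv.Perm.disjoint_swap_swap
        simp only [List.nodup_cons, List.mem_cons, List.not_mem_nil, or_false, not_or,
          List.nodup_nil, and_true, not_false_eq_true]
        refine ⟨⟨?_, hcc, ?_⟩, ⟨?_, ?_⟩, ?_⟩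
        · exact fun e => hd1 c hcI (e ▸ hcI)
        · exact fun e => hd1 c' hc'I (e ▸ hcI)
        · exact fun e => hd1 c hcI (e ▸ hc'I)
        · exact fun e => hcc (hd2 hcI hc'I e)
        · exact fun e => hd1 c' hc'I (e ▸ hc'I)
      rw [A_cons, ← map_sub]
      apply ih hnd'.2 hl' c hcl
      rw [map_sub, ← R_mul, hcomm, R_mul, hg]

/-- Two finsets of the same size are related by a permutation. -/
lemma exists_perm_image {I I' : Finset α} (h : I.card = I'.card) :
    ∃ π : Equiv.Perm α, I.image π = I' := by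
  classical
  let e : {x // x ∈ I} ≃ {x // x ∈ I'} := Finset.equivOfCardEq h
  refine ⟨e.extendSubtype, ?_⟩
  apply Finset.eq_of_subset_of_card_le
  · intro y hy
    obtain ⟨x, hx, rfl⟩ := Finset.mem_image.mp hy
    exact Equiv.extendSubtype_mem e x hx
  · rw [card_image_perm, h]

/-- Independence of translates: a nonzero pure eigenvector on `I` forces multiplicity
`C(|J|,|I|)` inside `M J`, if `|I| + |J| ≤ n`, `3|I| ≤ n`, `I ⊆ J`. -/
theorem dim_ge_of_pure (X : H α →ₗ[ℝ] H α) (hX : ∀ π f, X (R π f) = R π (X f)) {μ : ℝ}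
    {I J : Finset α} (hIJ : I ⊆ J) (h1 : I.card + J.card ≤ Fintype.card α)
    (h3 : 3 * I.card ≤ Fintype.card α) {f : H α} (hf : f ∈ P I) (hfμ : X f = μ • f) (hf0 : f ≠ 0) :
    (J.card).choose I.card ≤ finrank ℝ ((Module.End.eigenspace X μ ⊓ M J : Submodule ℝ (H α))) := by
  classical
  let ι := {I' : Finset α // I' ∈ J.powersetCard I.card}
  have hπ : ∀ I' : ι, ∃ π : Equiv.Perm α, I.image π = I'.1 := by
    intro I'
    exact exists_perm_image (Finset.mem_powersetCard.mp I'.2).2.symm
  choose π hπ using hπ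
  let g : ι → H α := fun I' => R (π I') f
  have hgP : ∀ I', g I' ∈ P I'.1 := by
    intro I'
    have := R_mem_P (π I') hf
    rwa [hπ] at this
  have hgW : ∀ I', g I' ∈ Module.End.eigenspace X μ := by
    intro I'
    rw [Module.End.mem_eigenspace_iff, hX, hfμ, map_smul]
  have hsub : ∀ I' : ι, I'.1 ⊆ J := fun I' => (Finset.mem_powersetCard.mp I'.2).1
  have hcard : ∀ I' : ι, I'.1.card = I.card := fun I' => (Finset.mem_powersetCard.mp I'.2).2
  have hgM : ∀ I', g I' ∈ M J := fun I' => M_mono (hsub I') (P_le_M _ (hgP I'))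
  have hg0 : ∀ I', g I' ≠ 0 := by
    intro I' h
    apply hf0
    have := norm_R (π I') f
    rw [← norm_eq_zero, ← this]
    show ‖g I'‖ = 0
    rw [h, norm_zero]
  let v : ι → ↥(Module.End.eigenspace X μ ⊓ M J : Submodule ℝ (H α)) :=
    fun I' => ⟨g I', hgW I', hgM I'⟩
  have hli : LinearIndependent ℝ v := by
    apply LinearIndependent.of_comp (Submodule.subtype _)
    rw [Fintype.linearIndependent_iff]
    intro a ha I₀
    -- choose the displacement
    obtain ⟨K, hK1, hK2⟩ : ∃ K ⊆ Jᶜ, K.card = I.card := by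
      apply Finset.exists_subset_card_eq
      rw [Finset.card_compl]
      omega
    obtain ⟨θ, hθ⟩ := exists_perm_image (I := I₀.1) (I' := K) (by rw [hcard, hK2])
    have hθJ : ∀ c ∈ I₀.1, θ c ∉ J := by
      intro c hc
      have : θ c ∈ K := by
        rw [← hθ]; exact Finset.mem_image_of_mem _ hc
      simpa using hK1 this
    have hθI : ∀ c ∈ I₀.1, θ c ∉ I₀.1 := fun c hc h => hθJ c hc (hsub I₀ h)
    have hinj : Set.InjOn θ I₀.1 := θ.injective.injOn
    let l := I₀.1.toList
    have hlnd : l.Nodup := Finset.nodup_toList _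
    have hlmem : ∀ c ∈ l, c ∈ I₀.1 := fun c hc => Finset.mem_toList.mp hc
    have hlen : l.length = I.card := by
      rw [Finset.length_toList, hcard]
    -- apply A and pair with g I₀
    have hA : ∀ I' : ι, I' ≠ I₀ → A θ l (g I') = 0 := by
      intro I' hne
      have : ∃ c ∈ I₀.1, c ∉ I'.1 := by
        by_contra hcon
        push Not at hcon
        apply hne
        apply Subtype.ext
        apply (Finset.eq_of_subset_of_card_le hcon _).symm
        rw [hcard, hcard]
      obtain ⟨c, hc, hc'⟩ := this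
      apply A_kill hθI hinj l hlnd hlmem c (Finset.mem_toList.mpr hc)
      apply (mem_M_iff_R.mp (P_le_M _ (hgP I')))
      intro x hx
      apply Equiv.swap_apply_of_ne_of_ne
      · exact fun e => hc' (e ▸ hx)
      · exact fun e => hθJ c hc (e ▸ hsub I' hx)
    have hsum : a I₀ • A θ l (g I₀) = 0 := by
      have h5 : A θ l (∑ i, a i • g i) = 0 := by
        have : ∑ i, a i • g i = 0 := by
          simpa [v, Function.comp_def] using ha
        rw [this, map_zero]
      rw [map_sum] at h5
      rw [Finset.sum_eq_single I₀] at h5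
      · rwa [map_smul] at h5
      · intro b _ hb
        rw [map_smul, hA b hb, smul_zero]
      · intro h; exact absurd (Finset.mem_univ _) h
    have hlow := A_lower (hgP I₀) hθI hinj (by rw [hcard]; omega) l hlnd hlmem
    rw [hlen, hcard] at hlow
    have hnpos : 0 < ‖g I₀‖ * ‖g I₀‖ := by
      have := norm_pos_iff.mpr (hg0 I₀)
      positivity
    have hfrac : (I.card : ℝ) / ((Fintype.card α - I.card - I.card : ℕ) + 1) < 1 := by
      rw [div_lt_one (by positivity)]
      have : I.card ≤ Fintype.card α - I.card - I.card := by omega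
      have : (I.card : ℝ) ≤ ((Fintype.card α - I.card - I.card : ℕ) : ℝ) := by exact_mod_cast this
      linarith
    have hposA : 0 < ⟪A θ l (g I₀), g I₀⟫ := by
      refine lt_of_lt_of_le ?_ hlow
      apply mul_pos _ hnpos
      linarith
    have h6 : a I₀ * ⟪A θ l (g I₀), g I₀⟫ = 0 := by
      have := congrArg (fun w => ⟪w, g I₀⟫) hsum
      simpa [inner_smul_left] using this
    rcases mul_eq_zero.mp h6 with h7 | h7
    · exact h7
    · exact absurd h7 hposA.ne'
  have := hli.fintype_card_le_finrank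
  have hι : Fintype.card ι = (J.card).choose I.card := by
    rw [Fintype.card_coe, Finset.card_powersetCard]
  rwa [hι] at this

end Crest.Agent.Thorp.Spec
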