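import Crest.Agent.Lib.Thorp.SpecBasic

/-!
# Thorp shuffle, S0222: patterns of a perfect matching (6(d) of the plan)

If a right-invariant space `W` has no joint eigenvector of the matching transpositions with at
least `a` signs `-1` and at least `b` signs `+1`, then `W ≤ V(2a) + sgn V(2a+2b)`.
And any joint eigenvector gives multiplicity `C(m, #minus)`.
-/

set_option autoImplicit false
set_option linter.unusedSectionVars false
set_option linter.unusedSimpArgs false
set_option linter.unusedVariables false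

namespace Crest.Agent.Thorp.Spec

open scoped RealInnerProductSpace
open Module

variable {α : Type*} [Fintype α] [DecidableEq α]

/-- Multiplication by the sign. -/
noncomputable def Sg : H α →ₗ[ℝ] H α where
  toFun f := mk (fun σ => ((Equiv.Perm.sign σ : ℤ) : ℝ) * f σ)
  map_add' f g := by apply H_ext; intro σ; simp [mul_add]
  map_smul' c f := by apply H_ext; intro σ; simp; ring

@[simp] lemma Sg_apply (f : H α) (σ : Equiv.Perm α) :
    Sg f σ = ((Equiv.Perm.sign σ : ℤ) : ℝ) * f σ := rfl

lemma sign_mul_self_real (σ : Equiv.Perm α) :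
    ((Equiv.Perm.sign σ : ℤ) : ℝ) * ((Equiv.Perm.sign σ : ℤ) : ℝ) = 1 := by
  rcases Int.units_eq_one_or (Equiv.Perm.sign σ) with h | h <;> simp [h]

@[simp] lemma Sg_Sg (f : H α) : Sg (Sg f) = f := by
  apply H_ext; intro σ
  simp only [Sg_apply]
  rw [← mul_assoc, sign_mul_self_real, one_mul]

lemma R_Sg (π : Equiv.Perm α) (f : H α) :
    R π (Sg f) = ((Equiv.Perm.sign π : ℤ) : ℝ) • Sg (R π f) := by
  apply H_ext; intro σ
  simp only [R_apply, Sg_apply, PiLp.smul_apply, smul_eq_mul, map_mul, Units.val_mul, Int.cast_mul]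
  ring

/-- Frozen-relative span. -/
def VF (F : Finset α) (t : ℕ) : Submodule ℝ (H α) := ⨆ (I : Finset α) (_ : I.card ≤ t), M (I ∪ F)

lemma M_le_VF (F : Finset α) (t : ℕ) : (M F : Submodule ℝ (H α)) ≤ VF F t :=
  le_iSup₂_of_le (∅ : Finset α) (by simp) (by simp)

lemma VF_empty (t : ℕ) : (VF ∅ t : Submodule ℝ (H α)) = V t := by
  simp [VF, V]

/-- Invariance under the pointwise stabiliser. -/
def Inv (F : Finset α) (W : Submodule ℝ (H α)) : Prop :=
  ∀ π : Equiv.Perm α, (∀ c ∈ F, π c = c) → ∀ f ∈ W, R π f ∈ W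

lemma Inv_VF (F : Finset α) (t : ℕ) : Inv F (VF F t : Submodule ℝ (H α)) := by
  intro π hπ f hf
  have : (VF F t : Submodule ℝ (H α)) ≤ (VF F t).comap (R π) := by
    apply iSup₂_le
    intro I hI g hg
    have h1 := R_mem_M π hg
    have h2 : (I ∪ F).image π = I.image π ∪ F := by
      rw [Finset.image_union]
      congr 1
      ext y
      simp only [Finset.mem_image]
      constructor
      · rintro ⟨z, hz, rfl⟩
        rw [hπ z hz]; exact hz
      · intro hy
        exact ⟨y, hy, hπ y hy⟩
    rw [h2] at h1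
    rw [Submodule.mem_comap]
    exact (le_iSup₂_of_le (f := fun (I : Finset α) (_ : I.card ≤ t) => (M (I ∪ F) : Submodule ℝ (H α)))
      (I.image π) ((Finset.card_image_le).trans hI) le_rfl) h1
  exact this hf

lemma Inv_map_Sg {F : Finset α} {W : Submodule ℝ (H α)} (hW : Inv F W) : Inv F (W.map Sg) := by
  rintro π hπ _ ⟨f, hf, rfl⟩
  rw [R_Sg]
  exact Submodule.smul_mem _ _ ⟨_, hW π hπ f hf, rfl⟩

lemma Inv_sup {F : Finset α} {W W' : Submodule ℝ (H α)} (hW : Inv F W) (hW' : Inv F W') :
    Inv F (W ⊔ W') := by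
  intro π hπ f hf
  obtain ⟨a, ha, b, hb, rfl⟩ := Submodule.mem_sup.mp hf
  rw [map_add]
  exact Submodule.add_mem _ (Submodule.mem_sup_left (hW π hπ a ha))
    (Submodule.mem_sup_right (hW' π hπ b hb))

/-- Step lemma: invariance in the quotient implies membership. -/
lemma step_mem {F : Finset α} {Y : Submodule ℝ (H α)} (hY : Inv F Y) (hMY : (M F : Submodule ℝ (H α)) ≤ Y)
    (f : H α) (hf : ∀ c c', c ∉ F → c' ∉ F → c ≠ c' → f - R (Equiv.swap c c') f ∈ Y) : f ∈ Y := by
  classical
  -- A: all the elements of the stabiliser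
  have hA : ∀ ρ : Equiv.Perm {x // x ∉ F}, f - R (Equiv.Perm.ofSubtype ρ) f ∈ Y := by
    intro ρ
    induction ρ using Equiv.Perm.swap_induction_on with
    | one => simp
    | swap_mul ρ x y hxy ih =>
      rw [map_mul, Equiv.Perm.ofSubtype_swap_eq, R_mul]
      have h1 := hf x.1 y.1 x.2 y.2 (fun e => hxy (Subtype.ext e))
      have hfix : ∀ c ∈ F, Equiv.swap x.1 y.1 c = c := by
        intro c hc
        apply Equiv.swap_apply_of_ne_of_ne
        · exact fun e => x.2 (e ▸ hc)
        · exact fun e => y.2 (e ▸ hc)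
      have h2 := hY _ hfix _ ih
      rw [map_sub] at h2
      have h3 := Y.add_mem h1 h2
      convert h3 using 1
      abel
  have hA' : ∀ π : Equiv.Perm α, (∀ c ∈ F, π c = c) → f - R π f ∈ Y := by
    intro π hπ
    have hsub : ∀ x, π x ∉ F ↔ x ∉ F := by
      intro x
      constructor
      · intro hx hx'
        rw [hπ x hx'] at hx
        exact hx hx'
      · intro hx hx'
        have := hπ _ hx'
        rw [π.injective this] at hx'
        exact hx hx'
    have hπ2 := hA (π.subtypePerm hsub)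
    rw [Equiv.Perm.ofSubtype_subtypePerm] at hπ2
    · exact hπ2
    · intro x hx
      by_contra hxF
      exact hx (hπ x (by simpa using hxF))
  -- the average
  let G : Finset (Equiv.Perm α) := Finset.univ.filter (fun π => ∀ c ∈ F, π c = c)
  have hG1 : (1 : Equiv.Perm α) ∈ G := by simp [G]
  let g : H α := ∑ π ∈ G, R π f
  have hgM : g ∈ M F := by
    rw [mem_M_iff_R]
    intro κ hκ
    simp only [g, map_sum]
    refine Finset.sum_nbij' (fun π => κ * π) (fun π => κ⁻¹ * π) ?_ ?_ ?_ ?_ ?_
    · intro π hπ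
      simp only [G, Finset.mem_filter, Finset.mem_univ, true_and] at hπ ⊢
      intro c hc
      simp [hπ c hc, hκ c hc]
    · intro π hπ
      simp only [G, Finset.mem_filter, Finset.mem_univ, true_and] at hπ ⊢
      intro c hc
      have : κ⁻¹ c = c := by
        rw [Equiv.Perm.inv_eq_iff_eq]
        exact (hκ c hc).symm
      simp only [Equiv.Perm.coe_mul, Function.comp_apply, hπ c hc, this]
    · intro π _; simp
    · intro π _; simp
    · intro π _; rw [R_mul]
  have hsum : (G.card : ℝ) • f - g ∈ Y := by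
    have : (G.card : ℝ) • f - g = ∑ π ∈ G, (f - R π f) := by
      rw [Finset.sum_sub_distrib, Finset.sum_const, Nat.cast_smul_eq_nsmul]
    rw [this]
    apply Y.sum_mem
    intro π hπ
    exact hA' π (by simpa [G] using hπ)
  have hmem : (G.card : ℝ) • f ∈ Y := by
    have := Y.add_mem hsum (hMY hgM)
    simpa using this
  have hne : (G.card : ℝ) ≠ 0 := by
    have : 0 < G.card := Finset.card_pos.mpr ⟨1, hG1⟩
    positivity
  exact (Y.smul_mem_iff hne).mp hmem

section Matching

variable {E : Type*} [Fintype E] [DecidableEq E] (p : E × Bool ≃ α)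

/-- The transposition of an edge. -/
def tau (e : E) : Equiv.Perm α := Equiv.swap (p (e, false)) (p (e, true))

lemma tau_ne (e : E) : p (e, false) ≠ p (e, true) := by
  intro h
  have := p.injective h
  simp at this

lemma tau_sq (e : E) : tau p e * tau p e = 1 := by
  simp [tau]

lemma sign_tau (e : E) : ((Equiv.Perm.sign (tau p e) : ℤ) : ℝ) = -1 := by
  simp [tau, Equiv.Perm.sign_swap (tau_ne p e)]

/-- The frozen cards of a set of edges. -/
def Fr (D : Finset E) : Finset α := Finset.univ.filter (fun x => (p.symm x).1 ∈ D)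

lemma mem_Fr {D : Finset E} {x : α} : x ∈ Fr p D ↔ (p.symm x).1 ∈ D := by simp [Fr]

lemma p_mem_Fr {D : Finset E} {e : E} {b : Bool} : p (e, b) ∈ Fr p D ↔ e ∈ D := by simp [mem_Fr]

lemma Fr_insert (D : Finset E) (e : E) :
    Fr p (insert e D) = ({p (e, false), p (e, true)} : Finset α) ∪ Fr p D := by
  ext x
  simp only [mem_Fr, Finset.mem_insert, Finset.mem_union, Finset.mem_singleton]
  constructor
  · rintro (h | h)
    · left
      rcases hb : (p.symm x).2 with _ | _
      · left
        have : p.symm x = (e, false) := Prod.ext h hb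
        rw [← this]; simp
      · right
        have : p.symm x = (e, true) := Prod.ext h hb
        rw [← this]; simp
    · right; exact h
  · rintro ((rfl | rfl) | h)
    · left; simp
    · left; simp
    · right; exact h

lemma Fr_empty : Fr p (∅ : Finset E) = ∅ := by
  ext x; simp [mem_Fr]

lemma VF_insert_le (D : Finset E) (e : E) (t : ℕ) :
    (VF (Fr p (insert e D)) t : Submodule ℝ (H α)) ≤ VF (Fr p D) (t + 2) := by
  apply iSup₂_le
  intro I hI
  rw [Fr_insert, ← Finset.union_assoc]
  refine le_iSup₂_of_le (f := fun (I : Finset α) (_ : I.card ≤ t + 2) =>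
    (M (I ∪ Fr p D) : Submodule ℝ (H α))) (I ∪ {p (e, false), p (e, true)}) ?_ le_rfl
  refine (Finset.card_union_le _ _).trans ?_
  have : ({p (e, false), p (e, true)} : Finset α).card ≤ 2 := Finset.card_le_two
  omega

/-- Moving an edge to any two free cards. -/
lemma exists_move {F : Finset α} {x₀ x₁ c c' : α} (hx₀ : x₀ ∉ F) (hx₁ : x₁ ∉ F) (hx : x₀ ≠ x₁)
    (hc : c ∉ F) (hc' : c' ∉ F) (hcc : c ≠ c') :
    ∃ π : Equiv.Perm α, (∀ y ∈ F, π y = y) ∧ π x₀ = c ∧ π x₁ = c' := by
  let π₁ := Equiv.swap c x₀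
  have h1 : π₁ x₀ = c := by simp [π₁]
  have h2 : π₁ x₁ ≠ c := by
    intro h
    rw [← h1] at h
    exact hx (π₁.injective h).symm
  have h3 : π₁ x₁ ∉ F := by
    simp only [π₁]
    rw [Equiv.swap_apply_def]
    split_ifs <;> assumption
  refine ⟨Equiv.swap c' (π₁ x₁) * π₁, ?_, ?_, ?_⟩
  · intro y hy
    have hy1 : π₁ y = y := by
      apply Equiv.swap_apply_of_ne_of_ne
      · exact fun e => hc (e ▸ hy)
      · exact fun e => hx₀ (e ▸ hy)
    simp only [Equiv.Perm.coe_mul, Function.comp_apply, hy1]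
    apply Equiv.swap_apply_of_ne_of_ne
    · exact fun e => hc' (e ▸ hy)
    · exact fun e => h3 (e ▸ hy)
  · simp only [Equiv.Perm.coe_mul, Function.comp_apply, h1]
    apply Equiv.swap_apply_of_ne_of_ne hcc
    exact h2.symm
  · simp

/-- No pattern. -/
def NoPat (D : Finset E) (a b : ℕ) (W : Submodule ℝ (H α)) : Prop :=
  ∀ f ∈ W, ∀ N : Finset E, N ⊆ Dᶜ → a ≤ N.card → b ≤ (Dᶜ \ N).card →
    (∀ e ∈ N, R (tau p e) f = -f) → (∀ e ∈ Dᶜ \ N, R (tau p e) f = f) → f = 0

/-- `1 - τ_e`. -/
noncomputable def Dm (e : E) : H α →ₗ[ℝ] H α := LinearMap.id - R (tau p e)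

/-- `1 + τ_e`. -/
noncomputable def Dp (e : E) : H α →ₗ[ℝ] H α := LinearMap.id + R (tau p e)

lemma Dm_apply (e : E) (f : H α) : Dm p e f = f - R (tau p e) f := rfl

lemma Dp_apply (e : E) (f : H α) : Dp p e f = f + R (tau p e) f := rfl

/-- The image `(1 - τ_e) W`. -/
noncomputable def Wm (e : E) (W : Submodule ℝ (H α)) : Submodule ℝ (H α) :=
  W.map (Dm p e)

/-- The image `(1 + τ_e) W`. -/
noncomputable def Wp (e : E) (W : Submodule ℝ (H α)) : Submodule ℝ (H α) :=
  W.map (Dp p e)

lemma tau_fix_Fr {D : Finset E} {e : E} (he : e ∉ D) : ∀ c ∈ Fr p D, tau p e c = c := by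
  intro c hc
  apply Equiv.swap_apply_of_ne_of_ne
  · exact fun h => he ((p_mem_Fr p).mp (h ▸ hc))
  · exact fun h => he ((p_mem_Fr p).mp (h ▸ hc))

lemma tau_comm_of_fix {D : Finset E} {e : E} {κ : Equiv.Perm α}
    (hκ : ∀ c ∈ Fr p (insert e D), κ c = c) : κ * tau p e = tau p e * κ := by
  have h0 : κ (p (e, false)) = p (e, false) :=
    hκ _ ((p_mem_Fr p).mpr (Finset.mem_insert_self _ _))
  have h1 : κ (p (e, true)) = p (e, true) :=
    hκ _ ((p_mem_Fr p).mpr (Finset.mem_insert_self _ _))
  have := Equiv.swap_apply_apply κ (p (e, false)) (p (e, true))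
  rw [h0, h1] at this
  unfold tau
  calc κ * Equiv.swap (p (e, false)) (p (e, true))
      = (κ * Equiv.swap (p (e, false)) (p (e, true)) * κ⁻¹) * κ := by group
    _ = _ := by rw [← this]

lemma Inv_mono_insert {D : Finset E} {e : E} {W : Submodule ℝ (H α)} (hW : Inv (Fr p D) W) :
    Inv (Fr p (insert e D)) W := by
  intro κ hκ f hf
  apply hW κ _ f hf
  intro c hc
  apply hκ
  rw [Fr_insert]
  exact Finset.mem_union_right _ hc

lemma Inv_Wm {D : Finset E} {e : E} {W : Submodule ℝ (H α)} (hW : Inv (Fr p D) W) :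
    Inv (Fr p (insert e D)) (Wm p e W) := by
  rintro κ hκ _ ⟨f, hf, rfl⟩
  refine ⟨R κ f, Inv_mono_insert p hW κ hκ f hf, ?_⟩
  simp only [Dm_apply, map_sub]
  rw [← R_mul, ← R_mul, tau_comm_of_fix p hκ]

lemma Inv_Wp {D : Finset E} {e : E} {W : Submodule ℝ (H α)} (hW : Inv (Fr p D) W) :
    Inv (Fr p (insert e D)) (Wp p e W) := by
  rintro κ hκ _ ⟨f, hf, rfl⟩
  refine ⟨R κ f, Inv_mono_insert p hW κ hκ f hf, ?_⟩
  simp only [Dp_apply, map_add]
  rw [← R_mul, ← R_mul, tau_comm_of_fix p hκ]

lemma compl_insert_eq {D : Finset E} {e : E} (he : e ∉ D) : Dᶜ = insert e (insert e D)ᶜ := by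
  ext x
  by_cases hx : x = e
  · subst hx; simp [he]
  · simp [hx]

lemma NoPat_Wm {D : Finset E} {e : E} (he : e ∉ D) {a b : ℕ} {W : Submodule ℝ (H α)}
    (hW : Inv (Fr p D) W) (h : NoPat p D a b W) : NoPat p (insert e D) (a - 1) b (Wm p e W) := by
  rintro _ ⟨f, hf, rfl⟩ N hN ha hb hs1 hs2
  set f' := Dm p e f with hf'
  have hf'W : f' ∈ W := by
    simp only [hf', Dm_apply]
    exact W.sub_mem hf (hW _ (tau_fix_Fr p he) f hf)
  have hsign : R (tau p e) f' = -f' := by
    simp only [hf', Dm_apply, map_sub]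
    rw [← R_mul, tau_sq, R_one]
    abel
  have heN : e ∉ N := by
    intro hc
    have := hN hc
    simp at this
  have hcompl := compl_insert_eq he
  apply h f' hf'W (insert e N)
  · rw [hcompl]
    exact Finset.insert_subset_insert _ hN
  · rw [Finset.card_insert_of_notMem heN]; omega
  · have : Dᶜ \ insert e N = (insert e D)ᶜ \ N := by
      rw [hcompl]
      ext x
      simp only [Finset.mem_sdiff, Finset.mem_insert, Finset.mem_compl, not_or]
      constructor
      · rintro ⟨_, h2, h3⟩
        exact ⟨by tauto, h3⟩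
      · rintro ⟨h1, h3⟩
        refine ⟨Or.inr ?_, ?_, h3⟩ <;> tauto
    rw [this]; exact hb
  · intro e' he'
    rcases Finset.mem_insert.mp he' with rfl | h'
    · exact hsign
    · exact hs1 e' h'
  · intro e' he'
    apply hs2
    simp only [Finset.mem_sdiff, Finset.mem_compl, Finset.mem_insert, not_or] at he' ⊢
    tauto

lemma NoPat_Wp {D : Finset E} {e : E} (he : e ∉ D) {a b : ℕ} {W : Submodule ℝ (H α)}
    (hW : Inv (Fr p D) W) (h : NoPat p D a b W) : NoPat p (insert e D) a (b - 1) (Wp p e W) := by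
  rintro _ ⟨f, hf, rfl⟩ N hN ha hb hs1 hs2
  set f' := Dp p e f with hf'
  have hf'W : f' ∈ W := by
    simp only [hf', Dp_apply]
    exact W.add_mem hf (hW _ (tau_fix_Fr p he) f hf)
  have hsign : R (tau p e) f' = f' := by
    simp only [hf', Dp_apply, map_add]
    rw [← R_mul, tau_sq, R_one]
    abel
  have heN : e ∉ N := by
    intro hc
    have := hN hc
    simp at this
  have hcompl := compl_insert_eq he
  have hNsub : N ⊆ Dᶜ := by
    rw [hcompl]; exact hN.trans (Finset.subset_insert _ _)
  have hsd : Dᶜ \ N = insert e ((insert e D)ᶜ \ N) := by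
    rw [hcompl]
    ext x
    simp only [Finset.mem_sdiff, Finset.mem_insert, Finset.mem_compl, not_or]
    by_cases hx : x = e
    · subst hx; simp [heN]
    · simp [hx]
  have hnot : e ∉ (insert e D)ᶜ \ N := by simp
  apply h f' hf'W N hNsub ha
  · rw [hsd, Finset.card_insert_of_notMem hnot]; omega
  · exact hs1
  · intro e' he'
    rw [hsd] at he'
    rcases Finset.mem_insert.mp he' with rfl | h'
    · exact hsign
    · exact hs2 e' h'

/-- Lemma Z: no joint eigenvector at all implies `W = 0`. -/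
theorem pattern_Z : ∀ (n : ℕ) (D : Finset E), Dᶜ.card = n → ∀ W : Submodule ℝ (H α),
    Inv (Fr p D) W → NoPat p D 0 0 W → W = ⊥ := by
  intro n
  induction n with
  | zero =>
    intro D hD W hW h
    rw [eq_bot_iff]
    intro f hf
    have hD' : Dᶜ = ∅ := Finset.card_eq_zero.mp hD
    rw [Submodule.mem_bot]
    apply h f hf ∅ (by simp) (by simp) (by simp)
    · simp
    · simp [hD']
  | succ n ih =>
    intro D hD W hW h
    obtain ⟨e, he⟩ : Dᶜ.Nonempty := by rw [← Finset.card_pos]; omega
    have heD : e ∉ D := by simpa using he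
    have hcard : (insert e D)ᶜ.card = n := by
      have := compl_insert_eq heD
      rw [this, Finset.card_insert_of_notMem (by simp)] at hD
      omega
    have h1 := ih (insert e D) hcard (Wm p e W) (Inv_Wm p hW) (NoPat_Wm p heD hW h)
    have h2 := ih (insert e D) hcard (Wp p e W) (Inv_Wp p hW) (NoPat_Wp p heD hW h)
    rw [eq_bot_iff]
    intro f hf
    have h3 : Dm p e f = 0 := by
      have : Dm p e f ∈ Wm p e W := ⟨f, hf, rfl⟩
      rw [h1] at this
      exact this
    have h4 : Dp p e f = 0 := by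
      have : Dp p e f ∈ Wp p e W := ⟨f, hf, rfl⟩
      rw [h2] at this
      exact this
    simp only [Dm_apply, Dp_apply] at h3 h4
    have h5 : (2 : ℝ) • f = 0 := by
      rw [two_smul]
      calc f + f = (f - R (tau p e) f) + (f + R (tau p e) f) := by abel
        _ = 0 := by rw [h3, h4, add_zero]
    have h6 : f = 0 := by
      have := smul_eq_zero.mp h5
      rcases this with h7 | h7
      · norm_num at h7
      · exact h7
    simpa using h6

/-- The main induction step: from `(1-τ_e) W ≤ Y` to `W ≤ Y`. -/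
lemma W_le_of_Wm_le {D : Finset E} {e : E} (he : e ∉ D) {W Y : Submodule ℝ (H α)}
    (hW : Inv (Fr p D) W) (hY : Inv (Fr p D) Y) (hMY : (M (Fr p D) : Submodule ℝ (H α)) ≤ Y)
    (h : Wm p e W ≤ Y) : W ≤ Y := by
  intro f hf
  apply step_mem hY hMY
  intro c c' hc hc' hcc
  have hx0 : p (e, false) ∉ Fr p D := fun h => he ((p_mem_Fr p).mp h)
  have hx1 : p (e, true) ∉ Fr p D := fun h => he ((p_mem_Fr p).mp h)
  obtain ⟨π, hπ, h0, h1⟩ := exists_move hx0 hx1 (tau_ne p e) hc hc' hcc
  have hswap : Equiv.swap c c' = π * tau p e * π⁻¹ := by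
    rw [← h0, ← h1]
    exact Equiv.swap_apply_apply π _ _
  have hπinv : ∀ c ∈ Fr p D, π⁻¹ c = c := by
    intro c hc
    rw [Equiv.Perm.inv_eq_iff_eq]
    exact (hπ c hc).symm
  have hf1 := hW π⁻¹ hπinv f hf
  have hf2 : Dm p e (R π⁻¹ f) ∈ Y := h ⟨_, hf1, rfl⟩
  have hf3 := hY π hπ _ hf2
  convert hf3 using 1
  simp only [Dm_apply, map_sub]
  rw [← R_mul, ← R_mul, ← R_mul, hswap]
  simp [mul_assoc]

lemma M_univ_eq_top : (M (Finset.univ : Finset α) : Submodule ℝ (H α)) = ⊤ := by
  rw [eq_top_iff]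
  intro f _ σ σ' h
  have : σ = σ' := Equiv.ext (fun c => h c (Finset.mem_univ c))
  rw [this]

lemma Fr_univ_of_compl_empty {D : Finset E} (hD : Dᶜ = ∅) : Fr p D = Finset.univ := by
  ext x
  have : (p.symm x).1 ∈ D := by
    by_contra hx
    have : (p.symm x).1 ∈ Dᶜ := by simpa using hx
    rw [hD] at this
    simp at this
  simp [mem_Fr, this]

/-- Lemma A. -/
theorem pattern_A : ∀ (n : ℕ) (D : Finset E), Dᶜ.card = n → ∀ (a : ℕ) (W : Submodule ℝ (H α)),
    Inv (Fr p D) W → NoPat p D a 0 W → W ≤ VF (Fr p D) (2 * a) := by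
  intro n
  induction n with
  | zero =>
    intro D hD a W _ _
    have hD' : Dᶜ = ∅ := Finset.card_eq_zero.mp hD
    rw [Fr_univ_of_compl_empty p hD']
    refine le_trans le_top ?_
    rw [← M_univ_eq_top]
    exact M_le_VF _ _
  | succ n ih =>
    intro D hD a W hW h
    rcases Nat.eq_zero_or_pos a with rfl | ha
    · rw [pattern_Z p _ D rfl W hW h]; exact bot_le
    obtain ⟨e, he⟩ : Dᶜ.Nonempty := by rw [← Finset.card_pos]; omega
    have heD : e ∉ D := by simpa using he
    have hcard : (insert e D)ᶜ.card = n := by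
      have := compl_insert_eq heD
      rw [this, Finset.card_insert_of_notMem (by simp)] at hD
      omega
    apply W_le_of_Wm_le p heD hW (Inv_VF _ _) (M_le_VF _ _)
    refine (ih (insert e D) hcard (a - 1) _ (Inv_Wm p hW) (NoPat_Wm p heD hW h)).trans ?_
    refine (VF_insert_le p D e _).trans ?_
    have : 2 * (a - 1) + 2 = 2 * a := by omega
    rw [this]

/-- Lemma B: the sign version. -/
theorem pattern_B (n : ℕ) (D : Finset E) (hD : Dᶜ.card = n) (b : ℕ) (W : Submodule ℝ (H α))
    (hW : Inv (Fr p D) W) (h : NoPat p D 0 b W) : W ≤ (VF (Fr p D) (2 * b)).map Sg := by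
  have h1 : W.map Sg ≤ VF (Fr p D) (2 * b) := by
    apply pattern_A p n D hD b _ (Inv_map_Sg hW)
    rintro _ ⟨f, hf, rfl⟩ N hN hb _ hs1 hs2
    have hflip : ∀ e, R (tau p e) (Sg f) = - Sg (R (tau p e) f) := by
      intro e
      rw [R_Sg, sign_tau]
      simp
    have hSgzero : Sg f = 0 ↔ f = 0 := by
      constructor
      · intro h0
        have := congrArg Sg h0
        simpa using this
      · intro h0; simp [h0]
    rw [hSgzero]
    apply h f hf (Dᶜ \ N) Finset.sdiff_subset (Nat.zero_le _)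
    · have : Dᶜ \ (Dᶜ \ N) = N := by
        rw [Finset.sdiff_sdiff_eq_self hN]
      rw [this]; exact hb
    · intro e he
      have := hs2 e he
      rw [hflip] at this
      have h2 : Sg (R (tau p e) f) = Sg (-f) := by
        rw [map_neg]; exact (neg_eq_iff_eq_neg.mp this)
      have h3 := congrArg Sg h2
      simpa using h3
    · intro e he
      have : e ∈ N := by
        rw [Finset.sdiff_sdiff_eq_self hN] at he; exact he
      have h4 := hs1 e this
      rw [hflip] at h4
      have h2 : Sg (R (tau p e) f) = Sg f := neg_injective h4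
      have h3 := congrArg Sg h2
      simpa using h3
  intro f hf
  exact ⟨Sg f, h1 ⟨f, hf, rfl⟩, by simp⟩

/-- Lemma C. -/
theorem pattern_C : ∀ (n : ℕ) (D : Finset E), Dᶜ.card = n → ∀ (a b : ℕ) (W : Submodule ℝ (H α)),
    1 ≤ a → Inv (Fr p D) W → NoPat p D a b W →
      W ≤ VF (Fr p D) (2 * a) ⊔ (VF (Fr p D) (2 * a + 2 * b)).map Sg := by
  intro n
  induction n with
  | zero =>
    intro D hD a b W _ _ _
    have hD' : Dᶜ = ∅ := Finset.card_eq_zero.mp hD
    rw [Fr_univ_of_compl_empty p hD']
    refine le_trans le_top (le_trans ?_ le_sup_left)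
    rw [← M_univ_eq_top]
    exact M_le_VF _ _
  | succ n ih =>
    intro D hD a b W ha hW h
    obtain ⟨e, he⟩ : Dᶜ.Nonempty := by rw [← Finset.card_pos]; omega
    have heD : e ∉ D := by simpa using he
    have hcard : (insert e D)ᶜ.card = n := by
      have := compl_insert_eq heD
      rw [this, Finset.card_insert_of_notMem (by simp)] at hD
      omega
    apply W_le_of_Wm_le p heD hW (Inv_sup (Inv_VF _ _) (Inv_map_Sg (Inv_VF _ _)))
      ((M_le_VF _ _).trans le_sup_left)
    have hN := NoPat_Wm p heD hW h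
    rcases Nat.lt_or_ge 1 a with ha1 | ha1
    · refine (ih (insert e D) hcard (a - 1) b _ (by omega) (Inv_Wm p hW) hN).trans ?_
      apply sup_le_sup
      · refine (VF_insert_le p D e _).trans ?_
        have : 2 * (a - 1) + 2 = 2 * a := by omega
        rw [this]
      · apply Submodule.map_mono
        refine (VF_insert_le p D e _).trans ?_
        have : 2 * (a - 1) + 2 * b + 2 = 2 * a + 2 * b := by omega
        rw [this]
    · have ha2 : a = 1 := by omega
      subst ha2
      have := pattern_B p n (insert e D) hcard b _ (Inv_Wm p hW) hN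
      refine this.trans (le_trans ?_ le_sup_right)
      apply Submodule.map_mono
      refine (VF_insert_le p D e _).trans ?_
      have : 2 * b + 2 = 2 * 1 + 2 * b := by omega
      rw [this]

/-- Top-level: a right-invariant space not inside `V(2a) + sgn V(2a+2b)` contains a pattern. -/
theorem exists_pattern (a b : ℕ) (ha : 1 ≤ a) (W : Submodule ℝ (H α))
    (hW : ∀ π, ∀ f ∈ W, R π f ∈ W)
    (hnot : ¬ W ≤ V (2 * a) ⊔ (V (2 * a + 2 * b)).map Sg) :
    ∃ f ∈ W, f ≠ 0 ∧ ∃ N : Finset E, a ≤ N.card ∧ b ≤ Nᶜ.card ∧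
      (∀ e ∈ N, R (tau p e) f = -f) ∧ (∀ e ∈ Nᶜ, R (tau p e) f = f) := by
  by_contra hcon
  apply hnot
  have h := pattern_C p _ (∅ : Finset E) rfl a b W ha (fun π _ f hf => hW π f hf) (by
    intro f hf N _ h1 h2 hs1 hs2
    by_contra hf0
    apply hcon
    refine ⟨f, hf, hf0, N, h1, ?_, hs1, ?_⟩
    · simpa [Finset.compl_eq_univ_sdiff] using h2
    · intro e he
      apply hs2
      simpa [Finset.compl_eq_univ_sdiff] using he)
  rwa [Fr_empty, VF_empty, VF_empty] at h

/-- The perfect-matching lift of a permutation of edges. -/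
noncomputable def lift (ρ : Equiv.Perm E) : Equiv.Perm α :=
  p.symm.trans ((Equiv.prodCongr ρ (Equiv.refl Bool)).trans p)

lemma lift_p (ρ : Equiv.Perm E) (e : E) (b : Bool) : lift p ρ (p (e, b)) = p (ρ e, b) := by
  simp [lift]

lemma tau_conj (ρ : Equiv.Perm E) (e : E) :
    tau p (ρ e) * lift p ρ = lift p ρ * tau p e := by
  have := Equiv.swap_apply_apply (lift p ρ) (p (e, false)) (p (e, true))
  rw [lift_p, lift_p] at this
  unfold tau
  rw [this]
  simp [mul_assoc]

/-- Joint eigenvectors with `|N|` minus signs give multiplicity `C(m, |N|)`. -/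
theorem dim_ge_of_pattern (W : Submodule ℝ (H α)) (hW : ∀ π, ∀ f ∈ W, R π f ∈ W) {f : H α}
    (hf : f ∈ W) (hf0 : f ≠ 0) (N : Finset E)
    (hs1 : ∀ e ∈ N, R (tau p e) f = -f) (hs2 : ∀ e ∈ Nᶜ, R (tau p e) f = f) :
    (Fintype.card E).choose N.card ≤ finrank ℝ W := by
  classical
  let ι := {N' : Finset E // N' ∈ (Finset.univ : Finset E).powersetCard N.card}
  have hρ : ∀ N' : ι, ∃ ρ : Equiv.Perm E, N.image ρ = N'.1 := by
    intro N'
    have hc : N.card = N'.1.card := (Finset.mem_powersetCard.mp N'.2).2.symm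
    let e : {x // x ∈ N} ≃ {x // x ∈ N'.1} := Finset.equivOfCardEq hc
    refine ⟨e.extendSubtype, ?_⟩
    apply Finset.eq_of_subset_of_card_le
    · intro y hy
      obtain ⟨x, hx, rfl⟩ := Finset.mem_image.mp hy
      exact Equiv.extendSubtype_mem e x hx
    · rw [Finset.card_image_of_injective _ (Equiv.injective _)]
      exact le_of_eq hc.symm
  choose ρ hρ using hρ
  let g : ι → H α := fun N' => R (lift p (ρ N')) f
  have hgW : ∀ N', g N' ∈ W := fun N' => hW _ _ hf
  have hg0 : ∀ N', g N' ≠ 0 := by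
    intro N' h
    apply hf0
    rw [← norm_eq_zero, ← norm_R (lift p (ρ N')) f]
    show ‖g N'‖ = 0
    rw [h, norm_zero]
  have hsign : ∀ (N' : ι) (e : E), R (tau p e) (g N') =
      (if e ∈ N'.1 then (-1 : ℝ) else 1) • g N' := by
    intro N' e
    obtain ⟨e', rfl⟩ := (ρ N').surjective e
    simp only [g]
    rw [← R_mul, tau_conj, R_mul]
    by_cases he' : e' ∈ N
    · have : ρ N' e' ∈ N'.1 := by
        rw [← hρ]; exact Finset.mem_image_of_mem _ he'
      rw [hs1 e' he', if_pos this, map_neg]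
      simp
    · have : ρ N' e' ∉ N'.1 := by
        rw [← hρ]
        intro h
        obtain ⟨x, hx, hxe⟩ := Finset.mem_image.mp h
        rw [(ρ N').injective hxe] at hx
        exact he' hx
      rw [hs2 e' (by simpa using he'), if_neg this]
      simp
  have horth : ∀ N₁ N₂ : ι, N₁ ≠ N₂ → ⟪g N₁, g N₂⟫ = 0 := by
    intro N₁ N₂ hne
    obtain ⟨e, he⟩ : ∃ e, (e ∈ N₁.1 ∧ e ∉ N₂.1) ∨ (e ∉ N₁.1 ∧ e ∈ N₂.1) := by
      by_contra hcon
      push Not at hcon
      apply hne
      apply Subtype.ext
      ext e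
      constructor
      · intro h
        exact (hcon e).1 h
      · intro h
        by_contra h2
        exact (hcon e).2 h2 h
    have h1 := inner_R_R (tau p e) (g N₁) (g N₂)
    rw [hsign, hsign] at h1
    rcases he with ⟨h3, h4⟩ | ⟨h3, h4⟩
    · rw [if_pos h3, if_neg h4] at h1
      simp only [one_smul, neg_smul, inner_neg_left] at h1
      linarith
    · rw [if_neg h3, if_pos h4] at h1
      simp only [one_smul, neg_smul, inner_neg_right] at h1
      linarith
  let v : ι → ↥W := fun N' => ⟨g N', hgW N'⟩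
  have hli : LinearIndependent ℝ v := by
    apply LinearIndependent.of_comp (Submodule.subtype _)
    exact linearIndependent_of_ne_zero_of_inner_eq_zero (𝕜 := ℝ) (fun i => hg0 i) (fun i j hij => horth i j hij)
  have := hli.fintype_card_le_finrank
  have hι : Fintype.card ι = (Fintype.card E).choose N.card := by
    rw [Fintype.card_coe, Finset.card_powersetCard, Finset.card_univ]
  rwa [hι] at this

end Matching

/-- Unimodality of binomial coefficients, in the form we need. -/
lemma choose_le_of_mem {m a k : ℕ} (h1 : a ≤ k) (h2 : k + a ≤ m) : m.choose a ≤ m.choose k := by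
  have mono : ∀ j, a ≤ j → 2 * j ≤ m → m.choose a ≤ m.choose j := by
    intro j hj
    induction j, hj using Nat.le_induction with
    | base => intro _; exact le_rfl
    | succ j hj ih =>
      intro hm
      refine (ih (by omega)).trans ?_
      apply Nat.choose_le_succ_of_lt_half_left
      omega
  by_cases hk : 2 * k ≤ m
  · exact mono k h1 hk
  · have h3 : m.choose k = m.choose (m - k) := (Nat.choose_symm (by omega)).symm
    rw [h3]
    exact mono (m - k) (by omega) (by omega)

end Crest.Agent.Thorp.Spec
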