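import Crest.Agent.Lib.Thorp.SpecChain
import Crest.Agent.Lib.Thorp.SpecIndep
import Crest.Agent.Lib.Thorp.SpecPattern

/-!
# Thorp shuffle, S0222: the spectral assembly, abstract form (6(e) of the plan)

`X` is a good operator on functions on `Perm α`; given bounds `Φ j` for the trace of `X ^ q` on the
spaces `M J` with `|J| = j`, we bound the trace of `X ^ (16 q)`.
Traces are written as multiplicity sums, over a finite set `Λ` containing the eigenvalues.
-/

set_option autoImplicit false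
set_option linter.unusedSectionVars false
set_option linter.unusedSimpArgs false
set_option linter.unusedVariables false

namespace Crest.Agent.Thorp.Spec

open scoped RealInnerProductSpace
open Module

variable {α : Type*} [Fintype α] [DecidableEq α]

/-- Multiplicity of the eigenvalue `μ` inside `S`. -/
noncomputable def mult (X : H α →ₗ[ℝ] H α) (S : Submodule ℝ (H α)) (μ : ℝ) : ℕ :=
  finrank ℝ ↥(Module.End.eigenspace X μ ⊓ S)

lemma mult_mono (X : H α →ₗ[ℝ] H α) {S S' : Submodule ℝ (H α)} (h : S ≤ S') (μ : ℝ) :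
    mult X S μ ≤ mult X S' μ :=
  Submodule.finrank_mono (inf_le_inf_left _ h)

lemma exists_of_mult_ne_zero {X : H α →ₗ[ℝ] H α} {S : Submodule ℝ (H α)} {μ : ℝ}
    (h : mult X S μ ≠ 0) : ∃ f, f ∈ S ∧ X f = μ • f ∧ f ≠ 0 := by
  have hne : (Module.End.eigenspace X μ ⊓ S : Submodule ℝ (H α)) ≠ ⊥ := by
    intro hb
    apply h
    unfold mult
    rw [hb]
    simp
  obtain ⟨f, hf, hf0⟩ := Submodule.exists_mem_ne_zero_of_ne_bot hne
  exact ⟨f, hf.2, Module.End.mem_eigenspace_iff.mp hf.1, hf0⟩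

variable {X : H α →ₗ[ℝ] H α}

lemma GoodOp.eig_nonneg (hX : GoodOp X) {μ : ℝ} {f : H α} (hf : X f = μ • f) (hf0 : f ≠ 0) : 0 ≤ μ := by
  have h := hX.nonneg f
  rw [hf, inner_smul_left] at h
  simp only [conj_trivial] at h
  have hpos : 0 < ⟪f, f⟫ := real_inner_self_pos.mpr hf0
  by_contra hneg
  push Not at hneg
  nlinarith

section Main

variable (hX : GoodOp X) (Λ : Finset ℝ) (hΛ0 : ∀ μ ∈ Λ, 0 ≤ μ) (q : ℕ) (hq : 0 < q) (Φ : ℕ → ℝ)
  (htr : ∀ J : Finset α, ∑ μ ∈ Λ, μ ^ q * (mult X (M J) μ : ℝ) ≤ Φ J.card)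

include hΛ0 htr

lemma Phi_nonneg (J : Finset α) : 0 ≤ Φ J.card :=
  le_trans (Finset.sum_nonneg fun μ hμ => mul_nonneg (pow_nonneg (hΛ0 μ hμ) _) (Nat.cast_nonneg _)) (htr J)

lemma term_le_Phi {S : Submodule ℝ (H α)} (J : Finset α) (hS : S ≤ M J) {μ : ℝ} (hμ : μ ∈ Λ) :
    μ ^ q * (mult X S μ : ℝ) ≤ Φ J.card := by
  refine le_trans ?_ (htr J)
  have h1 : μ ^ q * (mult X S μ : ℝ) ≤ μ ^ q * (mult X (M J) μ : ℝ) :=
    mul_le_mul_of_nonneg_left (by exact_mod_cast mult_mono X hS μ) (pow_nonneg (hΛ0 μ hμ) _)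
  exact h1.trans (Finset.single_le_sum (f := fun μ => μ ^ q * (mult X (M J) μ : ℝ))
    (fun μ hμ => mul_nonneg (pow_nonneg (hΛ0 μ hμ) _) (Nat.cast_nonneg _)) hμ)

include hX

/-- The estimate of one term of the low part. -/
lemma low_term {I J : Finset α} (hIJ : I ⊆ J) (h1 : I.card + J.card ≤ Fintype.card α)
    (h3 : 3 * I.card ≤ Fintype.card α) {μ : ℝ} (hμ : μ ∈ Λ) :
    μ ^ (16 * q) * (mult X (P I) μ : ℝ) ≤
      (Φ J.card / ((J.card).choose I.card : ℝ)) ^ 15 * (μ ^ q * (mult X (M I) μ : ℝ)) := by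
  have hμ0 := hΛ0 μ hμ
  have hB : 0 ≤ Φ J.card / ((J.card).choose I.card : ℝ) :=
    div_nonneg (Phi_nonneg Λ hΛ0 q Φ htr J) (Nat.cast_nonneg _)
  by_cases h0 : mult X (P I) μ = 0
  · rw [h0]
    simp only [Nat.cast_zero, mul_zero]
    exact mul_nonneg (pow_nonneg hB _) (mul_nonneg (pow_nonneg hμ0 _) (Nat.cast_nonneg _))
  · obtain ⟨f, hf, hfμ, hf0⟩ := exists_of_mult_ne_zero h0
    have hdim := dim_ge_of_pure X hX.comm hIJ h1 h3 hf hfμ hf0
    have hC : (0 : ℝ) < ((J.card).choose I.card : ℝ) := by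
      exact_mod_cast Nat.choose_pos (Finset.card_le_card hIJ)
    have hle : μ ^ q ≤ Φ J.card / ((J.card).choose I.card : ℝ) := by
      rw [le_div_iff₀ hC]
      have h5 := term_le_Phi Λ hΛ0 q Φ htr (S := M J) J le_rfl hμ
      refine le_trans (mul_le_mul_of_nonneg_left ?_ (pow_nonneg hμ0 _)) h5
      exact_mod_cast hdim
    have hmul : (mult X (P I) μ : ℝ) ≤ (mult X (M I) μ : ℝ) := by
      exact_mod_cast mult_mono X (P_le_M I) μ
    have hpow : μ ^ (16 * q) = (μ ^ q) ^ 15 * μ ^ q := by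
      rw [← pow_mul, ← pow_add]; congr 1; ring
    rw [hpow, mul_assoc]
    apply mul_le_mul (pow_le_pow_left₀ (pow_nonneg hμ0 _) hle _)
      (mul_le_mul_of_nonneg_left hmul (pow_nonneg hμ0 _))
      (mul_nonneg (pow_nonneg hμ0 _) (Nat.cast_nonneg _)) (pow_nonneg hB _)

end Main

section Chain

variable (hX : GoodOp X)

include hX

/-- Iterating the chain of `finrank_chain`, with a fixed set `Iset i` of each size. -/
lemma mult_V_le (μ : ℝ) (Iset : ℕ → Finset α) (hI : ∀ i, (Iset i).card = min i (Fintype.card α))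
    (i1 : ℕ) (hi1 : i1 ≤ Fintype.card α) :
    mult X (V i1) μ ≤ mult X (V 0) μ + ∑ i ∈ Finset.Icc 1 i1,
      (Fintype.card α).choose i * mult X (P (Iset i)) μ := by
  induction i1 with
  | zero => simp
  | succ i1 ih =>
    rw [Finset.sum_Icc_succ_top (by omega), ← add_assoc]
    have hcard : (Iset (i1 + 1)).card = i1 + 1 := by rw [hI]; omega
    have h2 := hX.finrank_chain μ (Iset (i1 + 1)) (by omega)
    rw [hcard, Nat.add_sub_cancel] at h2
    have h3 := ih (by omega)
    unfold mult at *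
    omega

end Chain

lemma V_zero_eq : (V 0 : Submodule ℝ (H α)) = M ∅ := by
  apply le_antisymm
  · apply iSup₂_le
    intro I hI
    have : I = ∅ := Finset.card_eq_zero.mp (by omega)
    rw [this]
  · exact M_le_V (by simp)

/-- The constant function. -/
noncomputable def one : H α := mk (fun _ => 1)

lemma mem_M_empty {f : H α} (hf : f ∈ M (∅ : Finset α)) : f = (f 1) • one := by
  apply H_ext
  intro σ
  simp only [one, PiLp.smul_apply, mk_apply, smul_eq_mul, mul_one]
  exact hf σ 1 (by simp)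

lemma one_ne_zero' : (one : H α) ≠ 0 := by
  intro h
  have := congrArg (fun f : H α => f 1) h
  simp [one] at this

/-- The contribution of the constants. -/
lemma term_V_zero_le (hone : X one = one) (K : ℕ) (μ : ℝ) :
    μ ^ K * (mult X (V 0) μ : ℝ) ≤ if μ = 1 then 1 else 0 := by
  split_ifs with h
  · subst h
    have hle : mult X (V 0) 1 ≤ finrank ℝ ↥(V 0 : Submodule ℝ (H α)) :=
      Submodule.finrank_mono inf_le_right
    have h1 : finrank ℝ ↥(V 0 : Submodule ℝ (H α)) ≤ 1 := by
      have hone_mem : one ∈ (V 0 : Submodule ℝ (H α)) := by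
        rw [V_zero_eq]
        intro σ σ' _
        simp [one]
      apply finrank_le_one (⟨one, hone_mem⟩ : ↥(V 0 : Submodule ℝ (H α)))
      rintro ⟨w, hw⟩
      refine ⟨w 1, ?_⟩
      apply Subtype.ext
      rw [V_zero_eq] at hw
      exact (mem_M_empty hw).symm
    simp only [one_pow, one_mul]
    exact_mod_cast hle.trans h1
  · have : mult X (V 0) μ = 0 := by
      by_contra h0
      obtain ⟨f, hf, hfμ, hf0⟩ := exists_of_mult_ne_zero h0
      rw [V_zero_eq] at hf
      have h1 := mem_M_empty hf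
      have h2 : X f = f := by
        rw [h1, map_smul, hone]
      rw [h2] at hfμ
      have h3 : (1 - μ) • f = 0 := by
        rw [sub_smul, one_smul, ← hfμ, sub_self]
      rcases smul_eq_zero.mp h3 with h4 | h4
      · apply h; linarith
      · exact hf0 h4
    rw [this]
    simp

/-- The sign part is killed: consequence of the hypothesis `hkill`. -/
theorem spectral_bound {E : Type*} [Fintype E] [DecidableEq E] (p : E × Bool ≃ α)
    (hX : GoodOp X) (hone : X one = one)
    (hkill : ∀ t, 2 * t < Fintype.card α → ∀ v ∈ (V t : Submodule ℝ (H α)), X (Sg v) = 0)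
    (Λ : Finset ℝ) (hΛ0 : ∀ μ ∈ Λ, 0 ≤ μ) (q : ℕ) (hq : 0 < q) (Φ : ℕ → ℝ)
    (htr : ∀ J : Finset α, ∑ μ ∈ Λ, μ ^ q * (mult X (M J) μ : ℝ) ≤ Φ J.card)
    (i1 T a : ℕ) (j : ℕ → ℕ) (M₀ : ℝ) (hM₀ : 0 < M₀)
    (hi1T : i1 ≤ T)
    (hj : ∀ i ∈ Finset.Icc 1 i1, i ≤ j i ∧ i + j i ≤ Fintype.card α ∧ 3 * i ≤ Fintype.card α)
    (ht : ∀ t ∈ Finset.Ioc i1 T, 3 * t ≤ Fintype.card α ∧ 2 * t ≤ Fintype.card α ∧
      M₀ ≤ ((Fintype.card α - t).choose t : ℝ))
    (ha1 : 1 ≤ a) (ha2 : 2 * a ≤ T) (ha3 : 8 * a < Fintype.card α) (ha4 : 2 * a ≤ Fintype.card E)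
    (hM₀a : M₀ ≤ ((Fintype.card E).choose a : ℝ))
    (hTn : T ≤ Fintype.card α) :
    ∑ μ ∈ Λ, μ ^ (16 * q) * (mult X ⊤ μ : ℝ) ≤
      1 + ∑ i ∈ Finset.Icc 1 i1, ((Fintype.card α).choose i : ℝ) *
          ((Φ (j i) / ((j i).choose i : ℝ)) ^ 15 * Φ i) +
        (Φ (Fintype.card α) / M₀) ^ 15 * Φ (Fintype.card α) := by
  classical
  have hi1n : i1 ≤ Fintype.card α := hi1T.trans hTn
  -- a fixed set of each size
  have hIex : ∀ i, ∃ I : Finset α, I.card = min i (Fintype.card α) := by
    intro i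
    obtain ⟨I, _, hI⟩ := Finset.exists_subset_card_eq (s := (Finset.univ : Finset α))
      (n := min i (Fintype.card α)) (by simp)
    exact ⟨I, hI⟩
  choose Iset hIset using hIex
  have hQ : ∀ μ ∈ Λ, 0 ≤ μ ^ q := fun μ hμ => pow_nonneg (hΛ0 μ hμ) _
  have hΦn : 0 ≤ Φ (Fintype.card α) := by
    have := Phi_nonneg Λ hΛ0 q Φ htr (Finset.univ : Finset α)
    simpa using this
  have hA : 0 ≤ Φ (Fintype.card α) / M₀ := div_nonneg hΦn hM₀.le
  -- the bound for the high part of a single eigenvalue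
  have hhigh : ∀ μ ∈ Λ, μ ^ (16 * q) * ((mult X ⊤ μ : ℝ) - (mult X (V i1) μ : ℝ)) ≤
      (Φ (Fintype.card α) / M₀) ^ 15 * (μ ^ q * (mult X ⊤ μ : ℝ)) := by
    intro μ hμ
    have hμ0 := hΛ0 μ hμ
    have hsub : (0 : ℝ) ≤ (mult X ⊤ μ : ℝ) - (mult X (V i1) μ : ℝ) := by
      rw [sub_nonneg]
      exact_mod_cast mult_mono X le_top μ
    have hsub2 : (mult X ⊤ μ : ℝ) - (mult X (V i1) μ : ℝ) ≤ (mult X ⊤ μ : ℝ) := by
      have : (0 : ℝ) ≤ (mult X (V i1) μ : ℝ) := Nat.cast_nonneg _
      linarith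
    by_cases hzero : μ = 0
    · subst hzero
      have hpos : 16 * q ≠ 0 := by omega
      rw [zero_pow hpos, zero_mul, zero_pow hq.ne']
      simp
    have hμpos : 0 < μ := lt_of_le_of_ne hμ0 (Ne.symm hzero)
    by_cases heq : mult X ⊤ μ = mult X (V i1) μ
    · rw [heq, sub_self, mul_zero]
      exact mul_nonneg (pow_nonneg hA _) (mul_nonneg (hQ μ hμ) (Nat.cast_nonneg _))
    -- W is not inside V i1
    have hnotle : ¬ (Module.End.eigenspace X μ ≤ V i1) := by
      intro hle
      apply heq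
      unfold mult
      rw [inf_eq_left.mpr hle, inf_top_eq]
    have hWinv : ∀ π, ∀ f ∈ Module.End.eigenspace X μ, R π f ∈ Module.End.eigenspace X μ := by
      intro π f hf
      have hf' : X f = μ • f := Module.End.mem_eigenspace_iff.mp hf
      apply Module.End.mem_eigenspace_iff.mpr
      rw [hX.comm, hf', map_smul]
    have hfinW : mult X ⊤ μ = finrank ℝ ↥(Module.End.eigenspace X μ) := by
      unfold mult; rw [inf_top_eq]
    -- the multiplicity bound
    have hdimM : M₀ ≤ (mult X ⊤ μ : ℝ) := by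
      by_cases hex : ∃ t ∈ Finset.Ioc i1 T, ∃ I : Finset α, I.card = t ∧ mult X (P I) μ ≠ 0
      · obtain ⟨t, htm, I, hI, hne⟩ := hex
        obtain ⟨f, hf, hfμ, hf0⟩ := exists_of_mult_ne_zero hne
        obtain ⟨h3t, h2t, hMt⟩ := ht t htm
        obtain ⟨J, hJ1, _, hJ2⟩ := Finset.exists_subsuperset_card_eq (s := I)
          (t := (Finset.univ : Finset α)) (n := Fintype.card α - t) (Finset.subset_univ _)
          (by rw [hI]; omega) (by simp)
        have hdim := dim_ge_of_pure X hX.comm hJ1 (by rw [hI, hJ2]; omega) (by rw [hI]; exact h3t)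
          hf hfμ hf0
        rw [hI, hJ2] at hdim
        refine hMt.trans ?_
        have h6 : finrank ℝ ↥(Module.End.eigenspace X μ ⊓ M J : Submodule ℝ (H α)) ≤ mult X ⊤ μ :=
          mult_mono X le_top μ
        exact_mod_cast hdim.trans h6
      · push Not at hex
        -- the chain from i1 to T is stationary
        have hstat : ∀ t, i1 ≤ t → t ≤ T →
            (Module.End.eigenspace X μ ⊓ V t : Submodule ℝ (H α)) ≤ V i1 := by
          intro t ht1
          induction t, ht1 using Nat.le_induction with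
          | base => intro _; exact inf_le_right
          | succ t ht1 ih =>
            intro ht2
            have hch := hX.chain_le μ (t + 1) (by omega)
            rw [Nat.add_sub_cancel] at hch
            refine hch.trans (sup_le ?_ ?_)
            · exact ih (by omega)
            · apply iSup₂_le
              intro I hI
              have hIcard : I.card = t + 1 := by simpa using hI
              have h0 := hex (t + 1) (Finset.mem_Ioc.mpr ⟨by omega, ht2⟩) I hIcard
              have : (Module.End.eigenspace X μ ⊓ P I : Submodule ℝ (H α)) = ⊥ := by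
                by_contra hb
                obtain ⟨f, hf, hf0⟩ := Submodule.exists_mem_ne_zero_of_ne_bot hb
                have h7 : finrank ℝ ↥(Module.End.eigenspace X μ ⊓ P I : Submodule ℝ (H α)) ≠ 0 := by
                  intro h8
                  have := Submodule.finrank_eq_zero.mp h8
                  exact hb this
                exact h7 h0
              rw [this]
              exact bot_le
        have hnotT : ¬ (Module.End.eigenspace X μ ≤ V T) := by
          intro hle
          apply hnotle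
          have := hstat T hi1T le_rfl
          rwa [inf_eq_left.mpr hle] at this
        have hnot2a : ¬ (Module.End.eigenspace X μ ≤ V (2 * a)) :=
          fun hle => hnotT (hle.trans (V_mono ha2))
        have hnotY : ¬ (Module.End.eigenspace X μ ≤ V (2 * a) ⊔ (V (2 * a + 2 * a)).map Sg) := by
          intro hle
          apply hnot2a
          intro f hf
          obtain ⟨u, hu, w, hw, hfuw⟩ := Submodule.mem_sup.mp (hle hf)
          obtain ⟨v, hv, rfl⟩ := hw
          have hXf : X f = X u := by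
            rw [← hfuw, map_add, hkill (2 * a + 2 * a) (by omega) v hv, add_zero]
          have hf' : X f = μ • f := Module.End.mem_eigenspace_iff.mp hf
          have h8 : μ • f ∈ (V (2 * a) : Submodule ℝ (H α)) := by
            rw [← hf', hXf]; exact hX.V_inv hu
          exact (Submodule.smul_mem_iff _ hμpos.ne').mp h8
        obtain ⟨f, hf, hf0, N, hN1, hN2, hs1, hs2⟩ :=
          exists_pattern p a a ha1 _ hWinv hnotY
        have hdim := dim_ge_of_pattern p _ hWinv hf hf0 N hs1 hs2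
        have hcN : N.card + a ≤ Fintype.card E := by
          have := Finset.card_add_card_compl N
          omega
        have h9 := choose_le_of_mem hN1 hcN
        refine hM₀a.trans ?_
        rw [hfinW]
        exact_mod_cast h9.trans hdim
    have hle : μ ^ q ≤ Φ (Fintype.card α) / M₀ := by
      rw [le_div_iff₀ hM₀]
      have h5 := term_le_Phi Λ hΛ0 q Φ htr (S := ⊤) (Finset.univ : Finset α) (by
        rw [M_univ_eq_top]) hμ
      rw [Finset.card_univ] at h5
      exact le_trans (mul_le_mul_of_nonneg_left hdimM (hQ μ hμ)) h5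
    have hpow : μ ^ (16 * q) = (μ ^ q) ^ 15 * μ ^ q := by
      rw [← pow_mul, ← pow_add]; congr 1; ring
    rw [hpow, mul_assoc]
    apply mul_le_mul (pow_le_pow_left₀ (hQ μ hμ) hle _)
      (mul_le_mul_of_nonneg_left hsub2 (hQ μ hμ))
      (mul_nonneg (hQ μ hμ) hsub) (pow_nonneg hA _)
  -- the low terms
  have hlow : ∀ i ∈ Finset.Icc 1 i1, ∑ μ ∈ Λ, μ ^ (16 * q) * (mult X (P (Iset i)) μ : ℝ) ≤
      (Φ (j i) / ((j i).choose i : ℝ)) ^ 15 * Φ i := by
    intro i hi
    obtain ⟨hj1, hj2, hj3⟩ := hj i hi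
    have hicard : (Iset i).card = i := by rw [hIset]; omega
    obtain ⟨J, hJ1, _, hJ2⟩ := Finset.exists_subsuperset_card_eq (s := Iset i)
      (t := (Finset.univ : Finset α)) (n := j i) (Finset.subset_univ _)
      (by rw [hicard]; exact hj1) (by simp; omega)
    have hB : 0 ≤ (Φ (j i) / ((j i).choose i : ℝ)) ^ 15 := by
      apply pow_nonneg
      apply div_nonneg _ (Nat.cast_nonneg _)
      have := Phi_nonneg Λ hΛ0 q Φ htr J
      rwa [hJ2] at this
    calc ∑ μ ∈ Λ, μ ^ (16 * q) * (mult X (P (Iset i)) μ : ℝ)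
        ≤ ∑ μ ∈ Λ, (Φ (j i) / ((j i).choose i : ℝ)) ^ 15 * (μ ^ q * (mult X (M (Iset i)) μ : ℝ)) := by
          apply Finset.sum_le_sum
          intro μ hμ
          have := low_term hX Λ hΛ0 q Φ htr hJ1 (by rw [hicard, hJ2]; exact hj2)
            (by rw [hicard]; exact hj3) hμ
          rwa [hicard, hJ2] at this
      _ = (Φ (j i) / ((j i).choose i : ℝ)) ^ 15 * ∑ μ ∈ Λ, μ ^ q * (mult X (M (Iset i)) μ : ℝ) := by
          rw [Finset.mul_sum]
      _ ≤ _ := by
          apply mul_le_mul_of_nonneg_left _ hB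
          have := htr (Iset i)
          rwa [hicard] at this
  -- assembling
  have hterm : ∀ μ ∈ Λ, μ ^ (16 * q) * (mult X ⊤ μ : ℝ) ≤
      (if μ = 1 then 1 else 0) + (∑ i ∈ Finset.Icc 1 i1, ((Fintype.card α).choose i : ℝ) *
          (μ ^ (16 * q) * (mult X (P (Iset i)) μ : ℝ))) +
        (Φ (Fintype.card α) / M₀) ^ 15 * (μ ^ q * (mult X ⊤ μ : ℝ)) := by
    intro μ hμ
    have hμ0 := hΛ0 μ hμ
    have h1 := hhigh μ hμ
    have h2 := term_V_zero_le hone (16 * q) μ
    have h3 := mult_V_le hX μ Iset hIset i1 hi1n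
    have h4 : (mult X (V i1) μ : ℝ) ≤ (mult X (V 0) μ : ℝ) + ∑ i ∈ Finset.Icc 1 i1,
        ((Fintype.card α).choose i : ℝ) * (mult X (P (Iset i)) μ : ℝ) := by
      exact_mod_cast h3
    have h5 := mul_le_mul_of_nonneg_left h4 (pow_nonneg hμ0 (16 * q))
    rw [mul_add, Finset.mul_sum] at h5
    have h6 : ∑ i ∈ Finset.Icc 1 i1, μ ^ (16 * q) * (((Fintype.card α).choose i : ℝ) * (mult X (P (Iset i)) μ : ℝ))
        = ∑ i ∈ Finset.Icc 1 i1, ((Fintype.card α).choose i : ℝ) * (μ ^ (16 * q) * (mult X (P (Iset i)) μ : ℝ)) := by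
      apply Finset.sum_congr rfl
      intro i _
      ring
    rw [h6] at h5
    have h7 : μ ^ (16 * q) * (mult X ⊤ μ : ℝ) = μ ^ (16 * q) * (mult X (V i1) μ : ℝ) +
        μ ^ (16 * q) * ((mult X ⊤ μ : ℝ) - (mult X (V i1) μ : ℝ)) := by ring
    rw [h7]
    linarith
  refine (Finset.sum_le_sum hterm).trans ?_
  rw [Finset.sum_add_distrib, Finset.sum_add_distrib]
  apply add_le_add
  · apply add_le_add
    · rw [Finset.sum_ite_eq']
      split_ifs <;> norm_num
    · rw [Finset.sum_comm]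
      apply Finset.sum_le_sum
      intro i hi
      rw [← Finset.mul_sum]
      exact mul_le_mul_of_nonneg_left (hlow i hi) (Nat.cast_nonneg _)
  · rw [← Finset.mul_sum]
    apply mul_le_mul_of_nonneg_left _ (pow_nonneg hA _)
    have := htr (Finset.univ : Finset α)
    rw [Finset.card_univ, M_univ_eq_top] at this
    exact this

end Crest.Agent.Thorp.Spec
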