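import Mathlib

/-!
# A dyadic Weyl trace inequality

For a real square matrix `A` and `N = 2 ^ s`,
`trace (A ^ N * (A ^ N)ᵀ) ≤ trace ((A * Aᵀ) ^ N)`.
Proof: among all words of length `2 * N` in `A, Aᵀ`, take one whose trace has maximal absolute
value; a Cauchy–Schwarz cut keeps maximality and doubles an alternating block.
-/

set_option autoImplicit false

namespace Crest.Agent.Thorp

open Matrix

variable {ι : Type*} [Fintype ι] [DecidableEq ι] (A : Matrix ι ι ℝ)

/-- The letter. -/
def lett : Bool → Matrix ι ι ℝ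
  | true => A
  | false => Aᵀ

/-- The product of a word. -/
def wprod (w : List Bool) : Matrix ι ι ℝ := (w.map (lett A)).prod

/-- The reversed starred word. -/
def wst (w : List Bool) : List Bool := (w.reverse).map not

/-- The trace of a word. -/
def wval (w : List Bool) : ℝ := trace (wprod A w)

@[simp] lemma wprod_nil : wprod A [] = 1 := rfl
lemma wprod_cons (b : Bool) (w : List Bool) : wprod A (b :: w) = lett A b * wprod A w := by
  simp [wprod]
lemma wprod_append (x y : List Bool) : wprod A (x ++ y) = wprod A x * wprod A y := by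
  simp [wprod]

lemma lett_not (b : Bool) : lett A (!b) = (lett A b)ᵀ := by
  cases b <;> simp [lett]

lemma wst_nil : wst [] = [] := rfl
lemma wst_cons (b : Bool) (w : List Bool) : wst (b :: w) = wst w ++ [!b] := by
  simp [wst]
lemma wst_append (x y : List Bool) : wst (x ++ y) = wst y ++ wst x := by
  simp [wst]
lemma length_wst (w : List Bool) : (wst w).length = w.length := by simp [wst]

lemma wprod_wst (w : List Bool) : wprod A (wst w) = (wprod A w)ᵀ := by
  induction w with
  | nil => simp [wst_nil]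
  | cons b w ih =>
    rw [wst_cons, wprod_append, ih, wprod_cons A b w, transpose_mul, wprod_cons, wprod_nil, mul_one,
      lett_not]

lemma wval_rot (x y : List Bool) : wval A (x ++ y) = wval A (y ++ x) := by
  simp only [wval, wprod_append]
  exact trace_mul_comm _ _

lemma trace_mul_transpose_eq (M : Matrix ι ι ℝ) : trace (M * Mᵀ) = ∑ i, ∑ j, M i j ^ 2 := by
  simp only [trace, diag_apply, mul_apply, transpose_apply, sq]

lemma trace_transpose_mul_eq (L : Matrix ι ι ℝ) : trace (Lᵀ * L) = ∑ i, ∑ j, L j i ^ 2 := by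
  simp only [trace, diag_apply, mul_apply, transpose_apply, sq]

lemma trace_mul_eq (M L : Matrix ι ι ℝ) : trace (M * L) = ∑ i, ∑ j, M i j * L j i := by
  simp only [trace, diag_apply, mul_apply]

lemma trace_mul_sq_le (M L : Matrix ι ι ℝ) :
    (trace (M * L)) ^ 2 ≤ trace (M * Mᵀ) * trace (Lᵀ * L) := by
  rw [trace_mul_eq, trace_mul_transpose_eq, trace_transpose_mul_eq]
  have key := Finset.sum_mul_sq_le_sq_mul_sq (Finset.univ : Finset (ι × ι))
    (fun p => M p.1 p.2) (fun p => L p.2 p.1)
  simpa only [Fintype.sum_prod_type] using key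

lemma trace_mul_transpose_nonneg (M : Matrix ι ι ℝ) : 0 ≤ trace (M * Mᵀ) := by
  rw [trace_mul_transpose_eq]
  positivity

lemma trace_transpose_mul_nonneg (M : Matrix ι ι ℝ) : 0 ≤ trace (Mᵀ * M) := by
  rw [trace_transpose_mul_eq]
  positivity

lemma wval_cut (x y : List Bool) :
    (wval A (y ++ x)) ^ 2 ≤ wval A (x ++ wst x) * wval A (wst y ++ y) := by
  rw [wval_rot]
  simp only [wval, wprod_append, wprod_wst]
  exact trace_mul_sq_le _ _

lemma wval_self_nonneg (x : List Bool) : 0 ≤ wval A (x ++ wst x) := by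
  simp only [wval, wprod_append, wprod_wst]
  exact trace_mul_transpose_nonneg _

lemma wval_self_nonneg' (y : List Bool) : 0 ≤ wval A (wst y ++ y) := by
  simp only [wval, wprod_append, wprod_wst]
  exact trace_transpose_mul_nonneg _

/-- `w` has maximal absolute trace among words of length `n`. -/
def IsMaxW (n : ℕ) (w : List Bool) : Prop :=
  w.length = n ∧ ∀ w' : List Bool, w'.length = n → |wval A w'| ≤ |wval A w|

lemma exists_isMaxW (n : ℕ) : ∃ w, IsMaxW A n w := by
  have hfin : {w : List Bool | w.length = n}.Finite := List.finite_length_eq Bool n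
  have hne : {w : List Bool | w.length = n}.Nonempty := ⟨List.replicate n true, by simp⟩
  obtain ⟨w, hw, hmax⟩ := Set.exists_max_image _ (fun w => |wval A w|) hfin hne
  exact ⟨w, hw, fun w' hw' => hmax w' hw'⟩

lemma IsMaxW.rot {n : ℕ} {x y : List Bool} (h : IsMaxW A n (x ++ y)) : IsMaxW A n (y ++ x) := by
  refine ⟨by have := h.1; simp only [List.length_append] at this ⊢; omega, fun w' hw' => ?_⟩
  rw [← wval_rot]
  exact h.2 w' hw'

lemma IsMaxW.cut {N : ℕ} {x y : List Bool} (hx : x.length = N) (hy : y.length = N)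
    (h : IsMaxW A (2 * N) (y ++ x)) : IsMaxW A (2 * N) (x ++ wst x) := by
  have hl : (x ++ wst x).length = 2 * N := by simp [length_wst, hx]; omega
  have hl' : (wst y ++ y).length = 2 * N := by simp [length_wst, hy]; omega
  refine ⟨hl, fun w' hw' => ?_⟩
  set M := |wval A (y ++ x)| with hM
  have ha := wval_self_nonneg A x
  have hb := wval_self_nonneg' A y
  have ha' : wval A (x ++ wst x) ≤ M := by
    have := h.2 _ hl
    rwa [abs_of_nonneg ha] at this
  have hb' : wval A (wst y ++ y) ≤ M := by
    have := h.2 _ hl'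
    rwa [abs_of_nonneg hb] at this
  have hcut := wval_cut A x y
  have hM0 : 0 ≤ M := abs_nonneg _
  have hsq : M ^ 2 ≤ wval A (x ++ wst x) * M := by
    calc M ^ 2 = (wval A (y ++ x)) ^ 2 := by rw [hM, sq_abs]
      _ ≤ wval A (x ++ wst x) * wval A (wst y ++ y) := hcut
      _ ≤ wval A (x ++ wst x) * M := mul_le_mul_of_nonneg_left hb' ha
  have hle : M ≤ wval A (x ++ wst x) := by
    rcases hM0.eq_or_lt with h0 | hpos
    · rw [← h0]; exact ha
    · have : M * M ≤ wval A (x ++ wst x) * M := by rw [← sq]; exact hsq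
      exact le_of_mul_le_mul_right this hpos
  rw [abs_of_nonneg ha]
  exact (h.2 w' hw').trans hle

/-- The alternating word `(z, !z)^r`. -/
def alt (z : Bool) : ℕ → List Bool
  | 0 => []
  | r + 1 => z :: (!z) :: alt z r

lemma length_alt (z : Bool) (r : ℕ) : (alt z r).length = 2 * r := by
  induction r with
  | zero => rfl
  | succ r ih => simp [alt, ih]; omega

lemma alt_add (z : Bool) (r r' : ℕ) : alt z (r + r') = alt z r ++ alt z r' := by
  induction r with
  | zero => simp [alt]
  | succ r ih =>
    rw [show r + 1 + r' = (r + r') + 1 by ring]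
    simp [alt, ih]

lemma alt_succ' (z : Bool) (r : ℕ) : alt z (r + 1) = alt z r ++ [z, !z] := by
  rw [alt_add]; rfl

lemma wst_alt (z : Bool) (r : ℕ) : wst (alt z r) = alt z r := by
  induction r with
  | zero => rfl
  | succ r ih =>
    rw [show alt z (r + 1) = z :: (!z) :: alt z r from rfl, wst_cons, wst_cons, ih, Bool.not_not,
      show z :: (!z) :: alt z r = alt z (r + 1) from rfl, alt_succ', List.append_assoc]
    rfl

lemma wprod_alt_true (r : ℕ) : wprod A (alt true r) = (A * Aᵀ) ^ r := by
  induction r with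
  | zero => rfl
  | succ r ih =>
    rw [show alt true (r + 1) = true :: false :: alt true r from rfl, wprod_cons, wprod_cons, ih,
      pow_succ', mul_assoc]
    rfl

lemma wprod_alt_false (r : ℕ) : wprod A (alt false r) = (Aᵀ * A) ^ r := by
  induction r with
  | zero => rfl
  | succ r ih =>
    rw [show alt false (r + 1) = false :: true :: alt false r from rfl, wprod_cons, wprod_cons, ih,
      pow_succ', mul_assoc]
    rfl

lemma mul_pow_succ_eq {R : Type*} [Monoid R] (b c : R) (r : ℕ) :
    (b * c) ^ (r + 1) = b * (c * b) ^ r * c := by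
  induction r with
  | zero => simp
  | succ r ih =>
    rw [pow_succ, ih, pow_succ]
    simp only [mul_assoc]

lemma trace_pow_comm (B C : Matrix ι ι ℝ) (r : ℕ) :
    trace ((B * C) ^ (r + 1)) = trace ((C * B) ^ (r + 1)) := by
  rw [mul_pow_succ_eq, trace_mul_comm, ← mul_assoc, pow_succ']

lemma exists_isMaxW_alt (s : ℕ) : ∀ j, j ≤ s → ∃ (z : Bool) (p : List Bool),
    p.length + 2 * 2 ^ j = 2 * 2 ^ s ∧ IsMaxW A (2 * 2 ^ s) (p ++ alt z (2 ^ j)) := by
  intro j
  induction j with
  | zero =>
    intro _
    obtain ⟨u, hu⟩ := exists_isMaxW A (2 * 2 ^ s)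
    have hN : 0 < 2 ^ s := by positivity
    have hlen := hu.1
    have hy : (u.take (2 ^ s)).length = 2 ^ s := by
      rw [List.length_take, hlen]; omega
    have hx : (u.drop (2 ^ s)).length = 2 ^ s := by
      rw [List.length_drop, hlen]; omega
    have h1 : IsMaxW A (2 * 2 ^ s) (u.take (2 ^ s) ++ u.drop (2 ^ s)) := by
      rw [List.take_append_drop]; exact hu
    have h2 := h1.cut A hx hy
    set x := u.drop (2 ^ s) with hxdef
    have hxne : x ≠ [] := by
      intro h; rw [h] at hx; simp at hx; omega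
    obtain ⟨x', z, hx'⟩ : ∃ x' z, x = x' ++ [z] :=
      ⟨x.dropLast, x.getLast hxne, (List.dropLast_append_getLast hxne).symm⟩
    have hx'len : x'.length + 1 = 2 ^ s := by
      rw [hx'] at hx; simpa using hx
    refine ⟨z, wst x' ++ x', ?_, ?_⟩
    · simp only [List.length_append, length_wst, pow_zero]; omega
    · have h3 : IsMaxW A (2 * 2 ^ s) ((x' ++ [z, !z]) ++ wst x') := by
        have : x ++ wst x = (x' ++ [z, !z]) ++ wst x' := by
          rw [hx', wst_append]
          simp [wst]
        rwa [this] at h2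
      have h4 := h3.rot A
      have : wst x' ++ x' ++ alt z (2 ^ 0) = wst x' ++ (x' ++ [z, !z]) := by
        simp [alt]
      rwa [this]
  | succ j ih =>
    intro hj
    obtain ⟨z, p, hp, hmax⟩ := ih (by omega)
    have hpow : 2 * 2 ^ j ≤ 2 ^ s := by
      have : 2 ^ (j + 1) ≤ 2 ^ s := Nat.pow_le_pow_right (by norm_num) hj
      rw [pow_succ] at this; omega
    have hpow' : 2 ^ (j + 1) = 2 * 2 ^ j := by rw [pow_succ]; ring
    set q := alt z (2 ^ j) with hq
    have hqlen : q.length = 2 * 2 ^ j := length_alt _ _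
    have hy : (p.take (2 ^ s)).length = 2 ^ s := by simp; omega
    have hp2 : (p.drop (2 ^ s)).length + 2 * 2 ^ j = 2 ^ s := by simp; omega
    have hx : (p.drop (2 ^ s) ++ q).length = 2 ^ s := by simp [hqlen]; omega
    have h1 : IsMaxW A (2 * 2 ^ s) (p.take (2 ^ s) ++ (p.drop (2 ^ s) ++ q)) := by
      rw [← List.append_assoc, List.take_append_drop]; exact hmax
    have h2 := h1.cut A hx hy
    set p2 := p.drop (2 ^ s) with hp2def
    have hwq : wst q = q := wst_alt _ _
    refine ⟨z, wst p2 ++ p2, ?_, ?_⟩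
    · simp only [List.length_append, length_wst]; omega
    · have h3 : IsMaxW A (2 * 2 ^ s) ((p2 ++ (q ++ q)) ++ wst p2) := by
        have : (p2 ++ q) ++ wst (p2 ++ q) = (p2 ++ (q ++ q)) ++ wst p2 := by
          rw [wst_append, hwq]
          simp
        rwa [this] at h2
      have h4 := h3.rot A
      have : wst p2 ++ p2 ++ alt z (2 ^ (j + 1)) = wst p2 ++ (p2 ++ (q ++ q)) := by
        rw [hq, hpow', two_mul, alt_add]
        simp
      rwa [this]

lemma wprod_replicate (b : Bool) (r : ℕ) : wprod A (List.replicate r b) = (lett A b) ^ r := by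
  simp [wprod]

lemma trace_alt_nonneg (r : ℕ) (hr : 0 < r) : 0 ≤ trace ((A * Aᵀ) ^ r) := by
  obtain ⟨k, rfl | rfl⟩ := Nat.even_or_odd' r
  · rw [two_mul, pow_add]
    have hsym : ((A * Aᵀ) ^ k)ᵀ = (A * Aᵀ) ^ k := by
      rw [transpose_pow, transpose_mul, transpose_transpose]
    have := trace_mul_transpose_nonneg ((A * Aᵀ) ^ k)
    rwa [hsym] at this
  · have hsym : ((A * Aᵀ) ^ k)ᵀ = (A * Aᵀ) ^ k := by
      rw [transpose_pow, transpose_mul, transpose_transpose]
    have := trace_mul_transpose_nonneg ((A * Aᵀ) ^ k * A)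
    rw [transpose_mul, hsym] at this
    have e : (A * Aᵀ) ^ (2 * k + 1) = (A * Aᵀ) ^ k * A * (Aᵀ * (A * Aᵀ) ^ k) := by
      rw [show 2 * k + 1 = k + (1 + k) by ring, pow_add, pow_add, pow_one]
      simp only [mul_assoc]
    rw [e]; exact this

/-- **Dyadic Weyl trace inequality.** -/
theorem trace_pow_mul_transpose_le (s : ℕ) :
    trace (A ^ (2 ^ s) * (A ^ (2 ^ s))ᵀ) ≤ trace ((A * Aᵀ) ^ (2 ^ s)) := by
  obtain ⟨z, p, hp, hmax⟩ := exists_isMaxW_alt A s s le_rfl
  have hp0 : p = [] := by
    apply List.length_eq_zero_iff.1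
    omega
  subst hp0
  simp only [List.nil_append] at hmax
  have hN : 0 < 2 ^ s := by positivity
  have hval : |wval A (alt z (2 ^ s))| = trace ((A * Aᵀ) ^ (2 ^ s)) := by
    have h1 : wval A (alt z (2 ^ s)) = trace ((A * Aᵀ) ^ (2 ^ s)) := by
      cases z
      · simp only [wval, wprod_alt_false]
        obtain ⟨r, hr⟩ : ∃ r, 2 ^ s = r + 1 := ⟨2 ^ s - 1, by omega⟩
        rw [hr]; exact trace_pow_comm _ _ _
      · simp only [wval, wprod_alt_true]
    rw [h1, abs_of_nonneg (trace_alt_nonneg A _ hN)]
  have hw := hmax.2 (List.replicate (2 ^ s) true ++ List.replicate (2 ^ s) false) (by simp; omega)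
  rw [hval] at hw
  refine le_trans (le_abs_self _) ?_
  have : wval A (List.replicate (2 ^ s) true ++ List.replicate (2 ^ s) false) =
      trace (A ^ (2 ^ s) * (A ^ (2 ^ s))ᵀ) := by
    simp only [wval, wprod_append, wprod_replicate, lett, transpose_pow]
  rw [← this]
  exact hw

end Crest.Agent.Thorp
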