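import Crest.Agent.Lib.Thorp.Defs
import Crest.Agent.Lib.Thorp.Model
import Crest.Agent.Lib.Thorp.Weyl
import Crest.Prelude.Def_FinProb

/-!
# From the total variation distance to a trace

`tv_tendsto_of_trace`: if `trace (X_D ^ 1024) → 1`, where `X_D = W W^T` and `W` is the translation
operator of the law of one sweep on `Perm (Pos D)`, then the Thorp statement holds.
-/

set_option autoImplicit false

namespace Crest.Agent.Thorp

open Matrix Crest.ProbabilityR.Shuffle

section Group

variable {G : Type*} [Group G] [Fintype G] [DecidableEq G]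

/-- The distance from uniform. -/
noncomputable def tvU (p : G → ℝ) : ℝ := (1 / 2) * ∑ g, |p g - 1 / (Fintype.card G : ℝ)|

/-- Convolution: the law of `B * A` with `B ∼ a`, `A ∼ b` independent. -/
noncomputable def conv (a b : G → ℝ) (g : G) : ℝ := ∑ h, a h * b (h⁻¹ * g)

/-- The translation operator: `W g g'` is the probability of moving from `g` to `g'`. -/
def opW (μ : G → ℝ) : Matrix G G ℝ := Matrix.of fun g g' => μ (g' * g⁻¹)

lemma opW_apply (μ : G → ℝ) (g g' : G) : opW μ g g' = μ (g' * g⁻¹) := rfl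

lemma opW_mul (a b : G → ℝ) : opW a * opW b = opW (conv b a) := by
  ext g g'
  rw [mul_apply, opW_apply, conv]
  -- `g'' = h⁻¹ * (g' * g⁻¹) * g`
  refine Fintype.sum_bijective (fun g'' => g' * g''⁻¹) ?_ _ _ ?_
  · constructor
    · intro x y hxy
      simpa using hxy
    · intro y
      exact ⟨y⁻¹ * g', by simp⟩
  · intro g''
    simp only [opW_apply]
    have : (g' * g''⁻¹)⁻¹ * (g' * g⁻¹) = g'' * g⁻¹ := by group
    rw [this, mul_comm]

lemma trace_opW_mul_transpose (p : G → ℝ) :
    trace (opW p * (opW p)ᵀ) = (Fintype.card G : ℝ) * ∑ h, p h ^ 2 := by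
  rw [trace_mul_transpose_eq]
  have : ∀ g : G, ∑ g', (opW p g g') ^ 2 = ∑ h, p h ^ 2 := by
    intro g
    refine Fintype.sum_bijective (fun g' => g' * g⁻¹) (Group.mulRight_bijective _) _ _ ?_
    intro g'
    rfl
  simp_rw [this]
  simp

lemma tvU_sq_le (p : G → ℝ) (hsum : ∑ g, p g = 1) :
    tvU p ^ 2 ≤ (1 / 4) * ((Fintype.card G : ℝ) * ∑ g, p g ^ 2 - 1) := by
  have hN : (0 : ℝ) < Fintype.card G := by exact_mod_cast Fintype.card_pos
  set N : ℝ := (Fintype.card G : ℝ) with hNdef
  have hcs := Finset.sum_mul_sq_le_sq_mul_sq (Finset.univ : Finset G) (fun _ => (1 : ℝ))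
    (fun g => |p g - 1 / N|)
  simp only [one_mul, one_pow, Finset.sum_const, Finset.card_univ, nsmul_eq_mul, mul_one,
    sq_abs] at hcs
  have hexp : ∑ g, (p g - 1 / N) ^ 2 = ∑ g, p g ^ 2 - 1 / N := by
    have : ∀ g, (p g - 1 / N) ^ 2 = p g ^ 2 - 2 * (1 / N) * p g + (1 / N) ^ 2 := fun g => by ring
    simp_rw [this]
    rw [Finset.sum_add_distrib, Finset.sum_sub_distrib, ← Finset.mul_sum, hsum, Finset.sum_const,
      Finset.card_univ, nsmul_eq_mul]
    field_simp
    ring
  rw [hexp] at hcs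
  unfold tvU
  calc ((1 / 2) * ∑ g, |p g - 1 / (Fintype.card G : ℝ)|) ^ 2
      = (1 / 4) * (∑ g, |p g - 1 / N|) ^ 2 := by ring
    _ ≤ (1 / 4) * (N * (∑ g, p g ^ 2 - 1 / N)) := by gcongr
    _ = (1 / 4) * (N * ∑ g, p g ^ 2 - 1) := by field_simp

lemma tvU_conv_le (a b : G → ℝ) (ha : ∀ h, 0 ≤ a h) (hsum : ∑ h, a h = 1) :
    tvU (conv a b) ≤ tvU b := by
  unfold tvU
  apply mul_le_mul_of_nonneg_left _ (by norm_num)
  have h1 : ∀ g, conv a b g - 1 / (Fintype.card G : ℝ) =
      ∑ h, a h * (b (h⁻¹ * g) - 1 / (Fintype.card G : ℝ)) := by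
    intro g
    simp only [conv, mul_sub, Finset.sum_sub_distrib, ← Finset.sum_mul, hsum, one_mul]
  calc ∑ g, |conv a b g - 1 / (Fintype.card G : ℝ)|
      ≤ ∑ g, ∑ h, a h * |b (h⁻¹ * g) - 1 / (Fintype.card G : ℝ)| := by
        refine Finset.sum_le_sum fun g _ => ?_
        rw [h1]
        refine (Finset.abs_sum_le_sum_abs _ _).trans (le_of_eq ?_)
        refine Finset.sum_congr rfl fun h _ => ?_
        rw [abs_mul, abs_of_nonneg (ha h)]
    _ = ∑ h, a h * ∑ g, |b g - 1 / (Fintype.card G : ℝ)| := by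
        rw [Finset.sum_comm]
        refine Finset.sum_congr rfl fun h _ => ?_
        rw [Finset.mul_sum]
        refine Fintype.sum_bijective (fun g => h⁻¹ * g) (Group.mulLeft_bijective _) _ _ ?_
        intro g
        rfl
    _ = ∑ g, |b g - 1 / (Fintype.card G : ℝ)| := by
        rw [← Finset.sum_mul, hsum, one_mul]

/-- The law of a random element: the probability of a fibre. -/
noncomputable def lawOf {Ω : Type*} [Fintype Ω] (f : Ω → G) (g : G) : ℝ :=
  ((Finset.univ.filter fun ω => f ω = g).card : ℝ) / (Fintype.card Ω : ℝ)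

lemma lawOf_nonneg {Ω : Type*} [Fintype Ω] (f : Ω → G) (g : G) : 0 ≤ lawOf f g := by
  unfold lawOf; positivity

lemma lawOf_sum {Ω : Type*} [Fintype Ω] [Nonempty Ω] (f : Ω → G) : ∑ g, lawOf f g = 1 := by
  unfold lawOf
  rw [← Finset.sum_div]
  have hΩ : (Fintype.card Ω : ℝ) ≠ 0 := by exact_mod_cast Fintype.card_ne_zero
  have : (Finset.univ : Finset Ω).card =
      ∑ g : G, (Finset.univ.filter fun ω => f ω = g).card :=
    Finset.card_eq_sum_card_fiberwise (fun cs _ => Finset.mem_coe.2 (Finset.mem_univ _))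
  rw [Finset.card_univ] at this
  rw [← Nat.cast_sum, ← this, div_self hΩ]

lemma lawOf_comp_bijective {Ω Ω' : Type*} [Fintype Ω] [Fintype Ω'] (f : Ω → G) (e : Ω' → Ω)
    (he : Function.Bijective e) (g : G) : lawOf (f ∘ e) g = lawOf f g := by
  unfold lawOf
  have hc : Fintype.card Ω' = Fintype.card Ω := Fintype.card_of_bijective he
  rw [hc]
  congr 2
  refine Finset.card_bij (fun ω _ => e ω) ?_ (fun a _ b _ h => he.1 h) ?_
  · intro a ha
    simpa using ha
  · intro b hb
    obtain ⟨a, rfl⟩ := he.2 b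
    exact ⟨a, by simpa using hb, rfl⟩

lemma lawOf_prod {Ω₁ Ω₂ : Type*} [Fintype Ω₁] [Fintype Ω₂] (f₁ : Ω₁ → G) (f₂ : Ω₂ → G) (g : G) :
    lawOf (fun ω : Ω₁ × Ω₂ => f₂ ω.2 * f₁ ω.1) g = conv (lawOf f₂) (lawOf f₁) g := by
  unfold conv lawOf
  rw [Fintype.card_prod]
  push_cast
  have hcount : (Finset.univ.filter fun ω : Ω₁ × Ω₂ => f₂ ω.2 * f₁ ω.1 = g).card =
      ∑ h : G, (Finset.univ.filter fun ω₂ => f₂ ω₂ = h).card *
        (Finset.univ.filter fun ω₁ => f₁ ω₁ = h⁻¹ * g).card := by
    rw [Finset.card_eq_sum_card_fiberwise (f := fun ω : Ω₁ × Ω₂ => f₂ ω.2) (t := Finset.univ)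
      (fun _ _ => Finset.mem_coe.2 (Finset.mem_univ _))]
    refine Finset.sum_congr rfl fun h _ => ?_
    rw [← Finset.card_product]
    refine Finset.card_bij (fun ω _ => (ω.2, ω.1)) ?_ ?_ ?_
    · intro ω hω
      simp only [Finset.mem_filter, Finset.mem_univ, true_and] at hω
      simp only [Finset.mem_product, Finset.mem_filter, Finset.mem_univ, true_and]
      refine ⟨hω.2, ?_⟩
      rw [← hω.1, ← hω.2]; group
    · intro a _ b _ h
      simp only [Prod.mk.injEq] at h
      exact Prod.ext h.2 h.1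
    · intro b hb
      simp only [Finset.mem_product, Finset.mem_filter, Finset.mem_univ, true_and] at hb
      refine ⟨(b.2, b.1), ?_, rfl⟩
      simp only [Finset.mem_filter, Finset.mem_univ, true_and]
      refine ⟨?_, hb.1⟩
      rw [hb.2, hb.1]; group
  rw [hcount]
  push_cast
  rw [Finset.sum_div]
  refine Finset.sum_congr rfl fun h _ => ?_
  rw [mul_comm (Fintype.card Ω₁ : ℝ), div_mul_div_comm]

end Group

/-! ### Thorp rounds as permutations -/

lemma stepPos_injective' (m : ℕ) (c : Fin m → Bool) : Function.Injective (stepPos m c) := by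
  intro x y hxy
  have hm : 0 < m := by have := x.isLt; omega
  have hval := congrArg Fin.val hxy
  obtain ⟨c', hc'⟩ : ∃ c' : ℕ → Bool, ∀ u : Fin m, c' u.val = c u :=
    ⟨fun u => if h : u < m then c ⟨u, h⟩ else false, fun u => by simp [u.isLt]⟩
  rw [stepPos_val m c c' hc', stepPos_val m c c' hc'] at hval
  simp only [stepNat] at hval
  have hx := x.isLt
  have hy := y.isLt
  have hxm : x.val % m < m := Nat.mod_lt _ hm
  have hym : y.val % m < m := Nat.mod_lt _ hm
  have key : x.val % m = y.val % m ∧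
      (xor (decide (m ≤ x.val)) (c' (x.val % m)) = xor (decide (m ≤ y.val)) (c' (y.val % m))) := by
    revert hval
    split_ifs with h1 h2 h2
    · intro h
      exact ⟨by omega, by simp only [h1, h2]⟩
    · intro h; omega
    · intro h; omega
    · intro h
      refine ⟨by omega, ?_⟩
      simp only [Bool.not_eq_true] at h1 h2
      simp only [h1, h2]
  obtain ⟨k1, k2⟩ := key
  rw [← k1] at k2
  have hside : decide (m ≤ x.val) = decide (m ≤ y.val) := by
    cases h : decide (m ≤ x.val) <;> cases h' : decide (m ≤ y.val) <;>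
      cases h'' : c' (x.val % m) <;> simp_all
  have hside' : m ≤ x.val ↔ m ≤ y.val := by simpa using hside
  apply Fin.ext
  by_cases hxm' : m ≤ x.val
  · have hym' := hside'.1 hxm'
    have h1 : x.val % m = x.val - m := by
      rw [Nat.mod_eq_sub_mod hxm']; exact Nat.mod_eq_of_lt (by omega)
    have h2 : y.val % m = y.val - m := by
      rw [Nat.mod_eq_sub_mod hym']; exact Nat.mod_eq_of_lt (by omega)
    omega
  · have hym' : ¬ m ≤ y.val := fun h => hxm' (hside'.2 h)
    have h1 : x.val % m = x.val := Nat.mod_eq_of_lt (by omega)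
    have h2 : y.val % m = y.val := Nat.mod_eq_of_lt (by omega)
    omega

lemma iterPos_injective' (m : ℕ) :
    ∀ (t : ℕ) (cs : Fin t → Fin m → Bool), Function.Injective (iterPos m t cs)
  | 0, _ => by
      intro x y h
      simpa [iterPos] using h
  | t + 1, cs => by
      intro x y h
      simp only [iterPos] at h
      exact iterPos_injective' m t _ (stepPos_injective' m _ h)

/-- The permutation of a table of rounds. -/
noncomputable def iterPerm (m t : ℕ) (cs : Fin t → Fin m → Bool) : Equiv.Perm (Fin (2 * m)) :=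
  Equiv.ofBijective (iterPos m t cs) (Finite.injective_iff_bijective.mp (iterPos_injective' m t cs))

lemma iterPerm_coe (m t : ℕ) (cs : Fin t → Fin m → Bool) :
    ⇑(iterPerm m t cs) = iterPos m t cs := rfl

lemma iterPos_append (m t : ℕ) (cs : Fin t → Fin m → Bool) : ∀ (s : ℕ) (cs' : Fin s → Fin m → Bool)
    (x : Fin (2 * m)),
    iterPos m (t + s) (Fin.append cs cs') x = iterPos m s cs' (iterPos m t cs x)
  | 0, cs', x => by
      have : (Fin.append cs cs' : Fin (t + 0) → _) = cs := by
        funext i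
        exact Fin.append_left cs cs' i
      rw [this]
      rfl
  | s + 1, cs', x => by
      have ih := iterPos_append m t cs s (fun i => cs' i.castSucc) x
      show iterPos m ((t + s) + 1) (Fin.append cs cs' : Fin (t + (s + 1)) → Fin m → Bool) x = _
      simp only [iterPos]
      have h1 : (fun i : Fin (t + s) => (Fin.append cs cs' : Fin (t + (s + 1)) → _) i.castSucc) =
          Fin.append cs (fun i : Fin s => cs' i.castSucc) := by
        funext i
        refine Fin.addCases (fun j => ?_) (fun j => ?_) i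
        · rw [Fin.append_left]
          exact Fin.append_left _ _ j
        · have e : (Fin.natAdd t j : Fin (t + s)).castSucc = Fin.natAdd t j.castSucc := rfl
          rw [Fin.append_right, e, Fin.append_right]
      have h2 : (Fin.append cs cs' : Fin (t + (s + 1)) → _) (Fin.last (t + s)) = cs' (Fin.last s) := by
        exact Fin.append_right _ _ (Fin.last s)
      rw [h1, ih, h2]

lemma iterPerm_append (m t s : ℕ) (cs : Fin t → Fin m → Bool) (cs' : Fin s → Fin m → Bool) :
    iterPerm m (t + s) (Fin.append cs cs') = iterPerm m s cs' * iterPerm m t cs := by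
  ext x
  simp only [Equiv.Perm.coe_mul, Function.comp, iterPerm_coe]
  rw [iterPos_append]

/-- The law after `t` rounds. -/
noncomputable def roundLaw (m t : ℕ) : Equiv.Perm (Fin (2 * m)) → ℝ := lawOf (iterPerm m t)

lemma roundLaw_add (m t s : ℕ) : roundLaw m (t + s) = conv (roundLaw m s) (roundLaw m t) := by
  funext g
  have h := lawOf_comp_bijective (iterPerm m (t + s))
    (fun ω : (Fin t → Fin m → Bool) × (Fin s → Fin m → Bool) => Fin.append ω.1 ω.2)
    (Fin.appendEquiv t s).bijective g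
  unfold roundLaw
  rw [← h, ← lawOf_prod (iterPerm m t) (iterPerm m s) g]
  congr 1
  funext ω
  exact iterPerm_append m t s ω.1 ω.2

lemma roundLaw_sum (m t : ℕ) : ∑ g, roundLaw m t g = 1 := lawOf_sum _

lemma tvFromUniform_eq (m t : ℕ) : tvFromUniform m t = tvU (roundLaw m t) := by
  unfold tvFromUniform tvU roundLaw
  congr 1
  refine Finset.sum_congr rfl fun g _ => ?_
  rw [Fintype.card_perm, Fintype.card_fin]
  congr 2
  unfold lawOf Crest.FinProb.uniformProb
  congr 2
  apply congrArg
  ext cs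
  simp only [Finset.mem_filter, Finset.mem_univ, true_and, Set.mem_ofPred_eq]
  constructor
  · intro h
    apply Equiv.coe_fn_injective
    show ⇑(iterPerm m t cs) = ⇑g
    rw [iterPerm_coe]; exact h
  · intro h
    rw [← iterPerm_coe, h]

lemma tvFromUniform_anti (m t s : ℕ) : tvFromUniform m (t + s) ≤ tvFromUniform m t := by
  rw [tvFromUniform_eq, tvFromUniform_eq, roundLaw_add]
  exact tvU_conv_le _ _ (fun h => lawOf_nonneg _ _) (roundLaw_sum _ _)

lemma opW_roundLaw_mul (m D : ℕ) : ∀ K : ℕ, opW (roundLaw m (K * D)) = (opW (roundLaw m D)) ^ K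
  | 0 => by
    have : roundLaw m 0 = fun g => if g = 1 then 1 else 0 := by
      funext g
      unfold roundLaw lawOf
      have hu : ∀ ω : Fin 0 → Fin m → Bool, iterPerm m 0 ω = 1 := by
        intro ω; ext x; rfl
      by_cases hg : g = 1
      · subst hg
        simp [hu]
      · simp only [hg, if_false, hu]
        have : (Finset.univ.filter fun _ : Fin 0 → Fin m → Bool => (1 : Equiv.Perm (Fin (2 * m))) = g) = ∅ := by
          apply Finset.filter_false_of_mem
          intro _ _ h
          exact hg h.symm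
        rw [this]
        simp
    rw [Nat.zero_mul, this, pow_zero]
    ext g g'
    simp only [opW_apply, one_apply, mul_inv_eq_one]
    by_cases h : g = g'
    · simp [h]
    · simp [h, Ne.symm h]
  | K + 1 => by
    have hk : (K + 1) * D = K * D + D := Nat.succ_mul K D
    rw [hk, roundLaw_add, pow_succ, ← opW_roundLaw_mul m D K, opW_mul]

section Sweep

/-- The law of one sweep. -/
noncomputable def sweepLaw (D : ℕ) : Equiv.Perm (Pos D) → ℝ := lawOf (sweep D)

/-- The identification of permutation groups. -/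
noncomputable def deckPerm (d : ℕ) : Equiv.Perm (Pos (d + 1)) ≃ Equiv.Perm (Fin (2 * 2 ^ d)) :=
  (deckEquiv d).permCongr

lemma deckPerm_mul (d : ℕ) (a b : Equiv.Perm (Pos (d + 1))) :
    deckPerm d (a * b) = deckPerm d a * deckPerm d b := by
  ext x
  simp [deckPerm, Equiv.permCongr_apply]

lemma deckPerm_inv (d : ℕ) (a : Equiv.Perm (Pos (d + 1))) :
    deckPerm d a⁻¹ = (deckPerm d a)⁻¹ := by
  apply eq_inv_of_mul_eq_one_left
  rw [← deckPerm_mul, inv_mul_cancel]
  ext x
  simp [deckPerm, Equiv.permCongr_apply]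

lemma iterPerm_eq_deckPerm {d : ℕ} (cs : Fin (d + 1) → Fin (2 ^ d) → Bool) :
    iterPerm (2 ^ d) (d + 1) cs = deckPerm d (sweep (d + 1) (flipsOf cs)) := by
  ext x
  obtain ⟨y, rfl⟩ := (deckEquiv d).surjective x
  simp only [iterPerm_coe, deckPerm, Equiv.permCongr_apply, Equiv.symm_apply_apply]
  rw [iterPos_eq_sweep]

lemma roundLaw_one_sweep (d : ℕ) (g : Equiv.Perm (Pos (d + 1))) :
    roundLaw (2 ^ d) (d + 1) (deckPerm d g) = sweepLaw (d + 1) g := by
  have h1 : iterPerm (2 ^ d) (d + 1) = (fun f => deckPerm d (sweep (d + 1) f)) ∘ flipsOf := by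
    funext cs; exact iterPerm_eq_deckPerm cs
  unfold roundLaw sweepLaw
  rw [h1, lawOf_comp_bijective _ _ (flipsOf_bijective d)]
  unfold lawOf
  congr 2
  congr 1
  ext f
  simp

lemma opW_deck (d : ℕ) :
    opW (sweepLaw (d + 1)) =
      (opW (roundLaw (2 ^ d) (d + 1))).submatrix (deckPerm d) (deckPerm d) := by
  ext g g'
  simp only [submatrix_apply, opW_apply]
  rw [← roundLaw_one_sweep, deckPerm_mul, deckPerm_inv]

end Sweep

/-- The operator `X = W Wᵀ` of the law of one sweep. -/
noncomputable def opX (D : ℕ) : Matrix (Equiv.Perm (Pos D)) (Equiv.Perm (Pos D)) ℝ :=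
  opW (sweepLaw D) * (opW (sweepLaw D))ᵀ

lemma trace_opX_pow (d K : ℕ) :
    trace ((opX (d + 1)) ^ K) =
      trace ((opW (roundLaw (2 ^ d) (d + 1)) * (opW (roundLaw (2 ^ d) (d + 1)))ᵀ) ^ K) := by
  have he : (opX (d + 1)) =
      (opW (roundLaw (2 ^ d) (d + 1)) * (opW (roundLaw (2 ^ d) (d + 1)))ᵀ).submatrix
        (deckPerm d) (deckPerm d) := by
    unfold opX
    rw [opW_deck, transpose_submatrix, submatrix_mul_equiv]
  rw [he]
  have hpow : ∀ (A : Matrix (Equiv.Perm (Fin (2 * 2 ^ d))) (Equiv.Perm (Fin (2 * 2 ^ d))) ℝ) (K : ℕ),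
      (A.submatrix (deckPerm d) (deckPerm d)) ^ K = (A ^ K).submatrix (deckPerm d) (deckPerm d) := by
    intro A K
    induction K with
    | zero => simp
    | succ K ih => rw [pow_succ, ih, submatrix_mul_equiv, pow_succ]
  rw [hpow]
  simp only [trace, diag_apply, submatrix_apply]
  exact Equiv.sum_comp (deckPerm d) (fun g => ((opW (roundLaw (2 ^ d) (d + 1)) *
    (opW (roundLaw (2 ^ d) (d + 1)))ᵀ) ^ K) g g)

lemma lawOf_eq_avg {G Ω : Type*} [Group G] [DecidableEq G] [Fintype Ω] (f : Ω → G) (g : G) :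
    lawOf f g = avg fun ω => if f ω = g then (1 : ℝ) else 0 := by
  unfold lawOf avg
  congr 1
  simp [Finset.sum_boole]

lemma opX_eq_perMat (D : ℕ) : opX D = perMat (xLaw D) := by
  ext σ σ'
  unfold opX
  simp only [mul_apply, transpose_apply, opW_apply]
  show _ = xLaw D (σ' * σ⁻¹)
  unfold xLaw
  simp only [sweepLaw, lawOf_eq_avg, avg]
  have hc : ((Fintype.card (Coins D) : ℝ)) ≠ 0 := by
    exact_mod_cast Fintype.card_ne_zero
  -- expand the left side as a double average
  have h1 : ∀ τ : Equiv.Perm (Pos D),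
      ((∑ T : Coins D, if sweep D T = τ * σ⁻¹ then (1 : ℝ) else 0) / (Fintype.card (Coins D) : ℝ)) *
      ((∑ T' : Coins D, if sweep D T' = τ * σ'⁻¹ then (1 : ℝ) else 0) / (Fintype.card (Coins D) : ℝ))
      = (∑ T : Coins D, ∑ T' : Coins D,
          (if sweep D T = τ * σ⁻¹ then (1 : ℝ) else 0) * (if sweep D T' = τ * σ'⁻¹ then (1 : ℝ) else 0))
        / ((Fintype.card (Coins D) : ℝ) * (Fintype.card (Coins D) : ℝ)) := by
    intro τ
    rw [div_mul_div_comm, Finset.sum_mul_sum]
  simp_rw [h1]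
  have key : ∑ τ : Equiv.Perm (Pos D), ∑ T : Coins D, ∑ T' : Coins D,
      (if sweep D T = τ * σ⁻¹ then (1 : ℝ) else 0) * (if sweep D T' = τ * σ'⁻¹ then (1 : ℝ) else 0)
      = ∑ T : Coins D, ∑ T' : Coins D, if gOf T T' = σ' * σ⁻¹ then (1 : ℝ) else 0 := by
    rw [Finset.sum_comm]
    refine Finset.sum_congr rfl fun T _ => ?_
    rw [Finset.sum_comm]
    refine Finset.sum_congr rfl fun T' _ => ?_
    rw [Finset.sum_eq_single (sweep D T * σ)]
    · have : (sweep D T = sweep D T * σ * σ⁻¹) := by group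
      rw [if_pos this, one_mul]
      have hiff : sweep D T' = sweep D T * σ * σ'⁻¹ ↔ gOf T T' = σ' * σ⁻¹ := by
        unfold gOf
        constructor
        · intro h; rw [h]; group
        · intro h
          have : sweep D T = sweep D T' * (σ' * σ⁻¹) := by
            rw [← h]; group
          rw [this]; group
      simp only [hiff]
    · intro τ _ hτ
      have : ¬ sweep D T = τ * σ⁻¹ := by
        intro h
        apply hτ
        rw [h]; group
      simp [this]
    · simp
  rw [← Finset.sum_div, key, ← Finset.sum_div, div_div]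

/-- **Top reduction.** -/
theorem tv_sq_le_trace (d s : ℕ) :
    (tvFromUniform (2 ^ d) (2 ^ s * (d + 1))) ^ 2 ≤ (1 / 4) * (trace ((opX (d + 1)) ^ (2 ^ s)) - 1) := by
  rw [tvFromUniform_eq, trace_opX_pow]
  refine (tvU_sq_le _ (roundLaw_sum _ _)).trans ?_
  apply mul_le_mul_of_nonneg_left _ (by norm_num)
  apply sub_le_sub_right
  have hcard : (Fintype.card (Equiv.Perm (Fin (2 * 2 ^ d))) : ℝ) *
      ∑ g, roundLaw (2 ^ d) (2 ^ s * (d + 1)) g ^ 2 =
      trace (opW (roundLaw (2 ^ d) (2 ^ s * (d + 1))) *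
        (opW (roundLaw (2 ^ d) (2 ^ s * (d + 1))))ᵀ) :=
    (trace_opW_mul_transpose _).symm
  rw [hcard, opW_roundLaw_mul]
  exact trace_pow_mul_transpose_le _ s

/-- If `trace (X_D ^ 1024) → 1`, the statement `S0222` holds. -/
theorem tv_tendsto_of_trace
    (h : Filter.Tendsto (fun d : ℕ => traceX (d + 1) 1024) Filter.atTop (nhds 1)) :
    Filter.Tendsto (fun d : ℕ => tvFromUniform (2 ^ d) (1600 * (d + 1))) Filter.atTop (nhds 0) := by
  have h : Filter.Tendsto (fun d : ℕ => trace ((opX (d + 1)) ^ 1024)) Filter.atTop (nhds 1) := by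
    simpa only [traceX, opX_eq_perMat] using h
  have h0 : ∀ d, 0 ≤ tvFromUniform (2 ^ d) (1600 * (d + 1)) := by
    intro d
    unfold tvFromUniform
    apply mul_nonneg (by norm_num)
    exact Finset.sum_nonneg fun _ _ => abs_nonneg _
  have h1 : ∀ d, tvFromUniform (2 ^ d) (1600 * (d + 1)) ≤
      Real.sqrt ((1 / 4) * (trace ((opX (d + 1)) ^ 1024) - 1)) := by
    intro d
    have hs := tv_sq_le_trace d 10
    have ha : tvFromUniform (2 ^ d) (1600 * (d + 1)) ≤ tvFromUniform (2 ^ d) (2 ^ 10 * (d + 1)) := by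
      have : 1600 * (d + 1) = 2 ^ 10 * (d + 1) + 576 * (d + 1) := by ring
      rw [this]
      exact tvFromUniform_anti _ _ _
    refine ha.trans ?_
    apply Real.le_sqrt_of_sq_le
    simpa using hs
  have h2 : Filter.Tendsto (fun d : ℕ => Real.sqrt ((1 / 4) * (trace ((opX (d + 1)) ^ 1024) - 1)))
      Filter.atTop (nhds 0) := by
    have : Filter.Tendsto (fun d : ℕ => (1 / 4 : ℝ) * (trace ((opX (d + 1)) ^ 1024) - 1))
        Filter.atTop (nhds 0) := by
      have := (h.sub_const 1).const_mul (1 / 4 : ℝ)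
      simpa using this
    simpa using this.sqrt
  exact squeeze_zero h0 h1 h2

end Crest.Agent.Thorp
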