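import Crest.Agent.Lib.Thorp.SpecTuple
import Crest.Agent.Lib.Thorp.Bridge
import Crest.Agent.Lib.Thorp.TopL2

/-!
# Thorp shuffle, S0222: the spectral assembly for the law `xLaw`

`spectral_thorp`: `traceX (k+1) (16 q)` is bounded in terms of `Tr ((tupleMat (xLaw (k+1)) j) ^ q)`.
-/

set_option autoImplicit false
set_option linter.unusedSectionVars false
set_option linter.unusedSimpArgs false
set_option linter.unusedVariables false

namespace Crest.Agent.Thorp.Spec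

open scoped RealInnerProductSpace
open Module

/-- The perfect matching of the top layer. -/
def thorpEq (k : ℕ) : Pos k × Bool ≃ Pos (k + 1) := Equiv.prodComm (Pos k) Bool

theorem xLaw_sum (k : ℕ) : ∑ g, xLaw k g = 1 := by
  have h := sum_xLaw k (fun _ => 1)
  simp only [mul_one] at h
  rw [h]
  have hc : ((Fintype.card (Coins k) : ℝ)) ≠ 0 := by
    exact_mod_cast Fintype.card_ne_zero
  simp [avg, hc]

theorem xLaw_psd (D : ℕ) (f : H (Pos D)) : 0 ≤ ⟪Xop (xLaw D) f, f⟫ := by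
  rw [inner_eq_sum]
  have hM := opX_eq_perMat D
  set W := opW (sweepLaw D) with hW
  have h1 : ∀ σ, Xop (xLaw D) f σ = ((W * W.transpose).mulVec (fun τ => f τ)) σ := by
    intro σ
    rw [Xop_eq_mulVec]
    have : W * W.transpose = perMat (xLaw D) := hM
    rw [this]
    rfl
  simp_rw [h1]
  have h2 : (W * W.transpose).mulVec (fun τ => f τ) = W.mulVec (W.transpose.mulVec (fun τ => f τ)) :=
    (Matrix.mulVec_mulVec _ _ _).symm
  rw [h2]
  set v := W.transpose.mulVec (fun τ => f τ) with hv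
  have h3 : ∑ σ, W.mulVec v σ * f σ = v ⬝ᵥ v := by
    have h4 : ∑ σ, W.mulVec v σ * f σ = (W.mulVec v) ⬝ᵥ (fun τ => f τ) := rfl
    rw [h4, ← Matrix.vecMul_transpose, ← Matrix.dotProduct_mulVec, hv]
  rw [h3]
  exact Finset.sum_nonneg fun i _ => mul_self_nonneg _

theorem card_thorp (k : ℕ) : Fintype.card (Pos (k + 1)) = 2 ^ (k + 1) := card_Pos (k + 1)

/-- **Spectral assembly for the Thorp shuffle.** -/
theorem spectral_thorp (k q : ℕ) (hq : 0 < q) (Φ : ℕ → ℝ)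
    (hΦ : ∀ j, j ≤ 2 ^ (k + 1) → ((tupleMat (xLaw (k + 1)) j) ^ q).trace ≤ Φ j)
    (i1 T a : ℕ) (j : ℕ → ℕ) (M₀ : ℝ) (hM₀ : 0 < M₀)
    (hi1T : i1 ≤ T)
    (hj : ∀ i ∈ Finset.Icc 1 i1, i ≤ j i ∧ i + j i ≤ 2 ^ (k + 1) ∧ 3 * i ≤ 2 ^ (k + 1))
    (ht : ∀ t ∈ Finset.Ioc i1 T, 3 * t ≤ 2 ^ (k + 1) ∧ 2 * t ≤ 2 ^ (k + 1) ∧
      M₀ ≤ ((2 ^ (k + 1) - t).choose t : ℝ))
    (ha1 : 1 ≤ a) (ha2 : 2 * a ≤ T) (ha3 : 8 * a < 2 ^ (k + 1)) (ha4 : 2 * a ≤ 2 ^ k)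
    (hM₀a : M₀ ≤ (((2 : ℕ) ^ k).choose a : ℝ))
    (hTn : T ≤ 2 ^ (k + 1)) :
    traceX (k + 1) (16 * q) ≤
      1 + ∑ i ∈ Finset.Icc 1 i1, (((2 : ℕ) ^ (k + 1)).choose i : ℝ) *
          ((Φ (j i) / ((j i).choose i : ℝ)) ^ 15 * Φ i) +
        (Φ (2 ^ (k + 1)) / M₀) ^ 15 * Φ (2 ^ (k + 1)) := by
  have hn := card_thorp k
  have hE : Fintype.card (Pos k) = 2 ^ k := card_Pos k
  have := spectral_main (α := Pos (k + 1)) (E := Pos k) (thorpEq k) (xLaw (k + 1)) (xLaw_sum _)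
    (xLaw_inv _) (xLaw_psd _)
    (by
      intro I hI F hF s
      apply xLaw_sign_kill I _ (fun σ => F σ) (fun σ σ' h => hF σ σ' h) s
      rw [hn, pow_succ] at hI
      omega)
    q hq Φ (by rw [hn]; exact hΦ) i1 T a j M₀ hM₀ hi1T (by rw [hn]; exact hj)
    (by rw [hn]; exact ht) ha1 ha2 (by rw [hn]; exact ha3) (by rw [hE]; exact ha4)
    (by rw [hE]; exact hM₀a) (by rw [hn]; exact hTn)
  rw [hn] at this
  exact this

end Crest.Agent.Thorp.Spec
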