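import Crest.Agent.Lib.Thorp.SpecMain
import Crest.Agent.Lib.Thorp.Defs

/-!
# Thorp shuffle, S0222: the spectral assembly for left-convolution operators

`spectral_main`: bound for `trace ((perMat ν) ^ (16 q))` from bounds for `trace ((tupleMat ν j) ^ q)`.
-/

set_option autoImplicit false
set_option linter.unusedSectionVars false
set_option linter.unusedSimpArgs false
set_option linter.unusedVariables false

namespace Crest.Agent.Thorp.Spec

open scoped RealInnerProductSpace
open Module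

section Abstract

variable {E : Type*} [NormedAddCommGroup E] [InnerProductSpace ℝ E] [FiniteDimensional ℝ E]

/-- Trace of a power of a symmetric operator. -/
theorem trace_pow_eq_sum {T : E →ₗ[ℝ] E} (hT : T.IsSymmetric) (m : ℕ) :
    LinearMap.trace ℝ E (T ^ m) =
      ∑ μ : Module.End.Eigenvalues T, (μ : ℝ) ^ m * (finrank ℝ (Module.End.eigenspace T μ) : ℝ) := by
  have hint := hT.direct_sum_isInternal
  have hact : ∀ (μ : Module.End.Eigenvalues T) (x : E), x ∈ Module.End.eigenspace T (μ : ℝ) →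
      (T ^ m) x = (μ : ℝ) ^ m • x := by
    intro μ x hx
    have hx' : T x = (μ : ℝ) • x := Module.End.mem_eigenspace_iff.mp hx
    clear hint
    induction m with
    | zero => simp
    | succ m ih =>
      rw [pow_succ, Module.End.mul_apply, hx', map_smul, ih, smul_smul, pow_succ, mul_comm]
  have hmaps : ∀ μ : Module.End.Eigenvalues T,
      Set.MapsTo (T ^ m) (Module.End.eigenspace T (μ : ℝ)) (Module.End.eigenspace T (μ : ℝ)) := by
    intro μ x hx
    have h1 := hact μ x hx
    show (T ^ m) x ∈ Module.End.eigenspace T (μ : ℝ)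
    rw [h1]
    exact Submodule.smul_mem _ _ hx
  rw [LinearMap.trace_eq_sum_trace_restrict hint hmaps]
  apply Finset.sum_congr rfl
  intro μ _
  have h2 : (T ^ m).restrict (hmaps μ) = ((μ : ℝ) ^ m) • LinearMap.id := by
    ext x
    simp only [LinearMap.coe_restrict_apply, LinearMap.smul_apply, LinearMap.id_apply,
      Submodule.coe_smul]
    exact hact μ x x.2
  rw [h2, map_smul, LinearMap.trace_id, smul_eq_mul]

end Abstract

variable {α : Type*} [Fintype α] [DecidableEq α]

/-- The finite set of eigenvalues. -/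
noncomputable def eigs (X : H α →ₗ[ℝ] H α) : Finset ℝ :=
  (Finset.univ : Finset (Module.End.Eigenvalues X)).image (Module.End.Eigenvalues.val X)

lemma mem_eigs {X : H α →ₗ[ℝ] H α} {μ : ℝ} : μ ∈ eigs X ↔ Module.End.HasEigenvalue X μ := by
  simp only [eigs, Finset.mem_image, Finset.mem_univ, true_and]
  constructor
  · rintro ⟨ν, rfl⟩
    exact ν.2
  · intro h
    exact ⟨⟨μ, h⟩, rfl⟩

lemma mult_eq_zero_of_not_mem {X : H α →ₗ[ℝ] H α} {μ : ℝ} (h : μ ∉ eigs X) (S : Submodule ℝ (H α)) :
    mult X S μ = 0 := by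
  by_contra h0
  obtain ⟨f, hf, hfμ, hf0⟩ := exists_of_mult_ne_zero h0
  apply h
  rw [mem_eigs]
  exact Module.End.hasEigenvalue_of_hasEigenvector
    ⟨Module.End.mem_eigenspace_iff.mpr hfμ, hf0⟩

lemma eigs_nonneg {X : H α →ₗ[ℝ] H α} (hX : GoodOp X) : ∀ μ ∈ eigs X, 0 ≤ μ := by
  intro μ hμ
  rw [mem_eigs] at hμ
  obtain ⟨f, hf⟩ := hμ.exists_hasEigenvector
  exact hX.eig_nonneg (Module.End.mem_eigenspace_iff.mp hf.1) hf.2

/-- Trace of a power as a multiplicity sum. -/
theorem trace_pow_eq_mult {X : H α →ₗ[ℝ] H α} (hX : X.IsSymmetric) (m : ℕ) :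
    LinearMap.trace ℝ (H α) (X ^ m) = ∑ μ ∈ eigs X, μ ^ m * (mult X ⊤ μ : ℝ) := by
  rw [trace_pow_eq_sum hX, eigs, Finset.sum_image (g := Module.End.Eigenvalues.val X)
    (fun a _ b _ h => Subtype.ext h)]
  apply Finset.sum_congr rfl
  intro μ _
  rw [mult, inf_top_eq]

/-- Trace of a power of the restriction as a multiplicity sum. -/
theorem trace_restrict_pow_eq_mult {X : H α →ₗ[ℝ] H α} (hX : X.IsSymmetric)
    (S : Submodule ℝ (H α)) (hS : ∀ x ∈ S, X x ∈ S) (m : ℕ) :
    LinearMap.trace ℝ S ((X.restrict hS) ^ m) = ∑ μ ∈ eigs X, μ ^ m * (mult X S μ : ℝ) := by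
  have hT : (X.restrict hS).IsSymmetric := hX.restrict_invariant hS
  rw [trace_pow_eq_sum hT]
  have hfin : ∀ μ : ℝ, finrank ℝ (Module.End.eigenspace (X.restrict hS) μ) = mult X S μ := by
    intro μ
    have h1 : Module.End.eigenspace (X.restrict hS) μ =
        (Module.End.eigenspace X μ ⊓ S).comap S.subtype := by
      ext x
      simp only [Module.End.mem_eigenspace_iff, Submodule.mem_comap, Submodule.mem_inf,
        Submodule.subtype_apply, Subtype.ext_iff, LinearMap.coe_restrict_apply,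
        Submodule.coe_smul]
      constructor
      · intro h; exact ⟨h, x.2⟩
      · intro h; exact h.1
    rw [h1, mult]
    exact LinearEquiv.finrank_eq (Submodule.comapSubtypeEquivOfLe inf_le_right)
  simp_rw [hfin]
  -- reindex
  have himg : (Finset.univ : Finset (Module.End.Eigenvalues (X.restrict hS))).image
      (Module.End.Eigenvalues.val (X.restrict hS)) ⊆ eigs X := by
    intro μ hμ
    simp only [Finset.mem_image, Finset.mem_univ, true_and] at hμ
    obtain ⟨ν, rfl⟩ := hμ
    obtain ⟨f, hf⟩ := (show Module.End.HasEigenvalue (X.restrict hS) (ν : ℝ) from ν.2).exists_hasEigenvector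
    rw [mem_eigs]
    have h1 := Module.End.mem_eigenspace_iff.mp hf.1
    have h2 : X (f : H α) = (ν : ℝ) • (f : H α) := by
      have := congrArg Subtype.val h1
      simpa using this
    refine Module.End.hasEigenvalue_of_hasEigenvector
      ⟨Module.End.mem_eigenspace_iff.mpr h2, ?_⟩
    intro h0
    exact hf.2 (Subtype.ext h0)
  rw [← Finset.sum_subset himg]
  · rw [Finset.sum_image (g := Module.End.Eigenvalues.val (X.restrict hS))
      (fun a _ b _ h => Subtype.ext h)]
  · intro μ _ hμ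
    have : mult X S μ = 0 := by
      rw [← hfin]
      have h3 : Module.End.eigenspace (X.restrict hS) μ = ⊥ := by
        by_contra hb
        apply hμ
        simp only [Finset.mem_image, Finset.mem_univ, true_and]
        exact ⟨⟨μ, hb⟩, rfl⟩
      rw [h3]
      simp
    rw [this]
    simp

/-- The left convolution operator. -/
noncomputable def Xop (ν : Equiv.Perm α → ℝ) : H α →ₗ[ℝ] H α where
  toFun f := mk (fun σ => ∑ g, ν g * f (g * σ))
  map_add' f g := by
    apply H_ext; intro σ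
    simp [mul_add, Finset.sum_add_distrib]
  map_smul' c f := by
    apply H_ext; intro σ
    simp [Finset.mul_sum]
    apply Finset.sum_congr rfl
    intro g _
    ring

@[simp] lemma Xop_apply (ν : Equiv.Perm α → ℝ) (f : H α) (σ : Equiv.Perm α) :
    Xop ν f σ = ∑ g, ν g * f (g * σ) := rfl

lemma Xop_eq_mulVec (ν : Equiv.Perm α → ℝ) (f : H α) (σ : Equiv.Perm α) :
    Xop ν f σ = ∑ σ', perMat ν σ σ' * f σ' := by
  rw [Xop_apply, ← Equiv.sum_comp (Equiv.mulRight σ) (fun σ' => perMat ν σ σ' * f σ')]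
  apply Finset.sum_congr rfl
  intro g _
  simp [perMat]

lemma Xop_symm (ν : Equiv.Perm α → ℝ) (hν : ∀ g, ν g⁻¹ = ν g) : (Xop ν).IsSymmetric := by
  intro f g
  rw [inner_eq_sum, inner_eq_sum]
  simp_rw [Xop_eq_mulVec, Finset.sum_mul, Finset.mul_sum]
  rw [Finset.sum_comm]
  apply Finset.sum_congr rfl
  intro σ _
  apply Finset.sum_congr rfl
  intro σ' _
  have : perMat ν σ' σ = perMat ν σ σ' := by
    show ν (σ * σ'⁻¹) = ν (σ' * σ⁻¹)
    rw [show σ * σ'⁻¹ = (σ' * σ⁻¹)⁻¹ by simp, hν]
  rw [this]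
  ring

lemma Xop_good (ν : Equiv.Perm α → ℝ) (hν : ∀ g, ν g⁻¹ = ν g)
    (hpsd : ∀ f : H α, 0 ≤ ⟪Xop ν f, f⟫) : GoodOp (Xop ν) where
  symm := Xop_symm ν hν
  nonneg := hpsd
  comm := by
    intro π f
    apply H_ext; intro σ
    simp [mul_assoc]
  M_inv := by
    intro I f hf σ σ' h
    rw [Xop_apply, Xop_apply]
    apply Finset.sum_congr rfl
    intro g _
    rw [hf (g * σ) (g * σ')]
    intro c hc
    simp [h c hc]

lemma Xop_one (ν : Equiv.Perm α → ℝ) (hν : ∑ g, ν g = 1) : Xop ν one = one := by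
  apply H_ext; intro σ
  simp [one, hν]

lemma Xop_Sg_eq_zero (ν : Equiv.Perm α → ℝ)
    (hkill : ∀ I : Finset α, 2 * I.card < Fintype.card α → ∀ F : H α, F ∈ M I → ∀ s,
      ∑ g, ν g * (((Equiv.Perm.sign (g * s) : ℤˣ) : ℤ) : ℝ) * F (g * s) = 0)
    (t : ℕ) (ht : 2 * t < Fintype.card α) (v : H α) (hv : v ∈ (V t : Submodule ℝ (H α))) :
    Xop ν (Sg v) = 0 := by
  have hle : (V t : Submodule ℝ (H α)) ≤ LinearMap.ker (Xop ν ∘ₗ Sg) := by
    apply iSup₂_le
    intro I hI F hF
    rw [LinearMap.mem_ker]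
    apply H_ext
    intro s
    have := hkill I (by omega) F hF s
    simp only [LinearMap.comp_apply, Xop_apply, Sg_apply]
    refine Eq.trans ?_ this
    apply Finset.sum_congr rfl
    intro g _
    ring
  have := hle hv
  simpa using this

section Tuple

variable {J : Finset α}

/-- The embedding enumerating `J`. -/
noncomputable def enumJ (J : Finset α) : Fin J.card ↪ α :=
  ⟨fun i => (J.equivFin.symm i).1, fun a b h => by
    have := Subtype.ext h
    exact J.equivFin.symm.injective this⟩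

lemma enumJ_mem (J : Finset α) (i : Fin J.card) : enumJ J i ∈ J := (J.equivFin.symm i).2

lemma exists_enumJ (J : Finset α) {c : α} (hc : c ∈ J) : ∃ i, enumJ J i = c :=
  ⟨J.equivFin ⟨c, hc⟩, by simp [enumJ]⟩

/-- Every injective tuple extends to a permutation. -/
lemma exists_perm_of_embedding {ι : Type*} [Fintype ι] (e y : ι ↪ α) :
    ∃ σ : Equiv.Perm α, e.trans σ.toEmbedding = y := by
  classical
  let eq : {x // x ∈ Set.range e} ≃ {x // x ∈ Set.range y} :=
    (Equiv.ofInjective e e.injective).symm.trans (Equiv.ofInjective y y.injective)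
  refine ⟨eq.extendSubtype, ?_⟩
  ext i
  have h := Equiv.extendSubtype_apply_of_mem eq (e i) ⟨i, rfl⟩
  simp only [Function.Embedding.trans_apply, Equiv.coe_toEmbedding]
  rw [h]
  have : (Equiv.ofInjective e e.injective).symm ⟨e i, ⟨i, rfl⟩⟩ = i :=
    Equiv.ofInjective_symm_apply e.injective i
  simp [eq, this]

/-- The map from functions on tuples to `H α`. -/
noncomputable def Th (J : Finset α) : ((Fin J.card ↪ α) → ℝ) →ₗ[ℝ] H α where
  toFun F := mk (fun σ => F ((enumJ J).trans σ.toEmbedding))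
  map_add' F G := by apply H_ext; intro σ; simp
  map_smul' c F := by apply H_ext; intro σ; simp

lemma Th_mem (J : Finset α) (F : (Fin J.card ↪ α) → ℝ) : Th J F ∈ M J := by
  intro σ σ' h
  show F _ = F _
  congr 1
  ext i
  simpa using h _ (enumJ_mem J i)

/-- The linear equivalence between functions on tuples and `M J`. -/
noncomputable def ThE (J : Finset α) : ((Fin J.card ↪ α) → ℝ) ≃ₗ[ℝ] ↥(M J : Submodule ℝ (H α)) :=
  LinearEquiv.ofBijective ((Th J).codRestrict (M J) (Th_mem J)) (by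
    constructor
    · intro F G h
      ext y
      obtain ⟨σ, rfl⟩ := exists_perm_of_embedding (enumJ J) y
      have := congrArg (fun f : ↥(M J : Submodule ℝ (H α)) => (f : H α) σ) h
      exact this
    · intro f
      choose s hs using fun y : (Fin J.card ↪ α) => exists_perm_of_embedding (enumJ J) y
      refine ⟨fun y => (f : H α) (s y), ?_⟩
      apply Subtype.ext
      apply H_ext
      intro σ
      show (f : H α) (s ((enumJ J).trans σ.toEmbedding)) = (f : H α) σ
      apply f.2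
      intro c hc
      obtain ⟨i, rfl⟩ := exists_enumJ J hc
      have := congrArg (fun z : Fin J.card ↪ α => z i) (hs ((enumJ J).trans σ.toEmbedding))
      simpa using this)

lemma ThE_apply (J : Finset α) (F : (Fin J.card ↪ α) → ℝ) : ((ThE J F : ↥(M J : Submodule ℝ (H α))) : H α) = Th J F := rfl

lemma Xop_M_inv (ν : Equiv.Perm α → ℝ) (J : Finset α) :
    ∀ f ∈ (M J : Submodule ℝ (H α)), Xop ν f ∈ (M J : Submodule ℝ (H α)) := by
  intro f hf σ σ' h
  rw [Xop_apply, Xop_apply]
  apply Finset.sum_congr rfl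
  intro g _
  rw [hf (g * σ) (g * σ')]
  intro c hc
  simp [h c hc]

/-- The operator on tuples corresponds to the restriction of `Xop`. -/
lemma Xop_Th (ν : Equiv.Perm α → ℝ) (J : Finset α) (F : (Fin J.card ↪ α) → ℝ) :
    Xop ν (Th J F) = Th J (Matrix.toLin' (tupleMat ν J.card) F) := by
  apply H_ext
  intro σ
  simp only [Xop_apply]
  show ∑ g, ν g * F ((enumJ J).trans (g * σ).toEmbedding) = Matrix.toLin' (tupleMat ν J.card) F _
  rw [Matrix.toLin'_apply, Matrix.mulVec, dotProduct]
  simp only [tupleMat]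
  simp_rw [Finset.sum_mul]
  rw [Finset.sum_comm]
  apply Finset.sum_congr rfl
  intro g _
  rw [Finset.sum_eq_single ((enumJ J).trans (g * σ).toEmbedding)]
  · rw [if_pos]
    ext i
    simp
  · intro y _ hy
    rw [if_neg, zero_mul]
    intro h
    apply hy
    rw [← h]
    ext i
    simp
  · simp

/-- Trace of `X ^ q` on `M J` is the trace of the tuple kernel. -/
theorem mult_sum_eq_trace (ν : Equiv.Perm α → ℝ) (hν : ∀ g, ν g⁻¹ = ν g) (J : Finset α) (q : ℕ) :
    ∑ μ ∈ eigs (Xop ν), μ ^ q * (mult (Xop ν) (M J) μ : ℝ) = ((tupleMat ν J.card) ^ q).trace := by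
  rw [← trace_restrict_pow_eq_mult (Xop_symm ν hν) (M J) (Xop_M_inv ν J) q]
  rw [← Matrix.trace_toLin'_eq, Matrix.toLin'_pow]
  have hconj : ((ThE J).conj ((Matrix.toLin' (tupleMat ν J.card)) ^ q)) =
      ((Xop ν).restrict (Xop_M_inv ν J)) ^ q := by
    have h1 : ∀ (m : ℕ) (F : (Fin J.card ↪ α) → ℝ),
        (((Xop ν).restrict (Xop_M_inv ν J)) ^ m) (ThE J F) =
          ThE J (((Matrix.toLin' (tupleMat ν J.card)) ^ m) F) := by
      intro m
      induction m with
      | zero => intro F; simp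
      | succ m ih =>
        intro F
        rw [pow_succ, Module.End.mul_apply, pow_succ, Module.End.mul_apply]
        have h2 : (Xop ν).restrict (Xop_M_inv ν J) (ThE J F) =
            ThE J (Matrix.toLin' (tupleMat ν J.card) F) := by
          apply Subtype.ext
          exact Xop_Th ν J F
        rw [h2, ih]
    ext f
    obtain ⟨F, rfl⟩ := (ThE J).surjective f
    rw [LinearEquiv.conj_apply_apply, LinearEquiv.symm_apply_apply, h1]
  rw [← hconj, LinearMap.trace_conj']

end Tuple

/-- The trace of a power of the matrix is the trace of the power of `Xop`. -/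
theorem trace_perMat_pow (ν : Equiv.Perm α → ℝ) (m : ℕ) :
    ((perMat ν) ^ m).trace = LinearMap.trace ℝ (H α) ((Xop ν) ^ m) := by
  rw [← Matrix.trace_toLin'_eq, Matrix.toLin'_pow]
  have hconj : (WithLp.linearEquiv 2 ℝ (Equiv.Perm α → ℝ)).conj ((Xop ν) ^ m) =
      (Matrix.toLin' (perMat ν)) ^ m := by
    have h1 : ∀ (m : ℕ) (f : H α), (WithLp.linearEquiv 2 ℝ (Equiv.Perm α → ℝ)) (((Xop ν) ^ m) f) =
        ((Matrix.toLin' (perMat ν)) ^ m) (WithLp.linearEquiv 2 ℝ (Equiv.Perm α → ℝ) f) := by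
      intro m
      induction m with
      | zero => intro f; simp
      | succ m ih =>
        intro f
        rw [pow_succ, Module.End.mul_apply, pow_succ, Module.End.mul_apply, ih]
        congr 1
        ext σ
        rw [Matrix.toLin'_apply, Matrix.mulVec, dotProduct]
        exact Xop_eq_mulVec ν f σ
    apply LinearMap.ext
    intro g
    obtain ⟨f, rfl⟩ := (WithLp.linearEquiv 2 ℝ (Equiv.Perm α → ℝ)).surjective g
    rw [LinearEquiv.conj_apply_apply, LinearEquiv.symm_apply_apply, h1]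
  rw [← hconj, LinearMap.trace_conj']

/-- **Spectral assembly** for a symmetric positive law with the sign-killing property. -/
theorem spectral_main {E : Type*} [Fintype E] [DecidableEq E] (p : E × Bool ≃ α)
    (ν : Equiv.Perm α → ℝ) (hν1 : ∑ g, ν g = 1) (hν : ∀ g, ν g⁻¹ = ν g)
    (hpsd : ∀ f : H α, 0 ≤ ⟪Xop ν f, f⟫)
    (hkill : ∀ I : Finset α, 2 * I.card < Fintype.card α → ∀ F : H α, F ∈ M I → ∀ s,
      ∑ g, ν g * (((Equiv.Perm.sign (g * s) : ℤˣ) : ℤ) : ℝ) * F (g * s) = 0)
    (q : ℕ) (hq : 0 < q) (Φ : ℕ → ℝ)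
    (hΦ : ∀ j, j ≤ Fintype.card α → ((tupleMat ν j) ^ q).trace ≤ Φ j)
    (i1 T a : ℕ) (j : ℕ → ℕ) (M₀ : ℝ) (hM₀ : 0 < M₀)
    (hi1T : i1 ≤ T)
    (hj : ∀ i ∈ Finset.Icc 1 i1, i ≤ j i ∧ i + j i ≤ Fintype.card α ∧ 3 * i ≤ Fintype.card α)
    (ht : ∀ t ∈ Finset.Ioc i1 T, 3 * t ≤ Fintype.card α ∧ 2 * t ≤ Fintype.card α ∧
      M₀ ≤ ((Fintype.card α - t).choose t : ℝ))
    (ha1 : 1 ≤ a) (ha2 : 2 * a ≤ T) (ha3 : 8 * a < Fintype.card α) (ha4 : 2 * a ≤ Fintype.card E)
    (hM₀a : M₀ ≤ ((Fintype.card E).choose a : ℝ))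
    (hTn : T ≤ Fintype.card α) :
    ((perMat ν) ^ (16 * q)).trace ≤
      1 + ∑ i ∈ Finset.Icc 1 i1, ((Fintype.card α).choose i : ℝ) *
          ((Φ (j i) / ((j i).choose i : ℝ)) ^ 15 * Φ i) +
        (Φ (Fintype.card α) / M₀) ^ 15 * Φ (Fintype.card α) := by
  have hX := Xop_good ν hν hpsd
  rw [trace_perMat_pow, trace_pow_eq_mult hX.symm]
  apply spectral_bound p hX (Xop_one ν hν1) (Xop_Sg_eq_zero ν hkill) (eigs (Xop ν)) (eigs_nonneg hX)
    q hq Φ _ i1 T a j M₀ hM₀ hi1T hj ht ha1 ha2 ha3 ha4 hM₀a hTn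
  intro J
  rw [mult_sum_eq_trace ν hν J q]
  exact hΦ _ (Finset.card_le_univ J)

end Crest.Agent.Thorp.Spec
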