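import Crest.Agent.Lib.Thorp.TMomentPairs
import Crest.Agent.Lib.Thorp.Finner
import Crest.Agent.Lib.Thorp.Interface

/-!
# Thorp shuffle (S0222), Section 4: the exponential moment of the mate counts over `T`.
-/

set_option autoImplicit false

namespace Crest.Agent.Thorp.TMoment

open Finset BigOperators
open Crest.Agent.Thorp

variable {U : Type}

/-- The (weighted) number of pairs of level `l`: `e_l = 2^{l-D} #{pairs of level l}`. -/
noncomputable def eL {D : ℕ} (c : Color U D) (l : ℕ) : ℝ :=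
  ((∑ x, occ c x * partners c l x : ℕ) : ℝ) / 2 / 2 ^ (D - l)

lemma eL_nonneg {D : ℕ} (c : Color U D) (l : ℕ) : 0 ≤ eL c l := by
  unfold eL
  positivity

/-- One level. -/
lemma level_moment {D : ℕ} (c : Color U D) {l : ℕ} (hl : l ∈ Icc 1 D) {s : ℝ} (hs : 0 ≤ s) :
    avg (fun T : Coins D => Real.exp (s * (mateCount l D c T : ℝ))) ≤
      Real.exp ((Real.exp s - 1) * eL c l) := by
  obtain ⟨h1, h2⟩ := Finset.mem_Icc.1 hl
  obtain ⟨m, rfl⟩ : ∃ m, l = m + 1 := ⟨l - 1, by omega⟩
  obtain ⟨r, rfl⟩ : ∃ r, D = m + 1 + r := ⟨D - (m + 1), by omega⟩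
  refine (mate_moment_exp hs m r c).trans (le_of_eq ?_)
  congr 2
  unfold eL
  rw [sum_occ_partners]
  have : m + 1 + r - (m + 1) = r := by omega
  rw [this]
  push_cast
  ring

/-- Hölder for exponentials. -/
lemma avg_exp_sum_le {α κ : Type*} [Fintype α] [Nonempty α] (s : Finset κ) (θ : κ → ℝ)
    (Z : κ → α → ℝ) (A : κ → ℝ) (hθ : ∀ l ∈ s, 0 < θ l) (hsum : ∑ l ∈ s, θ l ≤ 1)
    (h : ∀ l ∈ s, avg (fun a => Real.exp (Z l a)) ≤ Real.exp (A l)) :
    avg (fun a => Real.exp (∑ l ∈ s, θ l * Z l a)) ≤ Real.exp (∑ l ∈ s, θ l * A l) := by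
  have hH := holder_avg s (fun l a => Real.exp (θ l * Z l a)) (fun l => 1 / θ l)
    (fun l _ a => (Real.exp_pos _).le) (fun l hl => by have := hθ l hl; positivity)
    (by
      refine le_trans (le_of_eq ?_) hsum
      refine Finset.sum_congr rfl fun l _ => ?_
      simp)
  simp only [Real.exp_sum]
  refine hH.trans ?_
  refine Finset.prod_le_prod (fun l _ => ?_) fun l hl => ?_
  · exact Real.rpow_nonneg (avg_nonneg' fun a => Real.rpow_nonneg (Real.exp_pos _).le _) _
  · have hpos := hθ l hl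
    have h1 : (fun a => Real.exp (θ l * Z l a) ^ (1 / θ l)) = fun a => Real.exp (Z l a) := by
      funext a
      rw [← Real.exp_mul]
      congr 1
      field_simp
    rw [h1]
    have h2 : Real.exp (θ l * A l) = (Real.exp (A l)) ^ (1 / (1 / θ l)) := by
      rw [← Real.exp_mul]
      congr 1
      field_simp
    rw [h2]
    refine Real.rpow_le_rpow (avg_nonneg' fun a => (Real.exp_pos _).le) (h l hl) ?_
    positivity

lemma sum_theta_le (D : ℕ) : ∑ l ∈ Icc 1 D, (1 / ((l : ℝ) * ((l : ℝ) + 1))) ≤ 1 := by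
  have h : ∀ D : ℕ, ∑ l ∈ Icc 1 D, (1 / ((l : ℝ) * ((l : ℝ) + 1))) = 1 - 1 / ((D : ℝ) + 1) := by
    intro D
    induction D with
    | zero => simp
    | succ n ih =>
      rw [Finset.sum_Icc_succ_top (by omega), ih]
      push_cast
      field_simp
      ring
  rw [h]
  have : (0 : ℝ) ≤ 1 / ((D : ℝ) + 1) := by positivity
  linarith

/-- The abstract form of Section 4. -/
theorem tmoment_abstract (D : ℕ) (c : Color U D) (d κ s0 : ℝ) (w : ℕ → ℝ)
    (hd : 0 ≤ d) (hκ0 : 0 ≤ κ) (hw : ∀ l, 0 ≤ w l)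
    (hs : ∀ l ∈ Icc 1 D, d * w l * ((l : ℝ) * ((l : ℝ) + 1)) ≤ s0)
    (hκ : ∀ s, 0 ≤ s → s ≤ s0 → Real.exp s - 1 ≤ κ * s)
    (hmono : ∀ l l', 1 ≤ l → l ≤ l' → l' ≤ D → w l * 2 ^ l ≤ w l' * 2 ^ l') :
    (avg fun T : Coins D => Real.exp (d * ∑ l ∈ Icc 1 D, w l * (mateCount l D c T : ℝ))) ≤
      Real.exp (d * ((csupp c).card : ℝ) *
        ((1 / 2 : ℝ) * ∑ l ∈ Ioc (D - Nat.clog 2 (csupp c).card) D, κ * w l)) := by
  have : Nonempty (Coins D) := ⟨fun _ => false⟩
  set j := (csupp c).card with hj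
  set L := D - Nat.clog 2 j with hLdef
  -- Step 1: Hölder over the levels
  let θ : ℕ → ℝ := fun l => 1 / ((l : ℝ) * ((l : ℝ) + 1))
  let sl : ℕ → ℝ := fun l => d * w l * ((l : ℝ) * ((l : ℝ) + 1))
  have hpos : ∀ l ∈ Icc 1 D, (0 : ℝ) < (l : ℝ) * ((l : ℝ) + 1) := by
    intro l hl
    have : (1 : ℝ) ≤ l := by exact_mod_cast (Finset.mem_Icc.1 hl).1
    positivity
  have hsl : ∀ l, 0 ≤ sl l := by
    intro l
    have := hw l
    positivity
  have h1 := avg_exp_sum_le (α := Coins D) (Icc 1 D) θ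
    (fun l T => sl l * (mateCount l D c T : ℝ)) (fun l => (Real.exp (sl l) - 1) * eL c l)
    (fun l hl => by have := hpos l hl; show 0 < 1 / _; positivity)
    (sum_theta_le D)
    (fun l hl => level_moment c hl (hsl l))
  have h2 : ∀ T : Coins D, d * ∑ l ∈ Icc 1 D, w l * (mateCount l D c T : ℝ) =
      ∑ l ∈ Icc 1 D, θ l * (sl l * (mateCount l D c T : ℝ)) := by
    intro T
    rw [Finset.mul_sum]
    refine Finset.sum_congr rfl fun l hl => ?_
    have h1l : (1 : ℝ) ≤ l := by exact_mod_cast (Finset.mem_Icc.1 hl).1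
    have hl0 : (l : ℝ) ≠ 0 := by positivity
    have hl1 : (l : ℝ) + 1 ≠ 0 := by positivity
    simp only [θ, sl]
    field_simp
  simp only [h2]
  refine h1.trans (Real.exp_le_exp.2 ?_)
  -- Step 2: from `exp s - 1` to `κ s`
  have h3 : ∑ l ∈ Icc 1 D, θ l * ((Real.exp (sl l) - 1) * eL c l) ≤
      ∑ l ∈ Icc 1 D, κ * d * (w l * eL c l) := by
    refine Finset.sum_le_sum fun l hl => ?_
    have hp := hpos l hl
    have h4 := hκ (sl l) (hsl l) (hs l hl)
    have hθ : 0 ≤ θ l := by show 0 ≤ 1 / _; positivity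
    calc θ l * ((Real.exp (sl l) - 1) * eL c l)
        ≤ θ l * ((κ * sl l) * eL c l) := by
          refine mul_le_mul_of_nonneg_left ?_ hθ
          exact mul_le_mul_of_nonneg_right h4 (eL_nonneg c l)
      _ = κ * d * (w l * eL c l) := by
          have h1l : (1 : ℝ) ≤ l := by exact_mod_cast (Finset.mem_Icc.1 hl).1
          have hl0 : (l : ℝ) ≠ 0 := by positivity
          have hl1 : (l : ℝ) + 1 ≠ 0 := by positivity
          simp only [θ, sl]
          field_simp
  refine h3.trans ?_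
  -- Step 3: the bathtub bound
  have hj2 : j ≤ 2 ^ D := by
    have : j ≤ Fintype.card (Pos D) := Finset.card_le_univ _
    rwa [card_Pos] at this
  have hclog : Nat.clog 2 j ≤ D := by
    refine Nat.clog_le_of_le_pow hj2
  let a : ℕ → ℝ := fun l => w l / 2 ^ (D - l)
  have ha : ∀ l ∈ Icc 1 D, a l * 2 ^ (D - l) = w l := by
    intro l _
    simp only [a]
    field_simp
  have hper : ∀ x : Pos D, (occ c x : ℝ) * ∑ l ∈ Icc 1 D, a l * (partners c l x : ℝ) ≤
      (occ c x : ℝ) * ∑ l ∈ Ioc L D, w l := by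
    intro x
    by_cases hx : occ c x = 1
    · rw [hx]
      refine mul_le_mul_of_nonneg_left ?_ (by norm_num)
      have hb := bathtub D L a (fun l => (partners c l x : ℝ)) ((j : ℝ) - 1) (by omega)
        (fun l _ => by
          have := hw l
          simp only [a]
          positivity)
        (fun l l' h1 h2 h3 => by
          have h := hmono l l' h1 h2 h3
          simp only [a]
          have he : ∀ t, t ≤ D → (2 : ℝ) ^ (D - t) = 2 ^ D / 2 ^ t := by
            intro t ht
            rw [eq_div_iff (by positivity), ← pow_add]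
            congr 1
            omega
          rw [he l (by omega), he l' h3]
          have h5 : w l / (2 ^ D / 2 ^ l) = w l * 2 ^ l / 2 ^ D := by
            field_simp
          have h6 : w l' / (2 ^ D / 2 ^ l') = w l' * 2 ^ l' / 2 ^ D := by
            field_simp
          rw [h5, h6]
          exact div_le_div_of_nonneg_right h (by positivity))
        (fun l _ => Nat.cast_nonneg _)
        (fun l hl => by
          obtain ⟨h1, h2⟩ := Finset.mem_Icc.1 hl
          obtain ⟨m, rfl⟩ : ∃ m, l = m + 1 := ⟨l - 1, by omega⟩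
          obtain ⟨r, rfl⟩ : ∃ r, D = m + 1 + r := ⟨D - (m + 1), by omega⟩
          have h3 := partners_le c x
          have h4 : m + 1 + r - (m + 1) = r := by omega
          rw [h4]
          exact_mod_cast h3)
        (by
          have h3 := sum_partners_le c x hx
          have h4 : ((∑ l ∈ Icc 1 D, partners c l x : ℕ) : ℝ) + 1 ≤ (j : ℝ) := by exact_mod_cast h3
          push_cast at h4
          linarith)
        (by
          have h3 : ∑ l ∈ Ioc L D, (2 : ℝ) ^ (D - l) = 2 ^ Nat.clog 2 j - 1 :=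
            sum_Ioc_two_pow D _ hclog
          rw [h3]
          have h4 : j ≤ 2 ^ Nat.clog 2 j := Nat.le_pow_clog (by norm_num) j
          have h5 : (j : ℝ) ≤ 2 ^ Nat.clog 2 j := by exact_mod_cast h4
          linarith)
      refine hb.trans (le_of_eq ?_)
      refine Finset.sum_congr rfl fun l hl => ?_
      refine ha l ?_
      simp only [Finset.mem_Ioc, Finset.mem_Icc] at hl ⊢
      omega
    · have h0 : occ c x = 0 := by
        have := occ_le c x
        omega
      rw [h0]
      simp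
  have h5 : ∑ l ∈ Icc 1 D, w l * eL c l =
      (1 / 2) * ∑ x : Pos D, (occ c x : ℝ) * ∑ l ∈ Icc 1 D, a l * (partners c l x : ℝ) := by
    simp only [Finset.mul_sum]
    rw [Finset.sum_comm]
    refine Finset.sum_congr rfl fun l _ => ?_
    unfold eL
    push_cast
    simp only [a]
    rw [Finset.sum_div, Finset.sum_div, Finset.mul_sum]
    refine Finset.sum_congr rfl fun x _ => ?_
    field_simp
  have h6 : ∑ x : Pos D, (occ c x : ℝ) * ∑ l ∈ Ioc L D, w l = (j : ℝ) * ∑ l ∈ Ioc L D, w l := by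
    rw [← Finset.sum_mul]
    congr 1
    rw [hj, ← sum_occ_eq_card]
    push_cast
    rfl
  have h7 : ∑ l ∈ Icc 1 D, w l * eL c l ≤ (1 / 2) * ((j : ℝ) * ∑ l ∈ Ioc L D, w l) := by
    rw [h5, ← h6]
    refine mul_le_mul_of_nonneg_left ?_ (by norm_num)
    exact Finset.sum_le_sum fun x _ => hper x
  calc ∑ l ∈ Icc 1 D, κ * d * (w l * eL c l)
      = κ * d * ∑ l ∈ Icc 1 D, w l * eL c l := by rw [Finset.mul_sum]
    _ ≤ κ * d * ((1 / 2) * ((j : ℝ) * ∑ l ∈ Ioc L D, w l)) :=
        mul_le_mul_of_nonneg_left h7 (by positivity)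
    _ = d * (j : ℝ) * ((1 / 2 : ℝ) * ∑ l ∈ Ioc L D, κ * w l) := by
        rw [← Finset.mul_sum]
        ring

/-- `exp s - 1 ≤ 1.051 s` on `[0, 0.0983]`. -/
lemma exp_sub_one_le (s : ℝ) (h0 : 0 ≤ s) (h1 : s ≤ 0.0983) : Real.exp s - 1 ≤ 1.051 * s := by
  have hb := Real.exp_bound' h0 (by linarith) (n := 4) (by norm_num)
  have h2 : ∑ m ∈ Finset.range 4, s ^ m / (m.factorial : ℝ) = 1 + s + s ^ 2 / 2 + s ^ 3 / 6 := by
    simp [Finset.sum_range_succ, Nat.factorial]
  rw [h2] at hb
  have h3 : s ^ 4 * ((4 : ℝ) + 1) / ((Nat.factorial 4 : ℝ) * (4 : ℝ)) = s ^ 4 * (5 / 96) := by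
    simp [Nat.factorial]
    ring
  have h4 : s ^ 2 ≤ 0.0983 * s := by nlinarith
  have h5 : s ^ 3 ≤ 0.0983 ^ 2 * s := by
    have : s ^ 2 ≤ 0.0983 ^ 2 := by nlinarith
    calc s ^ 3 = s ^ 2 * s := by ring
      _ ≤ 0.0983 ^ 2 * s := mul_le_mul_of_nonneg_right this h0
  have h6 : s ^ 4 ≤ 0.0983 ^ 3 * s := by
    have : s ^ 3 ≤ 0.0983 ^ 3 := pow_le_pow_left₀ h0 h1 3
    calc s ^ 4 = s ^ 3 * s := by ring
      _ ≤ 0.0983 ^ 3 * s := mul_le_mul_of_nonneg_right this h0
  have hb2 : Real.exp s ≤ 1 + s + s ^ 2 / 2 + s ^ 3 / 6 + s ^ 4 * (5 / 96) := by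
    have := hb
    push_cast at this
    norm_num [Nat.factorial] at this ⊢
    nlinarith
  nlinarith

/-- The full deck: all mate counts are deterministic. -/
theorem fullDeck_aux {U : Type} : ∀ (D : ℕ) (c : Color U D), csupp c = Finset.univ →
    ∀ (T : Coins D) (l : ℕ), l ∈ Finset.Icc 1 D → mateCount l D c T = 2 ^ (D - 1)
  | 0, _, _, _, l, hl => by
      have := Finset.mem_Icc.1 hl
      omega
  | k + 1, c, hc, T, l, hl => by
      have hall : ∀ x, (c x).isSome = true := by
        intro x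
        have : x ∈ csupp c := by rw [hc]; exact Finset.mem_univ _
        simpa [csupp] using this
      by_cases hlk : l = k + 1
      · subst hlk
        rw [mateCount_self]
        have h : mates c = Finset.univ := by
          ext p
          simp [mates, hall]
        rw [h, Finset.card_univ, card_Pos]
        simp
      · rw [mateCount_succ_ne hlk]
        have hsheet : ∀ b, csupp (sheet (Coins.top T) c b) = Finset.univ := by
          intro b
          ext p
          simp [csupp, sheet, hall]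
        have hl' : l ∈ Finset.Icc 1 k := by
          have := Finset.mem_Icc.1 hl
          simp only [Finset.mem_Icc]
          omega
        rw [fullDeck_aux k _ (hsheet false) _ l hl', fullDeck_aux k _ (hsheet true) _ l hl']
        have hk : 1 ≤ k := by
          have := Finset.mem_Icc.1 hl'
          omega
        obtain ⟨t, rfl⟩ : ∃ t, k = t + 1 := ⟨k - 1, by omega⟩
        simp [pow_succ]
        ring

end Crest.Agent.Thorp.TMoment

namespace Crest.Agent.Thorp

/-- `Interface.FullDeck`. -/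
theorem fullDeck : Interface.FullDeck := by
  intro U _ _ D c hc T l hl
  exact TMoment.fullDeck_aux D c hc T l hl

/-- `Interface.TMoment`, given the numerical facts about the weights. -/
theorem tMoment_of_numerics (h0 : ∀ l, 0 ≤ wt l)
    (hs : ∀ l, 1 ≤ l → (1 / 63 : ℝ) * wt l * ((l : ℝ) * ((l : ℝ) + 1)) ≤ 0.0983)
    (hmono : ∀ l, 1 ≤ l → wt l * 2 ^ l ≤ wt (l + 1) * 2 ^ (l + 1)) : Interface.TMoment := by
  intro U _ _ D c
  have hmono' : ∀ l l', 1 ≤ l → l ≤ l' → l' ≤ D → wt l * 2 ^ l ≤ wt l' * 2 ^ l' := by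
    intro l l' h1 h2 _
    induction l', h2 using Nat.le_induction with
    | base => exact le_refl _
    | succ n hn ih => exact (ih (by omega)).trans (hmono n (by omega))
  exact TMoment.tmoment_abstract D c (1 / 63) 1.051 0.0983 wt (by norm_num) (by norm_num) h0
    (fun l hl => hs l (Finset.mem_Icc.1 hl).1) TMoment.exp_sub_one_le hmono'

end Crest.Agent.Thorp
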