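import Crest.Agent.Lib.Thorp.Defs

/-!
# Thorp shuffle (S0222), Section 4 of the paper proof: moment of the mate counts over `T`.

For a colouring `c` of `Pos ((m+1)+r)` let `N_i^p` be the number of occupied sites with lower bits
`(i,p)`.  Then `E_T (1+β)^{m_{m+1}(T)} ≤ ∏_p (1+β N_0^p/2^r)^{N_1^p}`.

The proof is a single induction on `r`, the supermartingale property of the right side
under one layer of the sweep (the negative correlation argument of the paper, in product form).
-/

set_option autoImplicit false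

namespace Crest.Agent.Thorp.TMoment

open Finset BigOperators
open Crest.Agent.Thorp

/-! ### Averages -/

lemma avg_const {α : Type*} [Fintype α] [Nonempty α] (a : ℝ) : avg (fun _ : α => a) = a := by
  unfold avg
  have h : (Fintype.card α : ℝ) ≠ 0 := by exact_mod_cast Fintype.card_ne_zero
  simp [Finset.card_univ]

lemma avg_mono {α : Type*} [Fintype α] {f g : α → ℝ} (h : ∀ a, f a ≤ g a) : avg f ≤ avg g := by
  unfold avg
  apply div_le_div_of_nonneg_right _ (Nat.cast_nonneg _)
  exact Finset.sum_le_sum fun a _ => h a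

lemma avg_nonneg' {α : Type*} [Fintype α] {f : α → ℝ} (h : ∀ a, 0 ≤ f a) : 0 ≤ avg f := by
  unfold avg
  exact div_nonneg (Finset.sum_nonneg fun a _ => h a) (Nat.cast_nonneg _)

lemma avg_prod {α β : Type*} [Fintype α] [Fintype β] (f : α × β → ℝ) :
    avg f = avg fun a => avg fun b => f (a, b) := by
  unfold avg
  rw [Fintype.sum_prod_type, Fintype.card_prod, Nat.cast_mul, ← Finset.sum_div, div_div, mul_comm]

lemma avg_equiv {α β : Type*} [Fintype α] [Fintype β] (e : α ≃ β) (f : β → ℝ) :
    avg (fun a => f (e a)) = avg f := by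
  unfold avg
  rw [Equiv.sum_comp e f, Fintype.card_congr e]

lemma avg_mul_const {α : Type*} [Fintype α] (f : α → ℝ) (a : ℝ) :
    avg (fun x => f x * a) = avg f * a := by
  unfold avg
  rw [← Finset.sum_mul]
  ring

lemma avg_const_mul {α : Type*} [Fintype α] (f : α → ℝ) (a : ℝ) :
    avg (fun x => a * f x) = a * avg f := by
  unfold avg
  rw [← Finset.mul_sum]
  ring

/-- Average of a product of coordinate functions. -/
lemma avg_pi_prod {ι : Type*} [Fintype ι] [DecidableEq ι] (h : ι → Bool → ℝ) :
    avg (fun σ : ι → Bool => ∏ i, h i (σ i)) = ∏ i, avg (h i) := by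
  unfold avg
  have h1 : ∏ i, ((∑ t, h i t) / (Fintype.card Bool : ℝ)) =
      (∏ i, ∑ t, h i t) / (∏ _i : ι, (Fintype.card Bool : ℝ)) := by
    rw [Finset.prod_div_distrib]
  rw [h1, Finset.prod_univ_sum, Fintype.piFinset_univ]
  congr 1
  simp

/-! ### Coins of one layer -/

/-- The coins of a sweep on `Pos (k+1)`: top coins and two independent sub-sweeps. -/
def coinsEquiv (k : ℕ) : Coins (k + 1) ≃ (Pos k → Bool) × (Coins k × Coins k) where
  toFun T := (Coins.top T, Coins.sub T false, Coins.sub T true)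
  invFun x := Coins.mk x.1 x.2.1 x.2.2
  left_inv T := by
    funext i
    rcases (i : Pos k ⊕ (Bool × Idx k)) with p | ⟨b, j⟩
    · rfl
    · cases b <;> rfl
  right_inv x := by
    obtain ⟨s, T0, T1⟩ := x
    rfl

lemma avg_coins_succ (k : ℕ) (G : (Pos k → Bool) → Coins k → Coins k → ℝ) :
    avg (fun T : Coins (k + 1) => G (Coins.top T) (Coins.sub T false) (Coins.sub T true)) =
      avg fun s => avg fun T0 => avg fun T1 => G s T0 T1 := by
  have h := avg_equiv (coinsEquiv k) (fun x => G x.1 x.2.1 x.2.2)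
  have h2 : avg (fun x : (Pos k → Bool) × (Coins k × Coins k) => G x.1 x.2.1 x.2.2) =
      avg fun s => avg fun T0 => avg fun T1 => G s T0 T1 := by
    rw [avg_prod]
    congr 1
    funext s
    rw [avg_prod]
  rw [← h2, ← h]
  rfl

/-! ### Glueing top and bottom bits -/

/-- `glue l r u q`: top `r` bits `u`, bottom `l` bits `q`. -/
def glue (l : ℕ) : ∀ r, Pos r → Pos l → Pos (l + r)
  | 0, _, q => q
  | r + 1, u, q =>
      let u' : Bool × Pos r := u
      ((u'.1, glue l r u'.2 q) : Bool × Pos (l + r))

/-- The top `r` bits. -/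
def topBits (l : ℕ) : ∀ r, Pos (l + r) → Pos r
  | 0, _ => ()
  | r + 1, x =>
      let x' : Bool × Pos (l + r) := x
      ((x'.1, topBits l r x'.2) : Bool × Pos r)

/-- The bottom `l` bits. -/
def botBits (l : ℕ) : ∀ r, Pos (l + r) → Pos l
  | 0, x => x
  | r + 1, x =>
      let x' : Bool × Pos (l + r) := x
      botBits l r x'.2

lemma topBits_glue (l : ℕ) : ∀ r (u : Pos r) (q : Pos l), topBits l r (glue l r u q) = u
  | 0, _, _ => rfl
  | r + 1, u, q => by
      obtain ⟨b, u'⟩ : Bool × Pos r := u
      show ((b, topBits l r (glue l r u' q)) : Bool × Pos r) = (b, u')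
      rw [topBits_glue l r u' q]

lemma botBits_glue (l : ℕ) : ∀ r (u : Pos r) (q : Pos l), botBits l r (glue l r u q) = q
  | 0, _, _ => rfl
  | r + 1, u, q => by
      obtain ⟨b, u'⟩ : Bool × Pos r := u
      exact botBits_glue l r u' q

lemma glue_topBits_botBits (l : ℕ) : ∀ r (x : Pos (l + r)),
    glue l r (topBits l r x) (botBits l r x) = x
  | 0, _ => rfl
  | r + 1, x => by
      obtain ⟨b, x'⟩ : Bool × Pos (l + r) := x
      show ((b, glue l r (topBits l r x') (botBits l r x')) : Bool × Pos (l + r)) = (b, x')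
      rw [glue_topBits_botBits l r x']

/-- `Pos (l+r) ≃ Pos r × Pos l`. -/
def glueEquiv (l r : ℕ) : Pos r × Pos l ≃ Pos (l + r) where
  toFun x := glue l r x.1 x.2
  invFun x := (topBits l r x, botBits l r x)
  left_inv x := by
    obtain ⟨u, q⟩ := x
    simp [topBits_glue, botBits_glue]
  right_inv x := glue_topBits_botBits l r x

/-! ### Occupation numbers -/

variable {U : Type}

/-- Indicator of an occupied site. -/
def occ {k : ℕ} (c : Color U k) (x : Pos k) : ℕ := if (c x).isSome then 1 else 0

lemma occ_le {k : ℕ} (c : Color U k) (x : Pos k) : occ c x ≤ 1 := by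
  unfold occ; split_ifs <;> omega

/-- `N_i^p`: the number of occupied sites with bottom bits `(i,p)`. -/
def occN {m r : ℕ} (c : Color U (m + 1 + r)) (i : Bool) (p : Pos m) : ℕ :=
  ∑ u : Pos r, occ c (glue (m + 1) r u ((i, p) : Bool × Pos m))

lemma occN_succ {m r : ℕ} (c : Color U (m + 1 + (r + 1))) (i : Bool) (p : Pos m) :
    occN c i p = ∑ u : Pos r,
      (occ c ((false, glue (m + 1) r u ((i, p) : Bool × Pos m)) : Bool × Pos (m + 1 + r)) +
       occ c ((true, glue (m + 1) r u ((i, p) : Bool × Pos m)) : Bool × Pos (m + 1 + r))) := by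
  unfold occN
  let f : Bool × Pos r → ℕ := fun x => occ c (glue (m + 1) (r + 1) x ((i, p) : Bool × Pos m))
  have h : ∑ u : Pos (r + 1), occ c (glue (m + 1) (r + 1) u ((i, p) : Bool × Pos m)) =
      ∑ x : Bool × Pos r, f x := rfl
  rw [h, Fintype.sum_prod_type, Fintype.sum_bool, add_comm, ← Finset.sum_add_distrib]
  rfl

/-- The right side of the moment bound. -/
noncomputable def Phi (β : ℝ) {m r : ℕ} (c : Color U (m + 1 + r)) : ℝ :=
  ∏ p : Pos m, (1 + β * (occN c false p : ℝ) / 2 ^ r) ^ occN c true p

lemma Phi_nonneg {β : ℝ} (hβ : 0 ≤ β) {m r : ℕ} (c : Color U (m + 1 + r)) : 0 ≤ Phi β c := by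
  unfold Phi
  refine Finset.prod_nonneg fun p _ => pow_nonneg ?_ _
  positivity

/-! ### Splitting the top coins according to the bit of the level -/

/-- The top coins split along the bit above the bottom `m` bits. -/
def sEquiv (m r : ℕ) :
    (Pos (m + 1 + r) → Bool) ≃ (Pos r × Pos m → Bool) × (Pos r × Pos m → Bool) where
  toFun s := (fun x => s (glue (m + 1) r x.1 ((false, x.2) : Bool × Pos m)),
              fun x => s (glue (m + 1) r x.1 ((true, x.2) : Bool × Pos m)))
  invFun σ := fun w =>
    let q : Bool × Pos m := botBits (m + 1) r w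
    if q.1 then σ.2 (topBits (m + 1) r w, q.2) else σ.1 (topBits (m + 1) r w, q.2)
  left_inv s := by
    funext w
    have hq : ∀ q : Bool × Pos m, botBits (m + 1) r w = q →
        (if q.1 then s (glue (m + 1) r (topBits (m + 1) r w) ((true, q.2) : Bool × Pos m))
          else s (glue (m + 1) r (topBits (m + 1) r w) ((false, q.2) : Bool × Pos m))) = s w := by
      intro q hq
      obtain ⟨b, q2⟩ := q
      have h := glue_topBits_botBits (m + 1) r w
      rw [hq] at h
      cases b
      · simp only [Bool.false_eq_true, if_false]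
        rw [h]
      · simp only [if_true]
        rw [h]
    exact hq _ rfl
  right_inv σ := by
    obtain ⟨σ0, σ1⟩ := σ
    refine Prod.ext ?_ ?_
    · funext x
      simp [topBits_glue, botBits_glue]
    · funext x
      simp [topBits_glue, botBits_glue]

/-- The top coins with prescribed parts. -/
def sOf {m r : ℕ} (σ0 σ1 : Pos r × Pos m → Bool) : Pos (m + 1 + r) → Bool :=
  (sEquiv m r).symm (σ0, σ1)

lemma sOf_false {m r : ℕ} (σ0 σ1 : Pos r × Pos m → Bool) (u : Pos r) (p : Pos m) :
    sOf σ0 σ1 (glue (m + 1) r u ((false, p) : Bool × Pos m)) = σ0 (u, p) := by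
  have h := (sEquiv m r).apply_symm_apply (σ0, σ1)
  have h1 := congrArg (fun x => x.1 (u, p)) h
  exact h1

lemma sOf_true {m r : ℕ} (σ0 σ1 : Pos r × Pos m → Bool) (u : Pos r) (p : Pos m) :
    sOf σ0 σ1 (glue (m + 1) r u ((true, p) : Bool × Pos m)) = σ1 (u, p) := by
  have h := (sEquiv m r).apply_symm_apply (σ0, σ1)
  have h1 := congrArg (fun x => x.2 (u, p)) h
  exact h1

lemma avg_s_split {m r : ℕ} (H : (Pos (m + 1 + r) → Bool) → ℝ) :
    avg H = avg fun σ0 : Pos r × Pos m → Bool => avg fun σ1 : Pos r × Pos m → Bool =>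
      H (sOf σ0 σ1) := by
  have h := avg_equiv (sEquiv m r).symm H
  rw [← h, avg_prod]
  rfl

/-! ### One layer -/

/-- Averaging over `t` of the two-sheet weight. -/
lemma avg_bool_weight (x y : ℝ) (a a' : ℕ) (ha : a ≤ 1) (ha' : a' ≤ 1) :
    avg (fun t : Bool => x ^ (if t then a' else a) * y ^ (if t then a else a')) ≤
      ((x + y) / 2) ^ (a + a') := by
  have hav : avg (fun t : Bool => x ^ (if t then a' else a) * y ^ (if t then a else a')) =
      (x ^ a * y ^ a' + x ^ a' * y ^ a) / 2 := by
    unfold avg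
    simp
    ring
  rw [hav]
  interval_cases a <;> interval_cases a' <;> simp <;> nlinarith [sq_nonneg (x - y)]

variable (β : ℝ)

/-- The factor of sheet `b` at fibre `p`, as a function of the `false`-part of the coins. -/
noncomputable def yOf {m r : ℕ} (c : Color U (m + 1 + (r + 1))) (σ0 : Pos r × Pos m → Bool)
    (b : Bool) (p : Pos m) : ℝ :=
  1 + β * ((∑ u : Pos r, occ c ((xor b (σ0 (u, p)), glue (m + 1) r u ((false, p) : Bool × Pos m)) :
    Bool × Pos (m + 1 + r)) : ℕ) : ℝ) / 2 ^ r

lemma yOf_nonneg {β : ℝ} (hβ : 0 ≤ β) {m r : ℕ} (c : Color U (m + 1 + (r + 1)))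
    (σ0 : Pos r × Pos m → Bool) (b : Bool) (p : Pos m) : 0 ≤ yOf β c σ0 b p := by
  unfold yOf
  positivity

lemma yOf_add {m r : ℕ} (c : Color U (m + 1 + (r + 1))) (σ0 : Pos r × Pos m → Bool) (p : Pos m) :
    (yOf β c σ0 false p + yOf β c σ0 true p) / 2 =
      1 + β * (occN c false p : ℝ) / 2 ^ (r + 1) := by
  rw [occN_succ]
  have hsum : (∑ u : Pos r, occ c ((xor false (σ0 (u, p)), glue (m + 1) r u ((false, p) : Bool × Pos m)) :
        Bool × Pos (m + 1 + r))) +
      (∑ u : Pos r, occ c ((xor true (σ0 (u, p)), glue (m + 1) r u ((false, p) : Bool × Pos m)) :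
        Bool × Pos (m + 1 + r))) =
      ∑ u : Pos r,
        (occ c ((false, glue (m + 1) r u ((false, p) : Bool × Pos m)) : Bool × Pos (m + 1 + r)) +
         occ c ((true, glue (m + 1) r u ((false, p) : Bool × Pos m)) : Bool × Pos (m + 1 + r))) := by
    rw [← Finset.sum_add_distrib]
    refine Finset.sum_congr rfl fun u _ => ?_
    cases σ0 (u, p)
    · rfl
    · exact add_comm _ _
  rw [← hsum]
  unfold yOf
  push_cast
  have h2 : (2 : ℝ) ^ (r + 1) = 2 * 2 ^ r := by ring
  rw [h2]
  field_simp
  ring

/-- The product of the two `Phi` on the sheets, in coordinates. -/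
lemma Phi_sheets {m r : ℕ} (c : Color U (m + 1 + (r + 1))) (σ0 σ1 : Pos r × Pos m → Bool) :
    Phi β (m := m) (r := r) (sheet (sOf σ0 σ1) c false) *
        Phi β (m := m) (r := r) (sheet (sOf σ0 σ1) c true) =
      ∏ x : Pos r × Pos m,
        ((yOf β c σ0 false x.2) ^ (if σ1 x then
            occ c ((true, glue (m + 1) r x.1 ((true, x.2) : Bool × Pos m)) : Bool × Pos (m + 1 + r))
          else occ c ((false, glue (m + 1) r x.1 ((true, x.2) : Bool × Pos m)) : Bool × Pos (m + 1 + r))) *
         (yOf β c σ0 true x.2) ^ (if σ1 x then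
            occ c ((false, glue (m + 1) r x.1 ((true, x.2) : Bool × Pos m)) : Bool × Pos (m + 1 + r))
          else occ c ((true, glue (m + 1) r x.1 ((true, x.2) : Bool × Pos m)) : Bool × Pos (m + 1 + r)))) := by
  have hN : ∀ (b i : Bool) (p : Pos m),
      occN (r := r) (sheet (sOf σ0 σ1) c b) i p =
        ∑ u : Pos r, occ c ((xor b (sOf σ0 σ1 (glue (m + 1) r u ((i, p) : Bool × Pos m))),
          glue (m + 1) r u ((i, p) : Bool × Pos m)) : Bool × Pos (m + 1 + r)) := fun _ _ _ => rfl
  have hy : ∀ (b : Bool) (p : Pos m),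
      (1 + β * (occN (r := r) (sheet (sOf σ0 σ1) c b) false p : ℝ) / 2 ^ r) = yOf β c σ0 b p := by
    intro b p
    rw [hN]
    unfold yOf
    simp only [sOf_false]
  unfold Phi
  rw [← Finset.prod_mul_distrib, Fintype.prod_prod_type_right]
  refine Finset.prod_congr rfl fun p _ => ?_
  rw [hy, hy, hN, hN, ← Finset.prod_pow_eq_pow_sum, ← Finset.prod_pow_eq_pow_sum,
    ← Finset.prod_mul_distrib]
  refine Finset.prod_congr rfl fun u _ => ?_
  simp only [sOf_true]
  cases σ1 (u, p) <;> simp

/-- Supermartingale step. -/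
lemma Phi_step {β : ℝ} (hβ : 0 ≤ β) {m r : ℕ} (c : Color U (m + 1 + (r + 1))) :
    avg (fun s : Pos (m + 1 + r) → Bool =>
      Phi β (m := m) (r := r) (sheet s c false) * Phi β (m := m) (r := r) (sheet s c true)) ≤
      Phi β (m := m) (r := r + 1) c := by
  rw [avg_s_split]
  have hbound : ∀ σ0 : Pos r × Pos m → Bool,
      (avg fun σ1 : Pos r × Pos m → Bool =>
        Phi β (m := m) (r := r) (sheet (sOf σ0 σ1) c false) *
          Phi β (m := m) (r := r) (sheet (sOf σ0 σ1) c true)) ≤
      Phi β (m := m) (r := r + 1) c := by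
    intro σ0
    simp only [Phi_sheets]
    rw [avg_pi_prod (fun (x : Pos r × Pos m) (t : Bool) =>
      (yOf β c σ0 false x.2) ^ (if t then
            occ c ((true, glue (m + 1) r x.1 ((true, x.2) : Bool × Pos m)) : Bool × Pos (m + 1 + r))
          else occ c ((false, glue (m + 1) r x.1 ((true, x.2) : Bool × Pos m)) : Bool × Pos (m + 1 + r))) *
         (yOf β c σ0 true x.2) ^ (if t then
            occ c ((false, glue (m + 1) r x.1 ((true, x.2) : Bool × Pos m)) : Bool × Pos (m + 1 + r))
          else occ c ((true, glue (m + 1) r x.1 ((true, x.2) : Bool × Pos m)) : Bool × Pos (m + 1 + r))))]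
    have h1 : ∀ x : Pos r × Pos m, avg (fun t : Bool =>
      (yOf β c σ0 false x.2) ^ (if t then
            occ c ((true, glue (m + 1) r x.1 ((true, x.2) : Bool × Pos m)) : Bool × Pos (m + 1 + r))
          else occ c ((false, glue (m + 1) r x.1 ((true, x.2) : Bool × Pos m)) : Bool × Pos (m + 1 + r))) *
         (yOf β c σ0 true x.2) ^ (if t then
            occ c ((false, glue (m + 1) r x.1 ((true, x.2) : Bool × Pos m)) : Bool × Pos (m + 1 + r))
          else occ c ((true, glue (m + 1) r x.1 ((true, x.2) : Bool × Pos m)) : Bool × Pos (m + 1 + r)))) ≤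
        (1 + β * (occN c false x.2 : ℝ) / 2 ^ (r + 1)) ^
          (occ c ((false, glue (m + 1) r x.1 ((true, x.2) : Bool × Pos m)) : Bool × Pos (m + 1 + r)) +
           occ c ((true, glue (m + 1) r x.1 ((true, x.2) : Bool × Pos m)) : Bool × Pos (m + 1 + r))) := by
      intro x
      rw [← yOf_add]
      exact avg_bool_weight _ _ _ _ (occ_le _ _) (occ_le _ _)
    have h0 : ∀ x : Pos r × Pos m, 0 ≤ avg (fun t : Bool =>
      (yOf β c σ0 false x.2) ^ (if t then
            occ c ((true, glue (m + 1) r x.1 ((true, x.2) : Bool × Pos m)) : Bool × Pos (m + 1 + r))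
          else occ c ((false, glue (m + 1) r x.1 ((true, x.2) : Bool × Pos m)) : Bool × Pos (m + 1 + r))) *
         (yOf β c σ0 true x.2) ^ (if t then
            occ c ((false, glue (m + 1) r x.1 ((true, x.2) : Bool × Pos m)) : Bool × Pos (m + 1 + r))
          else occ c ((true, glue (m + 1) r x.1 ((true, x.2) : Bool × Pos m)) : Bool × Pos (m + 1 + r)))) := by
      intro x
      refine avg_nonneg' fun t => mul_nonneg (pow_nonneg (yOf_nonneg hβ _ _ _ _) _)
        (pow_nonneg (yOf_nonneg hβ _ _ _ _) _)
    refine (Finset.prod_le_prod (fun x _ => h0 x) (fun x _ => h1 x)).trans (le_of_eq ?_)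
    unfold Phi
    rw [Fintype.prod_prod_type_right]
    refine Finset.prod_congr rfl fun p _ => ?_
    rw [occN_succ c true p, ← Finset.prod_pow_eq_pow_sum]
  calc _ ≤ avg (fun _ : Pos r × Pos m → Bool => Phi β (m := m) (r := r + 1) c) := avg_mono hbound
    _ = _ := avg_const _

/-! ### The moment bound -/

lemma mateCount_succ_ne {l k : ℕ} (h : l ≠ k + 1) (c : Color U (k + 1)) (T : Coins (k + 1)) :
    mateCount l (k + 1) c T =
      mateCount l k (sheet (Coins.top T) c false) (Coins.sub T false) +
      mateCount l k (sheet (Coins.top T) c true) (Coins.sub T true) := by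
  show (if l = k + 1 then (mates c).card else _) = _
  rw [if_neg h]

lemma mateCount_self {k : ℕ} (c : Color U (k + 1)) (T : Coins (k + 1)) :
    mateCount (k + 1) (k + 1) c T = (mates c).card := by
  show (if k + 1 = k + 1 then (mates c).card else _) = _
  rw [if_pos rfl]

/-- **The moment bound** `E_T (1+β)^{m_l} ≤ ∏_p (1+β N_0^p/2^r)^{N_1^p}`. -/
theorem mate_moment {β : ℝ} (hβ : 0 ≤ β) (m : ℕ) : ∀ (r : ℕ) (c : Color U (m + 1 + r)),
    avg (fun T : Coins (m + 1 + r) => (1 + β) ^ mateCount (m + 1) (m + 1 + r) c T) ≤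
      Phi β (m := m) (r := r) c
  | 0, c => by
      have h1 : ∀ T : Coins (m + 1), (1 + β) ^ mateCount (m + 1) (m + 1) c T =
          (1 + β) ^ (mates c).card := fun T => by rw [mateCount_self]
      have h2 : avg (fun T : Coins (m + 1 + 0) => (1 + β) ^ mateCount (m + 1) (m + 1 + 0) c T) =
          (1 + β) ^ (mates c).card := by
        show avg (fun T : Coins (m + 1) => (1 + β) ^ mateCount (m + 1) (m + 1) c T) = _
        simp only [h1]
        exact avg_const _
      rw [h2]
      have h3 : Phi β (m := m) (r := 0) c =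
          ∏ p : Pos m, if (c ((false, p) : Bool × Pos m)).isSome ∧ (c ((true, p) : Bool × Pos m)).isSome
            then (1 + β) else 1 := by
        unfold Phi
        refine Finset.prod_congr rfl fun p _ => ?_
        have hoc : ∀ i : Bool, occN (r := 0) c i p = occ c ((i, p) : Bool × Pos m) := by
          intro i
          show ∑ u : Unit, _ = _
          simp
          rfl
        rw [hoc, hoc]
        unfold occ
        by_cases h0 : (c ((false, p) : Bool × Pos m)).isSome <;>
          by_cases h1 : (c ((true, p) : Bool × Pos m)).isSome <;> simp [h0, h1]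
      rw [h3, Finset.prod_ite, Finset.prod_const, Finset.prod_const_one, mul_one]
      exact le_of_eq rfl
  | r + 1, c => by
      have hstep : avg (fun T : Coins (m + 1 + (r + 1)) =>
          (1 + β) ^ mateCount (m + 1) (m + 1 + (r + 1)) c T) =
          avg fun s => avg fun T0 => avg fun T1 =>
            (1 + β) ^ mateCount (m + 1) (m + 1 + r) (sheet s c false) T0 *
            (1 + β) ^ mateCount (m + 1) (m + 1 + r) (sheet s c true) T1 := by
        rw [← avg_coins_succ (m + 1 + r) (fun s T0 T1 =>
            (1 + β) ^ mateCount (m + 1) (m + 1 + r) (sheet s c false) T0 *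
            (1 + β) ^ mateCount (m + 1) (m + 1 + r) (sheet s c true) T1)]
        congr 1
        funext T
        rw [← pow_add]
        congr 1
        have hne : m + 1 ≠ m + 1 + r + 1 := by omega
        exact mateCount_succ_ne hne c T
      rw [hstep]
      refine le_trans (avg_mono fun s => ?_) (Phi_step hβ c)
      have h1 : (avg fun T0 => avg fun T1 =>
            (1 + β) ^ mateCount (m + 1) (m + 1 + r) (sheet s c false) T0 *
            (1 + β) ^ mateCount (m + 1) (m + 1 + r) (sheet s c true) T1) =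
          (avg fun T0 => (1 + β) ^ mateCount (m + 1) (m + 1 + r) (sheet s c false) T0) *
          (avg fun T1 => (1 + β) ^ mateCount (m + 1) (m + 1 + r) (sheet s c true) T1) := by
        simp only [avg_const_mul]
        rw [avg_mul_const]
      rw [h1]
      exact mul_le_mul (mate_moment hβ m r _) (mate_moment hβ m r _)
        (avg_nonneg' fun _ => pow_nonneg (by linarith) _) (Phi_nonneg hβ _)

/-- Exponential form of the moment bound. -/
theorem mate_moment_exp {s : ℝ} (hs : 0 ≤ s) (m r : ℕ) (c : Color U (m + 1 + r)) :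
    avg (fun T : Coins (m + 1 + r) =>
        Real.exp (s * (mateCount (m + 1) (m + 1 + r) c T : ℝ))) ≤
      Real.exp ((Real.exp s - 1) * ((∑ p : Pos m, (occN c false p : ℝ) * (occN c true p : ℝ)) / 2 ^ r)) := by
  have hβ : 0 ≤ Real.exp s - 1 := by
    have := Real.add_one_le_exp s
    linarith
  have h1 : ∀ T : Coins (m + 1 + r),
      Real.exp (s * (mateCount (m + 1) (m + 1 + r) c T : ℝ)) =
        (1 + (Real.exp s - 1)) ^ mateCount (m + 1) (m + 1 + r) c T := by
    intro T
    rw [add_sub_cancel, ← Real.exp_nat_mul, mul_comm]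
  simp only [h1]
  refine (mate_moment hβ m r c).trans ?_
  unfold Phi
  rw [Finset.sum_div, Finset.mul_sum, Real.exp_sum]
  refine Finset.prod_le_prod (fun p _ => pow_nonneg (by positivity) _) fun p _ => ?_
  have h2 : Real.exp ((Real.exp s - 1) * ((occN c false p : ℝ) * (occN c true p : ℝ) / 2 ^ r)) =
      (Real.exp ((Real.exp s - 1) * (occN c false p : ℝ) / 2 ^ r)) ^ occN c true p := by
    rw [← Real.exp_nat_mul]
    congr 1
    ring
  rw [h2]
  refine pow_le_pow_left₀ (by positivity) ?_ _
  have := Real.add_one_le_exp ((Real.exp s - 1) * (occN c false p : ℝ) / 2 ^ r)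
  linarith

end Crest.Agent.Thorp.TMoment
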