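import Crest.Agent.Lib.Thorp.TMomentCore

/-!
# Thorp shuffle (S0222), Section 4: pair counts and the greedy (bathtub) bound.

`lv k x y` is the level at which `x, y` can be mates: the position of the highest bit in which
the longest common suffix ends.  The pair count of level `m+1` is `2 ∑_p N_0^p N_1^p`.
-/

set_option autoImplicit false

namespace Crest.Agent.Thorp.TMoment

open Finset BigOperators
open Crest.Agent.Thorp

variable {U : Type}

/-- The level of a pair of positions (`0` for equal positions). -/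
def lv : ∀ k, Pos k → Pos k → ℕ
  | 0, _, _ => 0
  | k + 1, x, y =>
      let x' : Bool × Pos k := x
      let y' : Bool × Pos k := y
      if x'.2 = y'.2 then (if x'.1 = y'.1 then 0 else k + 1) else lv k x'.2 y'.2

lemma lv_succ (k : ℕ) (b b' : Bool) (p p' : Pos k) :
    lv (k + 1) ((b, p) : Bool × Pos k) ((b', p') : Bool × Pos k) =
      if p = p' then (if b = b' then 0 else k + 1) else lv k p p' := rfl

lemma lv_self : ∀ k (x : Pos k), lv k x x = 0
  | 0, _ => rfl
  | k + 1, x => by
      obtain ⟨b, p⟩ : Bool × Pos k := x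
      rw [lv_succ]
      simp

lemma lv_le : ∀ k (x y : Pos k), lv k x y ≤ k
  | 0, _, _ => le_refl _
  | k + 1, x, y => by
      obtain ⟨b, p⟩ : Bool × Pos k := x
      obtain ⟨b', p'⟩ : Bool × Pos k := y
      rw [lv_succ]
      split_ifs
      · omega
      · omega
      · have := lv_le k p p'
        omega

lemma eq_of_lv_eq_zero : ∀ k (x y : Pos k), lv k x y = 0 → x = y
  | 0, _, _, _ => rfl
  | k + 1, x, y, h => by
      obtain ⟨b, p⟩ : Bool × Pos k := x
      obtain ⟨b', p'⟩ : Bool × Pos k := y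
      rw [lv_succ] at h
      by_cases hp : p = p'
      · subst hp
        rw [if_pos rfl] at h
        by_cases hb : b = b'
        · rw [hb]
        · rw [if_neg hb] at h
          omega
      · rw [if_neg hp] at h
        exact absurd (eq_of_lv_eq_zero k p p' h) hp

lemma lv_glue_ne (l : ℕ) : ∀ r (u u' : Pos r) (q q' : Pos l), q ≠ q' →
    lv (l + r) (glue l r u q) (glue l r u' q') = lv l q q'
  | 0, _, _, _, _, _ => rfl
  | r + 1, u, u', q, q', h => by
      obtain ⟨b, w⟩ : Bool × Pos r := u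
      obtain ⟨b', w'⟩ : Bool × Pos r := u'
      show lv (l + r + 1) ((b, glue l r w q) : Bool × Pos (l + r))
        ((b', glue l r w' q') : Bool × Pos (l + r)) = _
      rw [lv_succ]
      have hne : glue l r w q ≠ glue l r w' q' := by
        intro he
        have := congrArg (botBits l r) he
        rw [botBits_glue, botBits_glue] at this
        exact h this
      rw [if_neg hne]
      exact lv_glue_ne l r w w' q q' h

lemma lv_glue_same (l : ℕ) (hl : 0 < l) : ∀ r (u u' : Pos r) (q : Pos l),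
    lv (l + r) (glue l r u q) (glue l r u' q) ≠ l
  | 0, _, _, q => by
      show lv l q q ≠ l
      rw [lv_self]
      omega
  | r + 1, u, u', q => by
      obtain ⟨b, w⟩ : Bool × Pos r := u
      obtain ⟨b', w'⟩ : Bool × Pos r := u'
      show lv (l + r + 1) ((b, glue l r w q) : Bool × Pos (l + r))
        ((b', glue l r w' q) : Bool × Pos (l + r)) ≠ _
      rw [lv_succ]
      split_ifs
      · omega
      · omega
      · exact lv_glue_same l hl r w w' q

/-- The level of a pair, in glued coordinates. -/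
lemma lv_glue_eq_iff (m r : ℕ) (u u' : Pos r) (i i' : Bool) (p p' : Pos m) :
    lv (m + 1 + r) (glue (m + 1) r u ((i, p) : Bool × Pos m))
        (glue (m + 1) r u' ((i', p') : Bool × Pos m)) = m + 1 ↔ p = p' ∧ i ≠ i' := by
  by_cases hq : (((i, p) : Bool × Pos m) : Pos (m + 1)) = ((i', p') : Bool × Pos m)
  · have h := lv_glue_same (m + 1) (by omega) r u u' ((i, p) : Bool × Pos m)
    have h1 : i = i' ∧ p = p' := by simpa using hq
    obtain ⟨rfl, rfl⟩ := h1
    simp [h]
  · rw [lv_glue_ne (m + 1) r u u' _ _ hq, lv_succ]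
    by_cases hp : p = p'
    · subst hp
      have hi : i ≠ i' := by
        intro he
        exact hq (by rw [he])
      simp [hi]
    · rw [if_neg hp]
      have := lv_le m p p'
      simp only [hp, false_and, iff_false]
      omega

/-- The number of occupied partners of `x` at level `l`. -/
def partners {k : ℕ} (c : Color U k) (l : ℕ) (x : Pos k) : ℕ :=
  ∑ y : Pos k, if lv k x y = l then occ c y else 0

lemma sum_glue (m r : ℕ) (f : Pos (m + 1 + r) → ℕ) :
    ∑ x, f x = ∑ u : Pos r, ∑ i : Bool, ∑ p : Pos m, f (glue (m + 1) r u ((i, p) : Bool × Pos m)) := by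
  rw [← Equiv.sum_comp (glueEquiv (m + 1) r) f, Fintype.sum_prod_type]
  refine Finset.sum_congr rfl fun u _ => ?_
  have h : ∀ g : Bool × Pos m → ℕ, ∑ q : Pos (m + 1), g q = ∑ q : Bool × Pos m, g q := fun _ => rfl
  show ∑ q : Pos (m + 1), f (glue (m + 1) r u q) = _
  rw [h (fun q => f (glue (m + 1) r u q)), Fintype.sum_prod_type]

lemma partners_glue {m r : ℕ} (c : Color U (m + 1 + r)) (u : Pos r) (i : Bool) (p : Pos m) :
    partners c (m + 1) (glue (m + 1) r u ((i, p) : Bool × Pos m)) = occN c (!i) p := by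
  unfold partners occN
  rw [sum_glue]
  refine Finset.sum_congr rfl fun u' _ => ?_
  rw [Finset.sum_eq_single (!i), Finset.sum_eq_single p]
  · rw [if_pos]
    rw [lv_glue_eq_iff]
    simp
  · intro p' _ hp'
    rw [if_neg]
    rw [lv_glue_eq_iff]
    intro h
    exact hp' h.1.symm
  · intro h
    exact absurd (Finset.mem_univ _) h
  · intro i' _ hi'
    refine Finset.sum_eq_zero fun p' _ => ?_
    rw [if_neg]
    rw [lv_glue_eq_iff]
    intro h
    apply hi'
    cases i <;> cases i' <;> simp_all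
  · intro h
    exact absurd (Finset.mem_univ _) h

lemma occN_le {m r : ℕ} (c : Color U (m + 1 + r)) (i : Bool) (p : Pos m) : occN c i p ≤ 2 ^ r := by
  unfold occN
  calc _ ≤ ∑ _u : Pos r, 1 := Finset.sum_le_sum fun u _ => occ_le _ _
    _ = 2 ^ r := by simp [card_Pos]

/-- Partners at level `m+1`: at most `2^r`. -/
lemma partners_le {m r : ℕ} (c : Color U (m + 1 + r)) (x : Pos (m + 1 + r)) :
    partners c (m + 1) x ≤ 2 ^ r := by
  have h : ∀ (q : Bool × Pos m) (u : Pos r), partners c (m + 1) (glue (m + 1) r u q) ≤ 2 ^ r := by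
    rintro ⟨i, p⟩ u
    rw [partners_glue]
    exact occN_le _ _ _
  rw [← glue_topBits_botBits (m + 1) r x]
  exact h _ _

/-- The double count: `∑_x occ(x) · partners(x) = 2 ∑_p N_0^p N_1^p`. -/
lemma sum_occ_partners {m r : ℕ} (c : Color U (m + 1 + r)) :
    ∑ x, occ c x * partners c (m + 1) x = 2 * ∑ p : Pos m, occN c false p * occN c true p := by
  have h1 : ∀ i : Bool, ∑ u : Pos r, ∑ p : Pos m,
      occ c (glue (m + 1) r u ((i, p) : Bool × Pos m)) * occN c (!i) p =
        ∑ p : Pos m, occN c i p * occN c (!i) p := by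
    intro i
    rw [Finset.sum_comm]
    refine Finset.sum_congr rfl fun p _ => ?_
    rw [← Finset.sum_mul]
    rfl
  calc ∑ x, occ c x * partners c (m + 1) x
      = ∑ u : Pos r, ∑ i : Bool, ∑ p : Pos m,
          occ c (glue (m + 1) r u ((i, p) : Bool × Pos m)) * occN c (!i) p := by
        rw [sum_glue]
        simp only [partners_glue]
    _ = ∑ i : Bool, ∑ p : Pos m, occN c i p * occN c (!i) p := by
        rw [Finset.sum_comm]
        exact Finset.sum_congr rfl fun i _ => h1 i
    _ = 2 * ∑ p : Pos m, occN c false p * occN c true p := by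
        rw [Fintype.sum_bool]
        simp only [Bool.not_true, Bool.not_false]
        rw [two_mul]
        congr 1
        exact Finset.sum_congr rfl fun p _ => mul_comm _ _

lemma sum_occ_eq_card {k : ℕ} (c : Color U k) : ∑ x, occ c x = (csupp c).card := by
  unfold occ csupp
  rw [Finset.card_filter]

/-- The total number of partners of an occupied site. -/
lemma sum_partners_le {k : ℕ} (c : Color U k) (x : Pos k) (hx : occ c x = 1) :
    ∑ l ∈ Icc 1 k, partners c l x + 1 ≤ (csupp c).card := by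
  have h1 : ∑ l ∈ Icc 1 k, partners c l x =
      ∑ y : Pos k, ∑ l ∈ Icc 1 k, if lv k x y = l then occ c y else 0 := by
    unfold partners
    rw [Finset.sum_comm]
  have h2 : ∀ y : Pos k, ∑ l ∈ Icc 1 k, (if lv k x y = l then occ c y else 0) ≤
      if y = x then 0 else occ c y := by
    intro y
    by_cases hy : y = x
    · subst hy
      rw [if_pos rfl, lv_self]
      refine le_of_eq (Finset.sum_eq_zero fun l hl => ?_)
      have := (Finset.mem_Icc.1 hl).1
      rw [if_neg (by omega)]
    · rw [if_neg hy]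
      rw [Finset.sum_ite_eq]
      split_ifs <;> omega
  have h3 : ∑ y, occ c y = occ c x + ∑ y ∈ univ.erase x, occ c y :=
    (Finset.add_sum_erase _ _ (Finset.mem_univ x)).symm
  rw [← sum_occ_eq_card, h1, h3, hx, add_comm]
  refine Nat.add_le_add_left ?_ _
  calc ∑ y : Pos k, ∑ l ∈ Icc 1 k, (if lv k x y = l then occ c y else 0)
      ≤ ∑ y : Pos k, if y = x then 0 else occ c y := Finset.sum_le_sum fun y _ => h2 y
    _ = ∑ y ∈ univ.erase x, occ c y := by
        rw [← Finset.add_sum_erase _ _ (Finset.mem_univ x), if_pos rfl, zero_add]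
        refine Finset.sum_congr rfl fun y hy => ?_
        rw [if_neg (Finset.ne_of_mem_erase hy)]

/-! ### Bathtub -/

lemma sum_Ioc_two_pow (D : ℕ) : ∀ r, r ≤ D → ∑ l ∈ Ioc (D - r) D, (2 : ℝ) ^ (D - l) = 2 ^ r - 1
  | 0, _ => by simp
  | r + 1, h => by
      have hins : Ioc (D - (r + 1)) D = insert (D - r) (Ioc (D - r) D) := by
        ext l
        simp only [Finset.mem_Ioc, Finset.mem_insert]
        omega
      rw [hins, Finset.sum_insert (by simp), sum_Ioc_two_pow D r (by omega)]
      have : D - (D - r) = r := by omega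
      rw [this, pow_succ]
      ring

/-- The greedy bound. -/
lemma bathtub (D L : ℕ) (a t : ℕ → ℝ) (J : ℝ) (hL : L ≤ D)
    (ha0 : ∀ l ∈ Icc 1 D, 0 ≤ a l)
    (hmono : ∀ l l', 1 ≤ l → l ≤ l' → l' ≤ D → a l ≤ a l')
    (ht0 : ∀ l ∈ Icc 1 D, 0 ≤ t l) (ht : ∀ l ∈ Icc 1 D, t l ≤ 2 ^ (D - l))
    (hsum : ∑ l ∈ Icc 1 D, t l ≤ J) (hJ : J ≤ ∑ l ∈ Ioc L D, (2 : ℝ) ^ (D - l)) :
    ∑ l ∈ Icc 1 D, a l * t l ≤ ∑ l ∈ Ioc L D, a l * 2 ^ (D - l) := by
  rcases Nat.eq_zero_or_pos L with rfl | hLpos
  · have h : Ioc 0 D = Icc 1 D := by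
      ext l
      simp only [Finset.mem_Ioc, Finset.mem_Icc]
      omega
    rw [h]
    exact Finset.sum_le_sum fun l hl => mul_le_mul_of_nonneg_left (ht l hl) (ha0 l hl)
  · have hsplit : ∀ f : ℕ → ℝ, ∑ l ∈ Icc 1 D, f l = ∑ l ∈ Icc 1 L, f l + ∑ l ∈ Ioc L D, f l := by
      intro f
      have hun : Icc 1 D = Icc 1 L ∪ Ioc L D := by
        ext l
        simp only [Finset.mem_Icc, Finset.mem_union, Finset.mem_Ioc]
        omega
      rw [hun, Finset.sum_union]
      rw [Finset.disjoint_left]
      intro l h1 h2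
      simp only [Finset.mem_Icc] at h1
      simp only [Finset.mem_Ioc] at h2
      omega
    have hIcc : ∀ {l}, l ∈ Icc 1 L → l ∈ Icc 1 D := by
      intro l hl
      simp only [Finset.mem_Icc] at hl ⊢
      omega
    have hIoc : ∀ {l}, l ∈ Ioc L D → l ∈ Icc 1 D := by
      intro l hl
      simp only [Finset.mem_Ioc, Finset.mem_Icc] at hl ⊢
      omega
    have h1 : ∑ l ∈ Icc 1 L, a l * t l ≤ a L * ∑ l ∈ Icc 1 L, t l := by
      rw [Finset.mul_sum]
      refine Finset.sum_le_sum fun l hl => ?_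
      have hl' := Finset.mem_Icc.1 hl
      exact mul_le_mul_of_nonneg_right (hmono l L hl'.1 hl'.2 hL) (ht0 l (hIcc hl))
    have h2 : ∑ l ∈ Icc 1 L, t l ≤ ∑ l ∈ Ioc L D, ((2 : ℝ) ^ (D - l) - t l) := by
      rw [Finset.sum_sub_distrib]
      have := hsplit t
      linarith
    have hL1 : L ∈ Icc 1 D := Finset.mem_Icc.2 ⟨hLpos, hL⟩
    have h3 : a L * ∑ l ∈ Ioc L D, ((2 : ℝ) ^ (D - l) - t l) ≤
        ∑ l ∈ Ioc L D, a l * ((2 : ℝ) ^ (D - l) - t l) := by
      rw [Finset.mul_sum]
      refine Finset.sum_le_sum fun l hl => ?_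
      have hl' := Finset.mem_Ioc.1 hl
      refine mul_le_mul_of_nonneg_right (hmono L l hLpos hl'.1.le hl'.2) ?_
      have := ht l (hIoc hl)
      linarith
    have h4 : a L * ∑ l ∈ Icc 1 L, t l ≤ a L * ∑ l ∈ Ioc L D, ((2 : ℝ) ^ (D - l) - t l) :=
      mul_le_mul_of_nonneg_left h2 (ha0 L hL1)
    have h5 : ∑ l ∈ Ioc L D, a l * 2 ^ (D - l) =
        ∑ l ∈ Ioc L D, a l * ((2 : ℝ) ^ (D - l) - t l) + ∑ l ∈ Ioc L D, a l * t l := by
      rw [← Finset.sum_add_distrib]
      refine Finset.sum_congr rfl fun l _ => ?_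
      ring
    rw [hsplit (fun l => a l * t l), h5]
    linarith

end Crest.Agent.Thorp.TMoment
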