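import Crest.Agent.Lib.Thorp.Defs

/-!
# Thorp shuffle: tree inequality, basic lemmas (helper3)

Averages, coin decomposition, the one-layer recursion for `coll`.
-/

set_option autoImplicit false

namespace Crest.Agent.Thorp
namespace Tree

open Finset BigOperators

section AvgLemmas

variable {α β : Type*} [Fintype α] [Fintype β]

lemma avg_def (f : α → ℝ) : avg f = (∑ a, f a) / (Fintype.card α : ℝ) := rfl

lemma avg_nonneg {f : α → ℝ} (h : ∀ a, 0 ≤ f a) : 0 ≤ avg f :=
  div_nonneg (Finset.sum_nonneg fun a _ => h a) (Nat.cast_nonneg _)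

lemma avg_mono {f g : α → ℝ} (h : ∀ a, f a ≤ g a) : avg f ≤ avg g :=
  div_le_div_of_nonneg_right (Finset.sum_le_sum fun a _ => h a) (Nat.cast_nonneg _)

lemma avg_congr {f g : α → ℝ} (h : ∀ a, f a = g a) : avg f = avg g := by
  have : f = g := funext h
  rw [this]

lemma avg_const [Nonempty α] (c : ℝ) : avg (fun _ : α => c) = c := by
  have h : (Fintype.card α : ℝ) ≠ 0 := by exact_mod_cast Fintype.card_ne_zero
  simp [avg_def, Finset.sum_const, Finset.card_univ, nsmul_eq_mul]

lemma avg_mul_left (c : ℝ) (f : α → ℝ) : avg (fun a => c * f a) = c * avg f := by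
  simp only [avg_def, ← Finset.mul_sum, mul_div_assoc]

lemma avg_mul_right (c : ℝ) (f : α → ℝ) : avg (fun a => f a * c) = avg f * c := by
  simp only [avg_def, ← Finset.sum_mul]
  ring

lemma avg_comm (f : α → β → ℝ) :
    avg (fun a => avg (fun b => f a b)) = avg (fun b => avg (fun a => f a b)) := by
  simp only [avg_def, ← Finset.sum_div]
  rw [Finset.sum_comm]
  ring

lemma avg_prod (f : α → β → ℝ) :
    avg (fun x : α × β => f x.1 x.2) = avg (fun a => avg (fun b => f a b)) := by
  simp only [avg_def, ← Finset.sum_div, Fintype.sum_prod_type, Fintype.card_prod, Nat.cast_mul]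
  rw [div_div, mul_comm]

lemma avg_prod' (f : α × β → ℝ) :
    avg f = avg (fun a => avg (fun b => f (a, b))) := by
  rw [← avg_prod (fun a b => f (a, b))]

lemma avg_equiv (e : α ≃ β) (f : β → ℝ) : avg (fun a => f (e a)) = avg f := by
  simp only [avg_def]
  rw [Equiv.sum_comp e f, Fintype.card_congr e]

lemma avg_mul_avg (f : α → ℝ) (g : β → ℝ) :
    avg (fun a => avg (fun b => f a * g b)) = avg f * avg g := by
  simp only [avg_mul_left, avg_mul_right]

/-- Hölder for a finite average against the support indicator. -/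
lemma holder_avg [Nonempty α] [DecidableEq α] (Z : α → ℝ) (hZ : ∀ a, 0 ≤ Z a) {d : ℝ} (hd : 0 ≤ d) :
    (avg Z) ^ (1 + d) ≤
      (avg (fun a => if Z a ≠ 0 then (1 : ℝ) else 0)) ^ d * avg (fun a => Z a ^ (1 + d)) := by
  classical
  set A : Finset α := Finset.univ.filter fun a => Z a ≠ 0 with hA
  have hNpos : (0 : ℝ) < (Fintype.card α : ℝ) := by exact_mod_cast Fintype.card_pos
  have hp : (0 : ℝ) < 1 + d := by linarith
  have hsumZ : ∑ a, Z a = ∑ a ∈ A, Z a := by
    rw [hA, Finset.sum_filter]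
    refine Finset.sum_congr rfl fun a _ => ?_
    by_cases h : Z a = 0
    · rw [if_neg (not_not.mpr h), h]
    · rw [if_pos h]
  have hsumZp : ∑ a, Z a ^ (1 + d) = ∑ a ∈ A, Z a ^ (1 + d) := by
    rw [hA, Finset.sum_filter]
    refine Finset.sum_congr rfl fun a _ => ?_
    by_cases h : Z a = 0
    · rw [if_neg (not_not.mpr h), h, Real.zero_rpow hp.ne']
    · rw [if_pos h]
  have hind : avg (fun a => if Z a ≠ 0 then (1 : ℝ) else 0) =
      (A.card : ℝ) / (Fintype.card α : ℝ) := by
    rw [avg_def, hA, Finset.card_filter]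
    push_cast
    rfl
  rw [hind]
  by_cases hAe : A = ∅
  · have : ∑ a, Z a = 0 := by rw [hsumZ, hAe, Finset.sum_empty]
    rw [avg_def, this, zero_div, Real.zero_rpow hp.ne']
    exact mul_nonneg (Real.rpow_nonneg (div_nonneg (Nat.cast_nonneg _) (Nat.cast_nonneg _)) _)
      (avg_nonneg fun a => Real.rpow_nonneg (hZ a) _)
  · have hApos : (0 : ℝ) < (A.card : ℝ) := by
      exact_mod_cast Finset.card_pos.mpr (Finset.nonempty_iff_ne_empty.mpr hAe)
    have hw : ∑ a ∈ A, (1 / (A.card : ℝ)) = 1 := by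
      rw [Finset.sum_const, nsmul_eq_mul]
      field_simp
    have hjensen := Real.rpow_arith_mean_le_arith_mean_rpow A (fun _ => 1 / (A.card : ℝ)) Z
      (fun _ _ => by positivity) hw (fun a _ => hZ a) (p := 1 + d) (by linarith)
    have h1 : ∑ a ∈ A, (1 / (A.card : ℝ)) * Z a = (∑ a ∈ A, Z a) / (A.card : ℝ) := by
      rw [← Finset.mul_sum]; ring
    have h2 : ∑ a ∈ A, (1 / (A.card : ℝ)) * Z a ^ (1 + d) =
        (∑ a ∈ A, Z a ^ (1 + d)) / (A.card : ℝ) := by
      rw [← Finset.mul_sum]; ring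
    rw [h1, h2] at hjensen
    have hz : avg Z = ((A.card : ℝ) / (Fintype.card α : ℝ)) * ((∑ a ∈ A, Z a) / (A.card : ℝ)) := by
      rw [avg_def, hsumZ]
      field_simp
    have hz2 : avg (fun a => Z a ^ (1 + d)) = (∑ a ∈ A, Z a ^ (1 + d)) / (Fintype.card α : ℝ) := by
      rw [avg_def, hsumZp]
    rw [hz, hz2, Real.mul_rpow (by positivity) (div_nonneg (Finset.sum_nonneg fun a _ => hZ a) hApos.le)]
    have hr : 0 ≤ (A.card : ℝ) / (Fintype.card α : ℝ) := by positivity
    have hsplit : ((A.card : ℝ) / (Fintype.card α : ℝ)) ^ (1 + d) =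
        ((A.card : ℝ) / (Fintype.card α : ℝ)) * ((A.card : ℝ) / (Fintype.card α : ℝ)) ^ d := by
      rw [Real.rpow_add' hr (by linarith), Real.rpow_one]
    rw [hsplit]
    calc ((A.card : ℝ) / (Fintype.card α : ℝ)) * ((A.card : ℝ) / (Fintype.card α : ℝ)) ^ d *
          ((∑ a ∈ A, Z a) / (A.card : ℝ)) ^ (1 + d)
        ≤ ((A.card : ℝ) / (Fintype.card α : ℝ)) * ((A.card : ℝ) / (Fintype.card α : ℝ)) ^ d *
          ((∑ a ∈ A, Z a ^ (1 + d)) / (A.card : ℝ)) := by
            exact mul_le_mul_of_nonneg_left hjensen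
              (mul_nonneg hr (Real.rpow_nonneg hr _))
      _ = ((A.card : ℝ) / (Fintype.card α : ℝ)) ^ d *
          ((∑ a ∈ A, Z a ^ (1 + d)) / (Fintype.card α : ℝ)) := by
            field_simp

end AvgLemmas

/-! ### Coins -/

/-- The equivalence splitting off the top coins. -/
def coinsEquiv (k : ℕ) : (Pos k → Bool) × (Coins k × Coins k) ≃ Coins (k + 1) where
  toFun x := Coins.mk x.1 x.2.1 x.2.2
  invFun T := (Coins.top T, Coins.sub T false, Coins.sub T true)
  left_inv x := by
    obtain ⟨s, T0, T1⟩ := x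
    rfl
  right_inv T := by
    funext i
    change Pos k ⊕ (Bool × Idx k) at i
    rcases i with p | ⟨b, j⟩
    · rfl
    · cases b <;> rfl

@[simp] lemma top_mk {k : ℕ} (s : Pos k → Bool) (T0 T1 : Coins k) :
    Coins.top (Coins.mk s T0 T1) = s := rfl

@[simp] lemma sub_mk_false {k : ℕ} (s : Pos k → Bool) (T0 T1 : Coins k) :
    Coins.sub (Coins.mk s T0 T1) false = T0 := rfl

@[simp] lemma sub_mk_true {k : ℕ} (s : Pos k → Bool) (T0 T1 : Coins k) :
    Coins.sub (Coins.mk s T0 T1) true = T1 := rfl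

lemma avg_coins_succ {k : ℕ} (φ : Coins (k + 1) → ℝ) :
    avg φ = avg fun s : Pos k → Bool => avg fun T0 : Coins k => avg fun T1 : Coins k =>
      φ (Coins.mk s T0 T1) := by
  rw [← avg_equiv (coinsEquiv k) φ, avg_prod', ]
  refine avg_congr fun s => ?_
  rw [avg_prod']
  rfl

/-- The double average over a pair of coin assignments. -/
noncomputable def dbl {k : ℕ} (φ : Coins k → Coins k → ℝ) : ℝ :=
  avg fun T : Coins k => avg fun T' : Coins k => φ T T'

lemma dbl_def {k : ℕ} (φ : Coins k → Coins k → ℝ) :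
    dbl φ = avg fun T : Coins k => avg fun T' : Coins k => φ T T' := rfl

lemma dbl_congr {k : ℕ} {φ ψ : Coins k → Coins k → ℝ} (h : ∀ T T', φ T T' = ψ T T') :
    dbl φ = dbl ψ := by
  have : φ = ψ := by funext T T'; exact h T T'
  rw [this]

lemma dbl_mono {k : ℕ} {φ ψ : Coins k → Coins k → ℝ} (h : ∀ T T', φ T T' ≤ ψ T T') :
    dbl φ ≤ dbl ψ :=
  avg_mono fun T => avg_mono fun T' => h T T'

lemma dbl_nonneg {k : ℕ} {φ : Coins k → Coins k → ℝ} (h : ∀ T T', 0 ≤ φ T T') :
    0 ≤ dbl φ :=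
  avg_nonneg fun T => avg_nonneg fun T' => h T T'

lemma dbl_mul_left {k : ℕ} (c : ℝ) (φ : Coins k → Coins k → ℝ) :
    dbl (fun T T' => c * φ T T') = c * dbl φ := by
  simp only [dbl, avg_mul_left]

lemma dbl_mul_right {k : ℕ} (c : ℝ) (φ : Coins k → Coins k → ℝ) :
    dbl (fun T T' => φ T T' * c) = dbl φ * c := by
  simp only [dbl, avg_mul_right]

lemma dbl_mul_dbl {k : ℕ} (φ ψ : Coins k → Coins k → ℝ) :
    dbl (fun T T' => dbl (fun S S' => φ T T' * ψ S S')) = dbl φ * dbl ψ := by
  simp only [dbl_mul_left, dbl_mul_right]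

lemma sum_avg {ι α : Type*} [Fintype α] (s : Finset ι) (φ : ι → α → ℝ) :
    ∑ i ∈ s, avg (φ i) = avg fun a => ∑ i ∈ s, φ i a := by
  simp only [avg_def, ← Finset.sum_div]
  rw [Finset.sum_comm]

lemma sum_dbl {ι : Type*} {k : ℕ} (s : Finset ι) (φ : ι → Coins k → Coins k → ℝ) :
    ∑ i ∈ s, dbl (φ i) = dbl fun T T' => ∑ i ∈ s, φ i T T' := by
  simp only [dbl, sum_avg]

/-- Decomposition of the double average one level down. -/
lemma dbl_succ {k : ℕ} (φ : Coins (k + 1) → Coins (k + 1) → ℝ) :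
    dbl φ = avg fun s : Pos k → Bool => avg fun s' : Pos k → Bool =>
      dbl fun T0 T0' : Coins k => dbl fun T1 T1' : Coins k =>
        φ (Coins.mk s T0 T1) (Coins.mk s' T0' T1') := by
  simp only [dbl]
  rw [avg_coins_succ]
  refine avg_congr fun s => ?_
  -- avg_T0 avg_T1 avg_T' ... = avg_s' avg_T0 avg_T0' avg_T1 avg_T1'
  calc avg (fun T0 : Coins k => avg fun T1 : Coins k => avg fun T' : Coins (k + 1) =>
            φ (Coins.mk s T0 T1) T')
      = avg (fun T0 : Coins k => avg fun T1 : Coins k => avg fun s' : Pos k → Bool =>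
          avg fun T0' : Coins k => avg fun T1' : Coins k =>
            φ (Coins.mk s T0 T1) (Coins.mk s' T0' T1')) := by
        refine avg_congr fun T0 => avg_congr fun T1 => ?_
        rw [avg_coins_succ]
    _ = avg (fun T0 : Coins k => avg fun s' : Pos k → Bool => avg fun T1 : Coins k =>
          avg fun T0' : Coins k => avg fun T1' : Coins k =>
            φ (Coins.mk s T0 T1) (Coins.mk s' T0' T1')) := by
        refine avg_congr fun T0 => ?_
        rw [avg_comm]
    _ = avg (fun s' : Pos k → Bool => avg fun T0 : Coins k => avg fun T1 : Coins k =>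
          avg fun T0' : Coins k => avg fun T1' : Coins k =>
            φ (Coins.mk s T0 T1) (Coins.mk s' T0' T1')) := by
        rw [avg_comm]
    _ = avg (fun s' : Pos k → Bool => avg fun T0 : Coins k => avg fun T0' : Coins k =>
          avg fun T1 : Coins k => avg fun T1' : Coins k =>
            φ (Coins.mk s T0 T1) (Coins.mk s' T0' T1')) := by
        refine avg_congr fun s' => avg_congr fun T0 => ?_
        rw [avg_comm]

/-! ### One layer formulas for `gOf` -/

lemma gOf_apply {k : ℕ} (T T' : Coins (k + 1)) (b0 : Bool) (p : Pos k) :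
    gOf T T' ((b0, p) : Bool × Pos k) =
      ((xor (xor b0 (Coins.top T p))
          (Coins.top T' (gOf (Coins.sub T (xor b0 (Coins.top T p)))
            (Coins.sub T' (xor b0 (Coins.top T p))) p)),
        gOf (Coins.sub T (xor b0 (Coins.top T p)))
            (Coins.sub T' (xor b0 (Coins.top T p))) p) : Bool × Pos k) := rfl

lemma gOf_inv_apply {k : ℕ} (T T' : Coins (k + 1)) (b0 : Bool) (p : Pos k) :
    (gOf T T')⁻¹ ((b0, p) : Bool × Pos k) =
      ((xor (xor b0 (Coins.top T' p))
          (Coins.top T ((gOf (Coins.sub T (xor b0 (Coins.top T' p)))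
            (Coins.sub T' (xor b0 (Coins.top T' p))))⁻¹ p)),
        (gOf (Coins.sub T (xor b0 (Coins.top T' p)))
            (Coins.sub T' (xor b0 (Coins.top T' p))))⁻¹ p) : Bool × Pos k) := by
  rfl

end Tree
end Crest.Agent.Thorp
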