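import Crest.Agent.Lib.Thorp.TreeBasic

/-!
# Thorp shuffle: the Fourier count of the node probability (helper3)

For `A ⊆ Bool × P` and a permutation `g` of `Bool × P`, the probability over uniform `s, s'` of
`∀ x ∈ A, x.1 + s x.2 = (g x).1 + s' (g x).2` is `2^{-|A|}` times the number of
`Z ⊆ A` with `Z` and `g Z` unions of columns.
-/

set_option autoImplicit false

namespace Crest.Agent.Thorp
namespace Tree

open Finset BigOperators

section Fourier

set_option linter.unusedSectionVars false

variable {P : Type} [DecidableEq P]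

/-- The sign of a Boolean. -/
def eps (b : Bool) : ℝ := if b then -1 else 1

lemma eps_xor (a b : Bool) : eps (xor a b) = eps a * eps b := by
  cases a <;> cases b <;> simp [eps]

lemma eps_not (b : Bool) : eps (!b) = - eps b := by
  cases b <;> simp [eps]

lemma eps_mul_self (b : Bool) : eps b * eps b = 1 := by
  cases b <;> simp [eps]

lemma one_add_eps_mul (a b : Bool) : 1 + eps a * eps b = if a = b then 2 else 0 := by
  cases a <;> cases b <;> norm_num [eps]

/-- `Z` is a union of columns `{(false,p),(true,p)}`. -/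
def PC (Z : Finset (Bool × P)) : Prop := ∀ x ∈ Z, ((!x.1, x.2) : Bool × P) ∈ Z

instance (Z : Finset (Bool × P)) : Decidable (PC Z) := by
  unfold PC; infer_instance

/-- The character. -/
noncomputable def chi (Z : Finset (Bool × P)) (s : P → Bool) : ℝ :=
  ∏ x ∈ Z, eps (xor x.1 (s x.2))

/-- Flip a coordinate. -/
def flipAt (p : P) : (P → Bool) ≃ (P → Bool) :=
  Function.Involutive.toPerm (fun s => Function.update s p (!s p)) (by
    intro s
    funext q
    by_cases h : q = p
    · subst h; simp
    · simp [Function.update_of_ne h])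

lemma flipAt_apply_self (p : P) (s : P → Bool) : flipAt p s p = !s p := by
  simp [flipAt]

lemma flipAt_apply_ne {p q : P} (h : q ≠ p) (s : P → Bool) : flipAt p s q = s q := by
  simp [flipAt, Function.update_of_ne h]

lemma chi_flip {Z : Finset (Bool × P)} {x : Bool × P} (hx : x ∈ Z)
    (hx' : ((!x.1, x.2) : Bool × P) ∉ Z) (s : P → Bool) :
    chi Z (flipAt x.2 s) = - chi Z s := by
  unfold chi
  rw [← Finset.mul_prod_erase Z _ hx, ← Finset.mul_prod_erase Z _ hx]
  have hrest : ∏ y ∈ Z.erase x, eps (xor y.1 (flipAt x.2 s y.2)) =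
      ∏ y ∈ Z.erase x, eps (xor y.1 (s y.2)) := by
    refine Finset.prod_congr rfl fun y hy => ?_
    have hne : y.2 ≠ x.2 := by
      intro h
      rw [Finset.mem_erase] at hy
      apply hx'
      have hb : y.1 = !x.1 := by
        by_contra hb
        have hb' : y.1 = x.1 := by
          cases hy1 : y.1 <;> cases hx1 : x.1 <;> simp_all
        exact hy.1 (Prod.ext hb' h)
      have : ((!x.1, x.2) : Bool × P) = y := Prod.ext hb.symm h.symm
      rw [this]; exact hy.2
    rw [flipAt_apply_ne hne]
  rw [hrest, flipAt_apply_self]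
  have : eps (xor x.1 (!s x.2)) = - eps (xor x.1 (s x.2)) := by
    rw [eps_xor, eps_xor, eps_not]; ring
  rw [this]; ring

variable [Fintype P]

lemma avg_chi_of_not_PC {Z : Finset (Bool × P)} (h : ¬ PC Z) : avg (chi Z) = 0 := by
  unfold PC at h
  push Not at h
  obtain ⟨x, hx, hx'⟩ := h
  have hsum : ∑ s, chi Z s = - ∑ s, chi Z s := by
    conv_lhs => rw [← Equiv.sum_comp (flipAt x.2)]
    rw [← Finset.sum_neg_distrib]
    exact Finset.sum_congr rfl fun s _ => chi_flip hx hx' s
  have h0 : ∑ s, chi Z s = 0 := by linarith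
  rw [avg_def, h0, zero_div]

/-- The union of the columns over `Y`. -/
def dblSet (Y : Finset P) : Finset (Bool × P) := (Finset.univ : Finset Bool) ×ˢ Y

@[simp] lemma mem_dblSet {Y : Finset P} {x : Bool × P} : x ∈ dblSet Y ↔ x.2 ∈ Y := by
  simp [dblSet]

lemma card_dblSet (Y : Finset P) : (dblSet Y).card = 2 * Y.card := by
  simp [dblSet, Finset.card_product]

lemma PC_dblSet (Y : Finset P) : PC (dblSet Y) := by
  intro x hx
  simpa using hx

/-- The base of a set. -/
def baseSet (Z : Finset (Bool × P)) : Finset P :=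
  Finset.univ.filter fun p => ((false, p) : Bool × P) ∈ Z

@[simp] lemma mem_baseSet {Z : Finset (Bool × P)} {p : P} :
    p ∈ baseSet Z ↔ ((false, p) : Bool × P) ∈ Z := by
  simp [baseSet]

lemma PC.dblSet_baseSet {Z : Finset (Bool × P)} (h : PC Z) : dblSet (baseSet Z) = Z := by
  ext ⟨b, p⟩
  simp only [mem_dblSet, mem_baseSet]
  cases b
  · rfl
  · constructor
    · intro hf
      exact h _ hf
    · intro ht
      exact h _ ht

lemma chi_dblSet (Y : Finset P) (s : P → Bool) : chi (dblSet Y) s = (-1) ^ Y.card := by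
  unfold chi dblSet
  rw [Finset.prod_product_right]
  have : ∀ p ∈ Y, ∏ b : Bool, eps (xor b (s p)) = -1 := by
    intro p _
    rw [Fintype.prod_bool]
    cases s p <;> simp [eps]
  rw [Finset.prod_congr rfl this, Finset.prod_const]

lemma chi_of_PC {Z : Finset (Bool × P)} (h : PC Z) (s : P → Bool) :
    chi Z s = (-1) ^ (Z.card / 2) := by
  have hZ := h.dblSet_baseSet
  have hc : Z.card / 2 = (baseSet Z).card := by
    conv_lhs => rw [← hZ, card_dblSet]
    simp
  rw [hc]
  conv_lhs => rw [← hZ, chi_dblSet]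

lemma avg_chi_of_PC {Z : Finset (Bool × P)} (h : PC Z) : avg (chi Z) = (-1) ^ (Z.card / 2) := by
  have : chi Z = fun _ => (-1) ^ (Z.card / 2) := funext (chi_of_PC h)
  rw [this, avg_const]

/-- The indicator of agreement, expanded. -/
lemma ind_eq {ι : Type} (A : Finset ι) (a b : ι → Bool) [Decidable (∀ x ∈ A, a x = b x)] :
    (if ∀ x ∈ A, a x = b x then (1 : ℝ) else 0) =
      (1 / 2) ^ A.card * ∑ Z ∈ A.powerset, ∏ x ∈ Z, (eps (a x) * eps (b x)) := by
  rw [← Finset.prod_one_add]
  split_ifs with h
  · have : ∀ x ∈ A, 1 + eps (a x) * eps (b x) = 2 := by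
      intro x hx
      rw [one_add_eps_mul, if_pos (h x hx)]
    rw [Finset.prod_congr rfl this, Finset.prod_const, ← mul_pow]
    norm_num
  · push Not at h
    obtain ⟨x, hx, hne⟩ := h
    rw [Finset.prod_eq_zero hx (by rw [one_add_eps_mul, if_neg hne]), mul_zero]

/-- The Fourier count. -/
theorem avg_match (A : Finset (Bool × P)) (g : Equiv.Perm (Bool × P)) :
    avg (fun s : P → Bool => avg fun s' : P → Bool =>
        if ∀ x ∈ A, xor x.1 (s x.2) = xor (g x).1 (s' (g x).2) then (1 : ℝ) else 0) =
      (1 / 2) ^ A.card *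
        ((A.powerset.filter fun Z => PC Z ∧ PC (Z.image g)).card : ℝ) := by
  have hexp : ∀ (s s' : P → Bool),
      (if ∀ x ∈ A, xor x.1 (s x.2) = xor (g x).1 (s' (g x).2) then (1 : ℝ) else 0) =
        (1 / 2) ^ A.card * ∑ Z ∈ A.powerset, chi Z s * chi (Z.image g) s' := by
    intro s s'
    refine (ind_eq A (fun x => xor x.1 (s x.2)) (fun x => xor (g x).1 (s' (g x).2))).trans ?_
    congr 1
    refine Finset.sum_congr rfl fun Z _ => ?_
    rw [Finset.prod_mul_distrib]
    unfold chi
    rw [Finset.prod_image (fun x _ y _ h => g.injective h)]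
  have hstep : avg (fun s : P → Bool => avg fun s' : P → Bool =>
        if ∀ x ∈ A, xor x.1 (s x.2) = xor (g x).1 (s' (g x).2) then (1 : ℝ) else 0) =
      (1 / 2) ^ A.card * ∑ Z ∈ A.powerset, avg (chi Z) * avg (chi (Z.image g)) := by
    simp only [hexp, avg_mul_left]
    congr 1
    simp only [← sum_avg, avg_mul_left, avg_mul_right]
  rw [hstep]
  congr 1
  rw [Finset.card_filter]
  push_cast
  refine Finset.sum_congr rfl fun Z _ => ?_
  by_cases h1 : PC Z
  · by_cases h2 : PC (Z.image g)
    · rw [if_pos ⟨h1, h2⟩, avg_chi_of_PC h1, avg_chi_of_PC h2,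
        Finset.card_image_of_injective _ g.injective, ← mul_pow]
      simp
    · rw [if_neg (fun h => h2 h.2), avg_chi_of_not_PC h2, mul_zero]
  · rw [if_neg (fun h => h1 h.1), avg_chi_of_not_PC h1, zero_mul]

omit [Fintype P] in
/-- `Y ↦ dblSet Y` is a bijection between `h`-invariant subsets of `M` and the closed sets. -/
theorem count_eq_invCount [Fintype P] (s s' : P → Bool) (gb : Bool → Equiv.Perm P)
    (g : Equiv.Perm (Bool × P))
    (hg : ∀ (b0 : Bool) (p : P), g ((b0, p) : Bool × P) =
      ((xor (xor b0 (s p)) (s' (gb (xor b0 (s p)) p)), gb (xor b0 (s p)) p) : Bool × P))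
    (A : Finset (Bool × P)) (M : Finset P)
    (hM : ∀ p, p ∈ M ↔ ((false, p) : Bool × P) ∈ A ∧ ((true, p) : Bool × P) ∈ A) :
    (A.powerset.filter fun Z => PC Z ∧ PC (Z.image g)).card =
      (M.powerset.filter fun Y => Y.image ((gb false)⁻¹ * gb true) = Y).card := by
  -- the key equivalence
  have key : ∀ Y : Finset P, PC ((dblSet Y).image g) ↔ Y.image ((gb false)⁻¹ * gb true) = Y := by
    intro Y
    constructor
    · intro hPC
      apply Finset.eq_of_subset_of_card_le
      · intro y hy
        obtain ⟨p, hp, rfl⟩ := Finset.mem_image.mp hy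
        -- apply `PC` to the image of `(!s p, p)`
        have h1 : g ((xor true (s p), p) : Bool × P) ∈ (dblSet Y).image g :=
          Finset.mem_image_of_mem _ (by simpa using hp)
        have h2 := hPC _ h1
        obtain ⟨⟨b1, p1⟩, hp1, heq⟩ := Finset.mem_image.mp h2
        rw [hg] at heq
        rw [hg] at heq
        simp only [Prod.mk.injEq] at heq
        have hxt : xor (xor true (s p)) (s p) = true := by simp
        rw [hxt] at heq
        obtain ⟨he1, he2⟩ := heq
        rw [he2] at he1
        have hb2 : xor b1 (s p1) = false := by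
          cases hb : xor b1 (s p1) <;> cases hs : s' (gb true p) <;> simp_all
        rw [hb2] at he2
        have hp1Y : p1 ∈ Y := by simpa using hp1
        have : ((gb false)⁻¹ * gb true) p = p1 := by
          rw [Equiv.Perm.mul_apply, ← he2]
          simp
        rw [this]; exact hp1Y
      · rw [Finset.card_image_of_injective _ (Equiv.injective _)]
    · intro hY x hx
      obtain ⟨⟨b0, p⟩, hp, rfl⟩ := Finset.mem_image.mp hx
      have hpY : p ∈ Y := by simpa using hp
      set b := xor b0 (s p) with hb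
      -- the partner
      have hmem : ((gb (!b))⁻¹ * gb b) p ∈ Y := by
        cases hbb : b
        · -- b = false : `h⁻¹ p`
          have : p ∈ Y.image ((gb false)⁻¹ * gb true) := by rw [hY]; exact hpY
          obtain ⟨p2, hp2, hp2e⟩ := Finset.mem_image.mp this
          have : ((gb (!false))⁻¹ * gb false) p = p2 := by
            rw [← hp2e]
            simp [Equiv.Perm.mul_apply]
          rw [this]; exact hp2
        · -- b = true : `h p`
          rw [← hY]
          exact Finset.mem_image_of_mem _ hpY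
      set p1 := ((gb (!b))⁻¹ * gb b) p with hp1
      have hgp1 : gb (!b) p1 = gb b p := by
        rw [hp1, Equiv.Perm.mul_apply]; simp
      refine Finset.mem_image.mpr ⟨((xor (!b) (s p1), p1) : Bool × P), by simpa using hmem, ?_⟩
      rw [hg, hg, ← hb]
      have hxx : xor (xor (!b) (s p1)) (s p1) = !b := by simp
      rw [hxx, hgp1]
      ext <;> simp
  symm
  refine Finset.card_bij (fun Y _ => dblSet Y) ?_ ?_ ?_
  · intro Y hY
    rw [Finset.mem_filter, Finset.mem_powerset] at hY ⊢
    refine ⟨?_, PC_dblSet Y, (key Y).mpr hY.2⟩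
    intro x hx
    have hx2 : x.2 ∈ M := hY.1 (by simpa using hx)
    obtain ⟨h0, h1⟩ := (hM x.2).mp hx2
    obtain ⟨b, p⟩ := x
    cases b
    · exact h0
    · exact h1
  · intro Y1 _ Y2 _ h
    ext p
    have := Finset.ext_iff.mp h ((false, p) : Bool × P)
    simpa using this
  · intro Z hZ
    rw [Finset.mem_filter, Finset.mem_powerset] at hZ
    obtain ⟨hZA, hPC, hPCg⟩ := hZ
    refine ⟨baseSet Z, ?_, hPC.dblSet_baseSet⟩
    rw [Finset.mem_filter, Finset.mem_powerset]
    constructor
    · intro p hp
      rw [mem_baseSet] at hp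
      exact (hM p).mpr ⟨hZA hp, hZA (hPC _ hp)⟩
    · apply (key _).mp
      rw [hPC.dblSet_baseSet]
      exact hPCg

end Fourier

end Tree
end Crest.Agent.Thorp
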