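/-
Row 155, S0222: Section 1 of the paper proof (#850): the abstract step of the main inequality (V).

Everything here is about an arbitrary law `τ : Ω → Perm P` (uniform on the finite type `Ω`),
colourings `c : P → C` with a blank colour `0 : C`.
-/
import Mathlib

set_option autoImplicit false
set_option linter.unusedSectionVars false
set_option linter.unusedSimpArgs false
set_option linter.unusedVariables false

open Finset BigOperators

namespace Crest.Agent.Thorp.VB

section Col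

variable {P C : Type*} [Fintype P] [DecidableEq P] [Fintype C] [DecidableEq C] [Zero C]

/-- The set of non-blank sites. -/
def supp (c : P → C) : Finset P := univ.filter (fun p => c p ≠ 0)

/-- Number of non-blank sites. -/
def wt (c : P → C) : ℕ := (supp c).card

/-- Colourings whose non-blank sites lie in `A`. -/
def colIn (A : Finset P) : Finset (P → C) := univ.filter (fun c => supp c ⊆ A)

/-- The colouring equal to `γ` on `W` and `α` off `W`. -/
def glue (W : Finset P) (γ α : P → C) : P → C := fun p => if p ∈ W then γ p else α p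

@[simp] lemma mem_supp {c : P → C} {p : P} : p ∈ supp c ↔ c p ≠ 0 := by simp [supp]

lemma mem_colIn {A : Finset P} {c : P → C} : c ∈ colIn A ↔ supp c ⊆ A := by simp [colIn]

lemma mem_colIn' {A : Finset P} {c : P → C} : c ∈ colIn A ↔ ∀ p, p ∉ A → c p = 0 := by
  rw [mem_colIn]
  constructor
  · intro h p hp
    by_contra hc
    exact hp (h (mem_supp.2 hc))
  · intro h p hp
    by_contra hc
    exact (mem_supp.1 hp) (h p hc)

lemma zero_mem_colIn (A : Finset P) : (0 : P → C) ∈ colIn A := by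
  rw [mem_colIn']; intro p _; rfl

@[simp] lemma wt_zero : wt (0 : P → C) = 0 := by
  simp [wt, supp]

lemma wt_eq_zero {c : P → C} : wt c = 0 ↔ c = 0 := by
  constructor
  · intro h
    have : supp c = ∅ := Finset.card_eq_zero.1 h
    funext p
    by_contra hc
    have : p ∈ supp c := mem_supp.2 hc
    simp_all
  · rintro rfl; simp

lemma wt_pos_of_ne {c : P → C} (h : c ≠ 0) : 1 ≤ wt c := by
  by_contra hc
  exact h (wt_eq_zero.1 (by omega))

lemma supp_glue (W : Finset P) {γ α : P → C} (hγ : supp γ ⊆ W) (hα : Disjoint (supp α) W) :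
    supp (glue W γ α) = supp γ ∪ supp α := by
  ext p
  simp only [mem_supp, glue, mem_union]
  by_cases hp : p ∈ W
  · have : α p = 0 := by
      by_contra hc
      exact (Finset.disjoint_left.1 hα) (mem_supp.2 hc) hp
    simp [hp, this]
  · have : γ p = 0 := by
      by_contra hc
      exact hp (hγ (mem_supp.2 hc))
    simp [hp, this]

lemma wt_glue (W : Finset P) {γ α : P → C} (hγ : supp γ ⊆ W) (hα : Disjoint (supp α) W) :
    wt (glue W γ α) = wt γ + wt α := by
  unfold wt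
  rw [supp_glue W hγ hα, Finset.card_union_of_disjoint]
  exact Finset.disjoint_of_subset_left hγ (disjoint_comm.1 hα)

lemma disjoint_of_mem_colIn_sdiff {A W : Finset P} {α : P → C} (h : α ∈ colIn (A \ W)) :
    Disjoint (supp α) W := by
  rw [mem_colIn] at h
  exact Finset.disjoint_of_subset_left h Finset.sdiff_disjoint

lemma subset_of_mem_colIn_inter {A W : Finset P} {γ : P → C} (h : γ ∈ colIn (A ∩ W)) :
    supp γ ⊆ W := by
  rw [mem_colIn] at h
  exact h.trans Finset.inter_subset_right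

lemma glue_zero_left {W : Finset P} {α : P → C} (hα : Disjoint (supp α) W) :
    glue W 0 α = α := by
  funext p
  by_cases hp : p ∈ W
  · have : α p = 0 := by
      by_contra hc
      exact (Finset.disjoint_left.1 hα) (mem_supp.2 hc) hp
    simp [glue, hp, this]
  · simp [glue, hp]

/-- Splitting a sum over colourings along `W`. -/
lemma sum_colIn_split (A W : Finset P) {M : Type*} [AddCommMonoid M] (f : (P → C) → M) :
    ∑ c ∈ colIn A, f c = ∑ γ ∈ colIn (A ∩ W), ∑ α ∈ colIn (A \ W), f (glue W γ α) := by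
  rw [← Finset.sum_product']
  symm
  refine Finset.sum_bij'
    (fun x _ => glue W x.1 x.2)
    (fun c _ => ((fun p => if p ∈ W then c p else 0), (fun p => if p ∈ W then 0 else c p)))
    ?_ ?_ ?_ ?_ ?_
  · rintro ⟨γ, α⟩ hx
    simp only [mem_product] at hx
    obtain ⟨h1, h2⟩ := hx
    rw [mem_colIn'] at h1 h2 ⊢
    intro p hp
    by_cases hpW : p ∈ W
    · simp only [glue, hpW, if_true]
      exact h1 p (fun h => hp (Finset.mem_inter.1 h).1)
    · simp only [glue, hpW, if_false]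
      exact h2 p (fun h => hp (Finset.mem_sdiff.1 h).1)
  · intro c hc
    rw [mem_colIn'] at hc
    simp only [mem_product, mem_colIn']
    constructor
    · intro p hp
      by_cases hpW : p ∈ W
      · have hpA : p ∉ A := fun h => hp (Finset.mem_inter.2 ⟨h, hpW⟩)
        simp [hpW, hc p hpA]
      · simp [hpW]
    · intro p hp
      by_cases hpW : p ∈ W
      · simp [hpW]
      · have hpA : p ∉ A := fun h => hp (Finset.mem_sdiff.2 ⟨h, hpW⟩)
        simp [hpW, hc p hpA]
  · rintro ⟨γ, α⟩ hx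
    simp only [mem_product, mem_colIn'] at hx
    obtain ⟨h1, h2⟩ := hx
    ext p
    · by_cases hpW : p ∈ W
      · simp [glue, hpW]
      · have : γ p = 0 := h1 p (fun h => hpW (Finset.mem_inter.1 h).2)
        simp [glue, hpW, this]
    · by_cases hpW : p ∈ W
      · have : α p = 0 := h2 p (fun h => (Finset.mem_sdiff.1 h).2 hpW)
        simp [hpW, this]
      · simp [glue, hpW]
  · intro c _
    funext p
    by_cases hpW : p ∈ W <;> simp [glue, hpW]
  · intro _ _
    rfl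

end Col

section Law

variable {P C Ω : Type*} [Fintype P] [DecidableEq P] [Fintype C] [DecidableEq C] [Zero C]
  [Fintype Ω]

/-- `vv τ c e = P_T (c ∘ τ_T⁻¹ = e)`. -/
noncomputable def vv (τ : Ω → Equiv.Perm P) (c e : P → C) : ℝ :=
  (∑ T, if c ∘ (τ T).symm = e then (1 : ℝ) else 0) / (Fintype.card Ω : ℝ)

/-- The Gram kernel `x(c,c') = ∑_e v_c(e) v_c'(e)`. -/
noncomputable def xx (τ : Ω → Equiv.Perm P) (c c' : P → C) : ℝ :=
  ∑ e, vv τ c e * vv τ c' e

/-- `y(A,ρ) = ∑_{supp c ⊆ A} ρ^{|c|} x(c,c)`. -/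
noncomputable def yy (C : Type*) [Fintype C] [DecidableEq C] [Zero C]
    (τ : Ω → Equiv.Perm P) (A : Finset P) (ρ : ℝ) : ℝ :=
  ∑ c ∈ (colIn A : Finset (P → C)), ρ ^ wt c * xx τ c c

lemma vv_nonneg (τ : Ω → Equiv.Perm P) (c e : P → C) : 0 ≤ vv τ c e := by
  unfold vv
  apply div_nonneg _ (Nat.cast_nonneg _)
  apply Finset.sum_nonneg
  intro T _
  split_ifs <;> norm_num

lemma xx_nonneg (τ : Ω → Equiv.Perm P) (c c' : P → C) : 0 ≤ xx τ c c' :=
  Finset.sum_nonneg fun e _ => mul_nonneg (vv_nonneg _ _ _) (vv_nonneg _ _ _)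

lemma xx_comm (τ : Ω → Equiv.Perm P) (c c' : P → C) : xx τ c c' = xx τ c' c := by
  unfold xx
  exact Finset.sum_congr rfl fun e _ => mul_comm _ _

/-- Expansion over pairs of coin tables. -/
lemma xx_eq_avg (τ : Ω → Equiv.Perm P) (c c' : P → C) :
    xx τ c c' = (∑ T, ∑ T', if c ∘ (τ T).symm = c' ∘ (τ T').symm then (1 : ℝ) else 0)
      / (Fintype.card Ω : ℝ) ^ 2 := by
  unfold xx vv
  have : ∀ e : P → C, ((∑ T, if c ∘ (τ T).symm = e then (1 : ℝ) else 0) / (Fintype.card Ω : ℝ)) *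
      ((∑ T, if c' ∘ (τ T).symm = e then (1 : ℝ) else 0) / (Fintype.card Ω : ℝ))
      = (∑ T, ∑ T', (if c ∘ (τ T).symm = e then (1 : ℝ) else 0) *
          (if c' ∘ (τ T').symm = e then (1 : ℝ) else 0)) / (Fintype.card Ω : ℝ) ^ 2 := by
    intro e
    rw [div_mul_div_comm, Finset.sum_mul_sum, sq]
  simp_rw [this]
  rw [← Finset.sum_div]
  congr 1
  rw [Finset.sum_comm]
  refine Finset.sum_congr rfl fun T _ => ?_
  rw [Finset.sum_comm]
  refine Finset.sum_congr rfl fun T' _ => ?_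
  rw [Finset.sum_eq_single (c ∘ (τ T).symm)]
  · by_cases hh : c ∘ (τ T).symm = c' ∘ (τ T').symm
    · simp [hh]
    · have hh' : ¬ (c' ∘ (τ T').symm = c ∘ (τ T).symm) := fun h => hh h.symm
      simp [hh, hh']
  · intro e _ he
    have : ¬ (c ∘ (τ T).symm = e) := fun h => he h.symm
    simp [this]
  · simp

/-- The form of `xx` using the permutation `h = τ_T⁻¹ τ_T'`. -/
lemma comp_symm_eq_iff (t t' : Equiv.Perm P) (c c' : P → C) :
    c ∘ t.symm = c' ∘ t'.symm ↔ c ∘ (t⁻¹ * t') = c' := by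
  constructor
  · intro h
    funext p
    have := congrFun h (t' p)
    simp only [Function.comp, Equiv.symm_apply_apply] at this
    simpa [Equiv.Perm.inv_def] using this
  · intro h
    funext p
    rw [← h]
    simp [Equiv.Perm.inv_def]

lemma xx_eq_avg' (τ : Ω → Equiv.Perm P) (c c' : P → C) :
    xx τ c c' = (∑ T, ∑ T', if c ∘ ((τ T)⁻¹ * τ T') = c' then (1 : ℝ) else 0)
      / (Fintype.card Ω : ℝ) ^ 2 := by
  rw [xx_eq_avg]
  congr 1
  refine Finset.sum_congr rfl fun T _ => Finset.sum_congr rfl fun T' _ => ?_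
  simp only [comp_symm_eq_iff]

lemma wt_comp_perm (c : P → C) (h : Equiv.Perm P) : wt (c ∘ h) = wt c := by
  unfold wt supp
  refine Finset.card_bij (fun p _ => h p) ?_ ?_ ?_
  · intro p hp
    simpa using hp
  · intro p _ q _ hpq
    exact h.injective hpq
  · intro q hq
    refine ⟨h.symm q, ?_, by simp⟩
    simpa using hq

/-- Different weights: `x = 0`. -/
lemma xx_eq_zero_of_wt_ne (τ : Ω → Equiv.Perm P) {c c' : P → C} (hne : wt c ≠ wt c') :
    xx τ c c' = 0 := by
  rw [xx_eq_avg']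
  have : ∀ T T', (if c ∘ ((τ T)⁻¹ * τ T') = c' then (1 : ℝ) else 0) = 0 := by
    intro T T'
    rw [if_neg]
    intro h
    apply hne
    rw [← h]
    exact (wt_comp_perm c _).symm
  simp only [this, Finset.sum_const_zero, zero_div]

/-! ### The row sum injection (R1), for a fixed permutation. -/

/-- Sites whose `h`-orbit avoids `W`. -/
def avoidSet (h : Equiv.Perm P) (W : Finset P) : Finset P :=
  by classical exact univ.filter (fun p => ∀ q, h.SameCycle p q → q ∉ W)

lemma mem_avoidSet {h : Equiv.Perm P} {W : Finset P} {p : P} :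
    p ∈ avoidSet h W ↔ ∀ q, h.SameCycle p q → q ∉ W := by
  simp [avoidSet]

lemma avoid_step {h : Equiv.Perm P} {W : Finset P} {p : P} :
    h p ∈ avoidSet h W ↔ p ∈ avoidSet h W := by
  simp only [mem_avoidSet]
  constructor
  · intro H q hq
    apply H q
    exact (Equiv.Perm.sameCycle_apply_left).2 hq
  · intro H q hq
    apply H q
    exact (Equiv.Perm.sameCycle_apply_left).1 hq

/-- Keep a colouring only on the sites whose orbit avoids `W`. -/
def cut (h : Equiv.Perm P) (W : Finset P) (α : P → C) : P → C :=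
  fun p => if p ∈ avoidSet h W then α p else 0

lemma supp_cut_subset (h : Equiv.Perm P) (W : Finset P) (α : P → C) : supp (cut h W α) ⊆ supp α := by
  intro p hp
  rw [mem_supp] at hp ⊢
  intro hc
  apply hp
  simp [cut, hc]

lemma wt_cut_le (h : Equiv.Perm P) (W : Finset P) (α : P → C) : wt (cut h W α) ≤ wt α :=
  Finset.card_le_card (supp_cut_subset h W α)

/-- The solution set for `γ`. -/
def solSet (h : Equiv.Perm P) (W B : Finset P) (γ : P → C) : Finset (P → C) :=
  (colIn B).filter (fun α => ∀ p, p ∉ W → glue W γ α (h p) = α p)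

lemma cut_mem_fix {h : Equiv.Perm P} {W B : Finset P} (hB : Disjoint B W) {γ α : P → C}
    (hα : α ∈ solSet h W B γ) :
    cut h W α ∈ (colIn B).filter (fun a : P → C => a ∘ h = a) := by
  simp only [solSet, mem_filter] at hα
  obtain ⟨h1, h2⟩ := hα
  simp only [mem_filter]
  constructor
  · rw [mem_colIn] at h1 ⊢
    exact (supp_cut_subset h W α).trans h1
  · funext p
    simp only [Function.comp, cut]
    by_cases hp : p ∈ avoidSet h W
    · have hp' : h p ∈ avoidSet h W := avoid_step.2 hp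
      rw [if_pos hp, if_pos hp']
      have hpW : p ∉ W := mem_avoidSet.1 hp p (Equiv.Perm.SameCycle.refl _ _)
      have hpW' : h p ∉ W := mem_avoidSet.1 hp' (h p) (Equiv.Perm.SameCycle.refl _ _)
      have := h2 p hpW
      simpa [glue, hpW'] using this
    · have hp' : h p ∉ avoidSet h W := fun hc => hp (avoid_step.1 hc)
      rw [if_neg hp, if_neg hp']

lemma cut_injOn {h : Equiv.Perm P} {W B : Finset P} (hB : Disjoint B W) {γ : P → C} :
    Set.InjOn (cut h W) (↑(solSet h W B γ) : Set (P → C)) := by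
  intro α hα β hβ heq
  simp only [solSet, coe_filter, Set.mem_ofPred_eq] at hα hβ
  obtain ⟨a1, a2⟩ := hα
  obtain ⟨b1, b2⟩ := hβ
  rw [mem_colIn'] at a1 b1
  have off : ∀ (a : P → C), (∀ p, p ∉ B → a p = 0) → ∀ p, p ∈ W → a p = 0 := by
    intro a ha p hp
    exact ha p (fun hc => (Finset.disjoint_left.1 hB) hc hp)
  funext p
  by_contra hne
  -- the difference propagates along the orbit
  have key : ∀ n : ℕ, (h ^ n) p ∉ W ∧ α ((h ^ n) p) ≠ β ((h ^ n) p) := by
    intro n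
    induction n with
    | zero =>
      refine ⟨?_, by simpa using hne⟩
      intro hW
      apply hne
      simp only [pow_zero, Equiv.Perm.coe_one, id] at hW
      rw [off α a1 p hW, off β b1 p hW]
    | succ n ih =>
      obtain ⟨i1, i2⟩ := ih
      have e1 := a2 _ i1
      have e2 := b2 _ i1
      have hs : (h ^ (n + 1)) p = h ((h ^ n) p) := by
        rw [pow_succ']; rfl
      rw [hs]
      by_cases hW : h ((h ^ n) p) ∈ W
      · exfalso
        simp only [glue, hW, if_true] at e1 e2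
        exact i2 (e1.symm.trans e2)
      · simp only [glue, hW, if_false] at e1 e2
        refine ⟨hW, ?_⟩
        rw [e1, e2]
        exact i2
  have hav : p ∈ avoidSet h W := by
    rw [mem_avoidSet]
    intro q hq
    obtain ⟨i, _, hi⟩ := hq.exists_pow_eq'
    rw [← hi]
    exact (key i).1
  have := congrFun heq p
  simp only [cut, hav, if_true] at this
  exact hne this

/-- Row sum for a fixed permutation. -/
lemma row_sum_fixed (h : Equiv.Perm P) {W B : Finset P} (hB : Disjoint B W) (γ : P → C)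
    {ρ : ℝ} (h0 : 0 ≤ ρ) (h1 : ρ ≤ 1) :
    ∑ δ ∈ (colIn W : Finset (P → C)), ∑ α ∈ (colIn B : Finset (P → C)),
        ρ ^ wt α * (if glue W γ α ∘ h = glue W δ α then (1 : ℝ) else 0)
      ≤ ∑ α ∈ (colIn B : Finset (P → C)), ρ ^ wt α * (if α ∘ h = α then (1 : ℝ) else 0) := by
  rw [Finset.sum_comm]
  -- at most one δ for each α
  have step1 : ∀ α ∈ (colIn B : Finset (P → C)),
      ∑ δ ∈ (colIn W : Finset (P → C)), ρ ^ wt α * (if glue W γ α ∘ h = glue W δ α then (1 : ℝ) else 0)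
        ≤ ρ ^ wt α * (if α ∈ solSet h W B γ then (1 : ℝ) else 0) := by
    intro α hα
    rw [← Finset.mul_sum]
    apply mul_le_mul_of_nonneg_left _ (pow_nonneg h0 _)
    by_cases hs : α ∈ solSet h W B γ
    · rw [if_pos hs]
      have : (∑ δ ∈ (colIn W : Finset (P → C)),
          (if glue W γ α ∘ h = glue W δ α then (1 : ℝ) else 0))
          = (((colIn W : Finset (P → C))).filter (fun δ => glue W γ α ∘ h = glue W δ α)).card := by
        rw [Finset.card_filter]
        push_cast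
        rfl
      rw [this]
      have hcard : (((colIn W : Finset (P → C))).filter
          (fun δ => glue W γ α ∘ h = glue W δ α)).card ≤ 1 := by
        rw [Finset.card_le_one]
        intro a ha b hb
        simp only [mem_filter, mem_colIn'] at ha hb
        funext p
        by_cases hp : p ∈ W
        · have e1 := congrFun ha.2 p
          have e2 := congrFun hb.2 p
          simp only [glue, hp, if_true] at e1 e2
          exact e1.symm.trans e2
        · rw [ha.1 p hp, hb.1 p hp]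
      exact_mod_cast hcard
    · rw [if_neg hs]
      apply le_of_eq
      apply Finset.sum_eq_zero
      intro δ hδ
      rw [if_neg]
      intro he
      apply hs
      simp only [solSet, mem_filter]
      refine ⟨hα, ?_⟩
      intro p hp
      have := congrFun he p
      simp only [Function.comp, glue, hp, if_false] at this
      simpa [glue] using this
  calc _ ≤ ∑ α ∈ (colIn B : Finset (P → C)), ρ ^ wt α * (if α ∈ solSet h W B γ then (1 : ℝ) else 0) :=
        Finset.sum_le_sum step1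
    _ = ∑ α ∈ solSet h W B γ, ρ ^ wt α := by
        have : solSet h W B γ = (colIn B).filter (fun α => ∀ p, p ∉ W → glue W γ α (h p) = α p) := rfl
        rw [this, Finset.sum_filter]
        refine Finset.sum_congr rfl fun α hα => ?_
        simp only [mem_filter, hα, true_and]
        split_ifs <;> simp
    _ ≤ ∑ α ∈ solSet h W B γ, ρ ^ wt (cut h W α) := by
        apply Finset.sum_le_sum
        intro α _
        exact pow_le_pow_of_le_one h0 h1 (wt_cut_le h W α)
    _ = ∑ a ∈ (solSet h W B γ).image (cut h W), ρ ^ wt a := by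
        rw [Finset.sum_image (cut_injOn hB)]
    _ ≤ ∑ a ∈ (colIn B).filter (fun a : P → C => a ∘ h = a), ρ ^ wt a := by
        apply Finset.sum_le_sum_of_subset_of_nonneg
        · intro a ha
          obtain ⟨α, hα, rfl⟩ := Finset.mem_image.1 ha
          exact cut_mem_fix hB hα
        · intro _ _ _
          exact pow_nonneg h0 _
    _ = ∑ α ∈ (colIn B : Finset (P → C)), ρ ^ wt α * (if α ∘ h = α then (1 : ℝ) else 0) := by
        rw [Finset.sum_filter]
        refine Finset.sum_congr rfl fun α _ => ?_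
        split_ifs <;> simp

/-- The kernel `H(γ,δ)`. -/
noncomputable def Hmat (τ : Ω → Equiv.Perm P) (W B : Finset P) (ρ : ℝ) (γ δ : P → C) : ℝ :=
  ∑ α ∈ (colIn B : Finset (P → C)), ρ ^ wt α * xx τ (glue W γ α) (glue W δ α)

lemma Hmat_nonneg (τ : Ω → Equiv.Perm P) (W B : Finset P) {ρ : ℝ} (h0 : 0 ≤ ρ) (γ δ : P → C) :
    0 ≤ Hmat τ W B ρ γ δ :=
  Finset.sum_nonneg fun _ _ => mul_nonneg (pow_nonneg h0 _) (xx_nonneg _ _ _)

lemma Hmat_comm (τ : Ω → Equiv.Perm P) (W B : Finset P) (ρ : ℝ) (γ δ : P → C) :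
    Hmat τ W B ρ γ δ = Hmat τ W B ρ δ γ := by
  unfold Hmat
  refine Finset.sum_congr rfl fun α _ => ?_
  rw [xx_comm]

lemma Hmat_zero_zero (τ : Ω → Equiv.Perm P) {W B : Finset P} (hB : Disjoint B W) (ρ : ℝ) :
    Hmat τ W B ρ (0 : P → C) 0 = yy C τ B ρ := by
  unfold Hmat yy
  refine Finset.sum_congr rfl fun α hα => ?_
  have : Disjoint (supp α) W := by
    rw [mem_colIn] at hα
    exact Finset.disjoint_of_subset_left hα hB
  rw [glue_zero_left this]

lemma weighted_avg_pull {ι : Type*} (s : Finset ι) (w : ι → ℝ) (F : ι → Ω → Ω → ℝ) (N : ℝ) :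
    ∑ a ∈ s, w a * ((∑ T, ∑ T', F a T T') / N) = (∑ T, ∑ T', ∑ a ∈ s, w a * F a T T') / N := by
  simp_rw [mul_div_assoc', Finset.mul_sum]
  rw [← Finset.sum_div]
  congr 1
  rw [Finset.sum_comm]
  refine Finset.sum_congr rfl fun T _ => ?_
  rw [Finset.sum_comm]

lemma Hmat_eq_avg (τ : Ω → Equiv.Perm P) (W B : Finset P) (ρ : ℝ) (γ δ : P → C) :
    Hmat τ W B ρ γ δ = (∑ T, ∑ T', ∑ α ∈ (colIn B : Finset (P → C)),
      ρ ^ wt α * (if glue W γ α ∘ ((τ T)⁻¹ * τ T') = glue W δ α then (1 : ℝ) else 0))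
        / (Fintype.card Ω : ℝ) ^ 2 := by
  unfold Hmat
  simp_rw [xx_eq_avg']
  exact weighted_avg_pull _ _ _ _

lemma yy_eq_avg (τ : Ω → Equiv.Perm P) (B : Finset P) (ρ : ℝ) :
    yy C τ B ρ = (∑ T, ∑ T', ∑ α ∈ (colIn B : Finset (P → C)),
      ρ ^ wt α * (if α ∘ ((τ T)⁻¹ * τ T') = α then (1 : ℝ) else 0))
        / (Fintype.card Ω : ℝ) ^ 2 := by
  unfold yy
  simp_rw [xx_eq_avg']
  exact weighted_avg_pull _ _ _ _

/-- (R1) Row sum. -/
lemma Hmat_row_sum (τ : Ω → Equiv.Perm P) {W B : Finset P} (hB : Disjoint B W) (γ : P → C)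
    {ρ : ℝ} (h0 : 0 ≤ ρ) (h1 : ρ ≤ 1) :
    ∑ δ ∈ (colIn W : Finset (P → C)), Hmat τ W B ρ γ δ ≤ yy C τ B ρ := by
  simp_rw [Hmat_eq_avg]
  rw [yy_eq_avg, ← Finset.sum_div]
  apply div_le_div_of_nonneg_right _ (by positivity)
  rw [Finset.sum_comm]
  apply Finset.sum_le_sum
  intro T _
  rw [Finset.sum_comm]
  apply Finset.sum_le_sum
  intro T' _
  exact row_sum_fixed _ hB γ h0 h1

end Law

section Schur

/-- (R2) The Schur/Gram inequality. -/
lemma schur_gram {ι κ : Type*} (D : Finset ι) (I : Finset κ) (U : ι → κ → ℝ) (G : ℝ)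
    (K : ι → ι → ℝ) (hK : ∀ a b, K a b = ∑ i ∈ I, U a i * U b i)
    (hpos : ∀ a ∈ D, ∀ b ∈ D, 0 ≤ K a b)
    (hrow : ∀ a ∈ D, ∑ b ∈ D, K a b ≤ G)
    {c : ι} (hc : c ∈ D) :
    ∑ b ∈ D, (K c b) ^ 2 ≤ G * K c c := by
  classical
  have hsymm : ∀ a b, K a b = K b a := by
    intro a b
    rw [hK, hK]
    exact Finset.sum_congr rfl fun i _ => mul_comm _ _
  set w : ι → ℝ := fun b => K c b with hw
  set T : ℝ := ∑ b ∈ D, (w b) ^ 2 with hT
  have hT0 : 0 ≤ T := Finset.sum_nonneg fun _ _ => sq_nonneg _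
  have hcc : 0 ≤ K c c := hpos c hc c hc
  have hG : 0 ≤ G := by
    refine le_trans ?_ (hrow c hc)
    exact Finset.sum_nonneg fun b hb => hpos c hc b hb
  set z : κ → ℝ := fun i => ∑ b ∈ D, w b * U b i with hz
  -- T = ⟨U_c, z⟩
  have h1 : T = ∑ i ∈ I, U c i * z i := by
    simp only [hz, hT, Finset.mul_sum]
    rw [Finset.sum_comm]
    refine Finset.sum_congr rfl fun b _ => ?_
    simp only [sq]
    conv_lhs => rw [show w b * w b = w b * ∑ i ∈ I, U c i * U b i by rw [hw]; simp only [hK c b]]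
    rw [Finset.mul_sum]
    refine Finset.sum_congr rfl fun i _ => ?_
    ring
  -- ‖z‖² = wᵀ K w ≤ G T
  have h2 : ∑ i ∈ I, (z i) ^ 2 ≤ G * T := by
    have e : ∑ i ∈ I, (z i) ^ 2 = ∑ a ∈ D, ∑ b ∈ D, w a * w b * K a b := by
      simp only [hz, sq, Finset.sum_mul_sum, hK]
      rw [Finset.sum_comm]
      refine Finset.sum_congr rfl fun a _ => ?_
      rw [Finset.sum_comm]
      refine Finset.sum_congr rfl fun b _ => ?_
      rw [Finset.mul_sum]
      refine Finset.sum_congr rfl fun i _ => ?_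
      ring
    rw [e]
    have e2 : ∀ a ∈ D, ∀ b ∈ D, w a * w b * K a b ≤ ((w a) ^ 2 + (w b) ^ 2) / 2 * K a b := by
      intro a ha b hb
      apply mul_le_mul_of_nonneg_right _ (hpos a ha b hb)
      nlinarith [sq_nonneg (w a - w b)]
    calc ∑ a ∈ D, ∑ b ∈ D, w a * w b * K a b
        ≤ ∑ a ∈ D, ∑ b ∈ D, ((w a) ^ 2 + (w b) ^ 2) / 2 * K a b :=
          Finset.sum_le_sum fun a ha => Finset.sum_le_sum fun b hb => e2 a ha b hb
      _ = ∑ a ∈ D, ∑ b ∈ D, (w a) ^ 2 * K a b := by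
          have : ∀ a b, ((w a) ^ 2 + (w b) ^ 2) / 2 * K a b
              = (w a) ^ 2 * K a b / 2 + (w b) ^ 2 * K b a / 2 := by
            intro a b
            rw [hsymm b a]
            ring
          simp_rw [this, Finset.sum_add_distrib]
          rw [Finset.sum_comm (f := fun a b => (w b) ^ 2 * K b a / 2)]
          simp_rw [← Finset.sum_add_distrib]
          refine Finset.sum_congr rfl fun a _ => Finset.sum_congr rfl fun b _ => ?_
          ring
      _ = ∑ a ∈ D, (w a) ^ 2 * ∑ b ∈ D, K a b := by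
          simp_rw [Finset.mul_sum]
      _ ≤ ∑ a ∈ D, (w a) ^ 2 * G := by
          apply Finset.sum_le_sum
          intro a ha
          exact mul_le_mul_of_nonneg_left (hrow a ha) (sq_nonneg _)
      _ = G * T := by
          rw [hT, Finset.mul_sum]
          exact Finset.sum_congr rfl fun a _ => mul_comm _ _
  -- Cauchy-Schwarz
  have h3 : T ^ 2 ≤ K c c * (G * T) := by
    rw [h1]
    have := Finset.sum_mul_sq_le_sq_mul_sq I (fun i => U c i) z
    have e : K c c = ∑ i ∈ I, (U c i) ^ 2 := by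
      rw [hK]; exact Finset.sum_congr rfl fun i _ => (sq _).symm
    rw [e]
    rw [← h1] at this ⊢
    calc T ^ 2 ≤ (∑ i ∈ I, (U c i) ^ 2) * ∑ i ∈ I, (z i) ^ 2 := this
      _ ≤ _ := by
        apply mul_le_mul_of_nonneg_left h2
        exact Finset.sum_nonneg fun _ _ => sq_nonneg _
  by_cases hT1 : T = 0
  · rw [hT1]; exact mul_nonneg hG hcc
  · have hT2 : 0 < T := lt_of_le_of_ne hT0 (Ne.symm hT1)
    have : T * T ≤ (G * K c c) * T := by nlinarith
    exact le_of_mul_le_mul_right this hT2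

/-- The elementary inequality closing (R3). -/
lemma r3_real {a b c d ρ : ℝ} (ha : 0 ≤ a) (hb : 0 ≤ b) (hc : 0 ≤ c) (hd : 0 ≤ d) (hρ : 0 ≤ ρ) :
    a * b + Real.sqrt (ρ * (a * c)) * Real.sqrt (ρ * (b * d))
      ≤ Real.sqrt (a * (a + ρ * c)) * Real.sqrt (b * (b + ρ * d)) := by
  rw [← Real.sqrt_mul (show 0 ≤ a * (a + ρ * c) by positivity) (b * (b + ρ * d))]
  apply Real.le_sqrt_of_sq_le
  set X := Real.sqrt (ρ * (a * c)) * Real.sqrt (ρ * (b * d)) with hX
  have hX2 : X ^ 2 = ρ * (a * c) * (ρ * (b * d)) := by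
    rw [hX, mul_pow, Real.sq_sqrt (by positivity), Real.sq_sqrt (by positivity)]
  have hX0 : 0 ≤ X := by positivity
  -- 2 X ≤ ρ (a d + b c)
  have h2X : 2 * X ≤ ρ * (a * d + b * c) := by
    have : X = Real.sqrt (ρ * (a * d)) * Real.sqrt (ρ * (b * c)) := by
      rw [hX, ← Real.sqrt_mul (by positivity), ← Real.sqrt_mul (by positivity)]
      congr 1
      ring
    rw [this]
    have e1 := Real.sq_sqrt (show 0 ≤ ρ * (a * d) by positivity)
    have e2 := Real.sq_sqrt (show 0 ≤ ρ * (b * c) by positivity)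
    nlinarith [sq_nonneg (Real.sqrt (ρ * (a * d)) - Real.sqrt (ρ * (b * c)))]
  have hab : 0 ≤ a * b := by positivity
  have : (a * b + X) ^ 2 = (a * b) ^ 2 + 2 * (a * b) * X + X ^ 2 := by ring
  rw [this, hX2]
  have h3 : 2 * (a * b) * X ≤ (a * b) * (ρ * (a * d + b * c)) := by
    nlinarith
  nlinarith

end Schur

section PerW

variable {P C Ω : Type*} [Fintype P] [DecidableEq P] [Fintype C] [DecidableEq C] [Zero C]
  [Fintype Ω]

lemma Hmat_gram (τ : Ω → Equiv.Perm P) (W B : Finset P) {ρ : ℝ} (h0 : 0 ≤ ρ) (γ δ : P → C) :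
    Hmat τ W B ρ γ δ = ∑ i ∈ (colIn B : Finset (P → C)) ×ˢ (univ : Finset (P → C)),
      (Real.sqrt (ρ ^ wt i.1) * vv τ (glue W γ i.1) i.2) *
      (Real.sqrt (ρ ^ wt i.1) * vv τ (glue W δ i.1) i.2) := by
  unfold Hmat xx
  rw [Finset.sum_product]
  refine Finset.sum_congr rfl fun α _ => ?_
  rw [Finset.mul_sum]
  refine Finset.sum_congr rfl fun e _ => ?_
  have := Real.mul_self_sqrt (pow_nonneg h0 (wt α))
  calc _ = (Real.sqrt (ρ ^ wt α) * Real.sqrt (ρ ^ wt α)) * (vv τ (glue W γ α) e * vv τ (glue W δ α) e) := by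
        rw [this]
    _ = _ := by ring

/-- (R2) for `Hmat`. -/
lemma Hmat_schur (τ : Ω → Equiv.Perm P) {W B : Finset P} (hB : Disjoint B W)
    {ρ : ℝ} (h0 : 0 ≤ ρ) (h1 : ρ ≤ 1) {γ : P → C} (hγ : γ ∈ (colIn W : Finset (P → C))) :
    ∑ δ ∈ (colIn W : Finset (P → C)), (Hmat τ W B ρ γ δ) ^ 2
      ≤ yy C τ B ρ * Hmat τ W B ρ γ γ :=
  schur_gram (colIn W) _ _ _ _ (fun a b => Hmat_gram τ W B h0 a b)
    (fun a _ b _ => Hmat_nonneg τ W B h0 a b) (fun a _ => Hmat_row_sum τ hB a h0 h1) hγ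

lemma Hmat_eq_zero_of_wt_ne (τ : Ω → Equiv.Perm P) {W B : Finset P} (hB : Disjoint B W)
    (ρ : ℝ) {γ δ : P → C} (hγ : supp γ ⊆ W) (hδ : supp δ ⊆ W) (hne : wt γ ≠ wt δ) :
    Hmat τ W B ρ γ δ = 0 := by
  unfold Hmat
  apply Finset.sum_eq_zero
  intro α hα
  have hd : Disjoint (supp α) W := by
    rw [mem_colIn] at hα
    exact Finset.disjoint_of_subset_left hα hB
  rw [xx_eq_zero_of_wt_ne, mul_zero]
  rw [wt_glue W hγ hd, wt_glue W hδ hd]
  omega

/-- `Y = ∑_γ ρ^{|γ|} H(γ,γ)`. -/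
lemma yy_split (τ : Ω → Equiv.Perm P) (A W : Finset P) (ρ : ℝ) :
    yy C τ A ρ = ∑ γ ∈ (colIn (A ∩ W) : Finset (P → C)), ρ ^ wt γ * Hmat τ W (A \ W) ρ γ γ := by
  unfold yy Hmat
  rw [sum_colIn_split A W]
  refine Finset.sum_congr rfl fun γ hγ => ?_
  rw [Finset.mul_sum]
  refine Finset.sum_congr rfl fun α hα => ?_
  rw [wt_glue W (subset_of_mem_colIn_inter hγ) (disjoint_of_mem_colIn_sdiff hα), pow_add]
  ring

/-- Swap of the `W` parts. -/
lemma glue_glue_left (W : Finset P) (a b c d : P → C) :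
    glue W (glue W a b) (glue W c d) = glue W a d := by
  funext p
  by_cases hp : p ∈ W <;> simp [glue, hp]

/-- The per-`W` inequality (R3), in terms of the two kernels. -/
theorem perW_core (τ : Ω → Equiv.Perm P) (A0 A1 W : Finset P)
    {ρ : ℝ} (h0 : 0 ≤ ρ) (h1 : ρ ≤ 1) :
    ∑ γ ∈ (colIn (A0 ∩ W) : Finset (P → C)), ∑ δ ∈ (colIn (A1 ∩ W) : Finset (P → C)),
        ρ ^ wt γ * ρ ^ wt δ * (Hmat τ W (A0 \ W) ρ γ δ * Hmat τ W (A1 \ W) ρ δ γ)
      ≤ Real.sqrt (yy C τ (A0 \ W) ρ * (yy C τ (A0 \ W) ρ + ρ * (yy C τ A0 ρ - yy C τ (A0 \ W) ρ)))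
        * Real.sqrt (yy C τ (A1 \ W) ρ * (yy C τ (A1 \ W) ρ + ρ * (yy C τ A1 ρ - yy C τ (A1 \ W) ρ))) := by
  classical
  set K0 : (P → C) → (P → C) → ℝ := Hmat τ W (A0 \ W) ρ with hK0
  set K1 : (P → C) → (P → C) → ℝ := Hmat τ W (A1 \ W) ρ with hK1
  have hd0 : Disjoint (A0 \ W) W := Finset.sdiff_disjoint
  have hd1 : Disjoint (A1 \ W) W := Finset.sdiff_disjoint
  set G0 := yy C τ (A0 \ W) ρ with hG0
  set G1 := yy C τ (A1 \ W) ρ with hG1
  set Y0 := yy C τ A0 ρ with hY0
  set Y1 := yy C τ A1 ρ with hY1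
  set D0 : Finset (P → C) := colIn (A0 ∩ W) with hD0
  set D1 : Finset (P → C) := colIn (A1 ∩ W) with hD1
  have h00 : K0 0 0 = G0 := Hmat_zero_zero τ hd0 ρ
  have h10 : K1 0 0 = G1 := Hmat_zero_zero τ hd1 ρ
  have z0 : (0 : P → C) ∈ D0 := zero_mem_colIn _
  have z1 : (0 : P → C) ∈ D1 := zero_mem_colIn _
  have sub0 : ∀ γ ∈ D0, supp γ ⊆ W := fun γ h => subset_of_mem_colIn_inter h
  have sub1 : ∀ γ ∈ D1, supp γ ⊆ W := fun γ h => subset_of_mem_colIn_inter h
  have mem0 : ∀ γ ∈ D0, γ ∈ (colIn W : Finset (P → C)) := fun γ h => mem_colIn.2 (sub0 γ h)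
  have mem1 : ∀ γ ∈ D1, γ ∈ (colIn W : Finset (P → C)) := fun γ h => mem_colIn.2 (sub1 γ h)
  have Knn0 : ∀ a b, 0 ≤ K0 a b := fun a b => Hmat_nonneg τ W _ h0 a b
  have Knn1 : ∀ a b, 0 ≤ K1 a b := fun a b => Hmat_nonneg τ W _ h0 a b
  -- Y = G + ∑_{γ≠0}
  have hY0' : Y0 = G0 + ∑ γ ∈ D0.erase 0, ρ ^ wt γ * K0 γ γ := by
    rw [hY0, yy_split τ A0 W ρ, ← Finset.add_sum_erase _ _ z0, wt_zero, pow_zero, one_mul]
    exact congrArg₂ (· + ·) h00 rfl
  have hY1' : Y1 = G1 + ∑ γ ∈ D1.erase 0, ρ ^ wt γ * K1 γ γ := by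
    rw [hY1, yy_split τ A1 W ρ, ← Finset.add_sum_erase _ _ z1, wt_zero, pow_zero, one_mul]
    exact congrArg₂ (· + ·) h10 rfl
  have hc0 : 0 ≤ Y0 - G0 := by
    rw [hY0']
    have : 0 ≤ ∑ γ ∈ D0.erase 0, ρ ^ wt γ * K0 γ γ :=
      Finset.sum_nonneg fun γ _ => mul_nonneg (pow_nonneg h0 _) (Knn0 _ _)
    linarith
  have hc1 : 0 ≤ Y1 - G1 := by
    rw [hY1']
    have : 0 ≤ ∑ γ ∈ D1.erase 0, ρ ^ wt γ * K1 γ γ :=
      Finset.sum_nonneg fun γ _ => mul_nonneg (pow_nonneg h0 _) (Knn1 _ _)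
    linarith
  have hG0nn : 0 ≤ G0 := by rw [← h00]; exact Knn0 _ _
  have hG1nn : 0 ≤ G1 := by rw [← h10]; exact Knn1 _ _
  -- split the double sum
  have split : ∑ γ ∈ D0, ∑ δ ∈ D1, ρ ^ wt γ * ρ ^ wt δ * (K0 γ δ * K1 δ γ)
      = G0 * G1 + ∑ γ ∈ D0.erase 0, ∑ δ ∈ D1.erase 0, ρ ^ wt γ * ρ ^ wt δ * (K0 γ δ * K1 δ γ) := by
    rw [← Finset.add_sum_erase _ _ z0, ← Finset.add_sum_erase _ _ z1]
    have m1 : ∑ δ ∈ D1.erase 0, ρ ^ wt (0 : P → C) * ρ ^ wt δ * (K0 0 δ * K1 δ 0) = 0 := by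
      apply Finset.sum_eq_zero
      intro δ hδ
      have hne : wt (0 : P → C) ≠ wt δ := by
        rw [wt_zero]
        have := wt_pos_of_ne (Finset.ne_of_mem_erase hδ)
        omega
      have : K0 0 δ = 0 :=
        Hmat_eq_zero_of_wt_ne τ hd0 ρ (by simp [supp]) (sub1 δ (Finset.mem_of_mem_erase hδ)) hne
      simp [this]
    have m2 : ∑ γ ∈ D0.erase 0, (ρ ^ wt γ * ρ ^ wt (0 : P → C) * (K0 γ 0 * K1 0 γ)
        + ∑ δ ∈ D1.erase 0, ρ ^ wt γ * ρ ^ wt δ * (K0 γ δ * K1 δ γ))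
        = ∑ γ ∈ D0.erase 0, ∑ δ ∈ D1.erase 0, ρ ^ wt γ * ρ ^ wt δ * (K0 γ δ * K1 δ γ) := by
      refine Finset.sum_congr rfl fun γ hγ => ?_
      have hne : wt γ ≠ wt (0 : P → C) := by
        rw [wt_zero]
        have := wt_pos_of_ne (Finset.ne_of_mem_erase hγ)
        omega
      have : K0 γ 0 = 0 :=
        Hmat_eq_zero_of_wt_ne τ hd0 ρ (sub0 γ (Finset.mem_of_mem_erase hγ)) (by simp [supp]) hne
      simp [this]
    simp only [Finset.sum_congr rfl (fun γ (_ : γ ∈ D0.erase 0) =>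
      (Finset.add_sum_erase D1 (fun δ => ρ ^ wt γ * ρ ^ wt δ * (K0 γ δ * K1 δ γ)) z1).symm)] 
    rw [m2, m1, wt_zero, h00, h10]
    simp
  rw [split]
  -- Cauchy-Schwarz on the off-diagonal part
  set T := ∑ γ ∈ D0.erase 0, ∑ δ ∈ D1.erase 0, ρ ^ wt γ * ρ ^ wt δ * (K0 γ δ * K1 δ γ) with hT
  set I := (D0.erase 0) ×ˢ (D1.erase 0) with hI
  have hw : ∀ i : (P → C) × (P → C), 0 ≤ ρ ^ wt i.1 * ρ ^ wt i.2 := fun i =>
    mul_nonneg (pow_nonneg h0 _) (pow_nonneg h0 _)
  have hT' : T = ∑ i ∈ I, (Real.sqrt (ρ ^ wt i.1 * ρ ^ wt i.2) * K0 i.1 i.2) *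
      (Real.sqrt (ρ ^ wt i.1 * ρ ^ wt i.2) * K1 i.2 i.1) := by
    rw [hT, hI, Finset.sum_product]
    refine Finset.sum_congr rfl fun γ _ => Finset.sum_congr rfl fun δ _ => ?_
    have := Real.mul_self_sqrt (hw (γ, δ))
    simp only at this ⊢
    calc _ = (Real.sqrt (ρ ^ wt γ * ρ ^ wt δ) * Real.sqrt (ρ ^ wt γ * ρ ^ wt δ)) * (K0 γ δ * K1 δ γ) := by
          rw [this]
      _ = _ := by ring
  have S0 : ∑ i ∈ I, (Real.sqrt (ρ ^ wt i.1 * ρ ^ wt i.2) * K0 i.1 i.2) ^ 2 ≤ ρ * (G0 * (Y0 - G0)) := by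
    have e : ∀ i : (P → C) × (P → C), (Real.sqrt (ρ ^ wt i.1 * ρ ^ wt i.2) * K0 i.1 i.2) ^ 2
        = ρ ^ wt i.1 * ρ ^ wt i.2 * (K0 i.1 i.2) ^ 2 := by
      intro i
      rw [mul_pow, Real.sq_sqrt (hw i)]
    simp_rw [e]
    rw [hI, Finset.sum_product]
    calc ∑ γ ∈ D0.erase 0, ∑ δ ∈ D1.erase 0, ρ ^ wt γ * ρ ^ wt δ * (K0 γ δ) ^ 2
        ≤ ∑ γ ∈ D0.erase 0, ρ ^ wt γ * (ρ * (G0 * K0 γ γ)) := by
          apply Finset.sum_le_sum
          intro γ hγ
          calc ∑ δ ∈ D1.erase 0, ρ ^ wt γ * ρ ^ wt δ * (K0 γ δ) ^ 2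
              ≤ ∑ δ ∈ D1.erase 0, ρ ^ wt γ * (ρ * (K0 γ δ) ^ 2) := by
                apply Finset.sum_le_sum
                intro δ hδ
                have h2 : ρ ^ wt δ ≤ ρ := by
                  have := wt_pos_of_ne (Finset.ne_of_mem_erase hδ)
                  calc ρ ^ wt δ ≤ ρ ^ 1 := pow_le_pow_of_le_one h0 h1 this
                    _ = ρ := pow_one ρ
                have h3 : 0 ≤ ρ ^ wt γ := pow_nonneg h0 _
                have h4 := sq_nonneg (K0 γ δ)
                calc ρ ^ wt γ * ρ ^ wt δ * (K0 γ δ) ^ 2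
                    = ρ ^ wt γ * (ρ ^ wt δ * (K0 γ δ) ^ 2) := by ring
                  _ ≤ _ := by
                    apply mul_le_mul_of_nonneg_left _ h3
                    exact mul_le_mul_of_nonneg_right h2 h4
            _ = ρ ^ wt γ * (ρ * ∑ δ ∈ D1.erase 0, (K0 γ δ) ^ 2) := by
                simp_rw [Finset.mul_sum]
            _ ≤ ρ ^ wt γ * (ρ * (G0 * K0 γ γ)) := by
                apply mul_le_mul_of_nonneg_left _ (pow_nonneg h0 _)
                apply mul_le_mul_of_nonneg_left _ h0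
                calc ∑ δ ∈ D1.erase 0, (K0 γ δ) ^ 2
                    ≤ ∑ δ ∈ (colIn W : Finset (P → C)), (K0 γ δ) ^ 2 := by
                      apply Finset.sum_le_sum_of_subset_of_nonneg
                      · intro δ hδ
                        exact mem1 δ (Finset.mem_of_mem_erase hδ)
                      · intro _ _ _
                        exact sq_nonneg _
                  _ ≤ _ := Hmat_schur τ hd0 h0 h1 (mem0 γ (Finset.mem_of_mem_erase hγ))
      _ = ρ * (G0 * (Y0 - G0)) := by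
          rw [hY0']
          simp only [add_sub_cancel_left]
          rw [Finset.mul_sum, Finset.mul_sum]
          refine Finset.sum_congr rfl fun γ _ => ?_
          ring
  have S1 : ∑ i ∈ I, (Real.sqrt (ρ ^ wt i.1 * ρ ^ wt i.2) * K1 i.2 i.1) ^ 2 ≤ ρ * (G1 * (Y1 - G1)) := by
    have e : ∀ i : (P → C) × (P → C), (Real.sqrt (ρ ^ wt i.1 * ρ ^ wt i.2) * K1 i.2 i.1) ^ 2
        = ρ ^ wt i.1 * ρ ^ wt i.2 * (K1 i.2 i.1) ^ 2 := by
      intro i
      rw [mul_pow, Real.sq_sqrt (hw i)]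
    simp_rw [e]
    rw [hI, Finset.sum_product, Finset.sum_comm]
    calc ∑ δ ∈ D1.erase 0, ∑ γ ∈ D0.erase 0, ρ ^ wt γ * ρ ^ wt δ * (K1 δ γ) ^ 2
        ≤ ∑ δ ∈ D1.erase 0, ρ ^ wt δ * (ρ * (G1 * K1 δ δ)) := by
          apply Finset.sum_le_sum
          intro δ hδ
          calc ∑ γ ∈ D0.erase 0, ρ ^ wt γ * ρ ^ wt δ * (K1 δ γ) ^ 2
              ≤ ∑ γ ∈ D0.erase 0, ρ ^ wt δ * (ρ * (K1 δ γ) ^ 2) := by
                apply Finset.sum_le_sum
                intro γ hγ
                have h2 : ρ ^ wt γ ≤ ρ := by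
                  have := wt_pos_of_ne (Finset.ne_of_mem_erase hγ)
                  calc ρ ^ wt γ ≤ ρ ^ 1 := pow_le_pow_of_le_one h0 h1 this
                    _ = ρ := pow_one ρ
                have h3 : 0 ≤ ρ ^ wt δ := pow_nonneg h0 _
                have h4 := sq_nonneg (K1 δ γ)
                calc ρ ^ wt γ * ρ ^ wt δ * (K1 δ γ) ^ 2
                    = ρ ^ wt δ * (ρ ^ wt γ * (K1 δ γ) ^ 2) := by ring
                  _ ≤ _ := by
                    apply mul_le_mul_of_nonneg_left _ h3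
                    exact mul_le_mul_of_nonneg_right h2 h4
            _ = ρ ^ wt δ * (ρ * ∑ γ ∈ D0.erase 0, (K1 δ γ) ^ 2) := by
                simp_rw [Finset.mul_sum]
            _ ≤ ρ ^ wt δ * (ρ * (G1 * K1 δ δ)) := by
                apply mul_le_mul_of_nonneg_left _ (pow_nonneg h0 _)
                apply mul_le_mul_of_nonneg_left _ h0
                calc ∑ γ ∈ D0.erase 0, (K1 δ γ) ^ 2
                    ≤ ∑ γ ∈ (colIn W : Finset (P → C)), (K1 δ γ) ^ 2 := by
                      apply Finset.sum_le_sum_of_subset_of_nonneg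
                      · intro γ hγ
                        exact mem0 γ (Finset.mem_of_mem_erase hγ)
                      · intro _ _ _
                        exact sq_nonneg _
                  _ ≤ _ := Hmat_schur τ hd1 h0 h1 (mem1 δ (Finset.mem_of_mem_erase hδ))
      _ = ρ * (G1 * (Y1 - G1)) := by
          rw [hY1']
          simp only [add_sub_cancel_left]
          rw [Finset.mul_sum, Finset.mul_sum]
          refine Finset.sum_congr rfl fun γ _ => ?_
          ring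
  have CS : T ≤ Real.sqrt (ρ * (G0 * (Y0 - G0))) * Real.sqrt (ρ * (G1 * (Y1 - G1))) := by
    rw [hT']
    calc _ ≤ Real.sqrt (∑ i ∈ I, (Real.sqrt (ρ ^ wt i.1 * ρ ^ wt i.2) * K0 i.1 i.2) ^ 2)
          * Real.sqrt (∑ i ∈ I, (Real.sqrt (ρ ^ wt i.1 * ρ ^ wt i.2) * K1 i.2 i.1) ^ 2) :=
          Real.sum_mul_le_sqrt_mul_sqrt _ _ _
      _ ≤ _ := by
          apply mul_le_mul (Real.sqrt_le_sqrt S0) (Real.sqrt_le_sqrt S1) (Real.sqrt_nonneg _)
            (Real.sqrt_nonneg _)
  have := r3_real hG0nn hG1nn hc0 hc1 h0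
  linarith

/-- The per-`W` inequality in colouring form. -/
theorem perW (τ : Ω → Equiv.Perm P) (A0 A1 W : Finset P)
    {ρ : ℝ} (h0 : 0 ≤ ρ) (h1 : ρ ≤ 1) :
    ∑ a0 ∈ (colIn A0 : Finset (P → C)), ∑ a1 ∈ (colIn A1 : Finset (P → C)),
        ρ ^ wt a0 * ρ ^ wt a1 * (xx τ a0 (glue W a1 a0) * xx τ a1 (glue W a0 a1))
      ≤ Real.sqrt (yy C τ (A0 \ W) ρ * (yy C τ (A0 \ W) ρ + ρ * (yy C τ A0 ρ - yy C τ (A0 \ W) ρ)))
        * Real.sqrt (yy C τ (A1 \ W) ρ * (yy C τ (A1 \ W) ρ + ρ * (yy C τ A1 ρ - yy C τ (A1 \ W) ρ))) := by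
  refine le_trans (le_of_eq ?_) (perW_core (C := C) τ A0 A1 W h0 h1)
  rw [sum_colIn_split A0 W]
  refine Finset.sum_congr rfl fun γ hγ => ?_
  simp_rw [sum_colIn_split A1 W]
  rw [Finset.sum_comm]
  refine Finset.sum_congr rfl fun δ hδ => ?_
  unfold Hmat
  rw [Finset.sum_mul_sum, Finset.mul_sum]
  refine Finset.sum_congr rfl fun α hα => ?_
  rw [Finset.mul_sum]
  refine Finset.sum_congr rfl fun β hβ => ?_
  rw [wt_glue W (subset_of_mem_colIn_inter hγ) (disjoint_of_mem_colIn_sdiff hα),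
    wt_glue W (subset_of_mem_colIn_inter hδ) (disjoint_of_mem_colIn_sdiff hβ),
    glue_glue_left, glue_glue_left]
  simp only [pow_add]
  ring

/-! ### Averaging over `W`. -/

lemma mem_colIn_sdiff_iff {A W : Finset P} {c : P → C} :
    c ∈ (colIn (A \ W) : Finset (P → C)) ↔ c ∈ (colIn A : Finset (P → C)) ∧ Disjoint (supp c) W := by
  simp only [mem_colIn]
  constructor
  · intro h
    exact ⟨h.trans Finset.sdiff_subset, Finset.disjoint_of_subset_left h Finset.sdiff_disjoint⟩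
  · rintro ⟨h1, h2⟩ p hp
    exact Finset.mem_sdiff.2 ⟨h1 hp, Finset.disjoint_left.1 h2 hp⟩

/-- Summing over all `W` disjoint from `X`: fraction `(1/2)^|X|`. -/
lemma card_disjoint_div (X : Finset P) :
    ((univ.filter (fun W : Finset P => Disjoint X W)).card : ℝ) / 2 ^ Fintype.card P
      = (1 / 2) ^ X.card := by
  have : univ.filter (fun W : Finset P => Disjoint X W) = (Xᶜ).powerset := by
    ext W
    simp only [mem_filter, mem_univ, true_and, mem_powerset]
    rw [Finset.subset_compl_comm, Finset.disjoint_left]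
    constructor
    · intro h p hp
      simp only [mem_compl]
      exact h hp
    · intro h p hp
      have := h hp
      simpa using this
  rw [this, Finset.card_powerset, Finset.card_compl]
  have hle : X.card ≤ Fintype.card P := Finset.card_le_univ X
  have h2 : (2 : ℝ) ^ Fintype.card P = 2 ^ (Fintype.card P - X.card) * 2 ^ X.card := by
    rw [← pow_add, Nat.sub_add_cancel hle]
  push_cast
  rw [h2]
  field_simp
  rw [← mul_pow]
  norm_num

/-- Average of a "disjoint indicator" sum. -/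
lemma avg_disjoint_sum (𝓒 : Finset (P → C)) (f : (P → C) → ℝ) :
    (∑ W : Finset P, ∑ c ∈ 𝓒, if Disjoint (supp c) W then f c else 0) / 2 ^ Fintype.card P
      = ∑ c ∈ 𝓒, (1 / 2) ^ wt c * f c := by
  rw [Finset.sum_comm, Finset.sum_div]
  refine Finset.sum_congr rfl fun c _ => ?_
  have : (∑ W : Finset P, if Disjoint (supp c) W then f c else 0)
      = ((univ.filter (fun W : Finset P => Disjoint (supp c) W)).card : ℝ) * f c := by
    rw [← Finset.sum_filter, Finset.sum_const, nsmul_eq_mul]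
  rw [this, mul_div_right_comm, card_disjoint_div]
  rfl

lemma yy_sdiff_eq (τ : Ω → Equiv.Perm P) (A W : Finset P) (ρ : ℝ) :
    yy C τ (A \ W) ρ = ∑ c ∈ (colIn A : Finset (P → C)),
      if Disjoint (supp c) W then ρ ^ wt c * xx τ c c else 0 := by
  unfold yy
  rw [← Finset.sum_filter]
  refine Finset.sum_congr ?_ fun _ _ => rfl
  ext c
  rw [mem_colIn_sdiff_iff, mem_filter]

lemma half_pow_mul (ρ : ℝ) (n : ℕ) : (1 / 2 : ℝ) ^ n * ρ ^ n = (ρ / 2) ^ n := by
  rw [← mul_pow]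
  congr 1
  ring

/-- (E1) `E_W y(A\W,ρ) = y(A,ρ/2)`. -/
lemma avg_yy (τ : Ω → Equiv.Perm P) (A : Finset P) (ρ : ℝ) :
    (∑ W : Finset P, yy C τ (A \ W) ρ) / 2 ^ Fintype.card P = yy C τ A (ρ / 2) := by
  simp_rw [yy_sdiff_eq]
  rw [avg_disjoint_sum]
  unfold yy
  refine Finset.sum_congr rfl fun c _ => ?_
  rw [← mul_assoc, half_pow_mul]

/-- The Fourier (Parseval) identity for the cube: `E_W F(W)² = ∑_Q A_Q²`. -/
lemma avg_sq_disjoint (𝓒 : Finset (P → C)) (f : (P → C) → ℝ) :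
    (∑ W : Finset P, (∑ c ∈ 𝓒, if Disjoint (supp c) W then f c else 0) ^ 2) / 2 ^ Fintype.card P
      = ∑ Q : Finset P, (∑ c ∈ 𝓒, if Q ⊆ supp c then (1 / 2) ^ wt c * f c else 0) ^ 2 := by
  simp_rw [sq, Finset.sum_mul_sum]
  -- both sides as double sums over `c, c'`
  have L : (∑ W : Finset P, ∑ c ∈ 𝓒, ∑ c' ∈ 𝓒,
        (if Disjoint (supp c) W then f c else 0) * (if Disjoint (supp c') W then f c' else 0))
        / 2 ^ Fintype.card P
      = ∑ c ∈ 𝓒, ∑ c' ∈ 𝓒, (1 / 2) ^ (supp c ∪ supp c').card * (f c * f c') := by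
    rw [Finset.sum_comm, Finset.sum_div]
    refine Finset.sum_congr rfl fun c _ => ?_
    rw [Finset.sum_comm, Finset.sum_div]
    refine Finset.sum_congr rfl fun c' _ => ?_
    have : ∀ W : Finset P, (if Disjoint (supp c) W then f c else 0) * (if Disjoint (supp c') W then f c' else 0)
        = if Disjoint (supp c ∪ supp c') W then f c * f c' else 0 := by
      intro W
      by_cases h1 : Disjoint (supp c) W <;> by_cases h2 : Disjoint (supp c') W <;>
        simp [h1, h2, Finset.disjoint_union_left]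
    simp_rw [this]
    rw [← Finset.sum_filter, Finset.sum_const, nsmul_eq_mul, mul_div_right_comm, card_disjoint_div]
  rw [L]
  symm
  rw [Finset.sum_comm]
  refine Finset.sum_congr rfl fun c _ => ?_
  rw [Finset.sum_comm]
  refine Finset.sum_congr rfl fun c' _ => ?_
  have : ∀ Q : Finset P, (if Q ⊆ supp c then (1 / 2 : ℝ) ^ wt c * f c else 0)
        * (if Q ⊆ supp c' then (1 / 2) ^ wt c' * f c' else 0)
      = if Q ⊆ supp c ∩ supp c' then (1 / 2) ^ wt c * (1 / 2) ^ wt c' * (f c * f c') else 0 := by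
    intro Q
    by_cases h1 : Q ⊆ supp c <;> by_cases h2 : Q ⊆ supp c'
    · rw [if_pos h1, if_pos h2, if_pos (Finset.subset_inter h1 h2)]
      ring
    · have h3 : ¬ Q ⊆ supp c ∩ supp c' := fun h => h2 (h.trans Finset.inter_subset_right)
      rw [if_neg h2, if_neg h3]
      simp
    · have h3 : ¬ Q ⊆ supp c ∩ supp c' := fun h => h1 (h.trans Finset.inter_subset_left)
      rw [if_neg h1, if_neg h3]
      simp
    · have h3 : ¬ Q ⊆ supp c ∩ supp c' := fun h => h1 (h.trans Finset.inter_subset_left)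
      rw [if_neg h1, if_neg h3]
      simp
  simp_rw [this]
  rw [← Finset.sum_filter, Finset.sum_const, nsmul_eq_mul]
  have hf : (univ.filter (fun Q : Finset P => Q ⊆ supp c ∩ supp c')) = (supp c ∩ supp c').powerset := by
    ext Q
    simp only [mem_filter, mem_univ, true_and, mem_powerset]
  rw [hf, Finset.card_powerset]
  have hc : (supp c ∪ supp c').card + (supp c ∩ supp c').card = wt c + wt c' :=
    Finset.card_union_add_card_inter _ _
  have h12 : (2 : ℝ) ^ (supp c ∩ supp c').card * ((1 / 2) ^ wt c * (1 / 2) ^ wt c')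
      = (1 / 2) ^ (supp c ∪ supp c').card := by
    rw [← pow_add, ← hc, pow_add]
    have : (2 : ℝ) ^ (supp c ∩ supp c').card * (1 / 2) ^ (supp c ∩ supp c').card = 1 := by
      rw [← mul_pow]; norm_num
    calc _ = ((2 : ℝ) ^ (supp c ∩ supp c').card * (1 / 2) ^ (supp c ∩ supp c').card)
          * (1 / 2) ^ (supp c ∪ supp c').card := by ring
      _ = _ := by rw [this, one_mul]
  push_cast
  rw [← h12]
  ring

/-- Sum of `A_Q` over all `Q`. -/
lemma sum_subset_supp (𝓒 : Finset (P → C)) (f : (P → C) → ℝ) :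
    ∑ Q : Finset P, ∑ c ∈ 𝓒, (if Q ⊆ supp c then (1 / 2) ^ wt c * f c else 0) = ∑ c ∈ 𝓒, f c := by
  rw [Finset.sum_comm]
  refine Finset.sum_congr rfl fun c _ => ?_
  rw [← Finset.sum_filter, Finset.sum_const, nsmul_eq_mul]
  have hf : (univ.filter (fun Q : Finset P => Q ⊆ supp c)) = (supp c).powerset := by
    ext Q
    simp
  rw [hf, Finset.card_powerset]
  push_cast
  have hw : (supp c).card = wt c := rfl
  rw [hw, ← mul_assoc, ← mul_pow]
  have : ((2 : ℝ) * (1 / 2)) = 1 := by norm_num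
  rw [this, one_pow, one_mul]

/-- Monotonicity in the set. -/
lemma yy_mono_set (τ : Ω → Equiv.Perm P) {A B : Finset P} (hAB : A ⊆ B) {ρ : ℝ} (h0 : 0 ≤ ρ) :
    yy C τ A ρ ≤ yy C τ B ρ := by
  unfold yy
  apply Finset.sum_le_sum_of_subset_of_nonneg
  · intro c hc
    rw [mem_colIn] at hc ⊢
    exact hc.trans hAB
  · intro c _ _
    exact mul_nonneg (pow_nonneg h0 _) (xx_nonneg _ _ _)

/-- Monotonicity in `ρ`. -/
lemma yy_mono_rho (τ : Ω → Equiv.Perm P) (A : Finset P) {σ ρ : ℝ} (h0 : 0 ≤ σ) (h : σ ≤ ρ) :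
    yy C τ A σ ≤ yy C τ A ρ := by
  unfold yy
  apply Finset.sum_le_sum
  intro c _
  exact mul_le_mul_of_nonneg_right (pow_le_pow_left₀ h0 h _) (xx_nonneg _ _ _)

lemma xx_zero_zero [Nonempty Ω] (τ : Ω → Equiv.Perm P) : xx τ (0 : P → C) 0 = 1 := by
  rw [xx_eq_avg']
  have : ∀ T T' : Ω, (if (0 : P → C) ∘ ((τ T)⁻¹ * τ T') = 0 then (1 : ℝ) else 0) = 1 := by
    intro T T'
    rw [if_pos]
    rfl
  simp only [this, Finset.sum_const, Finset.card_univ, nsmul_eq_mul, mul_one]
  have hne : (Fintype.card Ω : ℝ) ≠ 0 := by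
    exact_mod_cast Fintype.card_ne_zero
  field_simp

lemma one_le_yy [Nonempty Ω] (τ : Ω → Equiv.Perm P) (A : Finset P) {ρ : ℝ} (h0 : 0 ≤ ρ) :
    1 ≤ yy C τ A ρ := by
  unfold yy
  have h1 : (0 : P → C) ∈ (colIn A : Finset (P → C)) := zero_mem_colIn A
  have := Finset.single_le_sum (f := fun c : P → C => ρ ^ wt c * xx τ c c)
    (fun c _ => mul_nonneg (pow_nonneg h0 _) (xx_nonneg _ _ _)) h1
  simp only [wt_zero, pow_zero, one_mul, xx_zero_zero] at this
  exact this

/-- The global weight through a site `x` (for the bound `A_Q ≤ ε`). -/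
noncomputable def Afull (C : Type*) [Fintype C] [DecidableEq C] [Zero C]
    (τ : Ω → Equiv.Perm P) (ρ : ℝ) (x : P) : ℝ :=
  ∑ c : P → C, if x ∈ supp c then (ρ / 2) ^ wt c * xx τ c c else 0

/-- (R5) `E_W G² ≤ G'² + ε (Y - G')`. -/
lemma avg_sq_le (τ : Ω → Equiv.Perm P) (A : Finset P) {ρ ε : ℝ} (h0 : 0 ≤ ρ)
    (hε : ∀ x, Afull C τ ρ x ≤ ε) :
    (∑ W : Finset P, (yy C τ (A \ W) ρ) ^ 2) / 2 ^ Fintype.card P
      ≤ (yy C τ A (ρ / 2)) ^ 2 + ε * (yy C τ A ρ - yy C τ A (ρ / 2)) := by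
  classical
  set f : (P → C) → ℝ := fun c => ρ ^ wt c * xx τ c c with hf
  have hfnn : ∀ c, 0 ≤ f c := fun c => mul_nonneg (pow_nonneg h0 _) (xx_nonneg _ _ _)
  have e1 : ∀ W : Finset P, yy C τ (A \ W) ρ = ∑ c ∈ (colIn A : Finset (P → C)),
      if Disjoint (supp c) W then f c else 0 := fun W => yy_sdiff_eq τ A W ρ
  simp_rw [e1]
  rw [avg_sq_disjoint]
  set AQ : Finset P → ℝ := fun Q => ∑ c ∈ (colIn A : Finset (P → C)),
    if Q ⊆ supp c then (1 / 2) ^ wt c * f c else 0 with hAQ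
  have hw : ∀ c : P → C, (1 / 2 : ℝ) ^ wt c * f c = (ρ / 2) ^ wt c * xx τ c c := by
    intro c
    simp only [hf]
    rw [← mul_assoc, half_pow_mul]
  have hA0 : AQ ∅ = yy C τ A (ρ / 2) := by
    simp only [hAQ, Finset.empty_subset, if_true, yy]
    exact Finset.sum_congr rfl fun c _ => hw c
  have hAnn : ∀ Q, 0 ≤ AQ Q := by
    intro Q
    apply Finset.sum_nonneg
    intro c _
    split_ifs
    · rw [hw]; exact mul_nonneg (pow_nonneg (by linarith) _) (xx_nonneg _ _ _)
    · exact le_refl _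
  have hAε : ∀ Q, Q ≠ ∅ → AQ Q ≤ ε := by
    intro Q hQ
    obtain ⟨x, hx⟩ := Finset.nonempty_iff_ne_empty.2 hQ
    refine le_trans ?_ (hε x)
    unfold Afull
    have e2 : AQ Q ≤ ∑ c ∈ (colIn A : Finset (P → C)),
        if x ∈ supp c then (ρ / 2) ^ wt c * xx τ c c else 0 := by
      apply Finset.sum_le_sum
      intro c _
      by_cases hc : Q ⊆ supp c
      · rw [if_pos hc, if_pos (hc hx), hw]
      · rw [if_neg hc]
        split_ifs
        · exact mul_nonneg (pow_nonneg (by linarith) _) (xx_nonneg _ _ _)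
        · exact le_refl _
    refine le_trans e2 ?_
    apply Finset.sum_le_sum_of_subset_of_nonneg (Finset.subset_univ _)
    intro c _ _
    split_ifs
    · exact mul_nonneg (pow_nonneg (by linarith) _) (xx_nonneg _ _ _)
    · exact le_refl _
  have hsum : ∑ Q : Finset P, AQ Q = yy C τ A ρ := sum_subset_supp _ f
  have hsplit : ∑ Q : Finset P, (AQ Q) ^ 2 = (AQ ∅) ^ 2 + ∑ Q ∈ univ.erase (∅ : Finset P), (AQ Q) ^ 2 :=
    (Finset.add_sum_erase _ _ (Finset.mem_univ _)).symm
  have hsplit2 : ∑ Q : Finset P, AQ Q = AQ ∅ + ∑ Q ∈ univ.erase (∅ : Finset P), AQ Q :=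
    (Finset.add_sum_erase _ _ (Finset.mem_univ _)).symm
  have hbd : ∑ Q ∈ univ.erase (∅ : Finset P), (AQ Q) ^ 2
      ≤ ∑ Q ∈ univ.erase (∅ : Finset P), ε * AQ Q := by
    apply Finset.sum_le_sum
    intro Q hQ
    rw [sq]
    exact mul_le_mul_of_nonneg_right (hAε Q (Finset.ne_of_mem_erase hQ)) (hAnn Q)
  rw [hsplit, hA0]
  rw [← Finset.mul_sum] at hbd
  have : ∑ Q ∈ univ.erase (∅ : Finset P), AQ Q = yy C τ A ρ - yy C τ A (ρ / 2) := by
    rw [← hsum, hsplit2, hA0]
    ring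
  rw [this] at hbd
  linarith

/-- The quantity averaged over `W`. -/
noncomputable def Xq (C : Type*) [Fintype C] [DecidableEq C] [Zero C]
    (τ : Ω → Equiv.Perm P) (A W : Finset P) (ρ : ℝ) : ℝ :=
  yy C τ (A \ W) ρ * (yy C τ (A \ W) ρ + ρ * (yy C τ A ρ - yy C τ (A \ W) ρ))

lemma avg_Xq_eq (τ : Ω → Equiv.Perm P) (A : Finset P) (ρ : ℝ) :
    (∑ W : Finset P, Xq C τ A W ρ) / 2 ^ Fintype.card P
      = (1 - ρ) * ((∑ W : Finset P, (yy C τ (A \ W) ρ) ^ 2) / 2 ^ Fintype.card P)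
        + ρ * (yy C τ A ρ * yy C τ A (ρ / 2)) := by
  rw [← avg_yy (C := C) τ A ρ]
  have : ∀ W : Finset P, Xq C τ A W ρ
      = (1 - ρ) * (yy C τ (A \ W) ρ) ^ 2 + ρ * yy C τ A ρ * yy C τ (A \ W) ρ := by
    intro W
    unfold Xq
    ring
  simp_rw [this]
  rw [Finset.sum_add_distrib, ← Finset.mul_sum, ← Finset.mul_sum]
  ring

lemma yy_nonneg (τ : Ω → Equiv.Perm P) (A : Finset P) {ρ : ℝ} (h0 : 0 ≤ ρ) : 0 ≤ yy C τ A ρ :=
  Finset.sum_nonneg fun _ _ => mul_nonneg (pow_nonneg h0 _) (xx_nonneg _ _ _)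

/-- (R4)+(R5), crude form (`r = 1`). -/
lemma avg_Xq_le_one (τ : Ω → Equiv.Perm P) (A : Finset P) {ρ : ℝ} (h0 : 0 ≤ ρ) (h1 : ρ ≤ 1) :
    (∑ W : Finset P, Xq C τ A W ρ) / 2 ^ Fintype.card P
      ≤ yy C τ A ρ * yy C τ A (ρ / 2) := by
  have hG : ∀ W : Finset P, Xq C τ A W ρ ≤ yy C τ A ρ * yy C τ (A \ W) ρ := by
    intro W
    have hle : yy C τ (A \ W) ρ ≤ yy C τ A ρ := yy_mono_set τ Finset.sdiff_subset h0
    have hnn : 0 ≤ yy C τ (A \ W) ρ := yy_nonneg τ _ h0
    unfold Xq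
    have : yy C τ (A \ W) ρ + ρ * (yy C τ A ρ - yy C τ (A \ W) ρ) ≤ yy C τ A ρ := by
      nlinarith
    calc _ ≤ yy C τ (A \ W) ρ * yy C τ A ρ := mul_le_mul_of_nonneg_left this hnn
      _ = _ := mul_comm _ _
  have := Finset.sum_le_sum (fun W (_ : W ∈ (univ : Finset (Finset P))) => hG W)
  rw [← Finset.mul_sum] at this
  rw [← avg_yy (C := C) τ A ρ, mul_div_assoc']
  apply div_le_div_of_nonneg_right this (by positivity)

/-- (R4)+(R5), with `r ≥ ρ + (1-ρ) ε`. -/
lemma avg_Xq_le [Nonempty Ω] (τ : Ω → Equiv.Perm P) (A : Finset P) {ρ ε r : ℝ} (h0 : 0 ≤ ρ) (h1 : ρ ≤ 1)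
    (hε : ∀ x, Afull C τ ρ x ≤ ε) (hε0 : 0 ≤ ε) (hr : ρ + (1 - ρ) * ε ≤ r) :
    (∑ W : Finset P, Xq C τ A W ρ) / 2 ^ Fintype.card P
      ≤ (1 - r) * (yy C τ A (ρ / 2)) ^ 2 + r * (yy C τ A ρ * yy C τ A (ρ / 2)) := by
  rw [avg_Xq_eq]
  have h2 := avg_sq_le τ A h0 hε
  set G' := yy C τ A (ρ / 2) with hG'
  set Y := yy C τ A ρ with hY
  have hG1 : 1 ≤ G' := one_le_yy τ A (by linarith)
  have hGY : G' ≤ Y := yy_mono_rho τ A (by linarith) (by linarith)
  have h3 : (1 - ρ) * ((∑ W : Finset P, (yy C τ (A \ W) ρ) ^ 2) / 2 ^ Fintype.card P)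
      ≤ (1 - ρ) * (G' ^ 2 + ε * (Y - G')) :=
    mul_le_mul_of_nonneg_left h2 (by linarith)
  have h4 : G' ^ 2 + ε * (Y - G') ≤ (1 - ε) * G' ^ 2 + ε * (Y * G') := by
    have : 0 ≤ ε * ((G' - 1) * (Y - G')) := mul_nonneg hε0 (mul_nonneg (by linarith) (by linarith))
    nlinarith
  have h5 : (1 - ρ) * (G' ^ 2 + ε * (Y - G')) ≤ (1 - ρ) * ((1 - ε) * G' ^ 2 + ε * (Y * G')) :=
    mul_le_mul_of_nonneg_left h4 (by linarith)
  have h6 : 0 ≤ (r - (ρ + (1 - ρ) * ε)) * (G' * (Y - G')) :=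
    mul_nonneg (by linarith) (mul_nonneg (by linarith) (by linarith))
  nlinarith

/-- Cauchy-Schwarz over `W`, (R4): the average over `W` of the per-`W` bound. -/
lemma avg_sqrt_mul_le (X0 X1 : Finset P → ℝ) (h0 : ∀ W, 0 ≤ X0 W) (h1 : ∀ W, 0 ≤ X1 W) :
    (∑ W : Finset P, Real.sqrt (X0 W) * Real.sqrt (X1 W)) / 2 ^ Fintype.card P
      ≤ Real.sqrt ((∑ W : Finset P, X0 W) / 2 ^ Fintype.card P)
        * Real.sqrt ((∑ W : Finset P, X1 W) / 2 ^ Fintype.card P) := by
  have hM : (0 : ℝ) < 2 ^ Fintype.card P := by positivity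
  rw [Real.sqrt_div' _ hM.le, Real.sqrt_div' _ hM.le, div_mul_div_comm, Real.mul_self_sqrt hM.le]
  apply div_le_div_of_nonneg_right _ hM.le
  refine le_trans (Real.sum_mul_le_sqrt_mul_sqrt _ _ _) ?_
  apply le_of_eq
  congr 2
  · exact Finset.sum_congr rfl fun W _ => Real.sq_sqrt (h0 W)
  · exact Finset.sum_congr rfl fun W _ => Real.sq_sqrt (h1 W)

end PerW

section Sheets

variable {P C Ω : Type*} [Fintype P] [DecidableEq P] [Fintype C] [DecidableEq C] [Zero C]
  [Fintype Ω]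

/-- The colouring on sheet `b` after the top flips `s`. -/
def sh (s : P → Bool) (c : Bool × P → C) (b : Bool) : P → C := fun p => c (xor b (s p), p)

/-- The colouring with given sheets. -/
def unsh (s : P → Bool) (a0 a1 : P → C) : Bool × P → C :=
  fun x => if xor x.1 (s x.2) then a1 x.2 else a0 x.2

/-- The slice of `S` on sheet `b`. -/
def slice (S : Finset (Bool × P)) (s : P → Bool) (b : Bool) : Finset P :=
  univ.filter (fun p => (xor b (s p), p) ∈ S)

lemma sh_unsh_false (s : P → Bool) (a0 a1 : P → C) : sh s (unsh s a0 a1) false = a0 := by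
  funext p
  simp [sh, unsh]

lemma sh_unsh_true (s : P → Bool) (a0 a1 : P → C) : sh s (unsh s a0 a1) true = a1 := by
  funext p
  simp [sh, unsh]

lemma unsh_sh (s : P → Bool) (c : Bool × P → C) : unsh s (sh s c false) (sh s c true) = c := by
  funext x
  obtain ⟨b, p⟩ := x
  cases b <;> cases h : s p <;> simp [sh, unsh, h]

lemma card_slice (S : Finset (Bool × P)) (s : P → Bool) :
    (slice S s false).card + (slice S s true).card = S.card := by
  have h : S = (slice S s false).image (fun p => (xor false (s p), p)) ∪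
      (slice S s true).image (fun p => (xor true (s p), p)) := by
    ext ⟨b, p⟩
    simp only [mem_union, mem_image, slice, mem_filter, mem_univ, true_and, Prod.mk.injEq]
    constructor
    · intro hx
      cases hb : xor b (s p)
      · left
        refine ⟨p, ?_, ?_, rfl⟩
        · have : xor false (s p) = b := by
            cases b <;> cases hs : s p <;> simp_all
          rw [this]; exact hx
        · cases b <;> cases hs : s p <;> simp_all
      · right
        refine ⟨p, ?_, ?_, rfl⟩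
        · have : xor true (s p) = b := by
            cases b <;> cases hs : s p <;> simp_all
          rw [this]; exact hx
        · cases b <;> cases hs : s p <;> simp_all
    · rintro (⟨q, hq, h1, rfl⟩ | ⟨q, hq, h1, rfl⟩)
      · rw [← h1]; exact hq
      · rw [← h1]; exact hq
  conv_rhs => rw [h]
  rw [Finset.card_union_of_disjoint, Finset.card_image_of_injective, Finset.card_image_of_injective]
  · intro p q hpq
    exact (Prod.mk.inj hpq).2
  · intro p q hpq
    exact (Prod.mk.inj hpq).2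
  · rw [Finset.disjoint_left]
    intro x hx hy
    obtain ⟨p, _, rfl⟩ := Finset.mem_image.1 hx
    obtain ⟨q, _, hq⟩ := Finset.mem_image.1 hy
    have h2 := Prod.mk.inj hq
    have hqp : q = p := h2.2
    subst hqp
    cases hs : s q <;> simp [hs] at h2

lemma wt_sh (s : P → Bool) (c : Bool × P → C) :
    wt c = wt (sh s c false) + wt (sh s c true) := by
  have h := card_slice (supp c) s
  have e : ∀ b, slice (supp c) s b = supp (sh s c b) := by
    intro b
    ext p
    simp [slice, sh]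
  rw [e, e] at h
  exact h.symm

lemma sh_mem_colIn_iff {s : P → Bool} {c : Bool × P → C} {S : Finset (Bool × P)} :
    c ∈ (colIn S : Finset (Bool × P → C)) ↔
      sh s c false ∈ (colIn (slice S s false) : Finset (P → C)) ∧
      sh s c true ∈ (colIn (slice S s true) : Finset (P → C)) := by
  simp only [mem_colIn']
  constructor
  · intro h
    refine ⟨?_, ?_⟩
    · intro p hp
      apply h
      simpa [slice] using hp
    · intro p hp
      apply h
      simpa [slice] using hp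
  · rintro ⟨h1, h2⟩ ⟨b, p⟩ hx
    cases hb : xor b (s p)
    · have := h1 p (by
        simp only [slice, mem_filter, mem_univ, true_and]
        have e : xor false (s p) = b := by cases b <;> cases hs : s p <;> simp_all
        rw [e]; exact hx)
      simp only [sh] at this
      have e : xor false (s p) = b := by cases b <;> cases hs : s p <;> simp_all
      rwa [e] at this
    · have := h2 p (by
        simp only [slice, mem_filter, mem_univ, true_and]
        have e : xor true (s p) = b := by cases b <;> cases hs : s p <;> simp_all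
        rw [e]; exact hx)
      simp only [sh] at this
      have e : xor true (s p) = b := by cases b <;> cases hs : s p <;> simp_all
      rwa [e] at this

/-- Sum over colourings of the doubled set = double sum over the two sheets. -/
lemma sum_colIn_sheets (S : Finset (Bool × P)) (s : P → Bool) (F : (Bool × P → C) → ℝ) :
    ∑ c ∈ (colIn S : Finset (Bool × P → C)), F c
      = ∑ a0 ∈ (colIn (slice S s false) : Finset (P → C)),
          ∑ a1 ∈ (colIn (slice S s true) : Finset (P → C)), F (unsh s a0 a1) := by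
  rw [← Finset.sum_product']
  refine Finset.sum_bij' (fun c _ => (sh s c false, sh s c true)) (fun x _ => unsh s x.1 x.2)
    ?_ ?_ ?_ ?_ ?_
  · intro c hc
    exact Finset.mem_product.2 (sh_mem_colIn_iff.1 hc)
  · rintro ⟨a0, a1⟩ hx
    rw [Finset.mem_product] at hx
    rw [sh_mem_colIn_iff (s := s), sh_unsh_false, sh_unsh_true]
    exact hx
  · intro c _
    exact unsh_sh s c
  · rintro ⟨a0, a1⟩ _
    simp only [sh_unsh_false, sh_unsh_true]
  · intro c _
    simp only [unsh_sh]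

/-- The top flips `s` twisted on `W`. -/
def twist (s : P → Bool) (W : Finset P) : P → Bool := fun p => if p ∈ W then !s p else s p

lemma sh_twist (s : P → Bool) (W : Finset P) (c : Bool × P → C) (b : Bool) :
    sh (twist s W) c b = glue W (sh s c (!b)) (sh s c b) := by
  funext p
  by_cases hp : p ∈ W
  · simp only [sh, twist, glue, hp, if_true]
    cases b <;> cases h : s p <;> simp [h]
  · simp only [sh, twist, glue, hp, if_false]

/-- Sum over `s'` = sum over the difference set `W`. -/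
lemma sum_twist (s : P → Bool) (F : (P → Bool) → ℝ) :
    ∑ s', F s' = ∑ W : Finset P, F (twist s W) := by
  symm
  refine Finset.sum_bij' (fun W _ => twist s W) (fun s' _ => univ.filter (fun p => s' p ≠ s p))
    ?_ ?_ ?_ ?_ ?_
  · intros; exact Finset.mem_univ _
  · intros; exact Finset.mem_univ _
  · intro W _
    ext p
    by_cases hp : p ∈ W
    · simp [twist, hp]
    · simp [twist, hp]
  · intro s' _
    funext p
    by_cases hp : s' p = s p
    · simp [twist, hp]
    · have : s' p = !s p := by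
        cases h1 : s' p <;> cases h2 : s p <;> simp_all
      simp [twist, hp, this]
  · intros; rfl

/-- The next-level value in terms of the current level. -/
noncomputable def yPlus (C : Type*) [Fintype C] [DecidableEq C] [Zero C]
    (τ : Ω → Equiv.Perm P) (S : Finset (Bool × P)) (ρ : ℝ) : ℝ :=
  ∑ c ∈ (colIn S : Finset (Bool × P → C)), ρ ^ wt c *
    ((∑ s : P → Bool, ∑ s' : P → Bool,
      xx τ (sh s c false) (sh s' c false) * xx τ (sh s c true) (sh s' c true))
      / (2 ^ Fintype.card P) ^ 2)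

/-- The main recursion estimate: for a bound `Bd` of `E_W X`. -/
theorem yPlus_le (τ : Ω → Equiv.Perm P) (S : Finset (Bool × P)) {ρ : ℝ} (h0 : 0 ≤ ρ) (h1 : ρ ≤ 1)
    (Bd : Finset P → ℝ)
    (hBd : ∀ A, (∑ W : Finset P, Xq C τ A W ρ) / 2 ^ Fintype.card P ≤ Bd A) :
    yPlus C τ S ρ ≤
      (∑ s : P → Bool, Real.sqrt (Bd (slice S s false)) * Real.sqrt (Bd (slice S s true)))
        / 2 ^ Fintype.card P := by
  have hM : (0 : ℝ) < 2 ^ Fintype.card P := by positivity
  have hXq : ∀ A W, 0 ≤ Xq C τ A W ρ := by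
    intro A W
    unfold Xq
    have hle : yy C τ (A \ W) ρ ≤ yy C τ A ρ := yy_mono_set τ Finset.sdiff_subset h0
    have hnn : 0 ≤ yy C τ (A \ W) ρ := yy_nonneg τ _ h0
    apply mul_nonneg hnn
    have : 0 ≤ ρ * (yy C τ A ρ - yy C τ (A \ W) ρ) := mul_nonneg h0 (by linarith)
    linarith
  -- fix `s`
  have key : ∀ s : P → Bool,
      (∑ s' : P → Bool, ∑ c ∈ (colIn S : Finset (Bool × P → C)), ρ ^ wt c *
        (xx τ (sh s c false) (sh s' c false) * xx τ (sh s c true) (sh s' c true))) / 2 ^ Fintype.card P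
      ≤ Real.sqrt (Bd (slice S s false)) * Real.sqrt (Bd (slice S s true)) := by
    intro s
    rw [sum_twist s]
    have step : ∀ W : Finset P, ∑ c ∈ (colIn S : Finset (Bool × P → C)), ρ ^ wt c *
        (xx τ (sh s c false) (sh (twist s W) c false) * xx τ (sh s c true) (sh (twist s W) c true))
        ≤ Real.sqrt (Xq C τ (slice S s false) W ρ) * Real.sqrt (Xq C τ (slice S s true) W ρ) := by
      intro W
      rw [sum_colIn_sheets S s]
      refine le_trans (le_of_eq ?_) (perW (C := C) τ (slice S s false) (slice S s true) W h0 h1)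
      refine Finset.sum_congr rfl fun a0 _ => Finset.sum_congr rfl fun a1 _ => ?_
      rw [sh_twist, sh_twist, wt_sh s (unsh s a0 a1)]
      simp only [Bool.not_false, Bool.not_true, sh_unsh_false, sh_unsh_true, pow_add]
    calc _ ≤ (∑ W : Finset P, Real.sqrt (Xq C τ (slice S s false) W ρ)
            * Real.sqrt (Xq C τ (slice S s true) W ρ)) / 2 ^ Fintype.card P :=
          div_le_div_of_nonneg_right (Finset.sum_le_sum fun W _ => step W) hM.le
      _ ≤ Real.sqrt ((∑ W : Finset P, Xq C τ (slice S s false) W ρ) / 2 ^ Fintype.card P)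
            * Real.sqrt ((∑ W : Finset P, Xq C τ (slice S s true) W ρ) / 2 ^ Fintype.card P) :=
          avg_sqrt_mul_le _ _ (fun W => hXq _ W) (fun W => hXq _ W)
      _ ≤ _ := by
          apply mul_le_mul (Real.sqrt_le_sqrt (hBd _)) (Real.sqrt_le_sqrt (hBd _))
            (Real.sqrt_nonneg _) (Real.sqrt_nonneg _)
  unfold yPlus
  have e : ∑ c ∈ (colIn S : Finset (Bool × P → C)), ρ ^ wt c *
      ((∑ s : P → Bool, ∑ s' : P → Bool,
        xx τ (sh s c false) (sh s' c false) * xx τ (sh s c true) (sh s' c true))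
        / (2 ^ Fintype.card P) ^ 2)
      = (∑ s : P → Bool, (∑ s' : P → Bool, ∑ c ∈ (colIn S : Finset (Bool × P → C)), ρ ^ wt c *
        (xx τ (sh s c false) (sh s' c false) * xx τ (sh s c true) (sh s' c true)))
          / 2 ^ Fintype.card P) / 2 ^ Fintype.card P := by
    rw [weighted_avg_pull (Ω := P → Bool), ← Finset.sum_div, div_div, sq]
  rw [e]
  exact div_le_div_of_nonneg_right (Finset.sum_le_sum fun s _ => key s) hM.le

end Sheets

section Convex

variable {P C Ω : Type*} [Fintype P] [DecidableEq P] [Fintype C] [DecidableEq C] [Zero C]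
  [Fintype Ω]

/-- Jensen step (R6). -/
lemma jensen_step {y' y B' B r t : ℝ} (hy' : 0 ≤ y') (hy : 0 ≤ y) (hB' : 0 ≤ B') (hB : 0 ≤ B)
    (hr0 : 0 ≤ r) (hr1 : r ≤ 1) (ht0 : 0 ≤ t) (ht1 : t ≤ 1)
    (h1 : y ≤ B ^ t) (h2 : y' ≤ B' ^ t) :
    (1 - r) * y' ^ 2 + r * (y * y') ≤ ((1 - r) * B' ^ 2 + r * (B * B')) ^ t := by
  have hB't : 0 ≤ B' ^ t := Real.rpow_nonneg hB' t
  have hBt : 0 ≤ B ^ t := Real.rpow_nonneg hB t
  have e1 : y' ^ 2 ≤ (B' ^ 2) ^ t := by
    calc y' ^ 2 ≤ (B' ^ t) ^ 2 := pow_le_pow_left₀ hy' h2 2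
      _ = (B' ^ 2) ^ t := by
        rw [← Real.rpow_natCast, ← Real.rpow_mul hB', ← Real.rpow_natCast, ← Real.rpow_mul hB', mul_comm]
  have e2 : y * y' ≤ (B * B') ^ t := by
    rw [Real.mul_rpow hB hB']
    exact mul_le_mul h1 h2 hy' hBt
  have hc := Real.concaveOn_rpow ht0 ht1
  have hmem1 : B' ^ 2 ∈ Set.Ici (0 : ℝ) := sq_nonneg B'
  have hmem2 : B * B' ∈ Set.Ici (0 : ℝ) := mul_nonneg hB hB'
  have := hc.2 hmem1 hmem2 (show 0 ≤ 1 - r by linarith) hr0 (by ring)
  simp only [smul_eq_mul] at this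
  calc _ ≤ (1 - r) * (B' ^ 2) ^ t + r * (B * B') ^ t := by
        apply add_le_add
        · exact mul_le_mul_of_nonneg_left e1 (by linarith)
        · exact mul_le_mul_of_nonneg_left e2 hr0
    _ ≤ _ := this

/-- Closing the recursion for `yPlus`, given the bound of the two inputs. -/
theorem yPlus_le_rpow [Nonempty P] (τ : Ω → Equiv.Perm P) (S : Finset (Bool × P)) {ρ Ub : ℝ}
    (h0 : 0 ≤ ρ) (h1 : ρ ≤ 1) (hUb : 0 < Ub)
    (hBd : ∀ A : Finset P, (∑ W : Finset P, Xq C τ A W ρ) / 2 ^ Fintype.card P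
      ≤ Ub ^ ((A.card : ℝ) / (Fintype.card P : ℝ))) :
    yPlus C τ S ρ ≤ Ub ^ ((S.card : ℝ) / (2 * (Fintype.card P : ℝ))) := by
  refine le_trans (yPlus_le (C := C) τ S h0 h1 _ hBd) ?_
  have hN : (0 : ℝ) < Fintype.card P := by exact_mod_cast Fintype.card_pos
  have hM : (0 : ℝ) < 2 ^ Fintype.card P := by positivity
  have key : ∀ s : P → Bool,
      Real.sqrt (Ub ^ (((slice S s false).card : ℝ) / (Fintype.card P : ℝ)))
        * Real.sqrt (Ub ^ (((slice S s true).card : ℝ) / (Fintype.card P : ℝ)))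
      = Ub ^ ((S.card : ℝ) / (2 * (Fintype.card P : ℝ))) := by
    intro s
    rw [Real.sqrt_eq_rpow, Real.sqrt_eq_rpow, ← Real.rpow_mul hUb.le, ← Real.rpow_mul hUb.le]
    rw [← Real.rpow_add hUb]
    congr 1
    have := card_slice S s
    have e : (S.card : ℝ) = (slice S s false).card + (slice S s true).card := by
      rw [← this]; push_cast; ring
    rw [e]
    field_simp
  simp_rw [key]
  simp only [Finset.sum_const, Finset.card_univ, Fintype.card_fun, Fintype.card_bool, nsmul_eq_mul]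
  push_cast
  rw [mul_comm, mul_div_assoc, div_self hM.ne', mul_one]

/-- The one-site colouring. -/
def oneSite (x : P) (ζ : C) : P → C := Function.update 0 x ζ

lemma supp_oneSite (x : P) {ζ : C} (hζ : ζ ≠ 0) : supp (oneSite x ζ) = {x} := by
  ext p
  simp only [mem_supp, oneSite, Finset.mem_singleton]
  by_cases hp : p = x
  · subst hp
    simp [hζ]
  · simp [Function.update_of_ne hp, hp]

lemma wt_oneSite (x : P) {ζ : C} (hζ : ζ ≠ 0) : wt (oneSite x ζ) = 1 := by
  unfold wt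
  rw [supp_oneSite x hζ, Finset.card_singleton]

lemma one_add_le_yy [Nonempty Ω] (τ : Ω → Equiv.Perm P) {σ : ℝ} (h0 : 0 ≤ σ) [Nonempty P]
    (hone : ∀ c : P → C, wt c = 1 → xx τ c c = 1 / (Fintype.card P : ℝ)) :
    1 + ((Fintype.card C : ℝ) - 1) * σ ≤ yy C τ univ σ := by
  classical
  have hN : (0 : ℝ) < Fintype.card P := by exact_mod_cast Fintype.card_pos
  set f : (P → C) → ℝ := fun c => σ ^ wt c * xx τ c c with hf
  have hfnn : ∀ c, 0 ≤ f c := fun c => mul_nonneg (pow_nonneg h0 _) (xx_nonneg _ _ _)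
  have hcol : (colIn univ : Finset (P → C)) = univ := by
    ext c
    simp [mem_colIn]
  set I : Finset (P × C) := univ ×ˢ (univ.erase (0 : C)) with hI
  have hinj : Set.InjOn (fun i : P × C => oneSite i.1 i.2) (↑I : Set (P × C)) := by
    rintro ⟨x, ζ⟩ hi ⟨x', ζ'⟩ hi' he
    simp only [hI, coe_product, Set.mem_prod, mem_coe, mem_univ, true_and, mem_erase, ne_eq, and_true] at hi hi'
    simp only at he
    have h1 : x = x' := by
      have := supp_oneSite (C := C) x hi
      have h' := supp_oneSite (C := C) x' hi'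
      rw [he, h'] at this
      exact (Finset.singleton_injective this).symm
    subst h1
    have := congrFun he x
    simpa [oneSite] using this
  have hne0 : ∀ i ∈ I, oneSite i.1 i.2 ≠ (0 : P → C) := by
    rintro ⟨x, ζ⟩ hi he
    simp only [hI, mem_product, mem_univ, true_and, mem_erase, ne_eq, and_true] at hi
    have := congrFun he x
    simp [oneSite] at this
    exact hi this
  have hval : ∀ i ∈ I, f (oneSite i.1 i.2) = σ * (1 / (Fintype.card P : ℝ)) := by
    rintro ⟨x, ζ⟩ hi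
    simp only [hI, mem_product, mem_univ, true_and, mem_erase, ne_eq, and_true] at hi
    simp only [hf]
    rw [wt_oneSite x hi, hone _ (wt_oneSite x hi), pow_one]
  have e0 : f 0 = 1 := by
    simp only [hf, wt_zero, pow_zero, one_mul, xx_zero_zero]
  unfold yy
  rw [hcol]
  have hsub : insert (0 : P → C) (I.image (fun i : P × C => oneSite i.1 i.2)) ⊆ univ := Finset.subset_univ _
  have hnotmem : (0 : P → C) ∉ I.image (fun i : P × C => oneSite i.1 i.2) := by
    intro h
    obtain ⟨i, hi, he⟩ := Finset.mem_image.1 h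
    exact hne0 i hi he
  have hsum := Finset.sum_le_sum_of_subset_of_nonneg (f := f) hsub (fun c _ _ => hfnn c)
  rw [Finset.sum_insert hnotmem, Finset.sum_image hinj, Finset.sum_congr rfl hval, e0,
    Finset.sum_const, nsmul_eq_mul] at hsum
  have hcard : ((I.card : ℕ) : ℝ) = (Fintype.card P : ℝ) * ((Fintype.card C : ℝ) - 1) := by
    rw [hI, Finset.card_product, Finset.card_univ, Finset.card_erase_of_mem (Finset.mem_univ _),
      Finset.card_univ]
    have : 1 ≤ Fintype.card C := Fintype.card_pos_iff.2 ⟨0⟩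
    push_cast [Nat.cast_sub this]
    ring
  rw [hcard] at hsum
  have e : (Fintype.card P : ℝ) * ((Fintype.card C : ℝ) - 1) * (σ * (1 / (Fintype.card P : ℝ)))
      = ((Fintype.card C : ℝ) - 1) * σ := by
    field_simp
  rw [e] at hsum
  exact hsum

/-- The bound on `A_x` through transitivity (R5). -/
lemma Afull_le [Nonempty Ω] [Nonempty P] (τ : Ω → Equiv.Perm P) {ρ Ub : ℝ} (h0 : 0 ≤ ρ)
    (hhom : ∀ x y : P, Afull C τ ρ x = Afull C τ ρ y)
    (hone : ∀ c : P → C, wt c = 1 → xx τ c c = 1 / (Fintype.card P : ℝ))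
    (hU : yy C τ univ ρ ≤ Ub) (x : P) :
    Afull C τ ρ x ≤ (Ub - 1 - ((Fintype.card C : ℝ) - 1) * (ρ / 2)) / (Fintype.card P : ℝ) := by
  have hN : (0 : ℝ) < Fintype.card P := by exact_mod_cast Fintype.card_pos
  have hh : 0 ≤ ρ / 2 := by linarith
  have hsum : (Fintype.card P : ℝ) * Afull C τ ρ x
      = ∑ c : P → C, (wt c : ℝ) * ((ρ / 2) ^ wt c * xx τ c c) := by
    have : ∑ y : P, Afull C τ ρ y = (Fintype.card P : ℝ) * Afull C τ ρ x := by
      rw [Finset.sum_congr rfl (fun y _ => hhom y x), Finset.sum_const, nsmul_eq_mul, Finset.card_univ]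
    rw [← this]
    unfold Afull
    rw [Finset.sum_comm]
    refine Finset.sum_congr rfl fun c _ => ?_
    rw [← Finset.sum_filter, Finset.sum_const, nsmul_eq_mul]
    have : (univ.filter (fun y => y ∈ supp c)) = supp c := by
      ext y
      simp
    rw [this]
    rfl
  have hcol : (colIn univ : Finset (P → C)) = univ := by
    ext c
    simp [mem_colIn]
  have hbd : ∑ c : P → C, (wt c : ℝ) * ((ρ / 2) ^ wt c * xx τ c c)
      ≤ yy C τ univ ρ - yy C τ univ (ρ / 2) := by
    unfold yy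
    rw [hcol, ← Finset.sum_sub_distrib]
    apply Finset.sum_le_sum
    intro c _
    have hx := xx_nonneg τ c c
    have hn : (wt c : ℝ) + 1 ≤ 2 ^ wt c := by
      have : wt c + 1 ≤ 2 ^ wt c := Nat.lt_two_pow_self
      exact_mod_cast this
    have hp : ρ ^ wt c = 2 ^ wt c * (ρ / 2) ^ wt c := by
      rw [← mul_pow]
      congr 1
      ring
    rw [hp]
    have ha : 0 ≤ (ρ / 2) ^ wt c := pow_nonneg hh _
    have : ((wt c : ℝ) + 1) * ((ρ / 2) ^ wt c * xx τ c c) ≤ 2 ^ wt c * ((ρ / 2) ^ wt c * xx τ c c) :=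
      mul_le_mul_of_nonneg_right hn (mul_nonneg ha hx)
    nlinarith
  have hlow := one_add_le_yy (C := C) τ hh hone
  rw [le_div_iff₀ hN]
  rw [mul_comm] at hsum
  linarith

/-- One level, with the refined `r` (R6). -/
theorem level_step [Nonempty Ω] [Nonempty P] (τ : Ω → Equiv.Perm P) {ρ B B' : ℝ}
    (h0 : 0 ≤ ρ) (h1 : ρ ≤ 1)
    (hhom : ∀ x y : P, Afull C τ ρ x = Afull C τ ρ y)
    (hone : ∀ c : P → C, wt c = 1 → xx τ c c = 1 / (Fintype.card P : ℝ))
    (hB : ∀ A : Finset P, yy C τ A ρ ≤ B ^ ((A.card : ℝ) / (Fintype.card P : ℝ)))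
    (hB' : ∀ A : Finset P, yy C τ A (ρ / 2) ≤ B' ^ ((A.card : ℝ) / (Fintype.card P : ℝ)))
    (S : Finset (Bool × P)) :
    yPlus C τ S ρ ≤
      ((1 - min 1 (ρ + (1 - ρ) * ((B - 1 - ((Fintype.card C : ℝ) - 1) * (ρ / 2)) / (Fintype.card P : ℝ))))
          * B' ^ 2
        + min 1 (ρ + (1 - ρ) * ((B - 1 - ((Fintype.card C : ℝ) - 1) * (ρ / 2)) / (Fintype.card P : ℝ))) * (B * B'))
      ^ ((S.card : ℝ) / (2 * (Fintype.card P : ℝ))) := by
  have hN : (0 : ℝ) < Fintype.card P := by exact_mod_cast Fintype.card_pos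
  have hh : 0 ≤ ρ / 2 := by linarith
  have hunit : ∀ (D : ℝ) (σ : ℝ), 0 ≤ σ →
      (∀ A : Finset P, yy C τ A σ ≤ D ^ ((A.card : ℝ) / (Fintype.card P : ℝ))) → 1 ≤ D := by
    intro D σ hσ hD
    have := hD univ
    rw [Finset.card_univ, div_self hN.ne', Real.rpow_one] at this
    exact le_trans (one_le_yy τ univ hσ) this
  have hB1 : 1 ≤ B := hunit B ρ h0 hB
  have hB'1 : 1 ≤ B' := hunit B' _ hh hB'
  set ε := (B - 1 - ((Fintype.card C : ℝ) - 1) * (ρ / 2)) / (Fintype.card P : ℝ) with hε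
  have hU1 : yy C τ univ ρ ≤ B := by
    have := hB univ
    rwa [Finset.card_univ, div_self hN.ne', Real.rpow_one] at this
  have hAf : ∀ x, Afull C τ ρ x ≤ ε := fun x => Afull_le τ h0 hhom hone hU1 x
  have hε0 : 0 ≤ ε := by
    obtain ⟨x⟩ := ‹Nonempty P›
    refine le_trans ?_ (hAf x)
    unfold Afull
    apply Finset.sum_nonneg
    intro c _
    split_ifs
    · exact mul_nonneg (pow_nonneg hh _) (xx_nonneg _ _ _)
    · exact le_refl _
  set r := min 1 (ρ + (1 - ρ) * ε) with hr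
  have hr1 : r ≤ 1 := min_le_left _ _
  have hr0 : 0 ≤ r := by
    rw [hr]
    apply le_min (by norm_num)
    have : 0 ≤ (1 - ρ) * ε := mul_nonneg (by linarith) hε0
    linarith
  have hUb : 0 < (1 - r) * B' ^ 2 + r * (B * B') := by
    have h2 : 1 ≤ B' ^ 2 := one_le_pow₀ hB'1
    have h3 : 1 ≤ B * B' := by nlinarith
    nlinarith
  apply yPlus_le_rpow τ S h0 h1 hUb
  intro A
  have hbd : (∑ W : Finset P, Xq C τ A W ρ) / 2 ^ Fintype.card P
      ≤ (1 - r) * (yy C τ A (ρ / 2)) ^ 2 + r * (yy C τ A ρ * yy C τ A (ρ / 2)) := by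
    by_cases hc : ρ + (1 - ρ) * ε ≤ 1
    · rw [hr, min_eq_right hc]
      exact avg_Xq_le τ A h0 h1 hAf hε0 (le_refl _)
    · push Not at hc
      have : r = 1 := by rw [hr]; exact min_eq_left hc.le
      rw [this]
      simpa using avg_Xq_le_one (C := C) τ A h0 h1
  refine le_trans hbd ?_
  apply jensen_step (yy_nonneg τ A hh) (yy_nonneg τ A h0) (by linarith) (by linarith) hr0 hr1
    (by positivity) _ (hB A) (hB' A)
  rw [div_le_one hN]
  exact_mod_cast Finset.card_le_univ A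

/-- One level, crude form (`r = 1`). -/
theorem level_step_crude [Nonempty Ω] [Nonempty P] (τ : Ω → Equiv.Perm P) {ρ B B' : ℝ}
    (h0 : 0 ≤ ρ) (h1 : ρ ≤ 1)
    (hB : ∀ A : Finset P, yy C τ A ρ ≤ B ^ ((A.card : ℝ) / (Fintype.card P : ℝ)))
    (hB' : ∀ A : Finset P, yy C τ A (ρ / 2) ≤ B' ^ ((A.card : ℝ) / (Fintype.card P : ℝ)))
    (S : Finset (Bool × P)) :
    yPlus C τ S ρ ≤ (B * B') ^ ((S.card : ℝ) / (2 * (Fintype.card P : ℝ))) := by
  have hN : (0 : ℝ) < Fintype.card P := by exact_mod_cast Fintype.card_pos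
  have hh : 0 ≤ ρ / 2 := by linarith
  have hunit : ∀ (D : ℝ) (σ : ℝ), 0 ≤ σ →
      (∀ A : Finset P, yy C τ A σ ≤ D ^ ((A.card : ℝ) / (Fintype.card P : ℝ))) → 1 ≤ D := by
    intro D σ hσ hD
    have := hD univ
    rw [Finset.card_univ, div_self hN.ne', Real.rpow_one] at this
    exact le_trans (one_le_yy τ univ hσ) this
  have hB1 : 1 ≤ B := hunit B ρ h0 hB
  have hB'1 : 1 ≤ B' := hunit B' _ hh hB'
  have hUb : 0 < B * B' := by positivity
  apply yPlus_le_rpow τ S h0 h1 hUb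
  intro A
  refine le_trans (avg_Xq_le_one (C := C) τ A h0 h1) ?_
  have := jensen_step (r := 1) (yy_nonneg (C := C) τ A hh) (yy_nonneg (C := C) τ A h0)
    (by linarith : 0 ≤ B') (by linarith : 0 ≤ B) (by norm_num) (le_refl _)
    (t := (A.card : ℝ) / (Fintype.card P : ℝ))
    (by positivity) (by rw [div_le_one hN]; exact_mod_cast Finset.card_le_univ A) (hB A) (hB' A)
  simpa using this

end Convex

end Crest.Agent.Thorp.VB
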